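import Mathlib

/-!
# Abstract: Dirichlet gap implies total variation decay, for symmetric lazy stochastic matrices
-/

namespace Vale.Agent.Lib.P335

open Finset

variable {Ω : Type} [Fintype Ω] [DecidableEq Ω]

set_option linter.unusedSectionVars false

/-- `‖Qf‖² ≤ ‖f‖²` for a symmetric stochastic matrix `Q` with nonnegative entries. -/
theorem norm_mulVec_le (Q : Matrix Ω Ω ℝ) (hsymm : ∀ x y, Q x y = Q y x)
    (hnonneg : ∀ x y, 0 ≤ Q x y) (hsum : ∀ x, ∑ y, Q x y = 1) (f : Ω → ℝ) :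
    ∑ x, (Q.mulVec f x) ^ 2 ≤ ∑ x, f x ^ 2 := by
  have h1 : ∀ x, (Q.mulVec f x) ^ 2 ≤ ∑ y, Q x y * f y ^ 2 := by
    intro x
    have hcs := Finset.sum_mul_sq_le_sq_mul_sq (univ : Finset Ω)
      (fun y => Real.sqrt (Q x y)) (fun y => Real.sqrt (Q x y) * f y)
    have e1 : ∀ y, Real.sqrt (Q x y) * (Real.sqrt (Q x y) * f y) = Q x y * f y := by
      intro y
      rw [← mul_assoc, Real.mul_self_sqrt (hnonneg x y)]
    have e2 : ∀ y, Real.sqrt (Q x y) ^ 2 = Q x y := fun y => Real.sq_sqrt (hnonneg x y)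
    have e3 : ∀ y, (Real.sqrt (Q x y) * f y) ^ 2 = Q x y * f y ^ 2 := by
      intro y
      rw [mul_pow, e2]
    simp only [e1, e2, e3, hsum, one_mul] at hcs
    simpa [Matrix.mulVec, dotProduct] using hcs
  calc ∑ x, (Q.mulVec f x) ^ 2 ≤ ∑ x, ∑ y, Q x y * f y ^ 2 := sum_le_sum fun x _ => h1 x
    _ = ∑ y, ∑ x, Q x y * f y ^ 2 := sum_comm
    _ = ∑ y, f y ^ 2 := by
      refine sum_congr rfl fun y _ => ?_
      rw [← sum_mul]
      have : ∑ x, Q x y = 1 := by
        rw [← hsum y]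
        exact sum_congr rfl fun x _ => hsymm x y
      rw [this, one_mul]

/-- For a symmetric stochastic lazy matrix, `‖Pf‖² ≤ ⟨f, Pf⟩`. -/
theorem norm_mulVec_sq_le_inner (P : Matrix Ω Ω ℝ) (hsymm : ∀ x y, P x y = P y x)
    (hnonneg : ∀ x y, 0 ≤ P x y) (hsum : ∀ x, ∑ y, P x y = 1) (hlazy : ∀ x, 1 / 2 ≤ P x x)
    (f : Ω → ℝ) :
    ∑ x, (P.mulVec f x) ^ 2 ≤ ∑ x, f x * P.mulVec f x := by
  classical
  set Q : Matrix Ω Ω ℝ := fun x y => 2 * P x y - if x = y then 1 else 0 with hQ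
  have hQsymm : ∀ x y, Q x y = Q y x := by
    intro x y
    simp only [hQ, hsymm x y, eq_comm]
  have hQnn : ∀ x y, 0 ≤ Q x y := by
    intro x y
    simp only [hQ]
    by_cases h : x = y
    · subst h
      have := hlazy x
      simp only [if_true]
      linarith
    · simp only [h, if_false]
      have := hnonneg x y
      linarith
  have hQsum : ∀ x, ∑ y, Q x y = 1 := by
    intro x
    simp only [hQ, sum_sub_distrib, ← mul_sum, hsum, sum_ite_eq, mem_univ, if_true]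
    norm_num
  have hnorm := norm_mulVec_le Q hQsymm hQnn hQsum f
  have hPQ : ∀ x, P.mulVec f x = (f x + Q.mulVec f x) / 2 := by
    intro x
    simp only [Matrix.mulVec, dotProduct, hQ, sub_mul, sum_sub_distrib, ite_mul, one_mul, zero_mul,
      sum_ite_eq, mem_univ, if_true, mul_assoc, ← mul_sum]
    ring
  have e1 : ∑ x, (P.mulVec f x) ^ 2
      = (∑ x, f x ^ 2 + 2 * ∑ x, f x * Q.mulVec f x + ∑ x, (Q.mulVec f x) ^ 2) / 4 := by
    rw [mul_sum, ← sum_add_distrib, ← sum_add_distrib, sum_div]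
    refine sum_congr rfl fun x _ => ?_
    rw [hPQ x]; ring
  have e2 : ∑ x, f x * P.mulVec f x = (∑ x, f x ^ 2 + ∑ x, f x * Q.mulVec f x) / 2 := by
    rw [← sum_add_distrib, sum_div]
    refine sum_congr rfl fun x _ => ?_
    rw [hPQ x]; ring
  rw [e1, e2]
  linarith

/-- A row-stochastic symmetric matrix preserves the total sum. -/
theorem sum_mulVec (P : Matrix Ω Ω ℝ) (hsymm : ∀ x y, P x y = P y x)
    (hsum : ∀ x, ∑ y, P x y = 1) (f : Ω → ℝ) :
    ∑ x, P.mulVec f x = ∑ x, f x := by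
  simp only [Matrix.mulVec, dotProduct]
  rw [sum_comm]
  refine sum_congr rfl fun y _ => ?_
  rw [← sum_mul]
  have : ∑ x, P x y = 1 := by
    rw [← hsum y]
    exact sum_congr rfl fun x _ => hsymm x y
  rw [this, one_mul]

/-- **Decay of the `ℓ²` distance to uniform.** -/
theorem decay (P : Matrix Ω Ω ℝ) (hsymm : ∀ x y, P x y = P y x)
    (hnonneg : ∀ x y, 0 ≤ P x y) (hsum : ∀ x, ∑ y, P x y = 1) (hlazy : ∀ x, 1 / 2 ≤ P x x)
    (ρ : ℝ) (hρ : 0 ≤ ρ)
    (hgap : ∀ f : Ω → ℝ, ∑ x, f x = 0 → ∑ x, f x * P.mulVec f x ≤ ρ * ∑ x, f x ^ 2)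
    (f : Ω → ℝ) (hf : ∑ x, f x = 0) (t : ℕ) :
    ∑ x, ((P ^ t).mulVec f x) ^ 2 ≤ ρ ^ t * ∑ x, f x ^ 2 := by
  induction t with
  | zero => simp
  | succ t ih =>
    have hmean : ∑ x, (P ^ t).mulVec f x = 0 := by
      clear ih
      induction t with
      | zero => simpa using hf
      | succ t ih =>
        rw [pow_succ', ← Matrix.mulVec_mulVec, sum_mulVec P hsymm hsum, ih]
    calc ∑ x, ((P ^ (t + 1)).mulVec f x) ^ 2
        = ∑ x, (P.mulVec ((P ^ t).mulVec f) x) ^ 2 := by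
          rw [pow_succ', ← Matrix.mulVec_mulVec]
      _ ≤ ∑ x, ((P ^ t).mulVec f) x * P.mulVec ((P ^ t).mulVec f) x :=
          norm_mulVec_sq_le_inner P hsymm hnonneg hsum hlazy _
      _ ≤ ρ * ∑ x, ((P ^ t).mulVec f x) ^ 2 := hgap _ hmean
      _ ≤ ρ * (ρ ^ t * ∑ x, f x ^ 2) := mul_le_mul_of_nonneg_left ih hρ
      _ = ρ ^ (t + 1) * ∑ x, f x ^ 2 := by ring

/-- **Total variation bound** for a symmetric lazy stochastic matrix with Dirichlet gap:
`(½ ∑_y |P^t(x,y) - 1/|Ω||)² ≤ (1/4) |Ω| ρ^t`. -/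
theorem tv_sq_le [Nonempty Ω] (P : Matrix Ω Ω ℝ) (hsymm : ∀ x y, P x y = P y x)
    (hnonneg : ∀ x y, 0 ≤ P x y) (hsum : ∀ x, ∑ y, P x y = 1) (hlazy : ∀ x, 1 / 2 ≤ P x x)
    (ρ : ℝ) (hρ : 0 ≤ ρ)
    (hgap : ∀ f : Ω → ℝ, ∑ x, f x = 0 → ∑ x, f x * P.mulVec f x ≤ ρ * ∑ x, f x ^ 2)
    (x : Ω) (t : ℕ) :
    ((1 / 2 : ℝ) * ∑ y, |(P ^ t) x y - 1 / (Fintype.card Ω : ℝ)|) ^ 2
      ≤ (1 / 4 : ℝ) * (Fintype.card Ω : ℝ) * ρ ^ t := by
  classical
  have hcard : (0 : ℝ) < (Fintype.card Ω : ℝ) := by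
    exact_mod_cast Fintype.card_pos
  set N : ℝ := (Fintype.card Ω : ℝ) with hN
  -- the start function
  set f : Ω → ℝ := fun y => (if x = y then 1 else 0) - 1 / N with hf
  have hfsum : ∑ y, f y = 0 := by
    simp only [hf, sum_sub_distrib, sum_ite_eq, mem_univ, if_true, sum_const, card_univ,
      nsmul_eq_mul]
    rw [← hN]
    field_simp
    ring
  have hPt : ∀ y, (P ^ t).mulVec f y = (P ^ t) x y - 1 / N := by
    intro y
    have hstoch : ∀ s : ℕ, ∀ z, ∑ w, (P ^ s) z w = 1 := by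
      intro s
      induction s with
      | zero =>
        intro z
        simp [Matrix.one_apply]
      | succ s ih =>
        intro z
        rw [pow_succ]
        simp only [Matrix.mul_apply]
        rw [sum_comm]
        have : ∀ w, ∑ w', (P ^ s) z w * P w w' = (P ^ s) z w := by
          intro w
          rw [← mul_sum, hsum, mul_one]
        simp only [this, ih]
    have hsy : ∀ s : ℕ, ∀ z w, (P ^ s) z w = (P ^ s) w z := by
      intro s
      have hP : P.transpose = P := by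
        ext a b
        exact hsymm b a
      intro z w
      have : (P ^ s).transpose = P ^ s := by
        rw [Matrix.transpose_pow, hP]
      have h2 := congrFun (congrFun this z) w
      simpa [Matrix.transpose_apply] using h2.symm
    simp only [Matrix.mulVec, dotProduct, hf, mul_sub, sum_sub_distrib, mul_ite, mul_one, mul_zero,
      sum_ite_eq, mem_univ, if_true]
    rw [← sum_mul, hsy t y x]
    have := hstoch t y
    rw [this]
    ring
  have hdec := decay P hsymm hnonneg hsum hlazy ρ hρ hgap f hfsum t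
  have hf0 : ∑ y, f y ^ 2 ≤ 1 := by
    have hexp : ∀ y, f y ^ 2 = (if x = y then 1 else 0) * (1 - 2 / N) + 1 / N ^ 2 := by
      intro y
      by_cases h : x = y
      · simp only [hf, h, if_true]
        field_simp
        ring
      · simp only [hf, h, if_false]
        field_simp
        ring
    simp only [hexp, sum_add_distrib, ← sum_mul, sum_ite_eq, mem_univ, if_true, sum_const,
      card_univ, nsmul_eq_mul]
    rw [← hN]
    have h1N : 1 ≤ N := by
      rw [hN]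
      exact_mod_cast Fintype.card_pos
    have : 1 * (1 - 2 / N) + N * (1 / N ^ 2) = 1 - 1 / N := by
      field_simp
      ring
    rw [this]
    have : 0 < 1 / N := by positivity
    linarith
  have hL2 : ∑ y, ((P ^ t) x y - 1 / N) ^ 2 ≤ ρ ^ t := by
    have e : ∑ y, ((P ^ t) x y - 1 / N) ^ 2 = ∑ y, ((P ^ t).mulVec f y) ^ 2 :=
      sum_congr rfl fun y _ => by rw [hPt y]
    rw [e]
    calc _ ≤ ρ ^ t * ∑ y, f y ^ 2 := hdec
      _ ≤ ρ ^ t * 1 := mul_le_mul_of_nonneg_left hf0 (pow_nonneg hρ t)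
      _ = ρ ^ t := mul_one _
  have hCS : (∑ y, |(P ^ t) x y - 1 / N|) ^ 2 ≤ N * ∑ y, ((P ^ t) x y - 1 / N) ^ 2 := by
    have := sq_sum_le_card_mul_sum_sq (s := (univ : Finset Ω))
      (f := fun y => |(P ^ t) x y - 1 / N|)
    simpa [sq_abs, card_univ, hN] using this
  have hNnn : 0 ≤ N := hcard.le
  calc ((1 / 2 : ℝ) * ∑ y, |(P ^ t) x y - 1 / N|) ^ 2
      = (1 / 4) * (∑ y, |(P ^ t) x y - 1 / N|) ^ 2 := by ring
    _ ≤ (1 / 4) * (N * ∑ y, ((P ^ t) x y - 1 / N) ^ 2) := by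
      apply mul_le_mul_of_nonneg_left hCS (by norm_num)
    _ ≤ (1 / 4) * (N * ρ ^ t) := by
      apply mul_le_mul_of_nonneg_left _ (by norm_num)
      exact mul_le_mul_of_nonneg_left hL2 hNnn
    _ = (1 / 4) * N * ρ ^ t := by ring

end Vale.Agent.Lib.P335
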