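import Vale.Agent.Lib.P335.Knabe

namespace Vale.Agent.Lib.P335

open Finset Equiv

set_option linter.unusedSectionVars false

section Bip

variable {R C : Type*} [Fintype R] [DecidableEq R] [Fintype C] [DecidableEq C]

/-- Forget the rows in `Q`. -/
def keyOut (Q : Finset R) (M : R → C → Bool) : R → C → Bool :=
  fun i => if i ∈ Q then fun _ => false else M i

lemma keyOut_eq {Q : Finset R} {M N : R → C → Bool} :
    keyOut Q M = keyOut Q N ↔ ∀ i, i ∉ Q → M i = N i := by
  constructor
  · intro h i hi
    have := congrFun h i
    simpa [keyOut, hi] using this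
  · intro h
    funext i
    by_cases hi : i ∈ Q
    · simp [keyOut, hi]
    · simp [keyOut, hi, h i hi]

lemma keyOut_tower {Q Q' : Finset R} (h : Q ⊆ Q') {M N : R → C → Bool}
    (hk : keyOut Q M = keyOut Q N) : keyOut Q' M = keyOut Q' N := by
  rw [keyOut_eq] at hk ⊢
  intro i hi
  exact hk i (fun hq => hi (h hq))

variable {r : R → ℕ} {c : C → ℕ}

/-- Take the rows in `e` from `N` and the other rows from `y`. -/
def hyb (e : Finset R) (N y : R → C → Bool) : R → C → Bool := fun i => if i ∈ e then N i else y i

lemma hyb_mem {e f : Finset R} (hd : Disjoint e f) {N x y : R → C → Bool}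
    (hN : N ∈ Tables r c) (hx : x ∈ Tables r c) (hy : y ∈ Tables r c)
    (h1 : ∀ i, i ∉ e → N i = x i) (h2 : ∀ i, i ∉ f → x i = y i) : hyb e N y ∈ Tables r c := by
  rw [mem_Tables] at hN hx hy ⊢
  refine ⟨fun i => ?_, fun z => ?_⟩
  · by_cases hi : i ∈ e
    · rw [← hN.1 i]
      unfold rowSum hyb
      simp [hi]
    · rw [← hy.1 i]
      unfold rowSum hyb
      simp [hi]
  · have h3 : colSum (hyb e N y) z + colSum x z = colSum N z + colSum y z := by
      unfold colSum
      rw [← Finset.sum_add_distrib, ← Finset.sum_add_distrib]
      apply Finset.sum_congr rfl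
      intro i _
      by_cases hi : i ∈ e
      · have hif : i ∉ f := Finset.disjoint_left.1 hd hi
        simp [hyb, hi, h2 i hif]
      · simp [hyb, hi, h1 i hi]
        ring
    have h4 := hN.2 z
    have h5 := hx.2 z
    have h6 := hy.2 z
    omega

lemma hyb_hyb (e : Finset R) {N x : R → C → Bool} (y : R → C → Bool)
    (h1 : ∀ i, i ∉ e → N i = x i) : hyb e (hyb e N y) x = N := by
  funext i
  by_cases hi : i ∈ e
  · simp [hyb, hi]
  · simp [hyb, hi, h1 i hi]

/-- Conditioning on the rows outside `e` keeps measurability with respect to the rows outside a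
disjoint `f`. -/
lemma cexp_keeps_measurable {e f : Finset R} (hd : Disjoint e f) {g : (R → C → Bool) → ℝ}
    (hg : ∀ x ∈ Tables r c, ∀ y ∈ Tables r c, keyOut f x = keyOut f y → g x = g y) :
    ∀ x ∈ Tables r c, ∀ y ∈ Tables r c, keyOut f x = keyOut f y →
      cexp (Tables r c) (keyOut e) g x = cexp (Tables r c) (keyOut e) g y := by
  intro x hx y hy hk
  have hk' := keyOut_eq.1 hk
  have hk'' : ∀ i, i ∉ f → y i = x i := fun i hi => (hk' i hi).symm
  have hmaps : ∀ {x y : R → C → Bool}, x ∈ Tables r c → y ∈ Tables r c →
      (∀ i, i ∉ f → x i = y i) → ∀ N ∈ sfib (Tables r c) (keyOut e) x,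
        hyb e N y ∈ sfib (Tables r c) (keyOut e) y := by
    intro x y hx hy hxy N hN
    obtain ⟨hN1, hN2⟩ := mem_sfib.1 hN
    have hN3 := keyOut_eq.1 hN2
    refine mem_sfib.2 ⟨hyb_mem hd hN1 hx hy hN3 hxy, ?_⟩
    rw [keyOut_eq]
    intro i hi
    simp [hyb, hi]
  unfold cexp
  have h1 : ∑ N ∈ sfib (Tables r c) (keyOut e) x, g N = ∑ N ∈ sfib (Tables r c) (keyOut e) y, g N := by
    apply Finset.sum_nbij' (fun N => hyb e N y) (fun N => hyb e N x)
    · exact hmaps hx hy hk'
    · exact hmaps hy hx hk''
    · intro N hN
      exact hyb_hyb e y (keyOut_eq.1 (mem_sfib.1 hN).2)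
    · intro N hN
      exact hyb_hyb e x (keyOut_eq.1 (mem_sfib.1 hN).2)
    · intro N hN
      obtain ⟨hN1, hN2⟩ := mem_sfib.1 hN
      have hN3 := keyOut_eq.1 hN2
      apply hg _ hN1 _ (hyb_mem hd hN1 hx hy hN3 hk')
      rw [keyOut_eq]
      intro i hi
      by_cases hie : i ∈ e
      · simp [hyb, hie]
      · simp [hyb, hie, hN3 i hie, hk' i hi]
  have h2 : (sfib (Tables r c) (keyOut e) x).card = (sfib (Tables r c) (keyOut e) y).card := by
    apply Finset.card_nbij' (fun N => hyb e N y) (fun N => hyb e N x)
    · exact hmaps hx hy hk'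
    · exact hmaps hy hx hk''
    · intro N hN
      exact hyb_hyb e y (keyOut_eq.1 (mem_sfib.1 hN).2)
    · intro N hN
      exact hyb_hyb e x (keyOut_eq.1 (mem_sfib.1 hN).2)
  rw [h1, h2]

/-- Defects of disjoint row sets have nonnegative pairing. -/
lemma dd_comm {e f : Finset R} (hd : Disjoint e f) (φ : (R → C → Bool) → ℝ) :
    0 ≤ ∑ x ∈ Tables r c, dd (Tables r c) keyOut e φ x * dd (Tables r c) keyOut f φ x := by
  set S := Tables r c with hS
  set a : (R → C → Bool) → ℝ := dd S keyOut f φ with ha
  set h : (R → C → Bool) → ℝ := cexp S (keyOut f) φ with hh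
  have hphi : ∀ x, φ x = a x + h x := by
    intro x
    simp [ha, hh, dd]
  have hdecomp : ∀ x, dd S keyOut e φ x = dd S keyOut e a x + dd S keyOut e h x := by
    intro x
    unfold dd
    have h1 : cexp S (keyOut e) φ x = cexp S (keyOut e) a x + cexp S (keyOut e) h x := by
      rw [← cexp_add]
      apply cexp_congr_on
      intro y _
      exact hphi y
    rw [h1, hphi x]
    ring
  have hhm : ∀ x ∈ S, ∀ y ∈ S, keyOut f x = keyOut f y → h x = h y :=
    cexp_measurable φ
  have hGm : ∀ x ∈ S, ∀ y ∈ S, keyOut f x = keyOut f y →
      dd S keyOut e h x = dd S keyOut e h y := by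
    intro x hx y hy hk
    unfold dd
    rw [hhm x hx y hy hk, cexp_keeps_measurable hd hhm x hx y hy hk]
  have h0 : ∑ x ∈ S, dd S keyOut e h x * a x = 0 := by
    have h1 := sum_mul_cexp_of_measurable (S := S) (κ := keyOut f) hGm φ
    have h2 : ∑ x ∈ S, dd S keyOut e h x * a x
        = ∑ x ∈ S, dd S keyOut e h x * φ x
          - ∑ x ∈ S, dd S keyOut e h x * cexp S (keyOut f) φ x := by
      rw [← Finset.sum_sub_distrib]
      apply Finset.sum_congr rfl
      intro x _
      simp only [ha, dd]
      ring
    rw [h2, h1, sub_self]
  have h1 : ∑ x ∈ S, dd S keyOut e φ x * a x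
      = ∑ x ∈ S, (dd S keyOut e a x) ^ 2 + ∑ x ∈ S, dd S keyOut e h x * a x := by
    rw [← sum_dd_mul, ← Finset.sum_add_distrib]
    apply Finset.sum_congr rfl
    intro x _
    rw [hdecomp]
    ring
  rw [h1, h0, add_zero]
  exact Finset.sum_nonneg (fun x _ => sq_nonneg _)

/-- Invariance under two-row moves forces a function to be constant. -/
lemma connectivity (f : (R → C → Bool) → ℝ)
    (hinv : ∀ i j, i ≠ j → ∀ x ∈ Tables r c, ∀ y ∈ Tables r c,
      (∀ l, l ≠ i → l ≠ j → x l = y l) → f x = f y) :
    ∀ x ∈ Tables r c, ∀ y ∈ Tables r c, f x = f y := by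
  -- outer induction on the set of rows that may differ
  have outer : ∀ (n : ℕ) (Q : Finset R), Q.card = n → ∀ x ∈ Tables r c, ∀ y ∈ Tables r c,
      (∀ l, l ∉ Q → x l = y l) → f x = f y := by
    intro n
    induction n with
    | zero =>
      intro Q hQ x _ y _ hxy
      have hQ' : Q = ∅ := Finset.card_eq_zero.1 hQ
      have : x = y := by
        funext l
        rw [hxy l (by simp [hQ'])]
      rw [this]
    | succ n ih =>
      intro Q hQ
      obtain ⟨i, hi⟩ : Q.Nonempty := Finset.card_pos.1 (by omega)
      -- inner induction on the disagreement in row i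
      have inner : ∀ (k : ℕ) (x y : R → C → Bool), x ∈ Tables r c → y ∈ Tables r c →
          (∀ l, l ∉ Q → x l = y l) →
          ((univ : Finset C).filter (fun z => x i z = true ∧ y i z = false)).card = k →
          f x = f y := by
        intro k
        induction k with
        | zero =>
          intro x y hx hy hxy hk
          have hemp := Finset.card_eq_zero.1 hk
          have hle : ∀ z ∈ (univ : Finset C), (x i z).toNat ≤ (y i z).toNat := by
            intro z _
            have : z ∉ (univ : Finset C).filter (fun z => x i z = true ∧ y i z = false) := by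
              rw [hemp]; simp
            simp only [mem_filter, mem_univ, true_and, not_and, Bool.not_eq_false] at this
            cases h1 : x i z
            · simp
            · rw [this h1]
          have hsum : ∑ z, (x i z).toNat = ∑ z, (y i z).toNat := by
            have h1 := (mem_Tables.1 hx).1 i
            have h2 := (mem_Tables.1 hy).1 i
            unfold rowSum at h1 h2
            rw [h1, h2]
          have heq := (Finset.sum_eq_sum_iff_of_le hle).1 hsum
          have hrow : x i = y i := by
            funext z
            have := heq z (mem_univ z)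
            cases h1 : x i z <;> cases h2 : y i z <;> simp_all
          apply ih (Q.erase i) (by rw [card_erase_of_mem hi, hQ]; rfl) x hx y hy
          intro l hl
          by_cases hli : l = i
          · rw [hli]; exact hrow
          · exact hxy l (fun hq => hl (mem_erase.2 ⟨hli, hq⟩))
        | succ k ihk =>
          intro x y hx hy hxy hk
          have hpos : ((univ : Finset C).filter
              (fun z => x i z = true ∧ y i z = false)).Nonempty := by
            apply Finset.card_pos.1
            omega
          obtain ⟨z, hz⟩ := hpos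
          have hz' := (mem_filter.1 hz).2
          obtain ⟨hz1, hz2⟩ := hz'
          -- a column going the other way in row i
          have hexz : ∃ z', x i z' = false ∧ y i z' = true := by
            by_contra hcon
            push Not at hcon
            have h1 := (mem_Tables.1 hx).1 i
            have h2 := (mem_Tables.1 hy).1 i
            unfold rowSum at h1 h2
            have hlt : ∑ z, (y i z).toNat < ∑ z, (x i z).toNat := by
              apply Finset.sum_lt_sum
              · intro w _
                cases h3 : x i w
                · have := hcon w h3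
                  simp only [ne_eq, Bool.not_eq_true] at this
                  simp [this]
                · simp only [Bool.toNat_true]
                  exact Bool.toNat_le _
              · exact ⟨z, mem_univ z, by simp [hz1, hz2]⟩
            omega
          obtain ⟨z', hz'1, hz'2⟩ := hexz
          have hzz' : z ≠ z' := by
            intro h
            rw [h, hz'1] at hz1
            exact absurd hz1 (by simp)
          -- a row helping the exchange
          have hexj : ∃ j, j ≠ i ∧ j ∈ Q ∧
              ((x j z = false ∧ x j z' = true) ∨ (y j z = true ∧ y j z' = false)) := by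
            by_contra hcon
            push Not at hcon
            have hcolz : (∑ j, ((x j z).toNat : ℤ)) = ∑ j, ((y j z).toNat : ℤ) := by
              have h1 := (mem_Tables.1 hx).2 z
              have h2 := (mem_Tables.1 hy).2 z
              unfold colSum at h1 h2
              exact_mod_cast h1.trans h2.symm
            have hcolz' : (∑ j, ((x j z').toNat : ℤ)) = ∑ j, ((y j z').toNat : ℤ) := by
              have h1 := (mem_Tables.1 hx).2 z'
              have h2 := (mem_Tables.1 hy).2 z'
              unfold colSum at h1 h2
              exact_mod_cast h1.trans h2.symm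
            have hterm : ∀ j ∈ (univ : Finset R), (0 : ℤ) ≤ (((x j z).toNat : ℤ)
                - ((x j z').toNat : ℤ)) - (((y j z).toNat : ℤ) - ((y j z').toNat : ℤ)) := by
              intro j _
              by_cases hji : j = i
              · subst hji
                simp [hz1, hz2, hz'1, hz'2]
              · by_cases hjQ : j ∈ Q
                · have h3 := hcon j hji hjQ
                  obtain ⟨h4, h5⟩ := h3
                  cases h6 : x j z <;> cases h7 : x j z' <;> cases h8 : y j z <;>
                    cases h9 : y j z' <;> simp_all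
                · rw [hxy j hjQ]
                  simp
            have htot : ∑ j, ((((x j z).toNat : ℤ) - ((x j z').toNat : ℤ))
                - (((y j z).toNat : ℤ) - ((y j z').toNat : ℤ))) = 0 := by
              simp only [Finset.sum_sub_distrib]
              rw [hcolz, hcolz']
              ring
            have hsingle := Finset.single_le_sum hterm (mem_univ i)
            rw [htot] at hsingle
            simp [hz1, hz2, hz'1, hz'2] at hsingle
          obtain ⟨j, hji, hjQ, hcase⟩ := hexj
          rcases hcase with ⟨hj1, hj2⟩ | ⟨hj1, hj2⟩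
          · -- switch in x
            have hsw : sw i j z z' x ∈ Tables r c := by
              apply sw_mem hji.symm hx
              · rw [hz1, hz'1]; simp
              · rw [hj1, hj2]; simp
              · rw [hz1, hj1]; simp
            have h1 : f (sw i j z z' x) = f x := by
              apply hinv i j hji.symm _ hsw _ hx
              intro l hl1 hl2
              exact sw_apply_other z z' x hl1 hl2
            rw [← h1]
            apply ihk _ y hsw hy
            · intro l hl
              have hl1 : l ≠ i := fun h => hl (h ▸ hi)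
              have hl2 : l ≠ j := fun h => hl (h ▸ hjQ)
              rw [sw_apply_other z z' x hl1 hl2]
              exact hxy l hl
            · have hset : (univ : Finset C).filter
                  (fun w => sw i j z z' x i w = true ∧ y i w = false)
                  = ((univ : Finset C).filter (fun w => x i w = true ∧ y i w = false)).erase z := by
                ext w
                rw [mem_filter, mem_erase, mem_filter, sw_apply_left]
                simp only [mem_univ, true_and]
                by_cases hwz : w = z
                · subst hwz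
                  simp [hz'1]
                · by_cases hwz' : w = z'
                  · subst hwz'
                    simp [hz'2, hwz]
                  · rw [swap_apply_of_ne_of_ne hwz hwz']
                    simp [hwz]
              rw [hset, card_erase_of_mem hz, hk]
              rfl
          · -- switch in y
            have hsw : sw i j z z' y ∈ Tables r c := by
              apply sw_mem hji.symm hy
              · rw [hz2, hz'2]; simp
              · rw [hj1, hj2]; simp
              · rw [hz2, hj1]; simp
            have h1 : f (sw i j z z' y) = f y := by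
              apply hinv i j hji.symm _ hsw _ hy
              intro l hl1 hl2
              exact sw_apply_other z z' y hl1 hl2
            rw [← h1]
            apply ihk x _ hx hsw
            · intro l hl
              have hl1 : l ≠ i := fun h => hl (h ▸ hi)
              have hl2 : l ≠ j := fun h => hl (h ▸ hjQ)
              rw [sw_apply_other z z' y hl1 hl2]
              exact hxy l hl
            · have hset : (univ : Finset C).filter
                  (fun w => x i w = true ∧ sw i j z z' y i w = false)
                  = ((univ : Finset C).filter (fun w => x i w = true ∧ y i w = false)).erase z := by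
                ext w
                rw [mem_filter, mem_erase, mem_filter, sw_apply_left]
                simp only [mem_univ, true_and]
                by_cases hwz : w = z
                · subst hwz
                  simp [hz'2]
                · by_cases hwz' : w = z'
                  · subst hwz'
                    simp [hz'1, hwz]
                  · rw [swap_apply_of_ne_of_ne hwz hwz']
                    simp [hwz]
              rw [hset, card_erase_of_mem hz, hk]
              rfl
      exact fun x hx y hy hxy => inner _ x y hx hy hxy rfl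
  intro x hx y hy
  exact outer _ univ rfl x hx y hy (fun l hl => absurd (mem_univ l) hl)

/-- Defects vanishing on all pairs of rows force a constant. -/
lemma dd_ker (f : (R → C → Bool) → ℝ)
    (h : ∀ e ∈ pairsOf (univ : Finset R), ∀ x ∈ Tables r c, dd (Tables r c) keyOut e f x = 0) :
    ∀ x ∈ Tables r c, ∀ y ∈ Tables r c, f x = f y := by
  apply connectivity
  intro i j hij x hx y hy hxy
  have he : ({i, j} : Finset R) ∈ pairsOf (univ : Finset R) :=
    mem_powersetCard.2 ⟨subset_univ _, card_pair hij⟩
  have h1 := h _ he x hx
  have h2 := h _ he y hy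
  unfold dd at h1 h2
  have hk : keyOut ({i, j} : Finset R) x = keyOut {i, j} y := by
    rw [keyOut_eq]
    intro l hl
    simp only [mem_insert, mem_singleton, not_or] at hl
    exact hxy l hl.1 hl.2
  have h3 : cexp (Tables r c) (keyOut ({i, j} : Finset R)) f x
      = cexp (Tables r c) (keyOut {i, j}) f y := cexp_congr f hk
  linarith

/-- Restrict a matrix to the rows of `t`. -/
def resT (t : Finset R) (M : R → C → Bool) : {i // i ∈ t} → C → Bool := fun i => M i.1

/-- Extend a matrix on the rows of `t` by the rows of `x₀`. -/
def extT (t : Finset R) (x₀ : R → C → Bool) (N : {i // i ∈ t} → C → Bool) : R → C → Bool :=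
  fun i => if h : i ∈ t then N ⟨i, h⟩ else x₀ i

lemma col_split (t : Finset R) (M : R → C → Bool) (z : C) :
    colSum M z = colSum (resT t M) z + ∑ i ∈ tᶜ, (M i z).toNat := by
  unfold colSum resT
  rw [← Finset.sum_add_sum_compl t]
  congr 1
  exact (Finset.sum_coe_sort t (fun i => (M i z).toNat)).symm

lemma resT_extT (t : Finset R) (x₀ : R → C → Bool) (N : {i // i ∈ t} → C → Bool) :
    resT t (extT t x₀ N) = N := by
  funext i z
  simp [resT, extT, i.2]

lemma extT_resT {t : Finset R} {x₀ M : R → C → Bool} (h : ∀ i, i ∉ t → M i = x₀ i) :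
    extT t x₀ (resT t M) = M := by
  funext i z
  by_cases hi : i ∈ t
  · simp [resT, extT, hi]
  · simp [extT, hi, h i hi]

/-- Row targets on `t`. -/
def rT (t : Finset R) (r : R → ℕ) : {i // i ∈ t} → ℕ := fun i => r i.1

/-- Column targets on `t`. -/
def cT (t : Finset R) (x₀ : R → C → Bool) : C → ℕ := colSum (resT t x₀)

lemma resT_mem {t : Finset R} {x₀ M : R → C → Bool} (hx₀ : x₀ ∈ Tables r c) (hM : M ∈ Tables r c)
    (h : ∀ i, i ∉ t → M i = x₀ i) : resT t M ∈ Tables (rT t r) (cT t x₀) := by
  rw [mem_Tables] at hM hx₀ ⊢
  refine ⟨fun i => hM.1 i.1, fun z => ?_⟩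
  have h1 := col_split t M z
  have h2 := col_split t x₀ z
  have h3 : ∑ i ∈ tᶜ, (M i z).toNat = ∑ i ∈ tᶜ, (x₀ i z).toNat := by
    apply Finset.sum_congr rfl
    intro i hi
    rw [h i (mem_compl.1 hi)]
  rw [hM.2 z] at h1
  rw [hx₀.2 z] at h2
  unfold cT
  omega

lemma extT_mem {t : Finset R} {x₀ : R → C → Bool} {N : {i // i ∈ t} → C → Bool}
    (hx₀ : x₀ ∈ Tables r c) (hN : N ∈ Tables (rT t r) (cT t x₀)) : extT t x₀ N ∈ Tables r c := by
  rw [mem_Tables] at hN hx₀ ⊢
  refine ⟨fun i => ?_, fun z => ?_⟩
  · by_cases hi : i ∈ t
    · have := hN.1 ⟨i, hi⟩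
      unfold rowSum at this ⊢
      simpa [extT, hi, rT] using this
    · have := hx₀.1 i
      unfold rowSum at this ⊢
      simpa [extT, hi] using this
  · have h1 := col_split t (extT t x₀ N) z
    have h2 := col_split t x₀ z
    have h3 : ∑ i ∈ tᶜ, (extT t x₀ N i z).toNat = ∑ i ∈ tᶜ, (x₀ i z).toNat := by
      apply Finset.sum_congr rfl
      intro i hi
      simp [extT, mem_compl.1 hi]
    rw [resT_extT] at h1
    have h4 := hN.2 z
    have h5 := hx₀.2 z
    unfold cT at h4
    omega

lemma sum_pairsOf_eq (t : Finset R) (ht : t.card = 3) {β : Type*} [AddCommMonoid β]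
    (F : Finset R → β) :
    ∑ e ∈ pairsOf t, F e = ∑ a : {i // i ∈ t}, F (t.erase a.1) := by
  have himg : pairsOf t = t.image (fun a => t.erase a) := by
    ext e
    simp only [pairsOf, mem_powersetCard, mem_image]
    constructor
    · rintro ⟨h1, h2⟩
      have h3 : (t \ e).card = 1 := by
        rw [card_sdiff_of_subset h1, ht, h2]
      obtain ⟨a, ha⟩ := Finset.card_eq_one.1 h3
      have ha' : a ∈ t \ e := by rw [ha]; simp
      refine ⟨a, (mem_sdiff.1 ha').1, ?_⟩
      ext w
      constructor
      · intro hw
        obtain ⟨hw1, hw2⟩ := mem_erase.1 hw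
        by_contra hwe
        have : w ∈ t \ e := mem_sdiff.2 ⟨hw2, hwe⟩
        rw [ha] at this
        exact hw1 (mem_singleton.1 this)
      · intro hw
        refine mem_erase.2 ⟨?_, h1 hw⟩
        rintro rfl
        exact (mem_sdiff.1 ha').2 hw
    · rintro ⟨a, ha, rfl⟩
      refine ⟨erase_subset _ _, ?_⟩
      rw [card_erase_of_mem ha, ht]
  rw [himg, Finset.sum_image]
  · exact (Finset.sum_coe_sort t (fun a => F (t.erase a))).symm
  · intro a ha b hb hab
    by_contra hne
    simp only at hab
    have : a ∈ t.erase b := mem_erase.2 ⟨hne, ha⟩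
    rw [← hab] at this
    exact (mem_erase.1 this).1 rfl

/-- The three-row inequality transported to a block of three rows. -/
theorem block_gap {t : Finset R} (ht : t.card = 3) {x₀ : R → C → Bool} (hx₀ : x₀ ∈ Tables r c)
    (g : (R → C → Bool) → ℝ)
    (hg : ∑ y ∈ sfib (Tables r c) (keyOut t) x₀, g y = 0) :
    ∑ y ∈ sfib (Tables r c) (keyOut t) x₀, (g y) ^ 2
      ≤ ∑ e ∈ pairsOf t, ∑ y ∈ sfib (Tables r c) (keyOut t) x₀,
          (dd (Tables r c) keyOut e g y) ^ 2 := by
  set S := Tables r c with hS
  set W := sfib S (keyOut t) x₀ with hW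
  set S' := Tables (rT t r) (cT t x₀) with hS'
  set g' : ({i // i ∈ t} → C → Bool) → ℝ := fun N => g (extT t x₀ N) with hg'
  have hcard : Fintype.card {i // i ∈ t} = 3 := by
    rw [Fintype.card_coe, ht]
  have hWmem : ∀ y, y ∈ W ↔ y ∈ S ∧ ∀ i, i ∉ t → y i = x₀ i := by
    intro y
    rw [hW, mem_sfib, keyOut_eq]
  have hsumW : ∀ F : (R → C → Bool) → ℝ, ∑ y ∈ W, F y = ∑ N ∈ S', F (extT t x₀ N) := by
    intro F
    apply Finset.sum_nbij' (resT t) (extT t x₀)
    · intro y hy
      obtain ⟨h1, h2⟩ := (hWmem y).1 hy
      exact resT_mem hx₀ h1 h2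
    · intro N hN
      refine (hWmem _).2 ⟨extT_mem hx₀ hN, fun i hi => ?_⟩
      simp [extT, hi]
    · intro y hy
      exact extT_resT ((hWmem y).1 hy).2
    · intro N _
      exact resT_extT t x₀ N
    · intro y hy
      rw [extT_resT ((hWmem y).1 hy).2]
  have hE : ∀ a : {i // i ∈ t}, ∀ N ∈ S',
      cexp S (keyOut (t.erase a.1)) g (extT t x₀ N) = cexp S' (fun Nh => Nh a) g' N := by
    intro a N hN
    unfold cexp
    have hmaps1 : ∀ Nh ∈ sfib S' (fun Nh => Nh a) N,
        extT t x₀ Nh ∈ sfib S (keyOut (t.erase a.1)) (extT t x₀ N) := by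
      intro Nh hNh
      obtain ⟨h1, h2⟩ := mem_sfib.1 hNh
      have h2' : Nh a = N a := h2
      refine mem_sfib.2 ⟨extT_mem hx₀ h1, ?_⟩
      rw [keyOut_eq]
      intro i hi
      by_cases hit : i ∈ t
      · have hia : i = a.1 := by
          by_contra hne
          exact hi (mem_erase.2 ⟨hne, hit⟩)
        subst hia
        simp only [extT, hit, dif_pos]
        exact h2'
      · simp [extT, hit]
    have hmaps2 : ∀ y ∈ sfib S (keyOut (t.erase a.1)) (extT t x₀ N),
        resT t y ∈ sfib S' (fun Nh => Nh a) N := by
      intro y hy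
      obtain ⟨h1, h2⟩ := mem_sfib.1 hy
      have h3 := keyOut_eq.1 h2
      have h4 : ∀ i, i ∉ t → y i = x₀ i := by
        intro i hi
        rw [h3 i (fun h => hi (mem_of_mem_erase h))]
        simp [extT, hi]
      refine mem_sfib.2 ⟨resT_mem hx₀ h1 h4, ?_⟩
      show resT t y a = N a
      have h5 := h3 a.1 (by simp)
      simp only [resT, h5]
      simp [extT, a.2]
    have hinv : ∀ y ∈ sfib S (keyOut (t.erase a.1)) (extT t x₀ N), extT t x₀ (resT t y) = y := by
      intro y hy
      obtain ⟨_, h2⟩ := mem_sfib.1 hy
      have h3 := keyOut_eq.1 h2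
      apply extT_resT
      intro i hi
      rw [h3 i (fun h => hi (mem_of_mem_erase h))]
      simp [extT, hi]
    have h1 : ∑ y ∈ sfib S (keyOut (t.erase a.1)) (extT t x₀ N), g y
        = ∑ Nh ∈ sfib S' (fun Nh => Nh a) N, g' Nh := by
      symm
      apply Finset.sum_nbij' (extT t x₀) (resT t) hmaps1 hmaps2
      · intro Nh _
        exact resT_extT t x₀ Nh
      · exact hinv
      · intro Nh _
        rfl
    have h2 : (sfib S (keyOut (t.erase a.1)) (extT t x₀ N)).card
        = (sfib S' (fun Nh => Nh a) N).card := by
      symm
      apply Finset.card_nbij' (extT t x₀) (resT t) hmaps1 hmaps2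
      · intro Nh _
        exact resT_extT t x₀ Nh
      · exact hinv
    rw [h1, h2]
  have hmean : ∑ N ∈ S', g' N = 0 := by
    rw [← hg, hsumW]
  have h3 := three_rows_gap hcard (rT t r) (cT t x₀) g' hmean
  rw [← hS'] at h3
  rw [sum_pairsOf_eq t ht, hsumW]
  have hterm : ∀ a : {i // i ∈ t},
      ∑ y ∈ W, (dd S keyOut (t.erase a.1) g y) ^ 2
        = ∑ N ∈ S', (g' N) ^ 2 - ∑ N ∈ S', (cexp S' (fun Nh => Nh a) g' N) ^ 2 := by
    intro a
    rw [hsumW]
    have h4 : ∀ N ∈ S', (dd S keyOut (t.erase a.1) g (extT t x₀ N)) ^ 2
        = (g' N - cexp S' (fun Nh => Nh a) g' N) ^ 2 := by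
      intro N hN
      unfold dd
      rw [hE a N hN]
    rw [Finset.sum_congr rfl h4]
    have h5 := sum_dd_sq (R := R) S' (fun _ => fun Nh => Nh a) ∅ g'
    simpa [dd] using h5
  rw [Finset.sum_congr rfl (fun a _ => hterm a), Finset.sum_sub_distrib, Finset.sum_const,
    Finset.card_univ, hcard]
  simp only [nsmul_eq_mul]
  push_cast
  linarith

/-- **Bipartite gap**: the sum over pairs of rows of the defects of conditioning dominates the
variance. -/
theorem bipartite_gap (r : R → ℕ) (c : C → ℕ) (f : (R → C → Bool) → ℝ)
    (hf : ∑ x ∈ Tables r c, f x = 0) :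
    ∑ x ∈ Tables r c, (f x) ^ 2
      ≤ ∑ e ∈ pairsOf (univ : Finset R), ∑ x ∈ Tables r c, (dd (Tables r c) keyOut e f x) ^ 2 := by
  apply gap_of_square (Tables r c) keyOut (pairsOf (univ : Finset R)) _ dd_ker f hf
  intro φ
  apply knabe_algebra (Tables r c) (fun e => dd (Tables r c) keyOut e φ)
  · intro e _ f' _ hd
    exact dd_comm hd φ
  · intro t ht
    have htc : t.card = 3 := (mem_powersetCard.1 ht).2
    apply square_of_block_gap (Tables r c) keyOut t (pairsOf t)
    · intro e he x y hk
      exact keyOut_tower (mem_powersetCard.1 he).1 hk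
    · intro x₀ hx₀ g hg
      exact block_gap htc hx₀ g hg

end Bip

end Vale.Agent.Lib.P335
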