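import Vale.Agent.Lib.P335.Avg

/-!
Abstract analysis of two averaging operators `Rp`, `Rq` that fail to commute only on a small part:
the quadratic form `⟨(I-Rp) g, (I-Rq) g⟩` is bounded below by the energy of an involution, up to
two cross terms.
-/

namespace Vale.Agent.Lib.P335

open Finset

section Sigma

variable {Ω : Type*} [Fintype Ω]

/-- The antisymmetrisation operator of a partial involution. -/
noncomputable def tauOp (C : Ω → Prop) [DecidablePred C] (σ : Ω → Ω) (u : Ω → ℝ) : Ω → ℝ :=
  fun x => if C x then (u x - u (σ x)) / 2 else 0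

/-- The symmetrised function on the centre. -/
noncomputable def symOp (C : Ω → Prop) [DecidablePred C] (σ : Ω → Ω) (u : Ω → ℝ) : Ω → ℝ :=
  fun x => if C x then (u x + u (σ x)) / 2 else 0

variable {C : Ω → Prop} [DecidablePred C] {σ : Ω → Ω}

/-- Re-indexing a sum over a `σ`-closed predicate by the involution `σ`. -/
lemma sum_sigma_reindex {P : Ω → Prop} [DecidablePred P] (hC : ∀ x, P x → P (σ x))
    (hσ : ∀ x, P x → σ (σ x) = x) (F : Ω → ℝ) :
    ∑ x, (if P x then F (σ x) else 0) = ∑ x, (if P x then F x else 0) := by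
  rw [← Finset.sum_filter, ← Finset.sum_filter]
  refine Finset.sum_nbij' σ σ ?_ ?_ ?_ ?_ ?_
  · intro x hx
    simp only [mem_filter, mem_univ, true_and] at hx ⊢
    exact hC x hx
  · intro x hx
    simp only [mem_filter, mem_univ, true_and] at hx ⊢
    exact hC x hx
  · intro x hx
    simp only [mem_filter, mem_univ, true_and] at hx
    exact hσ x hx
  · intro x hx
    simp only [mem_filter, mem_univ, true_and] at hx
    exact hσ x hx
  · intro x _
    rfl

variable (hC : ∀ x, C x → C (σ x)) (hσ : ∀ x, C x → σ (σ x) = x)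

include hC hσ

lemma ip_tauOp_left (u v : Ω → ℝ) : ip (tauOp C σ u) v = ip u (tauOp C σ v) := by
  have h := sum_sigma_reindex hC hσ (fun x => u x * v (σ x))
  have h2 : ∀ x, (if C x then u (σ x) * v (σ (σ x)) else 0) = (if C x then u (σ x) * v x else 0) := by
    intro x
    by_cases hx : C x
    · simp [hx, hσ x hx]
    · simp [hx]
  simp only [h2] at h
  have l : ip (tauOp C σ u) v =
      (∑ x, (if C x then u x * v x else 0) - ∑ x, (if C x then u (σ x) * v x else 0)) / 2 := by
    unfold ip tauOp
    rw [← Finset.sum_sub_distrib, Finset.sum_div]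
    refine Finset.sum_congr rfl fun x _ => ?_
    by_cases hx : C x <;> simp [hx]
    ring
  have r : ip u (tauOp C σ v) =
      (∑ x, (if C x then u x * v x else 0) - ∑ x, (if C x then u x * v (σ x) else 0)) / 2 := by
    unfold ip tauOp
    rw [← Finset.sum_sub_distrib, Finset.sum_div]
    refine Finset.sum_congr rfl fun x _ => ?_
    by_cases hx : C x <;> simp [hx]
    ring
  rw [l, r, h]

lemma tauOp_idem (u : Ω → ℝ) : tauOp C σ (tauOp C σ u) = tauOp C σ u := by
  funext x
  unfold tauOp
  by_cases hx : C x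
  · simp only [hx, if_true, hC x hx, hσ x hx]
    ring
  · simp [hx]

lemma ip_tauOp_self (u v : Ω → ℝ) : ip (tauOp C σ u) (tauOp C σ v) = ip (tauOp C σ u) v := by
  rw [ip_tauOp_left hC hσ, tauOp_idem hC hσ, ip_tauOp_left hC hσ]

end Sigma

section AvgSigma

variable {Ω K : Type*} [Fintype Ω] [DecidableEq K]
variable {C : Ω → Prop} [DecidablePred C] {σ : Ω → Ω}

/-- Averaging along a key compatible with the involution commutes with the involution. -/
lemma avg_sigma {κ : Ω → K} (hC : ∀ x, C x → C (σ x)) (hσ : ∀ x, C x → σ (σ x) = x)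
    (hκ : ∀ x y, C x → κ y = κ x → C y ∧ κ (σ y) = κ (σ x)) (u : Ω → ℝ) {x : Ω} (hx : C x) :
    avg κ u (σ x) = avg κ (fun y => u (σ y)) x := by
  have hx' := hC x hx
  have hbij : ∀ (F : Ω → ℝ), ∑ y ∈ fib κ (σ x), F y = ∑ y ∈ fib κ x, F (σ y) := by
    intro F
    symm
    refine Finset.sum_nbij' σ σ ?_ ?_ ?_ ?_ ?_
    · intro y hy
      have := (hκ x y hx (mem_fib.1 hy)).2
      exact mem_fib.2 this
    · intro y hy
      have h1 := hκ (σ x) y hx' (mem_fib.1 hy)
      have : κ (σ y) = κ x := by rw [h1.2, hσ x hx]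
      exact mem_fib.2 this
    · intro y hy
      exact hσ y (hκ x y hx (mem_fib.1 hy)).1
    · intro y hy
      exact hσ y (hκ (σ x) y hx' (mem_fib.1 hy)).1
    · intro y _
      rfl
  have hc : (fib κ (σ x)).card = (fib κ x).card := by
    have := hbij (fun _ => 1)
    simp only [Finset.sum_const, nsmul_eq_mul, mul_one] at this
    exact_mod_cast this
  simp only [avg, hbij u, hc]

/-- The centre is a union of fibres. -/
lemma center_of_fib {κ : Ω → K}
    (hκ : ∀ x y, C x → κ y = κ x → C y ∧ κ (σ y) = κ (σ x)) {x y : Ω} (hxy : κ y = κ x) :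
    C y ↔ C x :=
  ⟨fun h => (hκ y x h hxy.symm).1, fun h => (hκ x y h hxy).1⟩

lemma avg_tauOp {κ : Ω → K} (hC : ∀ x, C x → C (σ x)) (hσ : ∀ x, C x → σ (σ x) = x)
    (hκ : ∀ x y, C x → κ y = κ x → C y ∧ κ (σ y) = κ (σ x)) (u : Ω → ℝ) :
    avg κ (tauOp C σ u) = tauOp C σ (avg κ u) := by
  funext x
  by_cases hx : C x
  · have e : avg κ (tauOp C σ u) x = avg κ (fun y => (u y - u (σ y)) / 2) x := by
      unfold avg
      congr 1
      refine Finset.sum_congr rfl fun y hy => ?_
      have : C y := (hκ x y hx (mem_fib.1 hy)).1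
      simp [tauOp, this]
    rw [e]
    simp only [tauOp, hx, if_true]
    rw [avg_sigma hC hσ hκ u hx]
    simp only [avg]
    rw [← Finset.sum_div, Finset.sum_sub_distrib]
    ring
  · have e : avg κ (tauOp C σ u) x = 0 := by
      unfold avg
      rw [Finset.sum_eq_zero, zero_div]
      intro y hy
      have : ¬ C y := fun h => hx ((center_of_fib hκ (mem_fib.1 hy)).1 h)
      simp [tauOp, this]
    rw [e]
    simp [tauOp, hx]

lemma avg_symOp_of_center {κ : Ω → K} (hC : ∀ x, C x → C (σ x)) (hσ : ∀ x, C x → σ (σ x) = x)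
    (hκ : ∀ x y, C x → κ y = κ x → C y ∧ κ (σ y) = κ (σ x)) (u : Ω → ℝ) {x : Ω} (hx : C x) :
    avg κ (symOp C σ u) x = (avg κ u x + avg κ u (σ x)) / 2 := by
  have e : avg κ (symOp C σ u) x = avg κ (fun y => (u y + u (σ y)) / 2) x := by
    unfold avg
    congr 1
    refine Finset.sum_congr rfl fun y hy => ?_
    have : C y := (hκ x y hx (mem_fib.1 hy)).1
    simp [symOp, this]
  rw [e, avg_sigma hC hσ hκ u hx]
  simp only [avg]
  rw [← Finset.sum_div, Finset.sum_add_distrib]
  ring

/-- If an averaging key is `σ`-invariant, the averaged function is constant along `σ`. -/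
lemma avg_sigma_inv {κ : Ω → K} (hκ : ∀ x, C x → κ (σ x) = κ x) (u : Ω → ℝ) {x : Ω} (hx : C x) :
    avg κ u (σ x) = avg κ u x :=
  avg_congr u (hκ x hx)

/-- Averaging along a `σ`-invariant key annihilates the antisymmetrisation. -/
lemma avg_tauOp_zero {κ : Ω → K} (hC : ∀ x, C x → C (σ x)) (hσ : ∀ x, C x → σ (σ x) = x)
    (hκ : ∀ x, C x → κ (σ x) = κ x) (u : Ω → ℝ) : avg κ (tauOp C σ u) = 0 := by
  classical
  funext x
  have hz : ∑ y ∈ fib κ x, tauOp C σ u y = 0 := by
    let P : Ω → Prop := fun y => C y ∧ κ y = κ x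
    have hP : ∀ y, P y → P (σ y) := fun y hy => ⟨hC y hy.1, by rw [hκ y hy.1, hy.2]⟩
    have hP2 : ∀ y, P y → σ (σ y) = y := fun y hy => hσ y hy.1
    have h1 := sum_sigma_reindex hP hP2 u
    have e : ∑ y ∈ fib κ x, tauOp C σ u y =
        (∑ y, (if P y then u y else 0) - ∑ y, (if P y then u (σ y) else 0)) / 2 := by
      rw [← Finset.sum_sub_distrib, Finset.sum_div]
      simp only [fib, Finset.sum_filter]
      refine Finset.sum_congr rfl fun y _ => ?_
      by_cases h1 : κ y = κ x <;> by_cases h2 : C y <;> simp [P, tauOp, h1, h2]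
    rw [e, h1]
    simp
  simp [avg, hz]

end AvgSigma

section Pair

variable {Ω K₁ K₂ K₃ K₄ : Type*} [Fintype Ω] [DecidableEq K₁] [DecidableEq K₂] [DecidableEq K₃]
  [DecidableEq K₄]
variable {κp : Ω → K₁} {κq : Ω → K₂} {κA : Ω → K₃} {κB : Ω → K₄}

/-- The product structure around a pair of operators. -/
structure PairStructure (κp : Ω → K₁) (κq : Ω → K₂) (κA : Ω → K₃) (κB : Ω → K₄) : Prop where
  hpA : ∀ x y, κA x = κA y → κp x = κp y
  hqB : ∀ x y, κB x = κB y → κq x = κq y
  hAB : ∀ f : Ω → ℝ, avg κA (avg κB f) = avg κB (avg κA f)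
  hAq : ∀ f : Ω → ℝ, avg κA (avg κq f) = avg κq (avg κA f)
  hBp : ∀ f : Ω → ℝ, avg κB (avg κp f) = avg κp (avg κB f)

variable (H : PairStructure κp κq κA κB)

include H

lemma PairStructure.symm : PairStructure κq κp κB κA :=
  ⟨H.hqB, H.hpA, fun f => (H.hAB f).symm, H.hBp, H.hAq⟩

lemma PairStructure.p_A (f : Ω → ℝ) : avg κp (avg κA f) = avg κp f :=
  avg_avg_of_refines H.hpA f

lemma PairStructure.A_p (f : Ω → ℝ) : avg κA (avg κp f) = avg κp f :=
  avg_avg_of_refines' H.hpA f

lemma PairStructure.q_B (f : Ω → ℝ) : avg κq (avg κB f) = avg κq f :=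
  avg_avg_of_refines H.hqB f

lemma PairStructure.B_q (f : Ω → ℝ) : avg κB (avg κq f) = avg κq f :=
  avg_avg_of_refines' H.hqB f

/-- `Rp Rq` factors through the double average. -/
lemma PairStructure.pq_factor (f : Ω → ℝ) :
    avg κp (avg κq f) = avg κp (avg κq (avg κA (avg κB f))) := by
  rw [← H.p_A (avg κq f), ← H.q_B f, H.hAq]

/-- The double average is idempotent. -/
lemma PairStructure.pi_idem (f : Ω → ℝ) :
    avg κA (avg κB (avg κA (avg κB f))) = avg κA (avg κB f) := by
  rw [← H.hAB (avg κB f), avg_idem, avg_idem]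

lemma PairStructure.pi_sub_zero (g : Ω → ℝ) :
    avg κA (avg κB (g - avg κA (avg κB g))) = 0 := by
  rw [avg_sub, avg_sub, H.pi_idem]
  simp

/-- The double average is self-adjoint. -/
lemma PairStructure.ip_pi (u v : Ω → ℝ) :
    ip (avg κA (avg κB u)) v = ip u (avg κA (avg κB v)) := by
  rw [ip_avg_left, ip_avg_left, H.hAB]

/-- `Rq` and the double average commute. -/
lemma PairStructure.pi_q (u : Ω → ℝ) :
    avg κA (avg κB (avg κq u)) = avg κq (avg κA (avg κB u)) := by
  rw [H.B_q, H.hAq, H.hAB u, H.q_B]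

/-- `Rp` and the double average commute. -/
lemma PairStructure.pi_p (u : Ω → ℝ) :
    avg κA (avg κB (avg κp u)) = avg κp (avg κA (avg κB u)) := by
  rw [H.hBp, H.A_p, H.p_A]

lemma PairStructure.pi_coavg_p (u : Ω → ℝ) :
    avg κA (avg κB (coavg κp u)) = coavg κp (avg κA (avg κB u)) := by
  simp only [coavg, avg_sub, H.pi_p]

lemma PairStructure.pi_coavg_q (u : Ω → ℝ) :
    avg κA (avg κB (coavg κq u)) = coavg κq (avg κA (avg κB u)) := by
  simp only [coavg, avg_sub, H.pi_q]

/-- Orthogonal decomposition of the bilinear form along the double average. -/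
lemma PairStructure.decomp (g : Ω → ℝ) :
    ip (coavg κp g) (coavg κq g) =
      ip (coavg κp (avg κA (avg κB g))) (coavg κq (avg κA (avg κB g))) +
      ip (coavg κp (g - avg κA (avg κB g))) (coavg κq (g - avg κA (avg κB g))) := by
  set h := avg κA (avg κB g) with hh
  set g' := g - h with hg'
  have hg : g = h + g' := by simp [hg']
  have hπh : avg κA (avg κB h) = h := H.pi_idem g
  have hπg' : avg κA (avg κB g') = 0 := H.pi_sub_zero g
  have x1 : ip (coavg κp h) (coavg κq g') = 0 := by
    have e : coavg κp h = avg κA (avg κB (coavg κp h)) := by rw [H.pi_coavg_p, hπh]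
    rw [e, H.ip_pi, H.pi_coavg_q, hπg', coavg_zero, ip_zero_right]
  have x2 : ip (coavg κp g') (coavg κq h) = 0 := by
    have e : coavg κq h = avg κA (avg κB (coavg κq h)) := by rw [H.pi_coavg_q, hπh]
    rw [e, ← H.ip_pi, H.pi_coavg_p, hπg', coavg_zero, ip_zero_left]
  conv_lhs => rw [hg, coavg_add, coavg_add]
  rw [ip_add_left, ip_add_right, ip_add_right, x1, x2]
  ring

omit H in
/-- If two averaging operators commute on `g`, the bilinear form at `g` is nonnegative. -/
lemma ip_coavg_nonneg_of_comm (g : Ω → ℝ) (hc : avg κp (avg κq g) = avg κq (avg κp g)) :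
    0 ≤ ip (coavg κp g) (coavg κq g) := by
  have hc' : coavg κp (coavg κq g) = coavg κq (coavg κp g) := by
    simp only [coavg, avg_sub, hc]
    abel
  have hid : coavg κq (coavg κq g) = coavg κq g := by
    simp only [coavg, avg_sub, avg_idem]
    abel
  have h := ip_self_nonneg (coavg κp (coavg κq g))
  rw [ip_coavg_coavg] at h
  rw [hc', ip_coavg_left, hid] at h
  exact h

end Pair

section Center

variable {Ω K₁ K₂ K₃ K₄ : Type*} [Fintype Ω] [DecidableEq K₁] [DecidableEq K₂] [DecidableEq K₃]
  [DecidableEq K₄]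
variable {κp : Ω → K₁} {κq : Ω → K₂} {κA : Ω → K₃} {κB : Ω → K₄}
variable {C : Ω → Prop} [DecidablePred C] {σ : Ω → Ω}

/-- Compatibility of a partial involution with the four keys. -/
structure CenterStructure (C : Ω → Prop) (σ : Ω → Ω) (κp : Ω → K₁) (κq : Ω → K₂) (κA : Ω → K₃)
    (κB : Ω → K₄) : Prop where
  hC : ∀ x, C x → C (σ x)
  hσ : ∀ x, C x → σ (σ x) = x
  hσp : ∀ x, C x → κp (σ x) = κp x
  hσq : ∀ x, C x → κq (σ x) = κq x
  hσA : ∀ x y, C x → κA y = κA x → C y ∧ κA (σ y) = κA (σ x)
  hσB : ∀ x y, C x → κB y = κB x → C y ∧ κB (σ y) = κB (σ x)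

lemma CenterStructure.symm (S : CenterStructure C σ κp κq κA κB) :
    CenterStructure C σ κq κp κB κA :=
  ⟨S.hC, S.hσ, S.hσq, S.hσp, S.hσB, S.hσA⟩

/-- The cross term attached to the operator `Rp`: the square norm of the symmetrised `κA`-average
of `(I-Rp) g` on the centre. -/
noncomputable def crossTerm (C : Ω → Prop) [DecidablePred C] (σ : Ω → Ω) (κA : Ω → K₃)
    (κp : Ω → K₁) (g : Ω → ℝ) : ℝ :=
  ip (symOp C σ (avg κA (coavg κp g))) (symOp C σ (avg κA (coavg κp g)))

variable (H : PairStructure κp κq κA κB) (S : CenterStructure C σ κp κq κA κB)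

include H S

/-- The commuting remainder dominates the energy of the involution. -/
lemma bessel_part (g' : Ω → ℝ) (hπ : avg κA (avg κB g') = 0) :
    ip (tauOp C σ g') (tauOp C σ g') ≤ ip (coavg κp g') (coavg κq g') := by
  set a := avg κp g' with ha
  set b := avg κq g' with hb
  set w := tauOp C σ g' with hw
  have hab : ip a b = 0 := by
    rw [ha, ip_avg_left, hb, H.pq_factor, hπ, avg_zero, avg_zero, ip_zero_right]
  have haw : ip a w = 0 := by
    rw [ha, ip_avg_left, hw, avg_tauOp_zero S.hC S.hσ S.hσp, ip_zero_right]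
  have hbw : ip b w = 0 := by
    rw [hb, ip_avg_left, hw, avg_tauOp_zero S.hC S.hσ S.hσq, ip_zero_right]
  have haa : ip a g' = ip a a := (ip_avg_avg κp g' g').symm
  have hbb : ip b g' = ip b b := (ip_avg_avg κq g' g').symm
  have hww : ip w g' = ip w w := (ip_tauOp_self S.hC S.hσ g' g').symm
  have h0 := ip_self_nonneg (g' - a - b - w)
  simp only [ip_sub_left, ip_sub_right] at h0
  have e1 := ip_comm g' a
  have e2 := ip_comm g' b
  have e3 := ip_comm g' w
  have e4 := ip_comm b a
  have e5 := ip_comm w a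
  have e6 := ip_comm w b
  have goal : ip (coavg κp g') (coavg κq g') = ip g' g' - ip a a - ip b b := by
    simp only [coavg, ← ha, ← hb, ip_sub_left, ip_sub_right]
    linarith
  rw [goal]
  linarith

/-- Splitting of the energy along the double average. -/
lemma tau_split (g : Ω → ℝ) :
    ip (tauOp C σ g) (tauOp C σ g) =
      ip (tauOp C σ (avg κA (avg κB g))) (tauOp C σ (avg κA (avg κB g))) +
      ip (tauOp C σ (g - avg κA (avg κB g))) (tauOp C σ (g - avg κA (avg κB g))) := by
  set h := avg κA (avg κB g) with hh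
  set g' := g - h with hg'
  have hπg' : avg κA (avg κB g') = 0 := H.pi_sub_zero g
  have hcomm : tauOp C σ h = avg κA (avg κB (tauOp C σ g)) := by
    rw [avg_tauOp S.hC S.hσ S.hσB, avg_tauOp S.hC S.hσ S.hσA]
  have hlin : tauOp C σ g = tauOp C σ h + tauOp C σ g' := by
    funext x
    simp only [tauOp, Pi.add_apply, hg', Pi.sub_apply]
    by_cases hx : C x <;> simp [hx]
    ring
  have hx : ip (tauOp C σ h) (tauOp C σ g') = 0 := by
    rw [ip_tauOp_self S.hC S.hσ, hcomm, H.ip_pi, hπg', ip_zero_right]
  have hx' : ip (tauOp C σ g') (tauOp C σ h) = 0 := by rw [ip_comm]; exact hx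
  conv_lhs => rw [hlin]
  rw [ip_add_left, ip_add_right, ip_add_right, hx, hx']
  ring

omit H in
/-- Reduction of the bilinear form at `h` to the centre. -/
lemma center_form (h : Ω → ℝ)
    (hoff : ∀ x, ¬ C x → coavg κp h x * coavg κq h x = 0) :
    ip (coavg κp h) (coavg κq h) =
      ip (tauOp C σ h) (tauOp C σ h) +
        ∑ x, (if C x then (symOp C σ h x - avg κp h x) * (symOp C σ h x - avg κq h x) else 0) := by
  classical
  have h1 : ip (coavg κp h) (coavg κq h) =
      ∑ x, (if C x then (h x - avg κp h x) * (h x - avg κq h x) else 0) := by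
    unfold ip
    refine Finset.sum_congr rfl fun x _ => ?_
    by_cases hx : C x
    · simp [hx, coavg]
    · simp [hx, hoff x hx]
  let F : Ω → ℝ := fun x => tauOp C σ h x * (2 * symOp C σ h x - avg κp h x - avg κq h x)
  have hF : ∑ x, (if C x then F x else 0) = 0 := by
    have hr := sum_sigma_reindex S.hC S.hσ F
    have hneg : ∀ x, (if C x then F (σ x) else 0) = - (if C x then F x else 0) := by
      intro x
      by_cases hx : C x
      · have hx' := S.hC x hx
        have e1 : avg κp h (σ x) = avg κp h x := avg_congr h (S.hσp x hx)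
        have e2 : avg κq h (σ x) = avg κq h x := avg_congr h (S.hσq x hx)
        simp only [hx, if_true, F, tauOp, symOp, hx', S.hσ x hx, e1, e2]
        ring
      · simp [hx]
    simp only [hneg, Finset.sum_neg_distrib] at hr
    linarith
  have hτ : ip (tauOp C σ h) (tauOp C σ h) = ∑ x, (if C x then (tauOp C σ h x) ^ 2 else 0) := by
    unfold ip
    refine Finset.sum_congr rfl fun x _ => ?_
    by_cases hx : C x
    · simp [hx, sq]
    · simp [hx, tauOp]
  have key : ∀ x, (if C x then (h x - avg κp h x) * (h x - avg κq h x) else 0) =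
      (if C x then (tauOp C σ h x) ^ 2 else 0) +
      (if C x then (symOp C σ h x - avg κp h x) * (symOp C σ h x - avg κq h x) else 0) +
      (if C x then F x else 0) := by
    intro x
    by_cases hx : C x
    · simp only [hx, if_true, F, tauOp, symOp]
      ring
    · simp [hx]
  rw [h1, hτ, Finset.sum_congr rfl (fun x _ => key x), Finset.sum_add_distrib,
    Finset.sum_add_distrib, hF, add_zero]

/-- The symmetrised part of `h - Rp h` on the centre is bounded by the cross term. -/
lemma cross_le (g : Ω → ℝ) :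
    ∑ x, (if C x then (symOp C σ (avg κA (avg κB g)) x - avg κp (avg κA (avg κB g)) x) ^ 2 else 0) ≤
      crossTerm C σ κA κp g := by
  classical
  set h := avg κA (avg κB g) with hh
  set P := coavg κp g with hP
  set w := symOp C σ (avg κA P) with hw
  have e0 : h - avg κp h = avg κB (avg κA P) := by
    rw [hP, ← H.hAB, H.pi_coavg_p]
    rfl
  have e1 : ∀ x, C x → symOp C σ h x - avg κp h x = avg κB w x := by
    intro x hx
    have hx' := S.hC x hx
    have ea : avg κp h (σ x) = avg κp h x := avg_congr h (S.hσp x hx)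
    rw [hw, avg_symOp_of_center S.hC S.hσ S.hσB _ hx]
    have e2 : avg κB (avg κA P) x = h x - avg κp h x := by rw [← e0]; rfl
    have e3 : avg κB (avg κA P) (σ x) = h (σ x) - avg κp h (σ x) := by rw [← e0]; rfl
    rw [e2, e3, ea]
    simp only [symOp, hx, if_true]
    ring
  calc ∑ x, (if C x then (symOp C σ h x - avg κp h x) ^ 2 else 0)
      ≤ ∑ x, (avg κB w x) * (avg κB w x) := by
        refine Finset.sum_le_sum fun x _ => ?_
        by_cases hx : C x
        · simp only [hx, if_true, e1 x hx]
          exact le_of_eq (sq _)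
        · simp only [hx, if_false]
          exact mul_self_nonneg _
    _ = ip (avg κB w) (avg κB w) := rfl
    _ ≤ ip w w := ip_avg_le κB w

/-- The main inequality for a function whose double average vanishes off the centre in the product
sense. -/
theorem pair_main (g : Ω → ℝ)
    (hoff : ∀ x, ¬ C x → coavg κp (avg κA (avg κB g)) x * coavg κq (avg κA (avg κB g)) x = 0) :
    2 * ip (tauOp C σ g) (tauOp C σ g) ≤
      2 * ip (coavg κp g) (coavg κq g) + crossTerm C σ κA κp g + crossTerm C σ κB κq g := by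
  classical
  set h := avg κA (avg κB g) with hh
  have h1 := H.decomp g
  have h2 := tau_split H S g
  have h3 := bessel_part H S (g - avg κA (avg κB g)) (H.pi_sub_zero g)
  have h4 := center_form S h hoff
  have h5 := cross_le H S g
  have h6 := cross_le H.symm S.symm g
  rw [← H.hAB g] at h6
  simp only [← hh] at h1 h2 h3 h4 h5 h6
  have h7 : 0 ≤ 2 * ∑ x, (if C x then (symOp C σ h x - avg κp h x) * (symOp C σ h x - avg κq h x) else 0)
      + ∑ x, (if C x then (symOp C σ h x - avg κp h x) ^ 2 else 0)
      + ∑ x, (if C x then (symOp C σ h x - avg κq h x) ^ 2 else 0) := by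
    rw [Finset.mul_sum, ← Finset.sum_add_distrib, ← Finset.sum_add_distrib]
    refine Finset.sum_nonneg fun x _ => ?_
    by_cases hx : C x
    · simp only [hx, if_true]
      nlinarith [sq_nonneg ((symOp C σ h x - avg κp h x) + (symOp C σ h x - avg κq h x))]
    · simp [hx]
  rw [h1, h2, h4]
  linarith

omit H S [DecidablePred C] in
/-- Averaging commutes with multiplication by the indicator of an invariant set. -/
lemma avg_ind {Ω K : Type*} [Fintype Ω] [DecidableEq K] {κ : Ω → K} (T : Ω → Prop)
    [DecidablePred T] (hT : ∀ x y, κ x = κ y → (T x ↔ T y)) (u : Ω → ℝ) :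
    avg κ (fun x => if T x then u x else 0) = fun x => if T x then avg κ u x else 0 := by
  funext x
  by_cases hx : T x
  · simp only [hx, if_true]
    unfold avg
    congr 1
    refine Finset.sum_congr rfl fun y hy => ?_
    have : T y := (hT y x (mem_fib.1 hy)).2 hx
    simp [this]
  · simp only [hx, if_false]
    unfold avg
    rw [Finset.sum_eq_zero, zero_div]
    intro y hy
    have : ¬ T y := fun h => hx ((hT y x (mem_fib.1 hy)).1 h)
    simp [this]

omit H S [DecidablePred C] in
lemma coavg_ind {Ω K : Type*} [Fintype Ω] [DecidableEq K] {κ : Ω → K} (T : Ω → Prop)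
    [DecidablePred T] (hT : ∀ x y, κ x = κ y → (T x ↔ T y)) (u : Ω → ℝ) :
    coavg κ (fun x => if T x then u x else 0) = fun x => if T x then coavg κ u x else 0 := by
  funext x
  simp only [coavg, Pi.sub_apply, avg_ind T hT u]
  by_cases hx : T x <;> simp [hx]

omit H S in
lemma crossTerm_ind {Ω K K' : Type*} [Fintype Ω] [DecidableEq K] [DecidableEq K'] {C : Ω → Prop}
    [DecidablePred C] {σ : Ω → Ω} {κ : Ω → K} {κ' : Ω → K'} (hC : ∀ x, C x → C (σ x))
    (T : Ω → Prop) [DecidablePred T] (hCT : ∀ x, C x → T x)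
    (hTκ : ∀ x y, κ x = κ y → (T x ↔ T y)) (hTκ' : ∀ x y, κ' x = κ' y → (T x ↔ T y))
    (f : Ω → ℝ) :
    crossTerm C σ κ κ' f = crossTerm C σ κ κ' (fun x => if T x then f x else 0) := by
  unfold crossTerm
  have hc : coavg κ' (fun x => if T x then f x else 0) = fun x => if T x then coavg κ' f x else 0 :=
    coavg_ind T hTκ' f
  have e : symOp C σ (avg κ (coavg κ' f)) =
      symOp C σ (avg κ (coavg κ' (fun x => if T x then f x else 0))) := by
    rw [hc, avg_ind T hTκ]
    funext x
    by_cases hx : C x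
    · have h1 := hCT x hx
      have h2 := hCT _ (hC x hx)
      simp [symOp, hx, h1, h2]
    · simp [symOp, hx]
  rw [e]

/-- The inequality for an arbitrary function, with a part `T` carrying the non-commutation. -/
theorem pair_general (T : Ω → Prop) [DecidablePred T]
    (hTp : ∀ x y, κp x = κp y → (T x ↔ T y)) (hTq : ∀ x y, κq x = κq y → (T x ↔ T y))
    (hCT : ∀ x, C x → T x)
    (hoff : ∀ x, ¬ C x → T x →
      (∀ y, κq y = κq x → κB y = κB x) ∨ (∀ y, κp y = κp x → κA y = κA x))
    (hcomm : ∀ (u : Ω → ℝ) x, ¬ T x → avg κp (avg κq u) x = avg κq (avg κp u) x)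
    (f : Ω → ℝ) :
    2 * ip (tauOp C σ f) (tauOp C σ f) ≤
      2 * ip (coavg κp f) (coavg κq f) + crossTerm C σ κA κp f + crossTerm C σ κB κq f := by
  classical
  have hTA : ∀ x y, κA x = κA y → (T x ↔ T y) := fun x y h => hTp x y (H.hpA x y h)
  have hTB : ∀ x y, κB x = κB y → (T x ↔ T y) := fun x y h => hTq x y (H.hqB x y h)
  have hnTp : ∀ x y, κp x = κp y → (¬ T x ↔ ¬ T y) := fun x y h => not_congr (hTp x y h)
  have hnTq : ∀ x y, κq x = κq y → (¬ T x ↔ ¬ T y) := fun x y h => not_congr (hTq x y h)
  set g : Ω → ℝ := fun x => if T x then f x else 0 with hg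
  set g₀ : Ω → ℝ := fun x => if ¬ T x then f x else 0 with hg₀
  have hf : f = g + g₀ := by
    funext x
    by_cases hx : T x <;> simp [hg, hg₀, hx]
  -- the energy and cross terms only see `g`
  have hτ : tauOp C σ f = tauOp C σ g := by
    funext x
    by_cases hx : C x
    · have h1 := hCT x hx
      have h2 := hCT _ (S.hC x hx)
      simp [tauOp, hx, hg, h1, h2]
    · simp [tauOp, hx]
  have hcoavg_p : coavg κp g = fun x => if T x then coavg κp f x else 0 := coavg_ind T hTp f
  have hcoavg_q : coavg κq g = fun x => if T x then coavg κq f x else 0 := coavg_ind T hTq f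
  -- the bilinear form splits
  have hsplit : ip (coavg κp f) (coavg κq f) =
      ip (coavg κp g) (coavg κq g) + ip (coavg κp g₀) (coavg κq g₀) := by
    have hcoavg_p0 : coavg κp g₀ = fun x => if ¬ T x then coavg κp f x else 0 :=
      coavg_ind (fun x => ¬ T x) hnTp f
    have hcoavg_q0 : coavg κq g₀ = fun x => if ¬ T x then coavg κq f x else 0 :=
      coavg_ind (fun x => ¬ T x) hnTq f
    rw [hcoavg_p, hcoavg_q, hcoavg_p0, hcoavg_q0]
    unfold ip
    rw [← Finset.sum_add_distrib]
    refine Finset.sum_congr rfl fun x _ => ?_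
    by_cases hx : T x <;> simp [hx]
  -- the second part is nonnegative
  have hnn : 0 ≤ ip (coavg κp g₀) (coavg κq g₀) := by
    apply ip_coavg_nonneg_of_comm
    funext x
    by_cases hx : T x
    · have e1 : avg κq g₀ = fun x => if ¬ T x then avg κq f x else 0 :=
        avg_ind (fun x => ¬ T x) hnTq f
      have e2 : avg κp g₀ = fun x => if ¬ T x then avg κp f x else 0 :=
        avg_ind (fun x => ¬ T x) hnTp f
      rw [e1, e2, avg_ind (fun x => ¬ T x) hnTp, avg_ind (fun x => ¬ T x) hnTq]
      simp [hx]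
    · exact hcomm g₀ x hx
  -- the off-centre condition for `g`
  have hoff' : ∀ x, ¬ C x → coavg κp (avg κA (avg κB g)) x * coavg κq (avg κA (avg κB g)) x = 0 := by
    intro x hx
    set h := avg κA (avg κB g) with hh
    have hh' : h = fun x => if T x then avg κA (avg κB f) x else 0 := by
      rw [hh, hg, avg_ind T hTB, avg_ind T hTA]
    by_cases hxT : T x
    · rcases hoff x hx hxT with h1 | h1
      · have hinv : ∀ y, κB y = κB x → h y = h x := by
          intro y hy
          have : h = avg κB (avg κA g) := H.hAB g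
          rw [this]
          exact avg_congr _ hy
        have : avg κq h x = h x := by
          unfold avg
          rw [Finset.sum_congr rfl (fun y hy => hinv y (h1 y (mem_fib.1 hy)))]
          simp only [Finset.sum_const, nsmul_eq_mul]
          exact mul_div_cancel_left₀ _ (card_fib_ne κq x)
        have e : coavg κq h x = 0 := by rw [coavg_apply, this, sub_self]
        rw [e, mul_zero]
      · have hinv : ∀ y, κA y = κA x → h y = h x := by
          intro y hy
          exact avg_congr _ hy
        have : avg κp h x = h x := by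
          unfold avg
          rw [Finset.sum_congr rfl (fun y hy => hinv y (h1 y (mem_fib.1 hy)))]
          simp only [Finset.sum_const, nsmul_eq_mul]
          exact mul_div_cancel_left₀ _ (card_fib_ne κp x)
        have e : coavg κp h x = 0 := by rw [coavg_apply, this, sub_self]
        rw [e, zero_mul]
    · have e : coavg κp h = fun x => if T x then coavg κp (avg κA (avg κB f)) x else 0 := by
        rw [hh']
        exact coavg_ind T hTp _
      rw [e]
      simp [hxT]
  have hmain := pair_main H S g hoff'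
  rw [hτ, hsplit, crossTerm_ind S.hC T hCT hTA hTp f, crossTerm_ind S.hC T hCT hTB hTq f]
  linarith

end Center

end Vale.Agent.Lib.P335
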