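import Vale.Agent.Lib.P335.RowDefs
import Vale.Agent.Lib.P335.PairAbs

/-!
Instantiation of the abstract pair analysis on `Rz d`, for two disjoint vertex pairs.
-/

namespace Vale.Agent.Lib.P335

open Finset

variable {n : ℕ} {d : Fin n → ℕ}

/-- Four distinct vertices. -/
structure D4 (i j k l : Fin n) : Prop where
  ij : i ≠ j
  ik : i ≠ k
  il : i ≠ l
  jk : j ≠ k
  jl : j ≠ l
  kl : k ≠ l

lemma D4.swap {i j k l : Fin n} (h : D4 i j k l) : D4 k l i j :=
  ⟨h.kl, h.ik.symm, h.jk.symm, h.il.symm, h.jl.symm, h.ij⟩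

/-- The slots of the rows `i`, `j` going to vertices outside `{i,j,k,l}`. -/
def outerSlots (i j k l : Fin n) : Gr n :=
  univ.filter fun e => ∃ m, m ≠ i ∧ m ≠ j ∧ m ≠ k ∧ m ≠ l ∧ (e = s(i, m) ∨ e = s(j, m))

lemma mem_outerSlots {i j k l : Fin n} {e : Sym2 (Fin n)} :
    e ∈ outerSlots i j k l ↔ ∃ m, m ≠ i ∧ m ≠ j ∧ m ≠ k ∧ m ≠ l ∧ (e = s(i, m) ∨ e = s(j, m)) := by
  simp [outerSlots]

lemma mem_blockSlots {i j k l : Fin n} {e : Sym2 (Fin n)} :
    e ∈ blockSlots i j k l ↔ e = s(i, k) ∨ e = s(i, l) ∨ e = s(j, k) ∨ e = s(j, l) := by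
  simp [blockSlots]

lemma blockSlots_swap (i j k l : Fin n) : blockSlots k l i j = blockSlots i j k l := by
  ext e
  simp only [mem_blockSlots, Sym2.eq_swap (a := k) (b := i), Sym2.eq_swap (a := k) (b := j),
    Sym2.eq_swap (a := l) (b := i), Sym2.eq_swap (a := l) (b := j)]
  tauto

/-- A block slot is not an outer slot of the rows `i`, `j`. -/
lemma block_not_outer {i j k l : Fin n} (h : D4 i j k l) {e : Sym2 (Fin n)}
    (he : e ∈ blockSlots i j k l) : e ∉ outerSlots i j k l := by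
  obtain ⟨hij, hik, hil, hjk, hjl, hkl⟩ := h
  rw [mem_blockSlots] at he
  rw [mem_outerSlots]
  rintro ⟨m, h1, h2, h3, h4, h5⟩
  rcases he with rfl | rfl | rfl | rfl <;> rcases h5 with h5 | h5 <;>
    simp only [Sym2.eq_iff] at h5 <;> rcases h5 with ⟨h6, h7⟩ | ⟨h6, h7⟩ <;> simp_all

/-- A block slot is a row slot. -/
lemma block_sub_row {i j k l : Fin n} (h : D4 i j k l) : blockSlots i j k l ⊆ rowSlots i j := by
  obtain ⟨hij, hik, hil, hjk, hjl, hkl⟩ := h
  intro e he
  rw [mem_blockSlots] at he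
  rw [mem_rowSlots]
  rcases he with rfl | rfl | rfl | rfl
  · exact ⟨k, hik.symm, hjk.symm, Or.inl rfl⟩
  · exact ⟨l, hil.symm, hjl.symm, Or.inl rfl⟩
  · exact ⟨k, hik.symm, hjk.symm, Or.inr rfl⟩
  · exact ⟨l, hil.symm, hjl.symm, Or.inr rfl⟩

lemma outer_sub_row {i j k l : Fin n} : outerSlots i j k l ⊆ rowSlots i j := by
  intro e he
  rw [mem_outerSlots] at he
  rw [mem_rowSlots]
  obtain ⟨m, h1, h2, _, _, h5⟩ := he
  exact ⟨m, h1, h2, h5⟩

lemma row_eq_outer_or_block {i j k l : Fin n} {e : Sym2 (Fin n)} (he : e ∈ rowSlots i j) :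
    e ∈ outerSlots i j k l ∨ e ∈ blockSlots i j k l := by
  rw [mem_rowSlots] at he
  obtain ⟨c, h1, h2, h3⟩ := he
  by_cases hck : c = k
  · subst hck
    right
    rw [mem_blockSlots]
    rcases h3 with h3 | h3 <;> simp [h3]
  by_cases hcl : c = l
  · subst hcl
    right
    rw [mem_blockSlots]
    rcases h3 with h3 | h3 <;> simp [h3]
  left
  rw [mem_outerSlots]
  exact ⟨c, h1, h2, hck, hcl, h3⟩

/-- An outer slot of the rows `i`, `j` is not a slot of the rows `k`, `l`. -/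
lemma outer_disjoint_row {i j k l : Fin n} (h : D4 i j k l) :
    Disjoint (outerSlots i j k l) (rowSlots k l) := by
  obtain ⟨hij, hik, hil, hjk, hjl, hkl⟩ := h
  rw [Finset.disjoint_left]
  intro e he he'
  rw [mem_outerSlots] at he
  rw [mem_rowSlots] at he'
  obtain ⟨m, h1, h2, h3, h4, h5⟩ := he
  obtain ⟨c, h6, h7, h8⟩ := he'
  rcases h5 with rfl | rfl <;> rcases h8 with h8 | h8 <;>
    simp only [Sym2.eq_iff] at h8 <;> rcases h8 with ⟨h9, h10⟩ | ⟨h9, h10⟩ <;> simp_all

lemma outer_disjoint_outer {i j k l : Fin n} (h : D4 i j k l) :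
    Disjoint (outerSlots i j k l) (outerSlots k l i j) :=
  Finset.disjoint_of_subset_right outer_sub_row (outer_disjoint_row h)

/-- The product structure for two disjoint vertex pairs. -/
lemma pairStructure {i j k l : Fin n} (h : D4 i j k l) :
    PairStructure (offKey (d := d) (rowSlots i j)) (offKey (d := d) (rowSlots k l))
      (offKey (d := d) (outerSlots i j k l)) (offKey (d := d) (outerSlots k l i j)) where
  hpA := fun _ _ hk => offKey_mono outer_sub_row hk
  hqB := fun _ _ hk => offKey_mono outer_sub_row hk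
  hAB := fun f => resample_comm (outer_disjoint_outer h) f
  hAq := fun f => resample_comm (outer_disjoint_row h) f
  hBp := fun f => resample_comm (outer_disjoint_row h.swap) f

/-- Splitting off two slots from a degree. -/
lemma degreeIn_split (E : Gr n) {a b : Fin n} (hab : a ≠ b) (c : Fin n) :
    degreeIn E c = (if s(c, a) ∈ E then 1 else 0) + (if s(c, b) ∈ E then 1 else 0) +
      ∑ u ∈ ((univ : Finset (Fin n)).erase a).erase b, (if s(c, u) ∈ E then 1 else 0) := by
  rw [degreeIn_eq_sum, ← Finset.add_sum_erase univ _ (Finset.mem_univ a),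
    ← Finset.add_sum_erase (univ.erase a) _ (Finset.mem_erase.2 ⟨hab.symm, Finset.mem_univ b⟩)]
  ring

lemma degreeIn_eq_of_two_slots {E E' : Gr n} {a b c : Fin n} (hab : a ≠ b)
    (h : ∀ u, u ≠ a → u ≠ b → (s(c, u) ∈ E ↔ s(c, u) ∈ E'))
    (hs : (if s(c, a) ∈ E then 1 else 0) + (if s(c, b) ∈ E then 1 else 0) =
      (if s(c, a) ∈ E' then 1 else 0) + (if s(c, b) ∈ E' then (1:ℕ) else 0)) :
    degreeIn E c = degreeIn E' c := by
  rw [degreeIn_split E hab c, degreeIn_split E' hab c, hs]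
  congr 1
  refine Finset.sum_congr rfl fun u hu => ?_
  simp only [Finset.mem_erase, Finset.mem_univ, and_true] at hu
  simp only [h u hu.2 hu.1]

lemma two_slots_of_degree {E E' : Gr n} {a b c : Fin n} (hab : a ≠ b)
    (h : ∀ u, u ≠ a → u ≠ b → (s(c, u) ∈ E ↔ s(c, u) ∈ E'))
    (hd : degreeIn E c = degreeIn E' c) :
    (if s(c, a) ∈ E then 1 else 0) + (if s(c, b) ∈ E then 1 else 0) =
      (if s(c, a) ∈ E' then 1 else 0) + (if s(c, b) ∈ E' then (1:ℕ) else 0) := by
  rw [degreeIn_split E hab c, degreeIn_split E' hab c] at hd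
  have hs : ∑ u ∈ ((univ : Finset (Fin n)).erase a).erase b, (if s(c, u) ∈ E then 1 else 0) =
      ∑ u ∈ ((univ : Finset (Fin n)).erase a).erase b, (if s(c, u) ∈ E' then (1:ℕ) else 0) := by
    refine Finset.sum_congr rfl fun u hu => ?_
    simp only [Finset.mem_erase, Finset.mem_univ, and_true] at hu
    simp only [h u hu.2 hu.1]
  omega

/-- Resampling the rows `a`, `b` preserves the sum in each column `c` outside `{a,b}`. -/
lemma column_sum {a b c : Fin n} (hab : a ≠ b) (hca : c ≠ a) (hcb : c ≠ b) {G G' : Rz d}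
    (hk : offKey (rowSlots a b) G = offKey (rowSlots a b) G') :
    (if s(a, c) ∈ G.1 then 1 else 0) + (if s(b, c) ∈ G.1 then 1 else 0) =
      (if s(a, c) ∈ G'.1 then 1 else 0) + (if s(b, c) ∈ G'.1 then (1:ℕ) else 0) := by
  have := two_slots_of_degree (E := G.1) (E' := G'.1) (c := c) hab ?_
    ((G.2.2 c).trans (G'.2.2 c).symm)
  · simpa only [Sym2.eq_swap (a := c)] using this
  · intro u hua hub
    refine (offKey_eq_iff.1 hk) _ ?_
    rw [mem_rowSlots]
    rintro ⟨m, h1, h2, h3⟩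
    rcases h3 with h3 | h3 <;> simp only [Sym2.eq_iff] at h3 <;>
      rcases h3 with ⟨h4, h5⟩ | ⟨h4, h5⟩ <;> simp_all

end Vale.Agent.Lib.P335
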