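import Vale.Agent.Lib.P335.Margins

namespace Vale.Agent.Lib.P335

open Finset Equiv

set_option linter.unusedSectionVars false

section CExpExtra

variable {T K : Type*} [DecidableEq K] {S : Finset T} {κ : T → K}

lemma cexp_congr_on {f g : T → ℝ} (h : ∀ x ∈ S, f x = g x) (x : T) :
    cexp S κ f x = cexp S κ g x := by
  unfold cexp
  congr 1
  apply Finset.sum_congr rfl
  intro y hy
  exact h y (mem_sfib.1 hy).1

lemma abs_cexp_le {f : T → ℝ} {Δ : ℝ} {x : T} (hx : x ∈ S) (h : ∀ y ∈ sfib S κ x, |f y| ≤ Δ) :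
    |cexp S κ f x| ≤ Δ := by
  unfold cexp
  have hpos := fib_card_pos (S := S) (κ := κ) hx
  rw [abs_div, abs_of_pos hpos, div_le_iff₀ hpos]
  calc |∑ y ∈ sfib S κ x, f y| ≤ ∑ y ∈ sfib S κ x, |f y| := abs_sum_le_sum_abs _ _
    _ ≤ ∑ _y ∈ sfib S κ x, Δ := Finset.sum_le_sum h
    _ = Δ * _ := by rw [sum_const, nsmul_eq_mul]; ring

/-- Change of variables along a bijection of `S` that respects the key classes. -/
lemma cexp_comp (π ρ : T → T) (hπ : ∀ x ∈ S, π x ∈ S) (hρ : ∀ x ∈ S, ρ x ∈ S)
    (hl : ∀ x ∈ S, ρ (π x) = x) (hr : ∀ x ∈ S, π (ρ x) = x)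
    (hκ : ∀ x ∈ S, ∀ y ∈ S, κ (π x) = κ (π y) ↔ κ x = κ y) (f : T → ℝ) {x : T} (hx : x ∈ S) :
    cexp S κ f (π x) = cexp S κ (fun y => f (π y)) x := by
  unfold cexp
  have h1 : ∑ y ∈ sfib S κ (π x), f y = ∑ y ∈ sfib S κ x, f (π y) := by
    symm
    apply Finset.sum_nbij' π ρ
    · intro y hy
      obtain ⟨hyS, hyκ⟩ := mem_sfib.1 hy
      exact mem_sfib.2 ⟨hπ y hyS, (hκ y hyS x hx).2 hyκ⟩
    · intro y hy
      obtain ⟨hyS, hyκ⟩ := mem_sfib.1 hy
      refine mem_sfib.2 ⟨hρ y hyS, ?_⟩
      rw [← hκ _ (hρ y hyS) x hx, hr y hyS]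
      exact hyκ
    · intro y hy
      exact hl y (mem_sfib.1 hy).1
    · intro y hy
      exact hr y (mem_sfib.1 hy).1
    · intro y _
      rfl
  have h2 : (sfib S κ (π x)).card = (sfib S κ x).card := by
    symm
    apply Finset.card_nbij' π ρ
    · intro y hy
      obtain ⟨hyS, hyκ⟩ := mem_sfib.1 hy
      exact mem_sfib.2 ⟨hπ y hyS, (hκ y hyS x hx).2 hyκ⟩
    · intro y hy
      obtain ⟨hyS, hyκ⟩ := mem_sfib.1 hy
      refine mem_sfib.2 ⟨hρ y hyS, ?_⟩
      rw [← hκ _ (hρ y hyS) x hx, hr y hyS]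
      exact hyκ
    · intro y hy
      exact hl y (mem_sfib.1 hy).1
    · intro y hy
      exact hr y (mem_sfib.1 hy).1
  rw [h1, h2]

lemma contraction_zero {ι : Type*} (s : Finset ι) (F : ι → ℝ) {c : ℝ} (hc : 1 < c)
    (h : ∀ Δ, (∀ j ∈ s, |F j| ≤ Δ) → ∀ j ∈ s, c * |F j| ≤ Δ) : ∀ j ∈ s, F j = 0 := by
  intro j hj
  obtain ⟨j0, hj0, hmax⟩ := Finset.exists_max_image s (fun j => |F j|) ⟨j, hj⟩
  have h1 := h |F j0| hmax j0 hj0
  have h2 : |F j0| ≤ 0 := by nlinarith [abs_nonneg (F j0)]
  have h3 := hmax j hj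
  exact abs_eq_zero.1 (le_antisymm (h3.trans h2) (abs_nonneg _))

end CExpExtra

section Tri

variable {R : Type*} [Fintype R] [DecidableEq R]

/-- `a s t` are the three distinct elements of `R`. -/
def Tri (a s t : R) : Prop := a ≠ s ∧ a ≠ t ∧ s ≠ t ∧ ∀ i, i = a ∨ i = s ∨ i = t

lemma Tri.sum_eq {a s t : R} (h : Tri a s t) {β : Type*} [AddCommMonoid β] (g : R → β) :
    ∑ i, g i = g a + g s + g t := by
  obtain ⟨h1, h2, h3, h4⟩ := h
  have hu : (univ : Finset R) = {a, s, t} := by
    ext i
    simpa using h4 i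
  rw [hu, Finset.sum_insert (by simp [h1, h2]), Finset.sum_insert (by simp [h3]),
    Finset.sum_singleton, add_assoc]

lemma exists_tri (hR : Fintype.card R = 3) (a : R) : ∃ s t, Tri a s t := by
  have h1 : ((univ : Finset R).erase a).card = 2 := by
    rw [card_erase_of_mem (mem_univ a), card_univ, hR]
  obtain ⟨s, t, hst, he⟩ := Finset.card_eq_two.1 h1
  have hs : s ∈ (univ : Finset R).erase a := by rw [he]; simp
  have ht : t ∈ (univ : Finset R).erase a := by rw [he]; simp
  refine ⟨s, t, (mem_erase.1 hs).1.symm, (mem_erase.1 ht).1.symm, hst, fun i => ?_⟩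
  by_cases hi : i = a
  · exact Or.inl hi
  · have : i ∈ (univ : Finset R).erase a := mem_erase.2 ⟨hi, mem_univ i⟩
    rw [he] at this
    simp at this
    exact Or.inr this

end Tri

section ThreeRows

variable {R C : Type*} [Fintype R] [DecidableEq R] [Fintype C] [DecidableEq C]

/-- Columns of total one. -/
def colA (c : C → ℕ) : Finset C := univ.filter (fun z => c z = 1)

/-- Columns of total two. -/
def colB (c : C → ℕ) : Finset C := univ.filter (fun z => c z = 2)

/-- Ones of row `a` on columns of total one. -/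
def uu (c : C → ℕ) (M : R → C → Bool) (a : R) : ℕ := cnt (colA c) (M a)

/-- Ones of row `a` on columns of total two. -/
def ww (c : C → ℕ) (M : R → C → Bool) (a : R) : ℕ := cnt (colB c) (M a)

/-- Zeros of row `a` on columns of total two. -/
def vv (c : C → ℕ) (M : R → C → Bool) (a : R) : ℕ := ∑ z ∈ colB c, (!(M a z)).toNat

variable {r : R → ℕ} {c : C → ℕ}

lemma col_tri {a s t : R} (hT : Tri a s t) {M : R → C → Bool} (hM : M ∈ Tables r c) (z : C) :
    (M a z).toNat + (M s z).toNat + (M t z).toNat = c z := by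
  have h := (mem_Tables.1 hM).2 z
  unfold colSum at h
  rw [hT.sum_eq] at h
  exact h

lemma row_split (hR : Fintype.card R = 3) {M : R → C → Bool} (hM : M ∈ Tables r c) (a : R) :
    r a = uu c M a + ww c M a + ∑ z, (if c z = 3 then 1 else 0) := by
  obtain ⟨s, t, hT⟩ := exists_tri hR a
  have h0 := (mem_Tables.1 hM).1 a
  rw [← h0]
  unfold rowSum uu ww cnt colA colB
  rw [Finset.sum_filter, Finset.sum_filter, ← Finset.sum_add_distrib, ← Finset.sum_add_distrib]
  apply Finset.sum_congr rfl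
  intro z _
  have hz := col_tri hT hM z
  cases ha : M a z <;> cases hs : M s z <;> cases ht : M t z <;>
    simp only [ha, hs, ht, Bool.toNat_false, Bool.toNat_true] at hz <;>
    (generalize c z = k at hz ⊢; subst hz; simp)

lemma vw_add {M : R → C → Bool} (a : R) : vv c M a + ww c M a = (colB c).card := by
  unfold vv ww cnt
  rw [← Finset.sum_add_distrib, Finset.card_eq_sum_ones]
  apply Finset.sum_congr rfl
  intro z _
  cases M a z <;> simp

/-- Row sums tie together ones on totals one and zeros on totals two. -/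
lemma uv_rel (hR : Fintype.card R = 3) {M M' : R → C → Bool} (hM : M ∈ Tables r c)
    (hM' : M' ∈ Tables r c) (a : R) : uu c M a + vv c M' a = uu c M' a + vv c M a := by
  have h1 := row_split hR hM a
  have h2 := row_split hR hM' a
  have h3 := vw_add (c := c) (M := M) a
  have h4 := vw_add (c := c) (M := M') a
  omega

lemma uu_sum {a s t : R} (hT : Tri a s t) {M : R → C → Bool} (hM : M ∈ Tables r c) :
    uu c M a + uu c M s + uu c M t = (colA c).card := by
  unfold uu cnt
  rw [← Finset.sum_add_distrib, ← Finset.sum_add_distrib, Finset.card_eq_sum_ones]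
  apply Finset.sum_congr rfl
  intro z hz
  have := col_tri hT hM z
  have h1 : c z = 1 := (mem_filter.1 hz).2
  omega

lemma vv_sum {a s t : R} (hT : Tri a s t) {M : R → C → Bool} (hM : M ∈ Tables r c) :
    vv c M a + vv c M s + vv c M t = (colB c).card := by
  unfold vv
  rw [← Finset.sum_add_distrib, ← Finset.sum_add_distrib, Finset.card_eq_sum_ones]
  apply Finset.sum_congr rfl
  intro z hz
  have := col_tri hT hM z
  have h1 : c z = 2 := (mem_filter.1 hz).2
  cases ha : M a z <;> cases hs : M s z <;> cases ht : M t z <;>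
    simp only [ha, hs, ht, Bool.toNat_false, Bool.toNat_true] at this ⊢ <;> simp <;> omega

/-- The average of `v` given row `a`. -/
noncomputable def phi (S : Finset (R → C → Bool)) (v : (R → C → Bool) → ℝ) (a : R)
    (M : R → C → Bool) : ℝ := cexp S (fun N => N a) v M

lemma phi_congr (S : Finset (R → C → Bool)) (v : (R → C → Bool) → ℝ) (a : R)
    {M N : R → C → Bool} (h : M a = N a) : phi S v a M = phi S v a N :=
  cexp_congr v h

lemma colPerm_swap_mem {M : R → C → Bool} (hM : M ∈ Tables r c) {x y : C} (h : c x = c y) :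
    colPerm (swap x y) M ∈ Tables r c := by
  apply colPerm_mem _ hM
  intro z
  by_cases hzx : z = x
  · subst hzx; simp [h]
  · by_cases hzy : z = y
    · subst hzy; simp [h]
    · rw [swap_apply_of_ne_of_ne hzx hzy]

lemma colPerm_swap_swap (x y : C) (M : R → C → Bool) :
    colPerm (swap x y) (colPerm (swap x y) M) = M := by
  funext i z
  simp [colPerm]

section Eigen

variable (hR : Fintype.card R = 3) {v : (R → C → Bool) → ℝ} {η : ℝ}
  (hev : ∀ M ∈ Tables r c, ∑ a, phi (Tables r c) v a M = η * v M)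

include hev in
lemma phi_eq {a s t : R} (hT : Tri a s t) {M : R → C → Bool} (hM : M ∈ Tables r c) :
    cexp (Tables r c) (fun N => N a)
        (fun N => phi (Tables r c) v s N + phi (Tables r c) v t N) M
      = (η - 1) * phi (Tables r c) v a M := by
  have h1 : ∀ N ∈ Tables r c, phi (Tables r c) v s N + phi (Tables r c) v t N
      = η * v N - phi (Tables r c) v a N := by
    intro N hN
    have := hev N hN
    rw [hT.sum_eq] at this
    linarith
  rw [cexp_congr_on h1, cexp_sub, cexp_smul]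
  have h2 : cexp (Tables r c) (fun N => N a) (fun y => phi (Tables r c) v a y) M
      = phi (Tables r c) v a M := cexp_cexp v hM
  rw [h2]
  unfold phi
  ring

include hR hev in
/-- Step one: the averages do not see exchanges of columns with equal totals. -/
lemma phi_swap (hη : 2 < η) :
    ∀ j ∈ (univ : Finset (C × C × R × (R → C → Bool))).filter
        (fun j => c j.1 = c j.2.1 ∧ j.2.2.2 ∈ Tables r c),
      phi (Tables r c) v j.2.2.1 (colPerm (swap j.1 j.2.1) j.2.2.2)
        - phi (Tables r c) v j.2.2.1 j.2.2.2 = 0 := by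
  apply contraction_zero _ _ (c := η - 1) (by linarith)
  rintro Δ hΔ ⟨x, y, a, M⟩ hj
  have hj' := (mem_filter.1 hj).2
  simp only at hj' ⊢
  obtain ⟨hc, hM⟩ := hj'
  have hΔ0 : 0 ≤ Δ := (abs_nonneg _).trans (hΔ _ hj)
  have hcpos : 0 < η - 1 := by linarith
  by_cases hax : M a x = M a y
  · have : colPerm (swap x y) M a = M a := comp_swap_of_eq hax
    rw [phi_congr _ _ _ this, sub_self, abs_zero, mul_zero]
    exact hΔ0
  · obtain ⟨s, t, hT⟩ := exists_tri hR a
    have hN := colPerm_swap_mem hM hc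
    have e1 := phi_eq hev hT hN
    have e2 := phi_eq hev hT hM
    have hcomp := cexp_comp (S := Tables r c) (κ := fun N : R → C → Bool => N a)
      (colPerm (swap x y)) (colPerm (swap x y))
      (fun N hN => colPerm_swap_mem hN hc) (fun N hN => colPerm_swap_mem hN hc)
      (fun N _ => colPerm_swap_swap x y N) (fun N _ => colPerm_swap_swap x y N)
      (by
        intro N₁ _ N₂ _
        constructor
        · intro h
          funext z
          have := congrFun h (swap x y z)
          simpa [colPerm] using this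
        · intro h
          funext z
          simp [colPerm, h])
      (fun N => phi (Tables r c) v s N + phi (Tables r c) v t N) hM
    rw [hcomp] at e1
    have e3 : (η - 1) * (phi (Tables r c) v a (colPerm (swap x y) M) - phi (Tables r c) v a M)
        = cexp (Tables r c) (fun N => N a)
          (fun N => (phi (Tables r c) v s (colPerm (swap x y) N)
              + phi (Tables r c) v t (colPerm (swap x y) N))
            - (phi (Tables r c) v s N + phi (Tables r c) v t N)) M := by
      rw [cexp_sub, e1, e2]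
      ring
    rw [← abs_of_pos hcpos, ← abs_mul, e3]
    apply abs_cexp_le hM
    intro ψ hψ
    obtain ⟨hψS, hψa⟩ := mem_sfib.1 hψ
    have hab : ψ a x ≠ ψ a y := by
      have e : ψ a = M a := hψa
      rw [e]; exact hax
    have hcol1 := col_tri hT hψS x
    have hcol2 := col_tri hT hψS y
    have hpar : ψ s x = ψ s y ∨ ψ t x = ψ t y := by
      have key : ∀ b1 b2 b3 b4 b5 b6 : Bool,
          b1.toNat + b2.toNat + b3.toNat = b4.toNat + b5.toNat + b6.toNat →
          b1 ≠ b4 → b2 = b5 ∨ b3 = b6 := by decide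
      exact key _ _ _ _ _ _ (hcol1.trans (hc.trans hcol2.symm)) hab
    rcases hpar with h | h
    · have h1 : colPerm (swap x y) ψ s = ψ s := comp_swap_of_eq h
      rw [phi_congr _ _ _ h1]
      have := hΔ (x, y, t, ψ) (mem_filter.2 ⟨mem_univ _, hc, hψS⟩)
      simp only at this
      convert this using 2
      ring
    · have h1 : colPerm (swap x y) ψ t = ψ t := comp_swap_of_eq h
      rw [phi_congr _ _ _ h1]
      have := hΔ (x, y, s, ψ) (mem_filter.2 ⟨mem_univ _, hc, hψS⟩)
      simp only at this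
      convert this using 2
      ring

include hR hev in
lemma phi_swap' (hη : 2 < η) {x y : C} (hc : c x = c y) (a : R) {M : R → C → Bool}
    (hM : M ∈ Tables r c) :
    phi (Tables r c) v a (colPerm (swap x y) M) = phi (Tables r c) v a M := by
  have := phi_swap hR hev hη (x, y, a, M) (mem_filter.2 ⟨mem_univ _, hc, hM⟩)
  simp only at this
  linarith

include hR hev in
/-- The averages depend only on the number of ones on columns of total one. -/
lemma phi_of_uu_eq (hη : 2 < η) {a : R} {M M' : R → C → Bool} (hM : M ∈ Tables r c)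
    (hM' : M' ∈ Tables r c) (h : uu c M a = uu c M' a) :
    phi (Tables r c) v a M = phi (Tables r c) v a M' := by
  have main : ∀ (n : ℕ) (N : R → C → Bool), N ∈ Tables r c → uu c N a = uu c M' a →
      (univ.filter (fun z => N a z = true ∧ M' a z = false)).card = n →
      phi (Tables r c) v a N = phi (Tables r c) v a M' := by
    intro n
    induction n with
    | zero =>
      intro N hN _ hn
      have hemp := Finset.card_eq_zero.1 hn
      have hle : ∀ z ∈ (univ : Finset C), (N a z).toNat ≤ (M' a z).toNat := by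
        intro z _
        have : z ∉ univ.filter (fun z => N a z = true ∧ M' a z = false) := by
          rw [hemp]; simp
        simp only [mem_filter, mem_univ, true_and, not_and, Bool.not_eq_false] at this
        cases h1 : N a z
        · simp
        · rw [this h1]
      have hsum : ∑ z, (N a z).toNat = ∑ z, (M' a z).toNat := by
        have h1 := (mem_Tables.1 hN).1 a
        have h2 := (mem_Tables.1 hM').1 a
        unfold rowSum at h1 h2
        rw [h1, h2]
      have heq := (Finset.sum_eq_sum_iff_of_le hle).1 hsum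
      apply phi_congr
      funext z
      have := heq z (mem_univ z)
      cases h1 : N a z <;> cases h2 : M' a z <;> simp_all
    | succ n ih =>
      intro N hN hu hn
      have hpos : (univ.filter (fun z => N a z = true ∧ M' a z = false)).Nonempty := by
        apply Finset.card_pos.1
        omega
      obtain ⟨x, hx⟩ := hpos
      have hx' := (mem_filter.1 hx).2
      obtain ⟨hx1, hx2⟩ := hx'
      obtain ⟨s, t, hT⟩ := exists_tri hR a
      have hc1 := col_tri hT hN x
      have hc2 := col_tri hT hM' x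
      rw [hx1] at hc1
      rw [hx2] at hc2
      simp only [Bool.toNat_true, Bool.toNat_false] at hc1 hc2
      have hbs := Bool.toNat_le (M' s x)
      have hbt := Bool.toNat_le (M' t x)
      have hcx : c x = 1 ∨ c x = 2 := by omega
      have hww : ww c N a = ww c M' a := by
        have h1 := row_split hR hN a
        have h2 := row_split hR hM' a
        omega
      have hcnt : cnt (univ.filter (fun z => c z = c x)) (N a)
          = cnt (univ.filter (fun z => c z = c x)) (M' a) := by
        rcases hcx with h1 | h1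
        · rw [h1]
          exact hu
        · rw [h1]
          exact hww
      have hy : ∃ y, c y = c x ∧ N a y = false ∧ M' a y = true := by
        by_contra hcon
        push Not at hcon
        have hlt : cnt (univ.filter (fun z => c z = c x)) (M' a)
            < cnt (univ.filter (fun z => c z = c x)) (N a) := by
          unfold cnt
          apply Finset.sum_lt_sum
          · intro z hz
            have hz' := (mem_filter.1 hz).2
            have := hcon z hz'
            cases h1 : N a z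
            · have := this h1
              simp only [ne_eq, Bool.not_eq_true] at this
              simp [this]
            · simp only [Bool.toNat_true]
              exact Bool.toNat_le _
          · exact ⟨x, mem_filter.2 ⟨mem_univ x, rfl⟩, by simp [hx1, hx2]⟩
        omega
      obtain ⟨y, hcy, hy1, hy2⟩ := hy
      have hxy : x ≠ y := by
        intro h
        rw [h, hy1] at hx1
        exact absurd hx1 (by simp)
      have hN1 : colPerm (swap x y) N ∈ Tables r c := colPerm_swap_mem hN hcy.symm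
      have hu1 : uu c (colPerm (swap x y) N) a = uu c M' a := by
        rw [← hu]
        unfold uu
        rcases hcx with h1 | h1
        · have h3 : x ∈ colA c := mem_filter.2 ⟨mem_univ _, h1⟩
          have h4 : y ∈ colA c := mem_filter.2 ⟨mem_univ _, hcy.trans h1⟩
          exact cnt_swap_in_in h3 h4 (N a)
        · have h3 : x ∉ colA c := by simp [colA, h1]
          have h4 : y ∉ colA c := by simp [colA, hcy, h1]
          exact cnt_swap_out_out h3 h4 (N a)
      have hset : (univ : Finset C).filter (fun z : C => colPerm (swap x y) N a z = true ∧ M' a z = false)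
          = (univ.filter (fun z : C => N a z = true ∧ M' a z = false)).erase x := by
        ext z
        rw [mem_filter, mem_erase, mem_filter]
        simp only [mem_univ, true_and]
        show (N a (swap x y z) = true ∧ M' a z = false) ↔ _
        by_cases hzx : z = x
        · subst hzx
          simp [hy1]
        · by_cases hzy : z = y
          · subst hzy
            simp [hy2, hzx]
          · rw [swap_apply_of_ne_of_ne hzx hzy]
            simp [hzx]
      have hcard : ((univ : Finset C).filter (fun z : C => colPerm (swap x y) N a z = true ∧ M' a z = false)).card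
          = n := by
        rw [hset, card_erase_of_mem hx, hn]
        rfl
      have := ih _ hN1 hu1 hcard
      rw [← this, phi_swap' hR hev hη hcy.symm a hN]
  exact main _ M hM h rfl

end Eigen

section Tilt

variable (hR : Fintype.card R = 3) {a r' q : R} (hT : Tri a r' q)
  {M₂ M₃ : R → C → Bool} (hM₂ : M₂ ∈ Tables r c) (hM₃ : M₃ ∈ Tables r c)
  {x y : C} (hxA : c x = 1) (hyB : c y = 2) (hx : M₂ a x = true) (hy : M₂ a y = false)
  (hrow : M₃ a = fun z => M₂ a (swap x y z))

/-- Sum over the fiber of `M₃` of `G`, restricted to the event that column `x'` has its one in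
row `q` and column `y'` has its zero in row `q`. -/
noncomputable def tiltSum (S : Finset (R → C → Bool)) (a q : R) (M₃ : R → C → Bool)
    (G : (R → C → Bool) → ℝ) (x' y' : C) : ℝ :=
  ∑ ψ ∈ sfib S (fun N => N a) M₃, if ψ q x' = true ∧ ψ q y' = false then G ψ else 0

lemma col_one_of_a {a r' q : R} (hT : Tri a r' q) {ψ : R → C → Bool} (hψ : ψ ∈ Tables r c)
    {z : C} (hz : c z = 1) (h : ψ a z = true) : ψ q z = false := by
  have := col_tri hT hψ z
  rw [hz, h] at this
  cases hq : ψ q z
  · rfl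
  · rw [hq] at this
    simp at this

lemma col_two_of_a {a r' q : R} (hT : Tri a r' q) {ψ : R → C → Bool} (hψ : ψ ∈ Tables r c)
    {z : C} (hz : c z = 2) (h : ψ a z = false) : ψ q z = true := by
  have := col_tri hT hψ z
  rw [hz, h] at this
  cases hq : ψ q z
  · rw [hq] at this
    have := Bool.toNat_le (ψ r' z)
    simp at *
    omega
  · rfl

include hT hxA hyB hx hy hrow in
lemma tilt_a (G : (R → C → Bool) → ℝ)
    (hG : ∀ N₁ ∈ Tables r c, ∀ N₂ ∈ Tables r c, uu c N₁ r' = uu c N₂ r' → G N₁ = G N₂) :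
    tiltSum (Tables r c) a q M₃ G x y = ∑ ψ ∈ sfib (Tables r c) (fun N => N a) M₂, G ψ := by
  have hne : a ≠ q := hT.2.1
  have hxy : x ≠ y := by
    intro h
    rw [h, hy] at hx
    exact absurd hx (by simp)
  have hrow2 : ∀ z, M₂ a z = M₃ a (swap x y z) := by
    intro z
    rw [hrow]
    simp
  have hM3x : M₃ a x = false := by rw [hrow]; simp [hy]
  have hM3y : M₃ a y = true := by rw [hrow]; simp [hx]
  unfold tiltSum
  rw [← Finset.sum_filter]
  apply Finset.sum_nbij' (sw a q x y) (sw a q x y)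
  · intro ψ hψ
    obtain ⟨hψ1, hψ2, hψ3⟩ := mem_filter.1 hψ
    obtain ⟨hψS, hψa⟩ := mem_sfib.1 hψ1
    have e : ψ a = M₃ a := hψa
    refine mem_sfib.2 ⟨sw_mem hne hψS ?_ ?_ ?_, ?_⟩
    · rw [e, hM3x, hM3y]; simp
    · rw [hψ2, hψ3]; simp
    · rw [e, hM3x, hψ2]; simp
    · show sw a q x y ψ a = M₂ a
      rw [sw_apply_left, e]
      funext z
      rw [hrow2]
  · intro ψ hψ
    obtain ⟨hψS, hψa⟩ := mem_sfib.1 hψ
    have e : ψ a = M₂ a := hψa
    have hq1 : ψ q x = false := col_one_of_a hT hψS hxA (by rw [e, hx])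
    have hq2 : ψ q y = true := col_two_of_a hT hψS hyB (by rw [e, hy])
    refine mem_filter.2 ⟨mem_sfib.2 ⟨sw_mem hne hψS ?_ ?_ ?_, ?_⟩, ?_, ?_⟩
    · rw [e, hx, hy]; simp
    · rw [hq1, hq2]; simp
    · rw [e, hx, hq1]; simp
    · show sw a q x y ψ a = M₃ a
      rw [sw_apply_left, e, hrow]
    · rw [sw_apply_right]; simp [hq2]
    · rw [sw_apply_right]; simp [hq1]
  · intro ψ _
    exact sw_sw a q x y ψ
  · intro ψ _
    exact sw_sw a q x y ψ
  · intro ψ hψ
    obtain ⟨hψ1, hψ2, hψ3⟩ := mem_filter.1 hψ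
    obtain ⟨hψS, hψa⟩ := mem_sfib.1 hψ1
    have e : ψ a = M₃ a := hψa
    apply hG _ hψS _ (sw_mem hne hψS ?_ ?_ ?_)
    · unfold uu
      rw [sw_apply_other x y ψ hT.1.symm hT.2.2.1]
    · rw [e, hM3x, hM3y]; simp
    · rw [hψ2, hψ3]; simp
    · rw [e, hM3x, hψ2]; simp

/-- Reindexing a sum over a fiber of row `a` along a column permutation. -/
lemma sum_fib_colPerm {a : R} {M₃ : R → C → Bool} (π : Perm C) (hc : ∀ z, c (π z) = c z)
    (hfix : ∀ z, M₃ a (π z) = M₃ a z) (g : (R → C → Bool) → ℝ) :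
    ∑ ψ ∈ sfib (Tables r c) (fun N => N a) M₃, g (colPerm π ψ)
      = ∑ ψ ∈ sfib (Tables r c) (fun N => N a) M₃, g ψ := by
  have hc' : ∀ z, c (π⁻¹ z) = c z := by
    intro z
    have := hc (π⁻¹ z)
    rw [show π (π⁻¹ z) = z by simp] at this
    exact this.symm
  have hfix' : ∀ z, M₃ a (π⁻¹ z) = M₃ a z := by
    intro z
    have := hfix (π⁻¹ z)
    rw [show π (π⁻¹ z) = z by simp] at this
    exact this.symm
  apply Finset.sum_nbij' (colPerm π) (colPerm π⁻¹)
  · intro ψ hψ
    obtain ⟨hψS, hψa⟩ := mem_sfib.1 hψ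
    have e : ψ a = M₃ a := hψa
    refine mem_sfib.2 ⟨colPerm_mem π hψS hc, ?_⟩
    show colPerm π ψ a = M₃ a
    funext z
    simp only [colPerm, e, hfix]
  · intro ψ hψ
    obtain ⟨hψS, hψa⟩ := mem_sfib.1 hψ
    have e : ψ a = M₃ a := hψa
    refine mem_sfib.2 ⟨colPerm_mem π⁻¹ hψS hc', ?_⟩
    show colPerm π⁻¹ ψ a = M₃ a
    funext z
    simp only [colPerm, e, hfix']
  · intro ψ _
    rw [colPerm_mul]
    simp [colPerm_one]
  · intro ψ _
    rw [colPerm_mul]
    simp [colPerm_one]
  · intro ψ _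
    rfl

include hT hxA hyB in
lemma tilt_b {M₃ : R → C → Bool} (hx3 : M₃ a x = false) (hy3 : M₃ a y = true)
    (G : (R → C → Bool) → ℝ)
    (hG : ∀ N₁ ∈ Tables r c, ∀ N₂ ∈ Tables r c, uu c N₁ r' = uu c N₂ r' → G N₁ = G N₂)
    {x' y' : C} (hx' : x' ∈ (colA c).filter (fun z => M₃ a z = false))
    (hy' : y' ∈ (colB c).filter (fun z => M₃ a z = true)) :
    tiltSum (Tables r c) a q M₃ G x' y' = tiltSum (Tables r c) a q M₃ G x y := by
  obtain ⟨hx'1, hx'2⟩ := mem_filter.1 hx'
  obtain ⟨hy'1, hy'2⟩ := mem_filter.1 hy'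
  have hcx' : c x' = 1 := (mem_filter.1 hx'1).2
  have hcy' : c y' = 2 := (mem_filter.1 hy'1).2
  have hne1 : x ≠ y := by intro h; rw [h, hyB] at hxA; omega
  have hne2 : x ≠ y' := by intro h; rw [h, hcy'] at hxA; omega
  have hne3 : x' ≠ y' := by intro h; rw [h, hcy'] at hcx'; omega
  have hne4 : x' ≠ y := by intro h; rw [h, hyB] at hcx'; omega
  let π : Perm C := swap x x' * swap y y'
  have hπx : π x = x' := by
    show swap x x' (swap y y' x) = x'
    rw [swap_apply_of_ne_of_ne hne1 hne2, swap_apply_left]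
  have hπy : π y = y' := by
    show swap x x' (swap y y' y) = y'
    rw [swap_apply_left, swap_apply_of_ne_of_ne hne2.symm hne3.symm]
  have hc1 : ∀ z, c (swap x x' z) = c z := by
    intro z
    by_cases hzx : z = x
    · subst hzx; simp [hcx', hxA]
    · by_cases hzy : z = x'
      · subst hzy; simp [hcx', hxA]
      · rw [swap_apply_of_ne_of_ne hzx hzy]
  have hc2 : ∀ z, c (swap y y' z) = c z := by
    intro z
    by_cases hzx : z = y
    · subst hzx; simp [hcy', hyB]
    · by_cases hzy : z = y'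
      · subst hzy; simp [hcy', hyB]
      · rw [swap_apply_of_ne_of_ne hzx hzy]
  have hc : ∀ z, c (π z) = c z := by
    intro z
    show c (swap x x' (swap y y' z)) = c z
    rw [hc1, hc2]
  have hf1 : ∀ z, M₃ a (swap x x' z) = M₃ a z := fun z =>
    congrFun (comp_swap_of_eq (f := M₃ a) (hx3.trans hx'2.symm)) z
  have hf2 : ∀ z, M₃ a (swap y y' z) = M₃ a z := fun z =>
    congrFun (comp_swap_of_eq (f := M₃ a) (hy3.trans hy'2.symm)) z
  have hfix : ∀ z, M₃ a (π z) = M₃ a z := by
    intro z
    show M₃ a (swap x x' (swap y y' z)) = M₃ a z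
    rw [hf1, hf2]
  have hreindex := sum_fib_colPerm (r := r) (c := c) (a := a) (M₃ := M₃) π hc hfix
    (fun ψ => if ψ q x = true ∧ ψ q y = false then G ψ else 0)
  unfold tiltSum
  rw [← hreindex]
  apply Finset.sum_congr rfl
  intro ψ hψ
  have hψS := (mem_sfib.1 hψ).1
  have hGeq : G (colPerm π ψ) = G ψ := by
    apply hG _ (colPerm_mem π hψS hc) _ hψS
    unfold uu
    show cnt (colA c) (fun z => ψ r' (swap x x' (swap y y' z))) = cnt (colA c) (ψ r')
    have h1 : x ∈ colA c := mem_filter.2 ⟨mem_univ _, hxA⟩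
    have h2 : y ∉ colA c := by simp [colA, hyB]
    have h3 : y' ∉ colA c := by simp [colA, hcy']
    have e1 := cnt_swap_out_out h2 h3 (fun z => ψ r' (swap x x' z))
    have e2 := cnt_swap_in_in h1 hx'1 (ψ r')
    exact e1.trans e2
  simp only [colPerm, hπx, hπy, hGeq]

include hT in
lemma tilt_c {M₃ : R → C → Bool} (G : (R → C → Bool) → ℝ) :
    ∑ x' ∈ (colA c).filter (fun z => M₃ a z = false),
      ∑ y' ∈ (colB c).filter (fun z => M₃ a z = true), tiltSum (Tables r c) a q M₃ G x' y'
      = ∑ ψ ∈ sfib (Tables r c) (fun N => N a) M₃,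
          ((uu c ψ q : ℝ) * (vv c ψ q : ℝ)) * G ψ := by
  unfold tiltSum
  have h1 : ∀ x' ∈ (colA c).filter (fun z => M₃ a z = false),
      ∑ y' ∈ (colB c).filter (fun z => M₃ a z = true),
        ∑ ψ ∈ sfib (Tables r c) (fun N => N a) M₃,
          (if ψ q x' = true ∧ ψ q y' = false then G ψ else 0)
      = ∑ ψ ∈ sfib (Tables r c) (fun N => N a) M₃,
          ∑ y' ∈ (colB c).filter (fun z => M₃ a z = true),
            (if ψ q x' = true ∧ ψ q y' = false then G ψ else 0) := by
    intro x' _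
    rw [Finset.sum_comm]
  rw [Finset.sum_congr rfl h1, Finset.sum_comm]
  apply Finset.sum_congr rfl
  intro ψ hψ
  obtain ⟨hψS, hψa⟩ := mem_sfib.1 hψ
  have e : ψ a = M₃ a := hψa
  have hU : ((colA c).filter (fun z => M₃ a z = false)).sum (fun z => ((ψ q z).toNat : ℝ))
      = (uu c ψ q : ℝ) := by
    unfold uu cnt
    rw [Nat.cast_sum]
    apply Finset.sum_filter_of_ne
    intro z hz hne
    have hcz : c z = 1 := (mem_filter.1 hz).2
    cases hz3 : M₃ a z
    · rfl
    · exfalso
      have hq := col_one_of_a hT hψS hcz (by rw [e]; exact hz3)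
      apply hne
      simp [hq]
  have hV : ((colB c).filter (fun z => M₃ a z = true)).sum (fun z => (((!(ψ q z))).toNat : ℝ))
      = (vv c ψ q : ℝ) := by
    unfold vv
    rw [Nat.cast_sum]
    apply Finset.sum_filter_of_ne
    intro z hz hne
    have hcz : c z = 2 := (mem_filter.1 hz).2
    cases hz3 : M₃ a z
    · exfalso
      have hq := col_two_of_a hT hψS hcz (by rw [e]; exact hz3)
      apply hne
      simp [hq]
    · rfl
  rw [← hU, ← hV, Finset.sum_mul_sum, Finset.sum_mul]
  apply Finset.sum_congr rfl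
  intro x' _
  rw [Finset.sum_mul]
  apply Finset.sum_congr rfl
  intro y' _
  cases h1 : ψ q x' <;> cases h2 : ψ q y' <;> simp

include hT hxA hyB hx hy hrow in
lemma tilt_main (G : (R → C → Bool) → ℝ)
    (hG : ∀ N₁ ∈ Tables r c, ∀ N₂ ∈ Tables r c, uu c N₁ r' = uu c N₂ r' → G N₁ = G N₂) :
    (((colA c).filter (fun z => M₃ a z = false)).card : ℝ)
        * (((colB c).filter (fun z => M₃ a z = true)).card : ℝ)
        * ∑ ψ ∈ sfib (Tables r c) (fun N => N a) M₂, G ψ
      = ∑ ψ ∈ sfib (Tables r c) (fun N => N a) M₃,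
          ((uu c ψ q : ℝ) * (vv c ψ q : ℝ)) * G ψ := by
  have hM3x : M₃ a x = false := by rw [hrow]; simp [hy]
  have hM3y : M₃ a y = true := by rw [hrow]; simp [hx]
  rw [← tilt_c hT G]
  have h1 : ∀ x' ∈ (colA c).filter (fun z => M₃ a z = false),
      ∑ y' ∈ (colB c).filter (fun z => M₃ a z = true), tiltSum (Tables r c) a q M₃ G x' y'
      = ((colB c).filter (fun z => M₃ a z = true)).card
          * ∑ ψ ∈ sfib (Tables r c) (fun N => N a) M₂, G ψ := by
    intro x' hx'
    rw [Finset.sum_congr rfl (fun y' hy' =>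
      (tilt_b hT hxA hyB hM3x hM3y G hG hx' hy').trans (tilt_a hT hxA hyB hx hy hrow G hG))]
    rw [Finset.sum_const, nsmul_eq_mul]
  rw [Finset.sum_congr rfl h1, Finset.sum_const, nsmul_eq_mul]
  ring

include hR hT hM₂ hM₃ hxA hyB hx hy hrow in
/-- Moving from the smaller row to the larger row can only decrease the average of a function
that increases with the number of ones of row `r'` on columns of total one. -/
lemma mono_lemma (F : (R → C → Bool) → ℝ)
    (hF : ∀ N₁ ∈ Tables r c, ∀ N₂ ∈ Tables r c, uu c N₁ r' ≤ uu c N₂ r' → F N₁ ≤ F N₂) :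
    cexp (Tables r c) (fun N => N a) F M₂ ≤ cexp (Tables r c) (fun N => N a) F M₃ := by
  have hM3x : M₃ a x = false := by rw [hrow]; simp [hy]
  have hM3y : M₃ a y = true := by rw [hrow]; simp [hx]
  set A' := (colA c).filter (fun z => M₃ a z = false) with hA'
  set B' := (colB c).filter (fun z => M₃ a z = true) with hB'
  have hA'pos : (0 : ℝ) < (A'.card : ℝ) := by
    have : x ∈ A' := mem_filter.2 ⟨mem_filter.2 ⟨mem_univ _, hxA⟩, hM3x⟩
    exact_mod_cast Finset.card_pos.2 ⟨x, this⟩
  have hB'pos : (0 : ℝ) < (B'.card : ℝ) := by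
    have : y ∈ B' := mem_filter.2 ⟨mem_filter.2 ⟨mem_univ _, hyB⟩, hM3y⟩
    exact_mod_cast Finset.card_pos.2 ⟨y, this⟩
  have hFinv : ∀ N₁ ∈ Tables r c, ∀ N₂ ∈ Tables r c, uu c N₁ r' = uu c N₂ r' → F N₁ = F N₂ :=
    fun N₁ h₁ N₂ h₂ h => le_antisymm (hF N₁ h₁ N₂ h₂ h.le) (hF N₂ h₂ N₁ h₁ h.ge)
  have t1 := tilt_main hT hxA hyB hx hy hrow F hFinv
  have t2 := tilt_main (r := r) hT hxA hyB hx hy hrow (fun _ => 1) (fun _ _ _ _ _ => rfl)
  simp only [mul_one, Finset.sum_const, nsmul_eq_mul] at t2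
  -- antitone weight
  have hanti : AntivaryOn (fun ψ : R → C → Bool => (uu c ψ q : ℝ) * (vv c ψ q : ℝ)) F
      (sfib (Tables r c) (fun N => N a) M₃ : Set (R → C → Bool)) := by
    intro ψ₁ h₁ ψ₂ h₂ hlt
    obtain ⟨h₁S, h₁a⟩ := mem_sfib.1 (Finset.mem_coe.1 h₁)
    obtain ⟨h₂S, h₂a⟩ := mem_sfib.1 (Finset.mem_coe.1 h₂)
    have e₁ : ψ₁ a = M₃ a := h₁a
    have e₂ : ψ₂ a = M₃ a := h₂a
    have hlt2 : uu c ψ₁ r' < uu c ψ₂ r' := by
      by_contra hcon
      exact absurd (hF ψ₂ h₂S ψ₁ h₁S (not_lt.1 hcon)) (not_le.2 hlt)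
    have hu1 := uu_sum hT h₁S
    have hu2 := uu_sum hT h₂S
    have hv1 := vv_sum hT h₁S
    have hv2 := vv_sum hT h₂S
    have ha1 : uu c ψ₁ a = uu c ψ₂ a := by unfold uu; rw [e₁, e₂]
    have ha2 : vv c ψ₁ a = vv c ψ₂ a := by unfold vv; rw [e₁, e₂]
    have hrel := uv_rel hR h₁S h₂S r'
    have hq1 : uu c ψ₂ q ≤ uu c ψ₁ q := by omega
    have hq2 : vv c ψ₂ q ≤ vv c ψ₁ q := by omega
    have hq1' : (uu c ψ₂ q : ℝ) ≤ (uu c ψ₁ q : ℝ) := by exact_mod_cast hq1
    have hq2' : (vv c ψ₂ q : ℝ) ≤ (vv c ψ₁ q : ℝ) := by exact_mod_cast hq2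
    exact mul_le_mul hq1' hq2' (Nat.cast_nonneg _) (Nat.cast_nonneg _)
  have hcheb := hanti.card_mul_sum_le_sum_mul_sum
  have hn3 : 0 < ((sfib (Tables r c) (fun N => N a) M₃).card : ℝ) := fib_card_pos hM₃
  have hn2 : 0 < ((sfib (Tables r c) (fun N => N a) M₂).card : ℝ) := fib_card_pos hM₂
  unfold cexp
  rw [div_le_div_iff₀ hn2 hn3]
  have hm : 0 < (A'.card : ℝ) * (B'.card : ℝ) := mul_pos hA'pos hB'pos
  apply le_of_mul_le_mul_left _ hm
  rw [← t2] at hcheb
  calc (A'.card : ℝ) * (B'.card : ℝ) * ((∑ ψ ∈ sfib (Tables r c) (fun N => N a) M₂, F ψ)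
          * ((sfib (Tables r c) (fun N => N a) M₃).card : ℝ))
      = ((sfib (Tables r c) (fun N => N a) M₃).card : ℝ)
          * ((A'.card : ℝ) * (B'.card : ℝ) * ∑ ψ ∈ sfib (Tables r c) (fun N => N a) M₂, F ψ) := by
        ring
    _ = ((sfib (Tables r c) (fun N => N a) M₃).card : ℝ)
          * ∑ ψ ∈ sfib (Tables r c) (fun N => N a) M₃,
              ((uu c ψ q : ℝ) * (vv c ψ q : ℝ)) * F ψ := by rw [t1]
    _ ≤ _ := hcheb
    _ = _ := by ring

end Tilt

lemma Tri.swap {a s t : R} (h : Tri a s t) : Tri a t s := by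
  obtain ⟨h1, h2, h3, h4⟩ := h
  refine ⟨h2, h1, h3.symm, fun i => ?_⟩
  rcases h4 i with h | h | h
  · exact Or.inl h
  · exact Or.inr (Or.inr h)
  · exact Or.inr (Or.inl h)

lemma exists_pair {M : R → C → Bool} {a : R} (hu : 1 ≤ uu c M a) (hv : 1 ≤ vv c M a) :
    ∃ x y, c x = 1 ∧ c y = 2 ∧ M a x = true ∧ M a y = false := by
  have h1 : ∑ z ∈ colA c, (M a z).toNat ≠ 0 := by
    have : cnt (colA c) (M a) ≠ 0 := by
      have h : uu c M a = cnt (colA c) (M a) := rfl
      omega
    exact this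
  have h2 : ∑ z ∈ colB c, (!(M a z)).toNat ≠ 0 := by
    have h : vv c M a = ∑ z ∈ colB c, (!(M a z)).toNat := rfl
    omega
  obtain ⟨x, hx, hx'⟩ := Finset.exists_ne_zero_of_sum_ne_zero h1
  obtain ⟨y, hy, hy'⟩ := Finset.exists_ne_zero_of_sum_ne_zero h2
  refine ⟨x, y, (mem_filter.1 hx).2, (mem_filter.1 hy).2, ?_, ?_⟩
  · cases h : M a x
    · rw [h] at hx'; simp at hx'
    · rfl
  · cases h : M a y
    · rfl
    · rw [h] at hy'; simp at hy'

lemma uu_sw_left {M : R → C → Bool} {a q : R} {x y : C} (hxA : c x = 1) (hyB : c y = 2)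
    (hx : M a x = true) (hy : M a y = false) : uu c (sw a q x y M) a + 1 = uu c M a := by
  have h1 : x ∈ colA c := mem_filter.2 ⟨mem_univ _, hxA⟩
  have h2 : y ∉ colA c := by simp [colA, hyB]
  have := cnt_swap_in_out h1 h2 (M a)
  rw [hx, hy] at this
  simp only [Bool.toNat_true, Bool.toNat_false, add_zero] at this
  unfold uu
  rw [sw_apply_left]
  exact this

lemma sw_mem_of_pair {M : R → C → Bool} {a s q : R} (hT : Tri a s q) (hM : M ∈ Tables r c)
    {x y : C} (hxA : c x = 1) (hyB : c y = 2) (hx : M a x = true) (hy : M a y = false) :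
    sw a q x y M ∈ Tables r c := by
  have hq1 : M q x = false := col_one_of_a hT hM hxA hx
  have hq2 : M q y = true := col_two_of_a hT hM hyB hy
  apply sw_mem hT.2.1 hM
  · rw [hx, hy]; simp
  · rw [hq1, hq2]; simp
  · rw [hx, hq1]; simp

section Eigen2

variable (hR : Fintype.card R = 3) {v : (R → C → Bool) → ℝ} {η : ℝ}
  (hev : ∀ M ∈ Tables r c, ∑ a, phi (Tables r c) v a M = η * v M)

include hR hev in
/-- Lipschitz bound on all sizes from a bound on adjacent sizes. -/
lemma phi_lip (hη : 2 < η) {Δ : ℝ}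
    (hadj : ∀ a, ∀ N ∈ Tables r c, ∀ N' ∈ Tables r c, uu c N' a = uu c N a + 1 →
      |phi (Tables r c) v a N' - phi (Tables r c) v a N| ≤ Δ)
    (a : R) {N₁ : R → C → Bool} (h₁ : N₁ ∈ Tables r c) :
    ∀ (k : ℕ) (N₂ : R → C → Bool), N₂ ∈ Tables r c → uu c N₂ a = uu c N₁ a + k →
      |phi (Tables r c) v a N₂ - phi (Tables r c) v a N₁| ≤ Δ * (k : ℝ) := by
  intro k
  induction k with
  | zero =>
    intro N₂ h₂ hu
    rw [phi_of_uu_eq hR hev hη h₂ h₁ (by simpa using hu)]
    simp
  | succ k ih =>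
    intro N₂ h₂ hu
    have hrel := uv_rel hR h₁ h₂ a
    obtain ⟨x, y, hxA, hyB, hx, hy⟩ := exists_pair (c := c) (M := N₂) (a := a)
      (by omega) (by omega)
    obtain ⟨s, t, hT⟩ := exists_tri hR a
    have h₄ := sw_mem_of_pair hT h₂ hxA hyB hx hy
    have hu4 := uu_sw_left (q := t) hxA hyB hx hy
    have h1 := ih _ h₄ (by omega)
    have h2 := hadj a _ h₄ _ h₂ (by omega)
    have e : (((k + 1 : ℕ) : ℝ)) = (k : ℝ) + 1 := by push_cast; ring
    rw [e, mul_add, mul_one]
    calc |phi (Tables r c) v a N₂ - phi (Tables r c) v a N₁|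
        = |(phi (Tables r c) v a N₂ - phi (Tables r c) v a (sw a t x y N₂))
            + (phi (Tables r c) v a (sw a t x y N₂) - phi (Tables r c) v a N₁)| := by
          congr 1; ring
      _ ≤ _ := abs_add_le _ _
      _ ≤ _ := by linarith

include hR hev in
/-- Step two: adjacent sizes give the same average. -/
lemma phi_adj (hη : 2 < η) :
    ∀ j ∈ (univ : Finset (R × (R → C → Bool) × (R → C → Bool))).filter
        (fun j => j.2.1 ∈ Tables r c ∧ j.2.2 ∈ Tables r c ∧ uu c j.2.2 j.1 = uu c j.2.1 j.1 + 1),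
      phi (Tables r c) v j.1 j.2.2 - phi (Tables r c) v j.1 j.2.1 = 0 := by
  apply contraction_zero _ _ (c := η - 1) (by linarith)
  rintro Δ hΔ ⟨a, M, M₂⟩ hj
  have hj' := (mem_filter.1 hj).2
  simp only at hj' ⊢
  obtain ⟨hM, hM₂, hu⟩ := hj'
  have hΔ0 : 0 ≤ Δ := (abs_nonneg _).trans (hΔ _ hj)
  have hcpos : 0 < η - 1 := by linarith
  have hadj : ∀ a, ∀ N ∈ Tables r c, ∀ N' ∈ Tables r c, uu c N' a = uu c N a + 1 →
      |phi (Tables r c) v a N' - phi (Tables r c) v a N| ≤ Δ := by
    intro a N hN N' hN' h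
    have := hΔ (a, N, N') (mem_filter.2 ⟨mem_univ _, hN, hN', h⟩)
    exact this
  have hlip : ∀ a, ∀ N₁ ∈ Tables r c, ∀ N₂ ∈ Tables r c, uu c N₁ a ≤ uu c N₂ a →
      |phi (Tables r c) v a N₂ - phi (Tables r c) v a N₁|
        ≤ Δ * ((uu c N₂ a : ℝ) - (uu c N₁ a : ℝ)) := by
    intro a N₁ h₁ N₂ h₂ hle
    have := phi_lip hR hev hη hadj a h₁ (uu c N₂ a - uu c N₁ a) N₂ h₂ (by omega)
    rwa [Nat.cast_sub hle] at this
  have hrel := uv_rel hR hM hM₂ a
  obtain ⟨x, y, hxA, hyB, hx, hy⟩ := exists_pair (c := c) (M := M₂) (a := a)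
    (by omega) (by omega)
  obtain ⟨s, t, hT⟩ := exists_tri hR a
  have hM₃ := sw_mem_of_pair hT hM₂ hxA hyB hx hy
  have hu3 := uu_sw_left (q := t) hxA hyB hx hy
  have hrow : sw a t x y M₂ a = fun z => M₂ a (swap x y z) := sw_apply_left _ _ _ _ _
  set M₃ := sw a t x y M₂ with hM₃def
  have hφ3 : phi (Tables r c) v a M₃ = phi (Tables r c) v a M :=
    phi_of_uu_eq hR hev hη hM₃ hM (by omega)
  rw [← hφ3]
  -- the four inequalities
  have hmono : ∀ (r' q : R), Tri a r' q → ∀ ε : ℝ, (ε = 1 ∨ ε = -1) →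
      ε * cexp (Tables r c) (fun N => N a) (phi (Tables r c) v r') M₂
          + Δ * cexp (Tables r c) (fun N => N a) (fun N => (uu c N r' : ℝ)) M₂
        ≤ ε * cexp (Tables r c) (fun N => N a) (phi (Tables r c) v r') M₃
          + Δ * cexp (Tables r c) (fun N => N a) (fun N => (uu c N r' : ℝ)) M₃ := by
    intro r' q hTr ε hε
    have := mono_lemma hR hTr hM₂ hM₃ hxA hyB hx hy hrow
      (fun N => ε * phi (Tables r c) v r' N + Δ * (uu c N r' : ℝ)) (by
        intro N₁ h₁ N₂ h₂ hle
        have hl := hlip r' N₁ h₁ N₂ h₂ hle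
        have hl' := abs_le.1 hl
        have hcast : (uu c N₁ r' : ℝ) ≤ (uu c N₂ r' : ℝ) := by exact_mod_cast hle
        rcases hε with rfl | rfl <;> nlinarith [hl'.1, hl'.2])
    rw [cexp_add, cexp_add, cexp_smul, cexp_smul, cexp_smul, cexp_smul] at this
    exact this
  have hsumU : ∀ N₀ ∈ Tables r c,
      cexp (Tables r c) (fun N => N a) (fun N => (uu c N s : ℝ)) N₀
        + cexp (Tables r c) (fun N => N a) (fun N => (uu c N t : ℝ)) N₀
      = ((colA c).card : ℝ) - (uu c N₀ a : ℝ) := by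
    intro N₀ h₀
    rw [← cexp_add]
    have h1 : ∀ N ∈ Tables r c, (uu c N s : ℝ) + (uu c N t : ℝ)
        = ((colA c).card : ℝ) - (uu c N a : ℝ) := by
      intro N hN
      have := uu_sum hT hN
      rw [← this]
      push_cast
      ring
    rw [cexp_congr_on h1, cexp_sub, cexp_const _ h₀]
    have h2 : cexp (Tables r c) (fun N => N a) (fun N => (uu c N a : ℝ)) N₀ = (uu c N₀ a : ℝ) := by
      apply cexp_of_measurable _ h₀
      intro N _ N' _ h
      have e : N a = N' a := h
      unfold uu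
      rw [e]
    rw [h2]
  have h1s := hmono s t hT 1 (Or.inl rfl)
  have h2s := hmono s t hT (-1) (Or.inr rfl)
  have h1t := hmono t s hT.swap 1 (Or.inl rfl)
  have h2t := hmono t s hT.swap (-1) (Or.inr rfl)
  have e2 := phi_eq hev hT hM₂
  have e3 := phi_eq hev hT hM₃
  rw [cexp_add] at e2 e3
  have hU2 := hsumU M₂ hM₂
  have hU3 := hsumU M₃ hM₃
  have hu3' : (uu c M₃ a : ℝ) + 1 = (uu c M₂ a : ℝ) := by exact_mod_cast hu3
  have hfin : |(η - 1) * (phi (Tables r c) v a M₂ - phi (Tables r c) v a M₃)| ≤ Δ := by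
    rw [mul_sub, ← e2, ← e3]
    apply abs_le.2
    constructor <;> nlinarith
  rw [abs_mul, abs_of_pos hcpos] at hfin
  exact hfin

include hR hev in
/-- No eigenvalue above two on the nonzero functions of mean zero. -/
lemma eigen_zero (hη : 2 < η) (hmean : ∑ M ∈ Tables r c, v M = 0) {M : R → C → Bool}
    (hM : M ∈ Tables r c) : v M = 0 := by
  have hadj : ∀ a, ∀ N ∈ Tables r c, ∀ N' ∈ Tables r c, uu c N' a = uu c N a + 1 →
      |phi (Tables r c) v a N' - phi (Tables r c) v a N| ≤ 0 := by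
    intro a N hN N' hN' h
    have := phi_adj hR hev hη (a, N, N') (mem_filter.2 ⟨mem_univ _, hN, hN', h⟩)
    simp only at this
    rw [this, abs_zero]
  have hconst : ∀ a, ∀ N₁ ∈ Tables r c, ∀ N₂ ∈ Tables r c,
      phi (Tables r c) v a N₁ = phi (Tables r c) v a N₂ := by
    intro a N₁ h₁ N₂ h₂
    rcases le_total (uu c N₁ a) (uu c N₂ a) with hle | hle
    · have := phi_lip hR hev hη hadj a h₁ (uu c N₂ a - uu c N₁ a) N₂ h₂ (by omega)
      rw [zero_mul] at this
      have h3 := abs_nonpos_iff.1 this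
      linarith
    · have := phi_lip hR hev hη hadj a h₂ (uu c N₁ a - uu c N₂ a) N₁ h₁ (by omega)
      rw [zero_mul] at this
      have h3 := abs_nonpos_iff.1 this
      linarith
  have hzero : ∀ a, phi (Tables r c) v a M = 0 := by
    intro a
    have h1 : ∑ N ∈ Tables r c, phi (Tables r c) v a N = 0 := by
      rw [← hmean]
      exact sum_cexp v
    have h2 : ∑ N ∈ Tables r c, phi (Tables r c) v a N
        = ∑ _N ∈ Tables r c, phi (Tables r c) v a M :=
      Finset.sum_congr rfl (fun N hN => hconst a N hN M hM)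
    rw [h2, Finset.sum_const, nsmul_eq_mul] at h1
    have hpos : 0 < ((Tables r c).card : ℝ) := by
      exact_mod_cast Finset.card_pos.2 ⟨M, hM⟩
    exact (mul_eq_zero.1 h1).resolve_left hpos.ne'
  have h := hev M hM
  simp only [hzero, Finset.sum_const_zero] at h
  have hη0 : η ≠ 0 := by linarith
  exact ((mul_eq_zero.1 h.symm).resolve_left hη0)

end Eigen2

end ThreeRows

section Wrapper

variable {T K I : Type*} [Fintype T] [DecidableEq T] [DecidableEq K] [Fintype I]

/-- From absence of large eigenvalues to the quadratic form bound. -/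
theorem gap_of_no_eigen (S : Finset T) (κ : I → T → K) (C₀ : ℝ)
    (h : ∀ (v : T → ℝ) (η : ℝ), ∑ x ∈ S, v x = 0 →
      (∀ x ∈ S, ∑ i, cexp S (κ i) v x = η * v x) → C₀ < η → ∀ x ∈ S, v x = 0)
    (g : T → ℝ) (hg : ∑ x ∈ S, g x = 0) :
    ∑ i, ∑ x ∈ S, (cexp S (κ i) g x) ^ 2 ≤ C₀ * ∑ x ∈ S, (g x) ^ 2 := by
  classical
  -- the operator
  let Af : (T → ℝ) → T → ℝ := fun f x => if x ∈ S then ∑ i, cexp S (κ i) f x else 0
  let A : (T → ℝ) →ₗ[ℝ] (T → ℝ) :=
    { toFun := Af
      map_add' := by
        intro f₁ f₂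
        funext x
        by_cases hx : x ∈ S
        · simp only [Af, hx, if_true, Pi.add_apply]
          rw [← Finset.sum_add_distrib]
          apply Finset.sum_congr rfl
          intro i _
          exact cexp_add f₁ f₂ x
        · simp [Af, hx]
      map_smul' := by
        intro a f
        funext x
        by_cases hx : x ∈ S
        · simp only [Af, hx, if_true, Pi.smul_apply, smul_eq_mul, RingHom.id_apply]
          rw [Finset.mul_sum]
          apply Finset.sum_congr rfl
          intro i _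
          exact cexp_smul a f x
        · simp [Af, hx] }
  have hAapply : ∀ f x, A f x = if x ∈ S then ∑ i, cexp S (κ i) f x else 0 := fun _ _ => rfl
  have hsumS : ∀ f₁ f₂ : T → ℝ, ∑ x, f₁ x * A f₂ x
      = ∑ i, ∑ x ∈ S, f₁ x * cexp S (κ i) f₂ x := by
    intro f₁ f₂
    rw [Finset.sum_comm]
    have : ∑ x, f₁ x * A f₂ x = ∑ x ∈ S, f₁ x * ∑ i, cexp S (κ i) f₂ x := by
      rw [← Finset.sum_filter_add_sum_filter_not univ (fun x => x ∈ S)]
      have h1 : (univ.filter (fun x => x ∈ S)) = S := by ext x; simp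
      rw [h1]
      have h2 : ∑ x ∈ univ.filter (fun x => ¬ x ∈ S), f₁ x * A f₂ x = 0 := by
        apply Finset.sum_eq_zero
        intro x hx
        have hx' := (mem_filter.1 hx).2
        rw [hAapply, if_neg hx', mul_zero]
      rw [h2, add_zero]
      apply Finset.sum_congr rfl
      intro x hx
      rw [hAapply, if_pos hx]
    rw [this]
    apply Finset.sum_congr rfl
    intro x _
    rw [Finset.mul_sum]
  have hsymm : ∀ f₁ f₂ : T → ℝ, ∑ x, f₁ x * A f₂ x = ∑ x, A f₁ x * f₂ x := by
    intro f₁ f₂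
    rw [hsumS]
    have : ∑ x, A f₁ x * f₂ x = ∑ x, f₂ x * A f₁ x := by
      apply Finset.sum_congr rfl; intros; ring
    rw [this, hsumS]
    apply Finset.sum_congr rfl
    intro i _
    rw [← sum_cexp_mul]
    apply Finset.sum_congr rfl
    intros; ring
  let W : Submodule ℝ (T → ℝ) :=
    { carrier := {f | ∑ x ∈ S, f x = 0 ∧ ∀ x, x ∉ S → f x = 0}
      add_mem' := by
        rintro f₁ f₂ ⟨h₁, h₁'⟩ ⟨h₂, h₂'⟩
        refine ⟨?_, fun x hx => ?_⟩
        · simp only [Pi.add_apply, Finset.sum_add_distrib, h₁, h₂, add_zero]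
        · simp [h₁' x hx, h₂' x hx]
      zero_mem' := by simp
      smul_mem' := by
        rintro a f ⟨h₁, h₁'⟩
        refine ⟨?_, fun x hx => ?_⟩
        · simp only [Pi.smul_apply, smul_eq_mul]
          rw [← Finset.mul_sum, h₁, mul_zero]
        · simp [h₁' x hx] }
  have hW : ∀ f ∈ W, A f ∈ W := by
    rintro f ⟨h₁, _⟩
    refine ⟨?_, fun x hx => ?_⟩
    · have : ∑ x ∈ S, A f x = ∑ i, ∑ x ∈ S, cexp S (κ i) f x := by
        rw [Finset.sum_comm]
        apply Finset.sum_congr rfl
        intro x hx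
        rw [hAapply, if_pos hx]
      rw [this]
      apply Finset.sum_eq_zero
      intro i _
      rw [sum_cexp]
      exact h₁
    · rw [hAapply, if_neg hx]
  -- the restriction of g
  let w : T → ℝ := fun x => if x ∈ S then g x else 0
  have hwg : ∀ x ∈ S, w x = g x := fun x hx => by simp [w, hx]
  have hwW : w ∈ W := by
    refine ⟨?_, fun x hx => by simp [w, hx]⟩
    rw [Finset.sum_congr rfl hwg]
    exact hg
  have hLHS : ∑ i, ∑ x ∈ S, (cexp S (κ i) g x) ^ 2 = ∑ x, w x * A w x := by
    rw [hsumS]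
    apply Finset.sum_congr rfl
    intro i _
    have h1 : ∀ x, cexp S (κ i) w x = cexp S (κ i) g x := cexp_congr_on hwg
    have h2 := sum_mul_cexp_of_measurable (S := S) (κ := κ i) (cexp_measurable g) g
    calc ∑ x ∈ S, (cexp S (κ i) g x) ^ 2
        = ∑ x ∈ S, cexp S (κ i) g x * cexp S (κ i) g x := by
          apply Finset.sum_congr rfl; intros; ring
      _ = ∑ x ∈ S, cexp S (κ i) g x * g x := h2
      _ = ∑ x ∈ S, w x * cexp S (κ i) w x := by
          apply Finset.sum_congr rfl
          intro x hx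
          rw [h1, hwg x hx]
          ring
  have hQ : ∑ x ∈ S, (g x) ^ 2 = ∑ x, w x * w x := by
    rw [← Finset.sum_filter_add_sum_filter_not univ (fun x => x ∈ S)]
    have h1 : (univ.filter (fun x => x ∈ S)) = S := by ext x; simp
    rw [h1]
    have h2 : ∑ x ∈ univ.filter (fun x => ¬ x ∈ S), w x * w x = 0 := by
      apply Finset.sum_eq_zero
      intro x hx
      have hx' := (mem_filter.1 hx).2
      simp [w, hx']
    rw [h2, add_zero]
    apply Finset.sum_congr rfl
    intro x hx
    rw [hwg x hx]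
    ring
  by_cases hne : ∃ f ∈ W, f ≠ 0
  · obtain ⟨v, hvW, hv0, η, hAv, hmax⟩ := exists_top_eigen A hsymm W hW hne
    have hηle : η ≤ C₀ := by
      by_contra hlt
      push Not at hlt
      apply hv0
      funext x
      by_cases hx : x ∈ S
      · refine h v η hvW.1 ?_ hlt x hx
        intro y hy
        have := congrFun hAv y
        rw [hAapply, if_pos hy] at this
        simpa using this
      · exact hvW.2 x hx
    rw [hLHS, hQ]
    have h3 := hmax w hwW
    have h4 : 0 ≤ ∑ x, w x * w x := Finset.sum_nonneg (fun x _ => mul_self_nonneg _)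
    nlinarith
  · push Not at hne
    have hw0 : w = 0 := hne w hwW
    rw [hLHS, hQ, hw0]
    simp

end Wrapper

section Final

variable {R C : Type*} [Fintype R] [DecidableEq R] [Fintype C] [DecidableEq C]

/-- The three-row inequality: on functions of mean zero, conditioning on a single row, summed over
the rows, is at most twice the identity. -/
theorem three_rows_gap (hR : Fintype.card R = 3) (r : R → ℕ) (c : C → ℕ)
    (g : (R → C → Bool) → ℝ) (hg : ∑ M ∈ Tables r c, g M = 0) :
    ∑ a, ∑ M ∈ Tables r c, (cexp (Tables r c) (fun N => N a) g M) ^ 2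
      ≤ 2 * ∑ M ∈ Tables r c, (g M) ^ 2 := by
  apply gap_of_no_eigen (Tables r c) (fun (a : R) (N : R → C → Bool) => N a) 2 _ g hg
  intro v η hmean hev hη M hM
  exact eigen_zero hR (v := v) (η := η) (fun N hN => hev N hN) hη hmean hM

end Final

end Vale.Agent.Lib.P335
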