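import Vale.Agent.Lib.P335.Matchings
import Vale.Agent.Lib.P335.MixAbstract

/-!
# P335: facts about the literal switch chain `switchChain d`
-/

namespace Vale.Agent.Lib.P335

open Finset

open scoped Classical

set_option linter.unusedSimpArgs false

variable {n : ℕ}

/-- `G'` is obtained from `G` by a switch: remove `ab, cd` and insert `ac, bd`,
for distinct `a, b, c, d` with `ab, cd` present and `ac, bd` absent. -/
def IsSwitch (G G' : SimpleGraph (Fin n)) : Prop :=
  ∃ a b c d : Fin n, a ≠ b ∧ a ≠ c ∧ a ≠ d ∧ b ≠ c ∧ b ≠ d ∧ c ≠ d ∧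
    G.Adj a b ∧ G.Adj c d ∧ ¬ G.Adj a c ∧ ¬ G.Adj b d ∧
    G' = applyMove {s(a, b), s(c, d)} {s(a, c), s(b, d)} G

/-- Adjacency after an applicable move. -/
theorem adj_applyMove {F F' : Finset (Sym2 (Fin n))} {G : SimpleGraph (Fin n)}
    (h : (∀ e ∈ F, e ∈ G.edgeSet) ∧ (∀ e ∈ F', e ∉ G.edgeSet)) (x y : Fin n) :
    (applyMove F F' G).Adj x y ↔ x ≠ y ∧ ((G.Adj x y ∧ s(x, y) ∉ F) ∨ s(x, y) ∈ F') := by
  unfold applyMove
  rw [if_pos h, SimpleGraph.fromEdgeSet_adj]
  simp only [Set.mem_union, Set.mem_sdiff, SimpleGraph.mem_edgeSet, mem_coe]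
  tauto

theorem degree_eq_card (G : SimpleGraph (Fin n)) (v : Fin n) :
    G.degree v = (univ.filter fun u => G.Adj v u).card := by
  rw [← SimpleGraph.card_neighborFinset_eq_degree, SimpleGraph.neighborFinset_eq_filter]

/-- A move does not change the degree of its first vertex. -/
theorem degree_first {a b c d : Fin n} (hab : a ≠ b) (hac : a ≠ c) (had : a ≠ d)
    {G : SimpleGraph (Fin n)}
    (h : (∀ e ∈ ({s(a, b), s(c, d)} : Finset (Sym2 (Fin n))), e ∈ G.edgeSet) ∧
      (∀ e ∈ ({s(a, c), s(b, d)} : Finset (Sym2 (Fin n))), e ∉ G.edgeSet)) :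
    (applyMove {s(a, b), s(c, d)} {s(a, c), s(b, d)} G).degree a = G.degree a := by
  have hadjab : G.Adj a b := h.1 s(a, b) (by simp)
  have hadjac : ¬ G.Adj a c := h.2 s(a, c) (by simp)
  rw [degree_eq_card, degree_eq_card]
  have e : (univ.filter fun u => (applyMove {s(a, b), s(c, d)} {s(a, c), s(b, d)} G).Adj a u)
      = insert c ((univ.filter fun u => G.Adj a u).erase b) := by
    ext u
    simp only [mem_filter, mem_univ, true_and, mem_insert, mem_erase]
    rw [adj_applyMove h]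
    have h1 : s(a, u) = s(a, b) ↔ u = b := Sym2.congr_right
    have h2 : s(a, u) = s(c, d) ↔ False := by
      simp [hac, had]
    have h3 : s(a, u) = s(a, c) ↔ u = c := Sym2.congr_right
    have h4 : s(a, u) = s(b, d) ↔ False := by
      simp [hab, had]
    simp only [mem_insert, mem_singleton, h1, h2, h3, h4, or_false]
    constructor
    · rintro ⟨_, ⟨hadj, hub⟩ | huc⟩
      · exact Or.inr ⟨hub, hadj⟩
      · exact Or.inl huc
    · rintro (huc | ⟨hub, hadj⟩)
      · subst huc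
        exact ⟨hac, Or.inr rfl⟩
      · exact ⟨hadj.ne, Or.inl ⟨hadj, hub⟩⟩
  rw [e, card_insert_of_notMem, card_erase_of_mem, Nat.sub_add_cancel]
  · exact card_pos.mpr ⟨b, by simpa using hadjab⟩
  · simpa using hadjab
  · simp [hadjac]

/-- A move for matchings `{ab,cd}`, `{ac,bd}` keeps all degrees. -/
theorem degree_applyMove {a b c d : Fin n} (hab : a ≠ b) (hac : a ≠ c) (had : a ≠ d)
    (hbc : b ≠ c) (hbd : b ≠ d) (hcd : c ≠ d) (G : SimpleGraph (Fin n)) (v : Fin n) :
    (applyMove {s(a, b), s(c, d)} {s(a, c), s(b, d)} G).degree v = G.degree v := by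
  by_cases h : (∀ e ∈ ({s(a, b), s(c, d)} : Finset (Sym2 (Fin n))), e ∈ G.edgeSet) ∧
      (∀ e ∈ ({s(a, c), s(b, d)} : Finset (Sym2 (Fin n))), e ∉ G.edgeSet)
  · by_cases hva : v = a
    · subst hva
      exact degree_first hab hac had h
    by_cases hvb : v = b
    · subst hvb
      have e1 : ({s(a, v), s(c, d)} : Finset (Sym2 (Fin n))) = {s(v, a), s(d, c)} := by
        rw [Sym2.eq_swap (a := a), Sym2.eq_swap (a := c)]
      have e2 : ({s(a, c), s(v, d)} : Finset (Sym2 (Fin n))) = {s(v, d), s(a, c)} := pair_comm _ _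
      rw [e1, e2] at h ⊢
      exact degree_first (Ne.symm hab) hbd hbc h
    by_cases hvc : v = c
    · subst hvc
      have e1 : ({s(a, b), s(v, d)} : Finset (Sym2 (Fin n))) = {s(v, d), s(a, b)} := pair_comm _ _
      have e2 : ({s(a, v), s(b, d)} : Finset (Sym2 (Fin n))) = {s(v, a), s(d, b)} := by
        rw [Sym2.eq_swap (a := a), Sym2.eq_swap (a := b)]
      rw [e1, e2] at h ⊢
      exact degree_first hcd (Ne.symm hac) (Ne.symm hbc) h
    by_cases hvd : v = d
    · subst hvd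
      have e1 : ({s(a, b), s(c, v)} : Finset (Sym2 (Fin n))) = {s(v, c), s(b, a)} := by
        rw [pair_comm, Sym2.eq_swap (a := a), Sym2.eq_swap (a := c)]
      have e2 : ({s(a, c), s(b, v)} : Finset (Sym2 (Fin n))) = {s(v, b), s(c, a)} := by
        rw [pair_comm, Sym2.eq_swap (a := b), Sym2.eq_swap (a := a)]
      rw [e1, e2] at h ⊢
      exact degree_first (Ne.symm hcd) (Ne.symm hbd) (Ne.symm had) h
    · rw [degree_eq_card, degree_eq_card]
      congr 1
      ext u
      simp only [mem_filter, mem_univ, true_and]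
      rw [adj_applyMove h]
      have h1 : s(v, u) ≠ s(a, b) := by simp [hva, hvb]
      have h2 : s(v, u) ≠ s(c, d) := by simp [hvc, hvd]
      have h3 : s(v, u) ≠ s(a, c) := by simp [hva, hvc]
      have h4 : s(v, u) ≠ s(b, d) := by simp [hvb, hvd]
      simp only [mem_insert, mem_singleton, h1, h2, h3, h4, or_self, not_false_eq_true, and_true,
        or_false]
      exact ⟨fun h => h.2, fun h => ⟨h.ne, h⟩⟩
  · unfold applyMove
    rw [if_neg h]

theorem four_perm1 (a b c d : Fin n) : ({a, b, d, c} : Finset (Fin n)) = {a, b, c, d} := by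
  ext x; simp only [mem_insert, mem_singleton]; tauto

theorem four_perm2 (a b c d : Fin n) : ({a, c, b, d} : Finset (Fin n)) = {a, b, c, d} := by
  ext x; simp only [mem_insert, mem_singleton]; tauto

theorem four_perm3 (a b c d : Fin n) : ({a, c, d, b} : Finset (Fin n)) = {a, b, c, d} := by
  ext x; simp only [mem_insert, mem_singleton]; tauto

theorem four_perm4 (a b c d : Fin n) : ({a, d, b, c} : Finset (Fin n)) = {a, b, c, d} := by
  ext x; simp only [mem_insert, mem_singleton]; tauto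

theorem four_perm5 (a b c d : Fin n) : ({a, d, c, b} : Finset (Fin n)) = {a, b, c, d} := by
  ext x; simp only [mem_insert, mem_singleton]; tauto

/-- Every ordered pair of distinct perfect matchings of a `4`-set has the shape
`({ab,cd}, {ac,bd})`. -/
theorem offDiag_shape {S : Finset (Fin n)} (hS : S.card = 4) {p : Finset (Sym2 (Fin n)) × Finset (Sym2 (Fin n))}
    (hp : p ∈ (perfectMatchings S).offDiag) :
    ∃ a b c d : Fin n, a ≠ b ∧ a ≠ c ∧ a ≠ d ∧ b ≠ c ∧ b ≠ d ∧ c ≠ d ∧ S = {a, b, c, d} ∧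
      p = ({s(a, b), s(c, d)}, {s(a, c), s(b, d)}) := by
  obtain ⟨a, T, ha, rfl, hT⟩ := Finset.card_eq_succ.mp hS
  obtain ⟨b, c, d, hbc, hbd, hcd, rfl⟩ := Finset.card_eq_three.mp hT
  simp only [mem_insert, mem_singleton, not_or] at ha
  obtain ⟨hab, hac, had⟩ := ha
  rw [mem_offDiag, perfectMatchings_four hab hac had hbc hbd hcd] at hp
  obtain ⟨h1, h2, hne⟩ := hp
  simp only [mem_insert, mem_singleton] at h1 h2
  obtain ⟨F, F'⟩ := p
  simp only at h1 h2 hne
  have e1 := four_perm1 a b c d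
  have e2 := four_perm2 a b c d
  have e3 := four_perm3 a b c d
  have e4 := four_perm4 a b c d
  have e5 := four_perm5 a b c d
  have sw : ∀ x y : Fin n, s(x, y) = s(y, x) := fun x y => Sym2.eq_swap
  rcases h1 with rfl | rfl | rfl <;> rcases h2 with rfl | rfl | rfl
  · exact absurd rfl hne
  · exact ⟨a, b, c, d, hab, hac, had, hbc, hbd, hcd, rfl, rfl⟩
  · refine ⟨a, b, d, c, hab, had, hac, hbd, hbc, Ne.symm hcd, e1.symm, ?_⟩
    rw [sw d c]
  · refine ⟨a, c, b, d, hac, hab, had, Ne.symm hbc, hcd, hbd, e2.symm, rfl⟩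
  · exact absurd rfl hne
  · refine ⟨a, c, d, b, hac, had, hab, hcd, Ne.symm hbc, Ne.symm hbd, e3.symm, ?_⟩
    rw [sw d b, sw c b]
  · refine ⟨a, d, b, c, had, hab, hac, Ne.symm hbd, Ne.symm hcd, hbc, e4.symm, ?_⟩
    rw [sw d c]
  · refine ⟨a, d, c, b, had, hac, hab, Ne.symm hcd, Ne.symm hbd, Ne.symm hbc, e5.symm, ?_⟩
    rw [sw c b, sw d b]
  · exact absurd rfl hne

/-- An applicable move for disjoint non-loop edge sets is undone by the reverse move. -/
theorem applyMove_inv {F F' : Finset (Sym2 (Fin n))} (hF' : ∀ e ∈ F', ¬ e.IsDiag)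
    (hd : ∀ e ∈ F, e ∉ F') {G G' : SimpleGraph (Fin n)}
    (h : applyMove F F' G = G') (hne : G ≠ G') : applyMove F' F G' = G := by
  by_cases hc : (∀ e ∈ F, e ∈ G.edgeSet) ∧ (∀ e ∈ F', e ∉ G.edgeSet)
  · subst h
    have hedge : ∀ e : Sym2 (Fin n), e ∈ (applyMove F F' G).edgeSet ↔
        ((e ∈ G.edgeSet ∧ e ∉ F) ∨ e ∈ F') ∧ ¬ e.IsDiag := by
      intro e
      unfold applyMove
      rw [if_pos hc, SimpleGraph.edgeSet_fromEdgeSet]
      simp only [Set.mem_sdiff, Set.mem_union, mem_coe, Sym2.mem_diagSet]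
    have hc' : (∀ e ∈ F', e ∈ (applyMove F F' G).edgeSet) ∧
        (∀ e ∈ F, e ∉ (applyMove F F' G).edgeSet) := by
      constructor
      · intro e he
        rw [hedge]
        exact ⟨Or.inr he, hF' e he⟩
      · intro e he
        rw [hedge]
        rintro ⟨h1 | h1, _⟩
        · exact h1.2 he
        · exact hd e he h1
    ext x y
    rw [adj_applyMove hc', ← SimpleGraph.mem_edgeSet, hedge]
    rw [Sym2.mk_isDiag_iff, SimpleGraph.mem_edgeSet]
    constructor
    · rintro ⟨_, ⟨⟨h1 | h1, _⟩, h2⟩ | h3⟩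
      · exact h1.1
      · exact absurd h1 h2
      · exact (hc.1 _ h3)
    · intro hadj
      refine ⟨hadj.ne, ?_⟩
      by_cases he : s(x, y) ∈ F
      · exact Or.inr he
      · refine Or.inl ⟨⟨Or.inl ⟨hadj, he⟩, hadj.ne⟩, ?_⟩
        exact fun h3 => hc.2 _ h3 hadj
  · exfalso
    apply hne
    rw [← h]
    unfold applyMove
    rw [if_neg hc]

/-- Move data for a pair in the off-diagonal. -/
theorem offDiag_props {S : Finset (Fin n)} (hS : S.card = 4)
    {p : Finset (Sym2 (Fin n)) × Finset (Sym2 (Fin n))}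
    (hp : p ∈ (perfectMatchings S).offDiag) :
    (∀ e ∈ p.1, ¬ e.IsDiag) ∧ (∀ e ∈ p.2, ¬ e.IsDiag) ∧ (∀ e ∈ p.1, e ∉ p.2) := by
  obtain ⟨a, b, c, d, hab, hac, had, hbc, hbd, hcd, rfl, rfl⟩ := offDiag_shape hS hp
  refine ⟨?_, ?_, ?_⟩
  · intro e he
    simp only [mem_insert, mem_singleton] at he
    rcases he with rfl | rfl <;> simp [Sym2.mk_isDiag_iff, hab, hcd]
  · intro e he
    simp only [mem_insert, mem_singleton] at he
    rcases he with rfl | rfl <;> simp [Sym2.mk_isDiag_iff, hac, hbd]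
  · intro e he
    simp only [mem_insert, mem_singleton] at he ⊢
    rcases he with rfl | rfl
    · simp [hab, hbc, hac, had, hbd, hcd, Ne.symm hab, Ne.symm hbc, Ne.symm hac, Ne.symm had,
        Ne.symm hbd, Ne.symm hcd]
    · simp [hab, hbc, hac, had, hbd, hcd, Ne.symm hab, Ne.symm hbc, Ne.symm hac, Ne.symm had,
        Ne.symm hbd, Ne.symm hcd]

/-- Inner sums are symmetric in the two graphs. -/
theorem inner_symm {S : Finset (Fin n)} (hS : S.card = 4) (G G' : SimpleGraph (Fin n)) :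
    (∑ p ∈ (perfectMatchings S).offDiag, if applyMove p.1 p.2 G = G' then (1 : ℝ) else 0)
      = ∑ p ∈ (perfectMatchings S).offDiag, if applyMove p.1 p.2 G' = G then (1 : ℝ) else 0 := by
  by_cases hne : G = G'
  · subst hne
    rfl
  · refine Finset.sum_nbij' Prod.swap Prod.swap ?_ ?_ ?_ ?_ ?_
    · intro p hp
      simp only [mem_offDiag, Prod.fst_swap, Prod.snd_swap] at hp ⊢
      exact ⟨hp.2.1, hp.1, Ne.symm hp.2.2⟩
    · intro p hp
      simp only [mem_offDiag, Prod.fst_swap, Prod.snd_swap] at hp ⊢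
      exact ⟨hp.2.1, hp.1, Ne.symm hp.2.2⟩
    · intro p _
      simp
    · intro p _
      simp
    · intro p hp
      have hp' : p.swap ∈ (perfectMatchings S).offDiag := by
        simp only [mem_offDiag, Prod.fst_swap, Prod.snd_swap] at hp ⊢
        exact ⟨hp.2.1, hp.1, Ne.symm hp.2.2⟩
      obtain ⟨_, h2, h3⟩ := offDiag_props hS hp
      obtain ⟨_, h2', h3'⟩ := offDiag_props hS hp'
      simp only [Prod.fst_swap, Prod.snd_swap] at h2' h3' ⊢
      by_cases hmove : applyMove p.1 p.2 G = G'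
      · rw [if_pos hmove, if_pos (applyMove_inv h2 h3 hmove hne)]
      · rw [if_neg hmove, if_neg]
        intro hmove'
        exact hmove (applyMove_inv h2' h3' hmove' (Ne.symm hne))

/-- The switch chain is symmetric. -/
theorem switchChain_symm (d : Fin n → ℕ) (G G' : Omega d) :
    switchChain d G G' = switchChain d G' G := by
  unfold switchChain
  have e1 : (if G = G' then (1 / 2 : ℝ) else 0) = if G' = G then (1 / 2 : ℝ) else 0 := by
    simp only [eq_comm]
  rw [e1]
  congr 3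
  refine sum_congr rfl fun S hS => ?_
  rw [mem_powersetCard] at hS
  rw [inner_symm hS.2 G.1 G'.1]

/-- The switch chain has nonnegative entries. -/
theorem switchChain_nonneg (d : Fin n → ℕ) (G G' : Omega d) : 0 ≤ switchChain d G G' := by
  unfold switchChain
  refine add_nonneg (by split_ifs <;> norm_num) ?_
  refine mul_nonneg (by norm_num) (mul_nonneg (by positivity) ?_)
  refine sum_nonneg fun S _ => mul_nonneg (by norm_num) ?_
  refine sum_nonneg fun p _ => by split_ifs <;> norm_num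

/-- The switch chain is lazy. -/
theorem switchChain_lazy (d : Fin n → ℕ) (G : Omega d) : 1 / 2 ≤ switchChain d G G := by
  unfold switchChain
  rw [if_pos rfl]
  have : 0 ≤ (1 / 2 : ℝ) * ((1 / (Nat.choose n 4 : ℝ)) *
        ∑ S ∈ powersetCard 4 (univ : Finset (Fin n)),
          ((1 / 6 : ℝ) * ∑ p ∈ (perfectMatchings S).offDiag,
            if applyMove p.1 p.2 G.1 = G.1 then (1 : ℝ) else 0)) := by
    refine mul_nonneg (by norm_num) (mul_nonneg (by positivity) ?_)
    refine sum_nonneg fun S _ => mul_nonneg (by norm_num) ?_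
    refine sum_nonneg fun p _ => by split_ifs <;> norm_num
  linarith

/-- The chain stays in `Omega d`. -/
theorem sum_indicator_applyMove {d : Fin n → ℕ} {S : Finset (Fin n)} (hS : S.card = 4)
    {p : Finset (Sym2 (Fin n)) × Finset (Sym2 (Fin n))}
    (hp : p ∈ (perfectMatchings S).offDiag) (G : Omega d) :
    (∑ G' : Omega d, if applyMove p.1 p.2 G.1 = G'.1 then (1 : ℝ) else 0) = 1 := by
  obtain ⟨a, b, c, e, hab, hac, hae, hbc, hbe, hce, _, rfl⟩ := offDiag_shape hS hp
  have hG0 : ∀ i, (applyMove {s(a, b), s(c, e)} {s(a, c), s(b, e)} G.1).degree i = d i := by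
    intro i
    rw [degree_applyMove hab hac hae hbc hbe hce]
    exact G.2 i
  let G0 : Omega d := ⟨_, hG0⟩
  have key : ∀ G' : Omega d, (applyMove {s(a, b), s(c, e)} {s(a, c), s(b, e)} G.1 = G'.1) ↔ G0 = G' := by
    intro G'
    exact ⟨fun h => Subtype.ext h, fun h => congrArg Subtype.val h⟩
  simp only [key]
  simp

/-- The switch chain is stochastic. -/
theorem switchChain_sum (hn : 4 ≤ n) (d : Fin n → ℕ) (G : Omega d) :
    ∑ G', switchChain d G G' = 1 := by
  unfold switchChain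
  rw [sum_add_distrib]
  have h1 : ∑ G' : Omega d, (if G = G' then (1 / 2 : ℝ) else 0) = 1 / 2 := by simp
  rw [h1, ← mul_sum, ← mul_sum]
  have hchoose : (0 : ℝ) < (Nat.choose n 4 : ℝ) := by
    exact_mod_cast Nat.choose_pos hn
  have h2 : ∑ G' : Omega d, ∑ S ∈ powersetCard 4 (univ : Finset (Fin n)),
        ((1 / 6 : ℝ) * ∑ p ∈ (perfectMatchings S).offDiag,
          if applyMove p.1 p.2 G.1 = G'.1 then (1 : ℝ) else 0) = (Nat.choose n 4 : ℝ) := by
    rw [sum_comm]
    have : ∀ S ∈ powersetCard 4 (univ : Finset (Fin n)),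
        ∑ G' : Omega d, ((1 / 6 : ℝ) * ∑ p ∈ (perfectMatchings S).offDiag,
          if applyMove p.1 p.2 G.1 = G'.1 then (1 : ℝ) else 0) = 1 := by
      intro S hS
      rw [mem_powersetCard] at hS
      rw [← mul_sum, sum_comm]
      have h3 : ∀ p ∈ (perfectMatchings S).offDiag,
          (∑ G' : Omega d, if applyMove p.1 p.2 G.1 = G'.1 then (1 : ℝ) else 0) = 1 :=
        fun p hp => sum_indicator_applyMove hS.2 hp G
      rw [sum_congr rfl h3]
      simp only [sum_const, nsmul_eq_mul, mul_one]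
      rw [offDiag_card, card_perfectMatchings hS.2]
      norm_num
    rw [sum_congr rfl this]
    simp
  rw [h2]
  field_simp
  norm_num

/-- Every switch has probability at least `1 / (12 * C(n,4))`. -/
theorem switchChain_lower (hn : 4 ≤ n) (d : Fin n → ℕ) (G G' : Omega d) (h : IsSwitch G.1 G'.1) :
    1 / (12 * (Nat.choose n 4 : ℝ)) ≤ switchChain d G G' := by
  obtain ⟨a, b, c, e, hab, hac, hae, hbc, hbe, hce, _, _, _, _, hG'⟩ := h
  have hchoose : (0 : ℝ) < (Nat.choose n 4 : ℝ) := by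
    exact_mod_cast Nat.choose_pos hn
  have hS : ({a, b, c, e} : Finset (Fin n)) ∈ powersetCard 4 (univ : Finset (Fin n)) := by
    rw [mem_powersetCard]
    refine ⟨subset_univ _, ?_⟩
    rw [card_insert_of_notMem, card_insert_of_notMem, card_insert_of_notMem, card_singleton]
    · simp [hce]
    · simp [hbc, hbe]
    · simp [hab, hac, hae]
  have hF : ({s(a, b), s(c, e)} : Finset (Sym2 (Fin n))) ∈
      perfectMatchings ({a, b, c, e} : Finset (Fin n)) := pm_mem hab hac hae hbc hbe hce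
  have hF' : ({s(a, c), s(b, e)} : Finset (Sym2 (Fin n))) ∈
      perfectMatchings ({a, b, c, e} : Finset (Fin n)) := by
    rw [← four_perm2]
    exact pm_mem hac hab hae (Ne.symm hbc) hce hbe
  have hne := matchings_ne (c := c) (d := e) hab hac hae hbc
  have hp : (({s(a, b), s(c, e)}, {s(a, c), s(b, e)}) :
      Finset (Sym2 (Fin n)) × Finset (Sym2 (Fin n))) ∈
      (perfectMatchings ({a, b, c, e} : Finset (Fin n))).offDiag := by
    rw [mem_offDiag]
    exact ⟨hF, hF', hne⟩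
  have h1 : (1 : ℝ) ≤ ∑ p ∈ (perfectMatchings ({a, b, c, e} : Finset (Fin n))).offDiag,
      if applyMove p.1 p.2 G.1 = G'.1 then (1 : ℝ) else 0 := by
    have := single_le_sum (f := fun p : Finset (Sym2 (Fin n)) × Finset (Sym2 (Fin n)) =>
        if applyMove p.1 p.2 G.1 = G'.1 then (1 : ℝ) else 0)
      (fun p _ => by split_ifs <;> norm_num) hp
    simp only [hG'.symm, if_true] at this
    exact this
  have h2 : (1 / 6 : ℝ) ≤ ∑ S ∈ powersetCard 4 (univ : Finset (Fin n)),
      ((1 / 6 : ℝ) * ∑ p ∈ (perfectMatchings S).offDiag,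
        if applyMove p.1 p.2 G.1 = G'.1 then (1 : ℝ) else 0) := by
    have := single_le_sum (f := fun S : Finset (Fin n) =>
        ((1 / 6 : ℝ) * ∑ p ∈ (perfectMatchings S).offDiag,
        if applyMove p.1 p.2 G.1 = G'.1 then (1 : ℝ) else 0))
      (fun S _ => mul_nonneg (by norm_num) (sum_nonneg fun p _ => by split_ifs <;> norm_num)) hS
    refine le_trans ?_ this
    linarith
  unfold switchChain
  have h3 : (0 : ℝ) ≤ if G = G' then (1 / 2 : ℝ) else 0 := by split_ifs <;> norm_num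
  have h4 : (1 / (12 * (Nat.choose n 4 : ℝ))) = (1 / 2 : ℝ) * ((1 / (Nat.choose n 4 : ℝ)) * (1 / 6)) := by
    field_simp
    norm_num
  rw [h4]
  have h5 : (1 / 2 : ℝ) * ((1 / (Nat.choose n 4 : ℝ)) * (1 / 6)) ≤
      (1 / 2 : ℝ) * ((1 / (Nat.choose n 4 : ℝ)) *
        ∑ S ∈ powersetCard 4 (univ : Finset (Fin n)),
          ((1 / 6 : ℝ) * ∑ p ∈ (perfectMatchings S).offDiag,
            if applyMove p.1 p.2 G.1 = G'.1 then (1 : ℝ) else 0)) := by
    apply mul_le_mul_of_nonneg_left _ (by norm_num)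
    apply mul_le_mul_of_nonneg_left h2 (by positivity)
  linarith

/-- The Dirichlet identity for a symmetric stochastic matrix. -/
theorem dirichlet_identity {Ω : Type} [Fintype Ω] (P : Matrix Ω Ω ℝ) (hsymm : ∀ x y, P x y = P y x)
    (hsum : ∀ x, ∑ y, P x y = 1) (f : Ω → ℝ) :
    ∑ x, f x * P.mulVec f x
      = ∑ x, f x ^ 2 - (1 / 2 : ℝ) * ∑ x, ∑ y, P x y * (f x - f y) ^ 2 := by
  have h1 : ∑ x, ∑ y, P x y * f x ^ 2 = ∑ x, f x ^ 2 := by
    refine sum_congr rfl fun x _ => ?_
    rw [← sum_mul, hsum, one_mul]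
  have h2 : ∑ x, ∑ y, P x y * f y ^ 2 = ∑ x, f x ^ 2 := by
    rw [sum_comm]
    refine sum_congr rfl fun y _ => ?_
    rw [← sum_mul]
    have : ∑ x, P x y = 1 := by
      rw [← hsum y]
      exact sum_congr rfl fun x _ => hsymm x y
    rw [this, one_mul]
  have h3 : ∑ x, f x * P.mulVec f x = ∑ x, ∑ y, P x y * (f x * f y) := by
    refine sum_congr rfl fun x _ => ?_
    simp only [Matrix.mulVec, dotProduct, mul_sum]
    refine sum_congr rfl fun y _ => ?_
    ring
  have h4 : ∑ x, ∑ y, P x y * (f x - f y) ^ 2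
      = ∑ x, ∑ y, P x y * f x ^ 2 + ∑ x, ∑ y, P x y * f y ^ 2
        - 2 * ∑ x, ∑ y, P x y * (f x * f y) := by
    rw [mul_sum, ← sum_add_distrib, ← sum_sub_distrib]
    refine sum_congr rfl fun x _ => ?_
    rw [mul_sum, ← sum_add_distrib, ← sum_sub_distrib]
    refine sum_congr rfl fun y _ => ?_
    ring
  rw [h3, h4, h1, h2]
  ring

/-- **From a Poincare inequality to the mixing time.** Suppose that every mean-zero `f` on `Omega d`
satisfies `(1/2) ∑ f² ≤ (1/2) ∑_{(G,G')} (f G - f G')²`, the sum over ordered pairs with `G'`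
a switch of `G`. Then the chain is mixed at all times `t ≥ n^6`. -/
theorem mixedAt_of_poincare (hn : 4 ≤ n) (d : Fin n → ℕ) [Nonempty (Omega d)]
    (hP : ∀ f : Omega d → ℝ, ∑ G, f G = 0 →
      (1 / 2 : ℝ) * ∑ G, f G ^ 2 ≤ (1 / 2 : ℝ) * ∑ G : Omega d, ∑ G' : Omega d,
        if IsSwitch G.1 G'.1 then (f G - f G') ^ 2 else 0)
    (t : ℕ) (ht : n ^ 6 ≤ t) : MixedAt d t := by
  have hchoose : (0 : ℝ) < (Nat.choose n 4 : ℝ) := by
    exact_mod_cast Nat.choose_pos hn
  have hchoose1 : (1 : ℝ) ≤ (Nat.choose n 4 : ℝ) := by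
    exact_mod_cast Nat.choose_pos hn
  set C : ℝ := (Nat.choose n 4 : ℝ) with hC
  set P := switchChain d with hPdef
  have hsymm : ∀ x y, P x y = P y x := switchChain_symm d
  have hnn : ∀ x y, 0 ≤ P x y := switchChain_nonneg d
  have hsum : ∀ x, ∑ y, P x y = 1 := switchChain_sum hn d
  have hlazy : ∀ x, 1 / 2 ≤ P x x := switchChain_lazy d
  set ρ : ℝ := 1 - 1 / (24 * C) with hρ
  have hρ0 : 0 ≤ ρ := by
    rw [hρ]
    have : 1 / (24 * C) ≤ 1 := by
      rw [div_le_one (by positivity)]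
      linarith
    linarith
  have hgap : ∀ f : Omega d → ℝ, ∑ x, f x = 0 →
      ∑ x, f x * P.mulVec f x ≤ ρ * ∑ x, f x ^ 2 := by
    intro f hf
    rw [dirichlet_identity P hsymm hsum f]
    have h1 := hP f hf
    have h2 : (1 / (12 * C)) * ∑ G : Omega d, ∑ G' : Omega d,
        (if IsSwitch G.1 G'.1 then (f G - f G') ^ 2 else 0)
        ≤ ∑ x, ∑ y, P x y * (f x - f y) ^ 2 := by
      rw [mul_sum]
      refine sum_le_sum fun G _ => ?_
      rw [mul_sum]
      refine sum_le_sum fun G' _ => ?_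
      split_ifs with hsw
      · exact mul_le_mul_of_nonneg_right (switchChain_lower hn d G G' hsw) (sq_nonneg _)
      · rw [mul_zero]
        exact mul_nonneg (hnn G G') (sq_nonneg _)
    have h3 : (1 / (24 * C)) * ∑ x, f x ^ 2 ≤ (1 / 2 : ℝ) * ((1 / (12 * C)) *
        ∑ G : Omega d, ∑ G' : Omega d,
        (if IsSwitch G.1 G'.1 then (f G - f G') ^ 2 else 0)) := by
      have e : (1 / 2 : ℝ) * (1 / (12 * C)) = 1 / (24 * C) := by
        field_simp
        norm_num
      rw [← mul_assoc, e]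
      apply mul_le_mul_of_nonneg_left _ (by positivity)
      linarith
    rw [hρ]
    have e2 : (1 - 1 / (24 * C)) * ∑ x, f x ^ 2 = ∑ x, f x ^ 2 - (1 / (24 * C)) * ∑ x, f x ^ 2 := by
      ring
    rw [e2]
    linarith
  intro G
  have htv := tv_sq_le P hsymm hnn hsum hlazy ρ hρ0 hgap G t
  unfold tvDist uniformDist
  set N : ℝ := (Fintype.card (Omega d) : ℝ) with hN
  set TV : ℝ := (1 / 2 : ℝ) * ∑ y, |(P ^ t) G y - 1 / N| with hTV
  have hTV0 : 0 ≤ TV := mul_nonneg (by norm_num) (sum_nonneg fun _ _ => abs_nonneg _)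
  -- numeric bound
  have hNle : N ≤ 2 ^ (n ^ 2) := by
    have hinj : Function.Injective (fun G : Omega d => fun x : Fin n × Fin n =>
        decide (G.1.Adj x.1 x.2)) := by
      intro G1 G2 h
      apply Subtype.ext
      ext a b
      have := congrFun h (a, b)
      simpa using this
    have hc := Fintype.card_le_of_injective _ hinj
    simp only [Fintype.card_fun, Fintype.card_bool, Fintype.card_prod, Fintype.card_fin] at hc
    rw [hN, ← sq] at *
    exact_mod_cast hc
  have hnR : (4 : ℝ) ≤ (n : ℝ) := by exact_mod_cast hn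
  have hn0 : (0 : ℝ) < (n : ℝ) := by linarith
  have hC24 : 24 * C ≤ (n : ℝ) ^ 4 := by
    have h := Nat.choose_le_pow_div (α := ℝ) 4 n
    have h24 : ((Nat.factorial 4 : ℕ) : ℝ) = 24 := by norm_num [Nat.factorial]
    rw [h24] at h
    rw [hC]
    linarith
  have hρexp : ρ ≤ Real.exp (-(1 / (24 * C))) := by
    have := Real.add_one_le_exp (-(1 / (24 * C)))
    rw [hρ]
    linarith
  have hρ1 : ρ ^ t ≤ Real.exp (-((n : ℝ) ^ 2)) := by
    have h1 : ρ ^ t ≤ (Real.exp (-(1 / (24 * C)))) ^ t := pow_le_pow_left₀ hρ0 hρexp t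
    refine h1.trans ?_
    rw [← Real.exp_nat_mul]
    apply Real.exp_le_exp.mpr
    have htR : (n : ℝ) ^ 6 ≤ (t : ℝ) := by exact_mod_cast ht
    have h2 : (n : ℝ) ^ 2 ≤ (t : ℝ) * (1 / (24 * C)) := by
      rw [mul_one_div, le_div_iff₀ (by positivity)]
      have h3 : (n : ℝ) ^ 2 * (24 * C) ≤ (n : ℝ) ^ 2 * (n : ℝ) ^ 4 :=
        mul_le_mul_of_nonneg_left hC24 (by positivity)
      have h4 : (n : ℝ) ^ 2 * (n : ℝ) ^ 4 = (n : ℝ) ^ 6 := by ring
      linarith
    have h5 : (t : ℝ) * (-(1 / (24 * C))) = -((t : ℝ) * (1 / (24 * C))) := by ring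
    rw [h5]
    linarith
  have h2e : 2 * Real.exp (-1) ≤ 3 / 4 := by
    rw [Real.exp_neg]
    have he := Real.exp_one_gt_d9
    have he0 : 0 < Real.exp 1 := Real.exp_pos 1
    rw [← div_eq_mul_inv, div_le_iff₀ he0]
    linarith
  have hNρ : N * ρ ^ t ≤ 1 / 4 := by
    have h0 : N ≤ 2 ^ (n ^ 2) := hNle
    have hN0 : 0 ≤ N := Nat.cast_nonneg _
    calc N * ρ ^ t ≤ 2 ^ (n ^ 2) * Real.exp (-((n : ℝ) ^ 2)) :=
          mul_le_mul h0 hρ1 (pow_nonneg hρ0 t) (by positivity)
      _ = (2 * Real.exp (-1)) ^ (n ^ 2) := by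
          rw [mul_pow, ← Real.exp_nat_mul]
          congr 2
          push_cast
          ring
      _ ≤ (3 / 4 : ℝ) ^ (n ^ 2) := pow_le_pow_left₀ (by positivity) h2e _
      _ ≤ (3 / 4 : ℝ) ^ 5 := by
          apply pow_le_pow_of_le_one (by norm_num) (by norm_num)
          nlinarith
      _ ≤ 1 / 4 := by norm_num
  have hTVsq : TV ^ 2 ≤ 1 / 16 := by
    calc TV ^ 2 ≤ (1 / 4 : ℝ) * N * ρ ^ t := htv
      _ = (1 / 4 : ℝ) * (N * ρ ^ t) := by ring
      _ ≤ (1 / 4 : ℝ) * (1 / 4) := mul_le_mul_of_nonneg_left hNρ (by norm_num)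
      _ = 1 / 16 := by norm_num
  by_contra hcontra
  have hgt : 1 / 4 < TV := not_le.mp hcontra
  nlinarith

/-- With the Poincare inequality, the mixing time is at most `n ^ 6`. -/
theorem tmix_le_of_poincare (hn : 4 ≤ n) (d : Fin n → ℕ) [Nonempty (Omega d)]
    (hP : ∀ f : Omega d → ℝ, ∑ G, f G = 0 →
      (1 / 2 : ℝ) * ∑ G, f G ^ 2 ≤ (1 / 2 : ℝ) * ∑ G : Omega d, ∑ G' : Omega d,
        if IsSwitch G.1 G'.1 then (f G - f G') ^ 2 else 0) :
    tmix d ≤ n ^ 6 :=
  Nat.sInf_le (mixedAt_of_poincare hn d hP (n ^ 6) le_rfl)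

end Vale.Agent.Lib.P335
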