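import Vale.Agent.Lib.P335.Fiber
import Vale.Agent.Lib.P335.Chain

/-!
# P335: from row-pair projections to the literal chain

* `rowProj_energy`: the norm of the row-pair projection is bounded by the switch energy (Johnson).
* `Omega d ≃ Rz d`.
* `poincare_of_rowProj`: from `‖f‖² ≤ ∑_{i ≠ j} ‖P_ij f‖²` to the Poincare hypothesis of
  `mixedAt_of_poincare`.
-/

namespace Vale.Agent.Lib.P335

open Finset

variable {n : ℕ} {d : Fin n → ℕ}

/-- Summing an average gives the sum. -/
lemma sum_avg {Ω K : Type*} [Fintype Ω] [DecidableEq K] (κ : Ω → K) (h : Ω → ℝ) :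
    ∑ x, avg κ h x = ∑ x, h x := by
  have h1 : avg κ (fun _ : Ω => (1 : ℝ)) = fun _ => 1 := avg_of_invariant fun _ _ _ => rfl
  have := ip_avg_left κ h (fun _ => 1)
  rw [h1] at this
  simpa [ip] using this

/-- The row-pair projection has norm bounded by the switch energy. -/
theorem rowProj_energy {i j : Fin n} (hij : i ≠ j) (f : Rz d → ℝ) :
    ip (rowProj i j f) (rowProj i j f) ≤ (1 / 4 : ℝ) * ∑ G, rowEnergy i j f G := by
  set κ := offKey (d := d) (rowSlots i j) with hκ
  set m : Rz d → ℝ := avg κ f with hm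
  have hP : rowProj i j f = fun G => f G - m G := rfl
  set h : Rz d → ℝ := fun G => (f G - m G) ^ 2 with hh
  have e1 : ip (rowProj i j f) (rowProj i j f) = ∑ G, h G := by
    unfold ip
    rw [hP]
    exact sum_congr rfl fun G _ => by simp only [hh]; ring
  have e2 : ∀ G, avg κ h G ≤ (1 / 4 : ℝ) * avg κ (rowEnergy i j f) G := by
    intro G
    have hfe := fiber_energy hij f G
    have hcard : (0 : ℝ) < ((fib κ G).card : ℝ) := by
      exact_mod_cast card_fib_pos κ G
    have hconst : ∀ G' ∈ fib κ G, m G' = m G := fun G' hG' => avg_congr f (mem_fib.1 hG')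
    have hsum : ∑ G' ∈ fib κ G, h G'
        = ∑ G' ∈ fib κ G, f G' ^ 2 - (∑ G' ∈ fib κ G, f G') ^ 2 / ((fib κ G).card : ℝ) := by
      have hmG : m G = (∑ G' ∈ fib κ G, f G') / ((fib κ G).card : ℝ) := rfl
      have hexp : ∀ G' ∈ fib κ G, h G' = f G' ^ 2 - 2 * m G * f G' + m G ^ 2 := by
        intro G' hG'
        simp only [hh, hconst G' hG']
        ring
      rw [sum_congr rfl hexp, sum_add_distrib, sum_sub_distrib, ← mul_sum, sum_const, nsmul_eq_mul,
        hmG]
      field_simp
      ring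
    unfold avg
    rw [hsum]
    rw [div_le_iff₀ hcard]
    have : (1 / 4 : ℝ) * ((∑ G' ∈ fib κ G, rowEnergy i j f G') / ((fib κ G).card : ℝ))
        * ((fib κ G).card : ℝ) = (1 / 4 : ℝ) * ∑ G' ∈ fib κ G, rowEnergy i j f G' := by
      field_simp
    rw [this]
    exact hfe
  rw [e1, ← sum_avg κ h, ← sum_avg κ (rowEnergy i j f), mul_sum]
  exact sum_le_sum fun G _ => e2 G

/-- What a `RowSwitch` removes. -/
lemma RowSwitch.removed {i j x y : Fin n} {G G' : Rz d} (h : RowSwitch i j x y G G')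
    (e : Sym2 (Fin n)) : (e ∈ G.1 ∧ e ∉ G'.1) ↔ (e = s(i, x) ∨ e = s(j, y)) := by
  obtain ⟨hxi, hxj, hyi, hyj, hxy, h1, h2, h3, h4, h5⟩ := h
  have hij : i ≠ j := fun hij => h2 (hij ▸ h1)
  rw [h5]
  simp only [mem_insert, mem_sdiff, mem_singleton, not_or, not_and, not_not]
  constructor
  · rintro ⟨he, _, _, h6⟩
    by_cases he1 : e = s(i, x)
    · exact Or.inl he1
    · exact Or.inr (h6 he he1)
  · rintro (rfl | rfl)
    · refine ⟨h1, ?_, ?_, fun _ => ?_⟩
      · simp only [Sym2.eq_iff, not_or, not_and]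
        exact ⟨fun _ => hxy, fun h => absurd h.symm hyi⟩
      · simp only [Sym2.eq_iff, not_or, not_and]
        exact ⟨fun h => absurd h hij, fun h => absurd h.symm hxi⟩
      · exact fun h => absurd rfl h
    · refine ⟨h4, ?_, ?_, fun _ => ?_⟩
      · simp only [Sym2.eq_iff, not_or, not_and]
        exact ⟨fun h => absurd h.symm hij, fun h => absurd h.symm hyj⟩
      · simp only [Sym2.eq_iff, not_or, not_and]
        exact ⟨fun _ => hxy.symm, fun h => absurd h.symm hxj⟩
      · exact fun _ => rfl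

/-- What a `RowSwitch` adds. -/
lemma RowSwitch.added {i j x y : Fin n} {G G' : Rz d} (h : RowSwitch i j x y G G')
    (e : Sym2 (Fin n)) : (e ∈ G'.1 ∧ e ∉ G.1) ↔ (e = s(i, y) ∨ e = s(j, x)) := by
  obtain ⟨hxi, hxj, hyi, hyj, hxy, h1, h2, h3, h4, h5⟩ := h
  rw [h5]
  simp only [mem_insert, mem_sdiff, mem_singleton, not_or]
  constructor
  · rintro ⟨h6 | h6 | h6, h7⟩
    · exact Or.inl h6
    · exact Or.inr h6
    · exact absurd h6.1 h7
  · rintro (rfl | rfl)
    · exact ⟨Or.inl rfl, h3⟩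
    · exact ⟨Or.inr (Or.inl rfl), h2⟩

/-- Given `G`, `G'`, a `RowSwitch` is determined by its first vertex. -/
lemma RowSwitch.unique {i j j2 x x2 y y2 : Fin n} {G G' : Rz d} (h : RowSwitch i j x y G G')
    (h2 : RowSwitch i j2 x2 y2 G G') : j = j2 ∧ x = x2 ∧ y = y2 := by
  have hr1 := h.removed
  have hr2 := h2.removed
  have ha1 := h.added
  have ha2 := h2.added
  obtain ⟨hxi, hxj, hyi, hyj, hxy, h11, h12, h13, h14, _⟩ := h
  obtain ⟨hxi2, hxj2, hyi2, hyj2, hxy2, h21, h22, _, _, _⟩ := h2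
  have hij2 : i ≠ j2 := fun hij => h22 (hij ▸ h21)
  have hij : i ≠ j := fun hij => h12 (hij ▸ h11)
  -- `s(i,x)` is removed
  have hx : x = x2 := by
    have h3 := (hr2 s(i, x)).1 ((hr1 s(i, x)).2 (Or.inl rfl))
    rcases h3 with h3 | h3
    · exact Sym2.congr_right.1 h3
    · rw [Sym2.eq_iff] at h3
      rcases h3 with ⟨h4, _⟩ | ⟨h4, _⟩
      · exact absurd h4 hij2
      · exact absurd h4.symm hyi2
  have hy : y = y2 := by
    have h3 := (ha2 s(i, y)).1 ((ha1 s(i, y)).2 (Or.inl rfl))
    rcases h3 with h3 | h3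
    · exact Sym2.congr_right.1 h3
    · rw [Sym2.eq_iff] at h3
      rcases h3 with ⟨h4, _⟩ | ⟨h4, _⟩
      · exact absurd h4 hij2
      · exact absurd h4.symm hxi2
  subst hx
  subst hy
  refine ⟨?_, rfl, rfl⟩
  have h3 := (hr2 s(j, y)).1 ((hr1 s(j, y)).2 (Or.inr rfl))
  rcases h3 with h3 | h3
  · rw [Sym2.eq_iff] at h3
    rcases h3 with ⟨h4, _⟩ | ⟨_, h4⟩
    · exact absurd h4.symm hij
    · exact absurd h4 hyi
  · rw [Sym2.eq_iff] at h3
    rcases h3 with ⟨h4, _⟩ | ⟨h4, _⟩
    · exact h4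
    · exact absurd h4 hyj.symm

/-- At most four `RowSwitch` labels give the same pair of graphs. -/
lemma card_rowSwitch_le (G G' : Rz d) :
    ((univ : Finset (Fin n × Fin n × Fin n × Fin n)).filter
      (fun t => RowSwitch t.1 t.2.1 t.2.2.1 t.2.2.2 G G')).card ≤ 4 := by
  set T := (univ : Finset (Fin n × Fin n × Fin n × Fin n)).filter
      (fun t => RowSwitch t.1 t.2.1 t.2.2.1 t.2.2.2 G G') with hT
  by_cases hne : T.Nonempty
  · obtain ⟨⟨i0, j0, x0, y0⟩, ht0⟩ := hne
    have ht0' : RowSwitch i0 j0 x0 y0 G G' := (mem_filter.1 ht0).2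
    have hinj : Set.InjOn (fun t : Fin n × Fin n × Fin n × Fin n => t.1) (T : Set _) := by
      rintro ⟨i, j, x, y⟩ ht ⟨i2, j2, x2, y2⟩ ht2 heq
      have hh : RowSwitch i j x y G G' := (mem_filter.1 (Finset.mem_coe.1 ht)).2
      have hh2 : RowSwitch i2 j2 x2 y2 G G' := (mem_filter.1 (Finset.mem_coe.1 ht2)).2
      simp only at heq
      subst heq
      obtain ⟨h1, h2, h3⟩ := hh.unique hh2
      subst h1 h2 h3
      rfl
    have himg : T.image (fun t : Fin n × Fin n × Fin n × Fin n => t.1) ⊆ {i0, j0, x0, y0} := by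
      intro v hv
      rw [mem_image] at hv
      obtain ⟨⟨i, j, x, y⟩, ht, rfl⟩ := hv
      have hh : RowSwitch i j x y G G' := (mem_filter.1 ht).2
      have h3 := (ht0'.removed s(i, x)).1 ((hh.removed s(i, x)).2 (Or.inl rfl))
      simp only [mem_insert, mem_singleton]
      rcases h3 with h3 | h3
      · rw [Sym2.eq_iff] at h3
        rcases h3 with ⟨h4, _⟩ | ⟨h4, _⟩
        · exact Or.inl h4
        · exact Or.inr (Or.inr (Or.inl h4))
      · rw [Sym2.eq_iff] at h3
        rcases h3 with ⟨h4, _⟩ | ⟨h4, _⟩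
        · exact Or.inr (Or.inl h4)
        · exact Or.inr (Or.inr (Or.inr h4))
    calc T.card = (T.image (fun t : Fin n × Fin n × Fin n × Fin n => t.1)).card :=
          (card_image_of_injOn hinj).symm
      _ ≤ ({i0, j0, x0, y0} : Finset (Fin n)).card := card_le_card himg
      _ ≤ 4 := card_le_four
  · rw [not_nonempty_iff_eq_empty] at hne
    rw [hne]
    simp

/-- `G'` is obtained from `G` by some `RowSwitch`. -/
def SwRz (G G' : Rz d) : Prop := ∃ i j x y, RowSwitch i j x y G G'

open scoped Classical in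
/-- Summing the energies over all row pairs counts each switch at most four times. -/
theorem sum_rowEnergy_le (f : Rz d → ℝ) (G : Rz d) :
    ∑ i, ∑ j, rowEnergy i j f G
      ≤ 4 * ∑ G', if SwRz G G' then (f G - f G') ^ 2 else 0 := by
  unfold rowEnergy
  have e1 : ∑ i, ∑ j, ∑ x, ∑ y, ∑ G', (if RowSwitch i j x y G G' then (f G - f G') ^ 2 else 0)
      = ∑ t : Fin n × Fin n × Fin n × Fin n, ∑ G',
        (if RowSwitch t.1 t.2.1 t.2.2.1 t.2.2.2 G G' then (f G - f G') ^ 2 else 0) := by
    simp only [Fintype.sum_prod_type]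
  rw [e1, sum_comm, mul_sum]
  refine sum_le_sum fun G' _ => ?_
  by_cases hsw : SwRz G G'
  · rw [if_pos hsw, ← sum_filter, sum_const, nsmul_eq_mul]
    apply mul_le_mul_of_nonneg_right _ (sq_nonneg _)
    exact_mod_cast card_rowSwitch_le G G'
  · rw [if_neg hsw, mul_zero]
    apply le_of_eq
    refine sum_eq_zero fun t _ => ?_
    rw [if_neg]
    exact fun h => hsw ⟨_, _, _, _, h⟩

open scoped Classical in
/-- The sum of the norms of all the row-pair projections is at most the switch energy. -/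
theorem sum_rowProj_le (f : Rz d → ℝ) :
    (∑ i, ∑ j, if i ≠ j then ip (rowProj i j f) (rowProj i j f) else 0)
      ≤ ∑ G, ∑ G', if SwRz G G' then (f G - f G') ^ 2 else 0 := by
  have h1 : ∀ i j : Fin n, (if i ≠ j then ip (rowProj i j f) (rowProj i j f) else 0)
      ≤ (1 / 4 : ℝ) * ∑ G, rowEnergy i j f G := by
    intro i j
    split_ifs with hij
    · exact rowProj_energy hij f
    · exact mul_nonneg (by norm_num) (sum_nonneg fun G _ => rowEnergy_nonneg i j f G)
  calc (∑ i, ∑ j, if i ≠ j then ip (rowProj i j f) (rowProj i j f) else 0)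
      ≤ ∑ i, ∑ j, (1 / 4 : ℝ) * ∑ G, rowEnergy i j f G :=
        sum_le_sum fun i _ => sum_le_sum fun j _ => h1 i j
    _ = (1 / 4 : ℝ) * ∑ G, ∑ i, ∑ j, rowEnergy i j f G := by
        simp only [← mul_sum]
        congr 1
        calc ∑ i, ∑ j, ∑ G, rowEnergy i j f G = ∑ i, ∑ G, ∑ j, rowEnergy i j f G :=
              sum_congr rfl fun i _ => sum_comm
          _ = ∑ G, ∑ i, ∑ j, rowEnergy i j f G := sum_comm
    _ ≤ (1 / 4 : ℝ) * ∑ G, 4 * ∑ G', (if SwRz G G' then (f G - f G') ^ 2 else 0) := by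
        apply mul_le_mul_of_nonneg_left _ (by norm_num)
        exact sum_le_sum fun G _ => sum_rowEnergy_le f G
    _ = _ := by
        rw [← mul_sum]
        ring

open scoped Classical in
/-- A simple graph with degree vector `d` as an edge finset. -/
noncomputable def toRz (G : Omega d) : Rz d :=
  ⟨G.1.edgeFinset, by
    constructor
    · intro v hv
      rw [SimpleGraph.mem_edgeFinset, SimpleGraph.mem_edgeSet] at hv
      exact hv.ne rfl
    · intro v
      rw [← G.2 v, degree_eq_card]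
      unfold degreeIn
      congr 1
      ext u
      simp only [mem_filter, mem_univ, true_and, SimpleGraph.mem_edgeFinset,
        SimpleGraph.mem_edgeSet]⟩

lemma mem_toRz (G : Omega d) (x y : Fin n) : s(x, y) ∈ (toRz G).1 ↔ G.1.Adj x y := by
  unfold toRz
  simp only [SimpleGraph.mem_edgeFinset, SimpleGraph.mem_edgeSet]

open scoped Classical in
/-- An edge finset as a simple graph. -/
noncomputable def ofRz (E : Rz d) : Omega d :=
  ⟨SimpleGraph.fromEdgeSet (E.1 : Set (Sym2 (Fin n))), by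
    intro v
    rw [← E.2.2 v, degree_eq_card]
    unfold degreeIn
    congr 1
    ext u
    simp only [mem_filter, mem_univ, true_and, SimpleGraph.fromEdgeSet_adj, mem_coe]
    constructor
    · exact fun h => h.1
    · intro h
      refine ⟨h, ?_⟩
      rintro rfl
      exact E.2.1 v h⟩

/-- `Omega d` and `Rz d` are the same set of graphs. -/
noncomputable def omegaEquivRz : Omega d ≃ Rz d where
  toFun := toRz
  invFun := ofRz
  left_inv := by
    intro G
    apply Subtype.ext
    ext x y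
    show (SimpleGraph.fromEdgeSet (((toRz G).1 : Finset _) : Set (Sym2 (Fin n)))).Adj x y ↔ _
    rw [SimpleGraph.fromEdgeSet_adj, mem_coe, mem_toRz]
    exact ⟨fun h => h.1, fun h => ⟨h, h.ne⟩⟩
  right_inv := by
    intro E
    apply Subtype.ext
    ext e
    induction e using Sym2.ind with
    | _ x y =>
      rw [mem_toRz]
      show (SimpleGraph.fromEdgeSet ((E.1 : Finset _) : Set (Sym2 (Fin n)))).Adj x y ↔ _
      rw [SimpleGraph.fromEdgeSet_adj, mem_coe]
      constructor
      · exact fun h => h.1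
      · intro h
        refine ⟨h, ?_⟩
        rintro rfl
        exact E.2.1 x h

/-- A `RowSwitch` between the edge finsets is a switch of simple graphs. -/
theorem isSwitch_of_swRz {G G' : Omega d} (h : SwRz (toRz G) (toRz G')) : IsSwitch G.1 G'.1 := by
  obtain ⟨i, j, x, y, hsw⟩ := h
  have hr := hsw.removed
  have ha := hsw.added
  obtain ⟨hxi, hxj, hyi, hyj, hxy, h1, h2, h3, h4, h5⟩ := hsw
  rw [mem_toRz] at h1 h2 h3 h4
  have hij : i ≠ j := fun hij => h2 (hij ▸ h1)
  have hyj' : G.1.Adj y j := h4.symm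
  have hxj' : ¬ G.1.Adj x j := fun h => h2 h.symm
  have hcond : (∀ e ∈ ({s(i, x), s(y, j)} : Finset (Sym2 (Fin n))), e ∈ G.1.edgeSet) ∧
      (∀ e ∈ ({s(i, y), s(x, j)} : Finset (Sym2 (Fin n))), e ∉ G.1.edgeSet) := by
    constructor
    · intro e he
      simp only [mem_insert, mem_singleton] at he
      rcases he with rfl | rfl
      · exact h1
      · exact hyj'
    · intro e he
      simp only [mem_insert, mem_singleton] at he
      rcases he with rfl | rfl
      · exact h3
      · exact hxj'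
  refine ⟨i, x, y, j, Ne.symm hxi, Ne.symm hyi, hij, hxy, Ne.symm hxj |> fun h => h.symm, hyj,
    h1, hyj', h3, hxj', ?_⟩
  ext u v
  rw [adj_applyMove hcond]
  simp only [mem_insert, mem_singleton]
  have hswap1 : s(y, j) = s(j, y) := Sym2.eq_swap
  have hswap2 : s(x, j) = s(j, x) := Sym2.eq_swap
  rw [hswap1, hswap2]
  have hG' : G'.1.Adj u v ↔ s(u, v) ∈ (toRz G').1 := (mem_toRz G' u v).symm
  rw [hG', h5]
  simp only [mem_insert, mem_sdiff, mem_singleton, mem_toRz, not_or]
  constructor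
  · intro h
    have huv : u ≠ v := by
      rintro rfl
      rcases h with h | h | h
      · rw [Sym2.eq_iff] at h
        rcases h with ⟨h6, h7⟩ | ⟨h6, h7⟩
        · exact hyi (h7.symm.trans h6)
        · exact hyi (h6.symm.trans h7)
      · rw [Sym2.eq_iff] at h
        rcases h with ⟨h6, h7⟩ | ⟨h6, h7⟩
        · exact hxj (h7.symm.trans h6)
        · exact hxj (h6.symm.trans h7)
      · exact h.1.ne rfl
    refine ⟨huv, ?_⟩
    rcases h with h | h | h
    · exact Or.inr (Or.inl h)
    · exact Or.inr (Or.inr h)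
    · exact Or.inl h
  · rintro ⟨_, h | h | h⟩
    · exact Or.inr (Or.inr h)
    · exact Or.inl h
    · exact Or.inr (Or.inl h)

open scoped Classical in
/-- **From `‖f‖² ≤ ∑_{i ≠ j} ‖P_ij f‖²` on `Rz d` to the Poincare inequality for the switches.** -/
theorem poincare_of_rowProj
    (hVar : ∀ f : Rz d → ℝ, ∑ G, f G = 0 →
      ip f f ≤ ∑ i, ∑ j, if i ≠ j then ip (rowProj i j f) (rowProj i j f) else 0)
    (f : Omega d → ℝ) (hf : ∑ G, f G = 0) :
    (1 / 2 : ℝ) * ∑ G, f G ^ 2 ≤ (1 / 2 : ℝ) * ∑ G : Omega d, ∑ G' : Omega d,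
        if IsSwitch G.1 G'.1 then (f G - f G') ^ 2 else 0 := by
  set e : Omega d ≃ Rz d := omegaEquivRz with he
  set f' : Rz d → ℝ := fun E => f (e.symm E) with hf'
  have hsum' : ∑ G, f' G = 0 := by
    rw [← hf]
    exact Equiv.sum_comp e.symm f
  have h1 := hVar f' hsum'
  have h2 := sum_rowProj_le f'
  have e1 : ip f' f' = ∑ G, f G ^ 2 := by
    unfold ip
    rw [← Equiv.sum_comp e.symm (fun G => f G ^ 2)]
    exact sum_congr rfl fun E _ => by simp only [hf']; ring
  have e2 : (∑ G, ∑ G', if SwRz G G' then (f' G - f' G') ^ 2 else 0)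
      ≤ ∑ G : Omega d, ∑ G' : Omega d, if IsSwitch G.1 G'.1 then (f G - f G') ^ 2 else 0 := by
    rw [← Equiv.sum_comp e]
    refine sum_le_sum fun G _ => ?_
    rw [← Equiv.sum_comp e]
    refine sum_le_sum fun G' _ => ?_
    have h3 : f' (e G) = f G := by simp [hf']
    have h4 : f' (e G') = f G' := by simp [hf']
    rw [h3, h4]
    by_cases hsw : SwRz (e G) (e G')
    · rw [if_pos hsw, if_pos (isSwitch_of_swRz hsw)]
    · rw [if_neg hsw]
      split_ifs
      · exact sq_nonneg _
      · exact le_rfl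
  rw [e1] at h1
  linarith

/-- **The mixing time bound from the row-pair inequality.** -/
theorem tmix_le_of_rowProj (hn : 4 ≤ n) (d : Fin n → ℕ) [Nonempty (Omega d)]
    (hVar : ∀ f : Rz d → ℝ, ∑ G, f G = 0 →
      ip f f ≤ ∑ i, ∑ j, if i ≠ j then ip (rowProj i j f) (rowProj i j f) else 0) :
    (∀ t, n ^ 6 ≤ t → MixedAt d t) ∧ tmix d ≤ n ^ 6 :=
  ⟨fun t ht => mixedAt_of_poincare hn d (poincare_of_rowProj hVar) t ht,
    tmix_le_of_poincare hn d (poincare_of_rowProj hVar)⟩

end Vale.Agent.Lib.P335
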