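import Vale.Agent.Lib.P335.Conn
import Vale.Agent.Lib.P335.Transport
import Vale.Agent.Lib.P335.Pair
import Vale.Agent.Lib.P335.ThreeRows

/-!
# P335: from the local inequalities to the global gap

Write `P_ij = rowProj i j` and `G = ∑_{i ≠ j} P_ij` (ordered pairs).
* `square_of_parts`: if the sums over disjoint pairs and over triples are nonnegative then
  `2 ⟨f, G f⟩ ≤ ‖G f‖²`.
* `gap_of_square_rz`: then `2 ‖f‖² ≤ ⟨f, G f⟩` for mean-zero `f`.
-/

namespace Vale.Agent.Lib.P335

open Finset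

variable {n : ℕ} {d : Fin n → ℕ}

set_option linter.unusedSimpArgs false

lemma rowSlots_comm (i j : Fin n) : rowSlots j i = rowSlots i j := by
  ext e
  simp only [mem_rowSlots]
  constructor
  · rintro ⟨c, h1, h2, h3⟩
    exact ⟨c, h2, h1, h3.symm⟩
  · rintro ⟨c, h1, h2, h3⟩
    exact ⟨c, h2, h1, h3.symm⟩

lemma rowProj_comm (i j : Fin n) (f : Rz d → ℝ) : rowProj j i f = rowProj i j f := by
  unfold rowProj rowAvg
  rw [rowSlots_comm]

/-- `⟨f, P f⟩ = ‖P f‖²`. -/
lemma ip_rowProj_self (i j : Fin n) (f g : Rz d → ℝ) :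
    ip (rowProj i j f) g = ip (rowProj i j f) (rowProj i j g) :=
  (ip_coavg_coavg _ f g).symm

lemma ip_sum_left {ι : Type*} (s : Finset ι) (a : ι → Rz d → ℝ) (g : Rz d → ℝ) :
    ip (∑ i ∈ s, a i) g = ∑ i ∈ s, ip (a i) g := by
  simp only [ip, Finset.sum_apply, Finset.sum_mul]
  rw [sum_comm]

lemma ip_sum_right {ι : Type*} (s : Finset ι) (a : ι → Rz d → ℝ) (g : Rz d → ℝ) :
    ip g (∑ i ∈ s, a i) = ∑ i ∈ s, ip g (a i) := by
  rw [ip_comm, ip_sum_left]
  exact sum_congr rfl fun i _ => ip_comm _ _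

/-- The operator `G = ∑_{i ≠ j} P_ij` over ordered pairs. -/
noncomputable def gOp (f : Rz d → ℝ) : Rz d → ℝ :=
  ∑ i, ∑ j, if i ≠ j then rowProj i j f else 0

/-- The quadratic form `∑_{i ≠ j} ‖P_ij f‖²`. -/
noncomputable def gForm (f : Rz d → ℝ) : ℝ :=
  ∑ i, ∑ j, if i ≠ j then ip (rowProj i j f) (rowProj i j f) else 0

lemma gForm_nonneg (f : Rz d → ℝ) : 0 ≤ gForm f := by
  unfold gForm
  refine sum_nonneg fun i _ => sum_nonneg fun j _ => ?_
  split_ifs
  · exact ip_self_nonneg _
  · exact le_rfl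

lemma ip_gOp_right (f g : Rz d → ℝ) : ip g (gOp f) = ∑ i, ∑ j, if i ≠ j then ip g (rowProj i j f) else 0 := by
  unfold gOp
  rw [ip_sum_right]
  refine sum_congr rfl fun i _ => ?_
  rw [ip_sum_right]
  refine sum_congr rfl fun j _ => ?_
  split_ifs
  · rfl
  · exact ip_zero_right _

lemma ip_self_gOp (f : Rz d → ℝ) : ip f (gOp f) = gForm f := by
  rw [ip_gOp_right]
  unfold gForm
  refine sum_congr rfl fun i _ => sum_congr rfl fun j _ => ?_
  split_ifs
  · rw [ip_comm, ip_rowProj_self]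
  · rfl

/-- The sum over ordered triples of distinct vertices. -/
noncomputable def triSum (f : Rz d → ℝ) : ℝ :=
  ∑ i, ∑ j, ∑ k, if i ≠ j ∧ k ≠ i ∧ k ≠ j then ip (rowProj i j f) (rowProj i k f) else 0

/-- The sum over ordered quadruples of distinct vertices. -/
noncomputable def quadSum (f : Rz d → ℝ) : ℝ :=
  ∑ i, ∑ j, ∑ k, ∑ l, if i ≠ j ∧ i ≠ k ∧ i ≠ l ∧ j ≠ k ∧ j ≠ l ∧ k ≠ l then
    ip (rowProj i j f) (rowProj k l f) else 0

/-- Classification of pairs of ordered pairs. -/
lemma classify (B : Fin n → Fin n → Fin n → Fin n → ℝ) (h1 : ∀ i j, B i j j i = B i j i j)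
    (h2 : ∀ i j l, B i j j l = B j i j l) (h3 : ∀ i j k, B i j k i = B i j i k)
    (h4 : ∀ i j k, B i j k j = B j i j k) (i j k l : Fin n) :
    (if i ≠ j then (if k ≠ l then B i j k l else 0) else 0)
      = (if i ≠ j ∧ i ≠ k ∧ i ≠ l ∧ j ≠ k ∧ j ≠ l ∧ k ≠ l then B i j k l else 0)
        + (if k = i then (if l = j then (if i ≠ j then B i j i j else 0) else 0) else 0)
        + (if k = j then (if l = i then (if i ≠ j then B i j i j else 0) else 0) else 0)
        + (if k = i then (if i ≠ j ∧ l ≠ i ∧ l ≠ j then B i j i l else 0) else 0)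
        + (if k = j then (if i ≠ j ∧ l ≠ i ∧ l ≠ j then B j i j l else 0) else 0)
        + (if l = i then (if i ≠ j ∧ k ≠ i ∧ k ≠ j then B i j i k else 0) else 0)
        + (if l = j then (if i ≠ j ∧ k ≠ i ∧ k ≠ j then B j i j k else 0) else 0) := by
  by_cases hij : i = j
  · subst hij
    simp
  by_cases hki : k = i
  · subst hki
    by_cases hlj : l = j
    · subst hlj
      simp [hij, Ne.symm hij]
    · by_cases hlk : l = k
      · subst hlk
        simp [hij, Ne.symm hij]
      · simp [hij, Ne.symm hij, hlj, hlk, Ne.symm hlk]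
  by_cases hkj : k = j
  · subst hkj
    by_cases hli : l = i
    · subst hli
      simp [hij, Ne.symm hij]
      exact h1 _ _
    · by_cases hlk : l = k
      · subst hlk
        simp [hij, Ne.symm hij, hli]
      · simp [hij, Ne.symm hij, hli, hlk, Ne.symm hlk]
        exact h2 _ _ _
  by_cases hli : l = i
  · subst hli
    simp [hij, Ne.symm hij, hki, hkj, Ne.symm hki, Ne.symm hkj]
    exact h3 _ _ _
  by_cases hlj : l = j
  · subst hlj
    simp [hij, Ne.symm hij, hki, hkj, Ne.symm hki, Ne.symm hkj, hli, Ne.symm hli]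
    exact h4 _ _ _
  by_cases hkl : k = l
  · subst hkl
    simp [hij, hki, hkj, hli, hlj, Ne.symm hki, Ne.symm hkj]
  · simp [hij, hki, hkj, hli, hlj, hkl, Ne.symm hki, Ne.symm hkj, Ne.symm hli, Ne.symm hlj]

/-- **Expansion of the square of `G`.** -/
theorem ip_gOp_gOp (f : Rz d → ℝ) :
    ip (gOp f) (gOp f) = 2 * gForm f + 4 * triSum f + quadSum f := by
  set B : Fin n → Fin n → Fin n → Fin n → ℝ :=
    fun i j k l => ip (rowProj i j f) (rowProj k l f) with hB
  have hexp : ip (gOp f) (gOp f) = ∑ i, ∑ j, ∑ k, ∑ l,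
      if i ≠ j then (if k ≠ l then B i j k l else 0) else 0 := by
    conv_lhs => unfold gOp
    rw [ip_sum_left]
    refine sum_congr rfl fun i _ => ?_
    rw [ip_sum_left]
    refine sum_congr rfl fun j _ => ?_
    by_cases hij : i ≠ j
    · simp only [hij, if_true, ne_eq, not_false_eq_true]
      rw [← gOp, ip_gOp_right]
    · simp only [hij, if_false, ne_eq, not_false_eq_true, ip_zero_left]
      simp
  have h1 : ∀ i j, B i j j i = B i j i j := by
    intro i j
    simp only [hB]
    rw [rowProj_comm]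
  have h2 : ∀ i j l, B i j j l = B j i j l := by
    intro i j l
    simp only [hB]
    rw [rowProj_comm j i]
  have h3 : ∀ i j k, B i j k i = B i j i k := by
    intro i j k
    simp only [hB]
    rw [rowProj_comm i k]
  have h4 : ∀ i j k, B i j k j = B j i j k := by
    intro i j k
    simp only [hB]
    rw [rowProj_comm j i, rowProj_comm j k]
  rw [hexp]
  simp only [classify B h1 h2 h3 h4, sum_add_distrib]
  have t1 : (∑ i, ∑ j, ∑ k, ∑ l, if i ≠ j ∧ i ≠ k ∧ i ≠ l ∧ j ≠ k ∧ j ≠ l ∧ k ≠ l then B i j k l else 0)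
      = quadSum f := rfl
  have hf : ∀ i j, (if i ≠ j then B i j i j else 0)
      = if i ≠ j then ip (rowProj i j f) (rowProj i j f) else 0 := fun i j => rfl
  have sum1 : ∀ (i : Fin n) (Z : Fin n → ℝ), ∑ k, ∑ l, (if k = i then Z l else 0) = ∑ l, Z l := by
    intro i Z
    rw [sum_comm]
    refine sum_congr rfl fun l _ => ?_
    simp
  have sum2 : ∀ (i : Fin n) (Z : Fin n → ℝ), ∑ k, ∑ l, (if l = i then Z k else 0) = ∑ k, Z k := by
    intro i Z
    refine sum_congr rfl fun l _ => ?_
    simp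
  have t2 : (∑ i, ∑ j, ∑ k, ∑ l, if k = i then (if l = j then (if i ≠ j then B i j i j else 0) else 0) else 0)
      = gForm f := by
    unfold gForm
    refine sum_congr rfl fun i _ => sum_congr rfl fun j _ => ?_
    rw [sum1]
    simp [hf]
  have t3 : (∑ i, ∑ j, ∑ k, ∑ l, if k = j then (if l = i then (if i ≠ j then B i j i j else 0) else 0) else 0)
      = gForm f := by
    unfold gForm
    refine sum_congr rfl fun i _ => sum_congr rfl fun j _ => ?_
    rw [sum1]
    simp [hf]
  have t4 : (∑ i, ∑ j, ∑ k, ∑ l, if k = i then (if i ≠ j ∧ l ≠ i ∧ l ≠ j then B i j i l else 0) else 0)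
      = triSum f := by
    unfold triSum
    refine sum_congr rfl fun i _ => sum_congr rfl fun j _ => ?_
    rw [sum1]
  have t5 : (∑ i, ∑ j, ∑ k, ∑ l, if k = j then (if i ≠ j ∧ l ≠ i ∧ l ≠ j then B j i j l else 0) else 0)
      = triSum f := by
    unfold triSum
    rw [sum_comm]
    refine sum_congr rfl fun j _ => sum_congr rfl fun i _ => ?_
    rw [sum1]
    refine sum_congr rfl fun l _ => ?_
    have e : (i ≠ j ∧ l ≠ i ∧ l ≠ j) ↔ (j ≠ i ∧ l ≠ j ∧ l ≠ i) := by
      constructor
      · rintro ⟨a, b, c⟩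
        exact ⟨Ne.symm a, c, b⟩
      · rintro ⟨a, b, c⟩
        exact ⟨Ne.symm a, c, b⟩
    simp only [e]
    rfl
  have t6 : (∑ i, ∑ j, ∑ k, ∑ l, if l = i then (if i ≠ j ∧ k ≠ i ∧ k ≠ j then B i j i k else 0) else 0)
      = triSum f := by
    unfold triSum
    refine sum_congr rfl fun i _ => sum_congr rfl fun j _ => ?_
    rw [sum2]
  have t7 : (∑ i, ∑ j, ∑ k, ∑ l, if l = j then (if i ≠ j ∧ k ≠ i ∧ k ≠ j then B j i j k else 0) else 0)
      = triSum f := by
    unfold triSum
    rw [sum_comm]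
    refine sum_congr rfl fun j _ => sum_congr rfl fun i _ => ?_
    rw [sum2]
    refine sum_congr rfl fun l _ => ?_
    have e : (i ≠ j ∧ l ≠ i ∧ l ≠ j) ↔ (j ≠ i ∧ l ≠ j ∧ l ≠ i) := by
      constructor
      · rintro ⟨a, b, c⟩
        exact ⟨Ne.symm a, c, b⟩
      · rintro ⟨a, b, c⟩
        exact ⟨Ne.symm a, c, b⟩
    simp only [e]
    rfl
  rw [t1, t2, t3, t4, t5, t6, t7]
  ring

/-- From the triple inequality to the nonnegativity of the triple sum. -/
theorem triSum_nonneg (f : Rz d → ℝ)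
    (htri : ∀ i j k : Fin n, i ≠ j → i ≠ k → j ≠ k →
      ip f (rowProj i j f + rowProj i k f + rowProj j k f)
        ≤ ip (rowProj i j f + rowProj i k f + rowProj j k f)
            (rowProj i j f + rowProj i k f + rowProj j k f)) :
    0 ≤ triSum f := by
  set a := fun i j => rowProj (d := d) i j f with ha
  -- each triple
  have hone : ∀ i j k : Fin n, i ≠ j → i ≠ k → j ≠ k →
      0 ≤ ip (a i j) (a i k) + ip (a i j) (a j k) + ip (a i k) (a j k) := by
    intro i j k hij hik hjk
    have h := htri i j k hij hik hjk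
    have e1 : ∀ u v : Fin n, ip f (rowProj u v f) = ip (rowProj u v f) (rowProj u v f) := by
      intro u v
      rw [ip_comm, ip_rowProj_self]
    simp only [ip_add_right, ip_add_left] at h
    rw [e1, e1, e1] at h
    have c1 := ip_comm (rowProj i k f) (rowProj i j f)
    have c2 := ip_comm (rowProj j k f) (rowProj i j f)
    have c3 := ip_comm (rowProj j k f) (rowProj i k f)
    simp only [ha]
    linarith
  have hsum : 0 ≤ ∑ i, ∑ j, ∑ k, if i ≠ j ∧ k ≠ i ∧ k ≠ j then
      ip (a i j) (a i k) + ip (a i j) (a j k) + ip (a i k) (a j k) else 0 := by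
    refine sum_nonneg fun i _ => sum_nonneg fun j _ => sum_nonneg fun k _ => ?_
    split_ifs with h
    · exact hone i j k h.1 (Ne.symm h.2.1) (Ne.symm h.2.2)
    · exact le_rfl
  have e0 : triSum f = ∑ i, ∑ j, ∑ k, if i ≠ j ∧ k ≠ i ∧ k ≠ j then ip (a i j) (a i k) else 0 := rfl
  have e1 : (∑ i, ∑ j, ∑ k, if i ≠ j ∧ k ≠ i ∧ k ≠ j then ip (a i j) (a j k) else 0) = triSum f := by
    rw [e0, sum_comm]
    refine sum_congr rfl fun j _ => sum_congr rfl fun i _ => sum_congr rfl fun k _ => ?_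
    have e : (i ≠ j ∧ k ≠ i ∧ k ≠ j) ↔ (j ≠ i ∧ k ≠ j ∧ k ≠ i) := by
      constructor
      · rintro ⟨a, b, c⟩
        exact ⟨Ne.symm a, c, b⟩
      · rintro ⟨a, b, c⟩
        exact ⟨Ne.symm a, c, b⟩
    simp only [e]
    by_cases hc : j ≠ i ∧ k ≠ j ∧ k ≠ i
    · rw [if_pos hc, if_pos hc]
      simp only [ha]
      rw [rowProj_comm j i]
    · rw [if_neg hc, if_neg hc]
  have e2 : (∑ i, ∑ j, ∑ k, if i ≠ j ∧ k ≠ i ∧ k ≠ j then ip (a i k) (a j k) else 0) = triSum f := by
    rw [e0]
    calc (∑ i, ∑ j, ∑ k, if i ≠ j ∧ k ≠ i ∧ k ≠ j then ip (a i k) (a j k) else 0)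
        = ∑ i, ∑ k, ∑ j, (if i ≠ j ∧ k ≠ i ∧ k ≠ j then ip (a i k) (a j k) else 0) :=
          sum_congr rfl fun i _ => sum_comm
      _ = ∑ k, ∑ i, ∑ j, (if i ≠ j ∧ k ≠ i ∧ k ≠ j then ip (a i k) (a j k) else 0) := sum_comm
      _ = _ := by
        refine sum_congr rfl fun k _ => sum_congr rfl fun i _ => sum_congr rfl fun j _ => ?_
        have e : (i ≠ j ∧ k ≠ i ∧ k ≠ j) ↔ (k ≠ i ∧ j ≠ k ∧ j ≠ i) := by
          constructor
          · rintro ⟨a, b, c⟩
            exact ⟨b, Ne.symm c, Ne.symm a⟩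
          · rintro ⟨a, b, c⟩
            exact ⟨Ne.symm c, a, Ne.symm b⟩
        simp only [e]
        by_cases hc : k ≠ i ∧ j ≠ k ∧ j ≠ i
        · rw [if_pos hc, if_pos hc]
          simp only [ha]
          rw [rowProj_comm i k, rowProj_comm j k]
        · rw [if_neg hc, if_neg hc]
  have hsplit : (∑ i, ∑ j, ∑ k, if i ≠ j ∧ k ≠ i ∧ k ≠ j then
      ip (a i j) (a i k) + ip (a i j) (a j k) + ip (a i k) (a j k) else 0)
      = triSum f + triSum f + triSum f := by
    have e3 : (∑ i, ∑ j, ∑ k, if i ≠ j ∧ k ≠ i ∧ k ≠ j then ip (a i j) (a i k) else 0)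
        + (∑ i, ∑ j, ∑ k, if i ≠ j ∧ k ≠ i ∧ k ≠ j then ip (a i j) (a j k) else 0)
        + (∑ i, ∑ j, ∑ k, if i ≠ j ∧ k ≠ i ∧ k ≠ j then ip (a i k) (a j k) else 0)
        = triSum f + triSum f + triSum f := by
      rw [e1, e2, ← e0]
    rw [← e3]
    simp only [← sum_add_distrib]
    refine sum_congr rfl fun i _ => sum_congr rfl fun j _ => sum_congr rfl fun k _ => ?_
    split_ifs
    · rfl
    · simp
  rw [hsplit] at hsum
  linarith

/-- **From the local inequalities to the square inequality.** -/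
theorem square_of_parts (f : Rz d → ℝ) (hquad : 0 ≤ quadSum f)
    (htri : ∀ i j k : Fin n, i ≠ j → i ≠ k → j ≠ k →
      ip f (rowProj i j f + rowProj i k f + rowProj j k f)
        ≤ ip (rowProj i j f + rowProj i k f + rowProj j k f)
            (rowProj i j f + rowProj i k f + rowProj j k f)) :
    2 * gForm f ≤ ip (gOp f) (gOp f) := by
  rw [ip_gOp_gOp]
  have := triSum_nonneg f htri
  linarith

/-- Sum over the subtype of off-diagonal ordered pairs. -/
lemma sum_offdiag {M : Type*} [AddCommMonoid M] (F : Fin n → Fin n → M) :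
    ∑ p : {p : Fin n × Fin n // p.1 ≠ p.2}, F p.1.1 p.1.2
      = ∑ i, ∑ j, if i ≠ j then F i j else 0 := by
  rw [← Fintype.sum_prod_type' (f := fun i j => if i ≠ j then F i j else 0)]
  rw [← Finset.sum_filter]
  exact (Finset.sum_subtype (univ.filter fun p : Fin n × Fin n => p.1 ≠ p.2)
    (by simp) (fun p => F p.1 p.2)).symm

/-- **Gap from the square inequality.** -/
theorem gap_of_square_rz (hsq : ∀ f : Rz d → ℝ, 2 * gForm f ≤ ip (gOp f) (gOp f))
    (f : Rz d → ℝ) (hf : ∑ G, f G = 0) : 2 * ip f f ≤ gForm f := by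
  let I := {p : Fin n × Fin n // p.1 ≠ p.2}
  let κ : I → Rz d → Gr n := fun p => offKey (rowSlots p.1.1 p.1.2)
  have hcexp : ∀ (p : I) (v : Rz d → ℝ) (x : Rz d),
      cexp univ (κ p) v x = rowAvg p.1.1 p.1.2 v x := fun _ _ _ => rfl
  have hg := gap_of_no_eigen (I := I) (univ : Finset (Rz d)) κ (((Fintype.card I : ℕ) : ℝ) - 2) ?_ f hf
  · -- conclusion
    have hform : gForm f = ∑ p : I, ip (rowProj p.1.1 p.1.2 f) (rowProj p.1.1 p.1.2 f) :=
      (sum_offdiag (fun i j => ip (rowProj i j f) (rowProj i j f))).symm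
    have hpy : ∀ p : I, ip (rowProj p.1.1 p.1.2 f) (rowProj p.1.1 p.1.2 f)
        = ip f f - ∑ x, (cexp univ (κ p) f x) ^ 2 := by
      intro p
      have h1 : ip (rowProj p.1.1 p.1.2 f) (rowProj p.1.1 p.1.2 f)
          = ip f f - ip (rowAvg p.1.1 p.1.2 f) (rowAvg p.1.1 p.1.2 f) := by
        have h2 := ip_coavg_coavg (offKey (d := d) (rowSlots p.1.1 p.1.2)) f f
        have h3 := ip_avg_self (offKey (d := d) (rowSlots p.1.1 p.1.2)) f
        show ip (coavg _ f) (coavg _ f) = _
        rw [h2]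
        show ip (f - avg _ f) f = _
        rw [ip_sub_left, h3]
        rfl
      rw [h1]
      congr 1
      unfold ip
      exact sum_congr rfl fun x _ => by rw [hcexp, sq]
    rw [hform, sum_congr rfl (fun p _ => hpy p), sum_sub_distrib, sum_const, nsmul_eq_mul, card_univ]
    have e : ip f f = ∑ x, f x ^ 2 := by
      unfold ip
      exact sum_congr rfl fun x _ => by rw [sq]
    rw [e]
    linarith
  · intro v η hmean hev hη
    set N : ℝ := ((Fintype.card I : ℕ) : ℝ) with hNdef
    set μ : ℝ := N - η with hμ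
    have hμ2 : μ < 2 := by
      rw [hμ]
      linarith
    have hgv : gOp v = μ • v := by
      funext x
      have h1 : gOp v x = ∑ p : I, rowProj p.1.1 p.1.2 v x := by
        unfold gOp
        have := sum_offdiag (fun i j => rowProj (d := d) i j v)
        rw [← this]
        simp only [Finset.sum_apply]
        rfl
      rw [h1]
      have h2 : ∀ p : I, rowProj p.1.1 p.1.2 v x = v x - cexp univ (κ p) v x := fun p => rfl
      simp only [h2, sum_sub_distrib, sum_const, nsmul_eq_mul, card_univ]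
      rw [hev x (mem_univ x)]
      simp only [Pi.smul_apply, smul_eq_mul, hμ, hNdef]
      ring
    set Q : ℝ := ip v v with hQ
    have hQ0 : 0 ≤ Q := ip_self_nonneg v
    have hform : gForm v = μ * Q := by
      rw [← ip_self_gOp, hgv, ip_smul_right]
    have hsqv : ip (gOp v) (gOp v) = μ ^ 2 * Q := by
      rw [hgv, ip_smul_left, ip_smul_right]
      ring
    have h1 := hsq v
    rw [hform, hsqv] at h1
    have hnn : 0 ≤ μ * Q := by
      rw [← hform]
      exact gForm_nonneg v
    by_cases hQz : Q = 0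
    · have hv0 : v = 0 := ip_self_eq_zero.1 hQz
      intro x _
      rw [hv0]
      rfl
    · have hQpos : 0 < Q := lt_of_le_of_ne hQ0 (Ne.symm hQz)
      have hμ0 : 0 ≤ μ := by
        by_contra hlt
        push Not at hlt
        nlinarith
      have hμz : μ = 0 := by
        by_contra hne
        have hμpos : 0 < μ := lt_of_le_of_ne hμ0 (Ne.symm hne)
        have h3 : 2 * (μ * Q) ≤ μ * (μ * Q) := by nlinarith
        have h4 : μ * (μ * Q) < 2 * (μ * Q) := by
          apply mul_lt_mul_of_pos_right hμ2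
          exact mul_pos hμpos hQpos
        linarith
      have hzero : gForm v = 0 := by
        rw [hform, hμz, zero_mul]
      have hP0 : ∀ i j : Fin n, i ≠ j → rowProj i j v = 0 := by
        intro i j hij
        unfold gForm at hzero
        have h2 := (sum_eq_zero_iff_of_nonneg (fun i _ => sum_nonneg fun j _ => by
          split_ifs
          · exact ip_self_nonneg _
          · exact le_rfl)).1 hzero i (mem_univ i)
        have h3 := (sum_eq_zero_iff_of_nonneg (fun j _ => by
          split_ifs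
          · exact ip_self_nonneg _
          · exact le_rfl)).1 h2 j (mem_univ j)
        rw [if_pos hij] at h3
        exact ip_self_eq_zero.1 h3
      have hconst := const_of_rowProj_zero v hP0
      intro x _
      have h2 : ∑ y, v y = ∑ _y : Rz d, v x := sum_congr rfl fun y _ => hconst y x
      rw [hmean, sum_const, nsmul_eq_mul] at h2
      have hpos : 0 < ((univ : Finset (Rz d)).card : ℝ) := by
        exact_mod_cast card_pos.2 ⟨x, mem_univ x⟩
      exact (mul_eq_zero.1 h2.symm).resolve_left hpos.ne'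

/-- **The final inequality from the local ones.** -/
theorem hVar_of_parts (hquad : ∀ f : Rz d → ℝ, 0 ≤ quadSum f)
    (htri : ∀ (f : Rz d → ℝ) (i j k : Fin n), i ≠ j → i ≠ k → j ≠ k →
      ip f (rowProj i j f + rowProj i k f + rowProj j k f)
        ≤ ip (rowProj i j f + rowProj i k f + rowProj j k f)
            (rowProj i j f + rowProj i k f + rowProj j k f))
    (f : Rz d → ℝ) (hf : ∑ G, f G = 0) :
    ip f f ≤ ∑ i, ∑ j, if i ≠ j then ip (rowProj i j f) (rowProj i j f) else 0 := by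
  have h := gap_of_square_rz (fun g => square_of_parts g (hquad g) (htri g)) f hf
  have h0 := ip_self_nonneg f
  have : gForm f = ∑ i, ∑ j, if i ≠ j then ip (rowProj i j f) (rowProj i j f) else 0 := rfl
  rw [← this]
  linarith

end Vale.Agent.Lib.P335
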