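import Mathlib

/-!
Averaging operators over the fibres of a key function on a finite type, with the inner product
`ip f g = ∑ x, f x * g x`.
-/

namespace Vale.Agent.Lib.P335

open Finset

section Ip

variable {Ω : Type*} [Fintype Ω]

/-- The standard inner product of real functions on a finite type. -/
def ip (f g : Ω → ℝ) : ℝ := ∑ x, f x * g x

lemma ip_comm (f g : Ω → ℝ) : ip f g = ip g f := by
  simp [ip, mul_comm]

lemma ip_add_left (f f' g : Ω → ℝ) : ip (f + f') g = ip f g + ip f' g := by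
  simp [ip, add_mul, Finset.sum_add_distrib]

lemma ip_add_right (f g g' : Ω → ℝ) : ip f (g + g') = ip f g + ip f g' := by
  simp [ip, mul_add, Finset.sum_add_distrib]

lemma ip_sub_left (f f' g : Ω → ℝ) : ip (f - f') g = ip f g - ip f' g := by
  simp [ip, sub_mul, Finset.sum_sub_distrib]

lemma ip_sub_right (f g g' : Ω → ℝ) : ip f (g - g') = ip f g - ip f g' := by
  simp [ip, mul_sub, Finset.sum_sub_distrib]

lemma ip_smul_left (c : ℝ) (f g : Ω → ℝ) : ip (c • f) g = c * ip f g := by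
  simp [ip, Finset.mul_sum, mul_assoc]

lemma ip_smul_right (c : ℝ) (f g : Ω → ℝ) : ip f (c • g) = c * ip f g := by
  simp only [ip, Pi.smul_apply, smul_eq_mul, Finset.mul_sum]
  exact Finset.sum_congr rfl fun x _ => by ring

lemma ip_self_nonneg (f : Ω → ℝ) : 0 ≤ ip f f :=
  Finset.sum_nonneg fun x _ => mul_self_nonneg _

lemma ip_zero_left (g : Ω → ℝ) : ip 0 g = 0 := by simp [ip]

lemma ip_zero_right (f : Ω → ℝ) : ip f 0 = 0 := by simp [ip]

lemma ip_self_eq_zero {f : Ω → ℝ} : ip f f = 0 ↔ f = 0 := by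
  constructor
  · intro h
    have := (Finset.sum_eq_zero_iff_of_nonneg (fun x _ => mul_self_nonneg (f x))).1 h
    funext x
    simpa using this x (Finset.mem_univ x)
  · rintro rfl; simp [ip]

end Ip

section Avg

variable {Ω K : Type*} [Fintype Ω] [DecidableEq K]

/-- The fibre of the key `κ` through `x`. -/
def fib (κ : Ω → K) (x : Ω) : Finset Ω := univ.filter fun y => κ y = κ x

/-- Averaging of `f` over the fibres of the key `κ`. -/
noncomputable def avg (κ : Ω → K) (f : Ω → ℝ) (x : Ω) : ℝ :=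
  (∑ y ∈ fib κ x, f y) / ((fib κ x).card : ℝ)

@[simp] lemma mem_fib {κ : Ω → K} {x y : Ω} : y ∈ fib κ x ↔ κ y = κ x := by
  simp [fib]

lemma self_mem_fib (κ : Ω → K) (x : Ω) : x ∈ fib κ x := by simp

lemma fib_eq {κ : Ω → K} {x y : Ω} (h : κ x = κ y) : fib κ x = fib κ y := by
  ext z; simp [h]

lemma card_fib_pos (κ : Ω → K) (x : Ω) : 0 < (fib κ x).card :=
  Finset.card_pos.2 ⟨x, self_mem_fib κ x⟩

lemma card_fib_ne (κ : Ω → K) (x : Ω) : ((fib κ x).card : ℝ) ≠ 0 := by
  exact_mod_cast (card_fib_pos κ x).ne'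

lemma avg_congr {κ : Ω → K} (f : Ω → ℝ) {x y : Ω} (h : κ x = κ y) : avg κ f x = avg κ f y := by
  simp [avg, fib_eq h]

lemma avg_add (κ : Ω → K) (f g : Ω → ℝ) : avg κ (f + g) = avg κ f + avg κ g := by
  funext x
  simp [avg, Finset.sum_add_distrib, add_div]

lemma avg_sub (κ : Ω → K) (f g : Ω → ℝ) : avg κ (f - g) = avg κ f - avg κ g := by
  funext x
  simp [avg, Finset.sum_sub_distrib, sub_div]

lemma avg_smul (κ : Ω → K) (c : ℝ) (f : Ω → ℝ) : avg κ (c • f) = c • avg κ f := by
  funext x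
  simp [avg, ← Finset.mul_sum, mul_div_assoc]

lemma avg_zero (κ : Ω → K) : avg κ (0 : Ω → ℝ) = 0 := by
  funext x
  simp [avg]

/-- Averaging fixes functions that are constant on fibres. -/
lemma avg_of_invariant {κ : Ω → K} {f : Ω → ℝ} (hf : ∀ x y, κ x = κ y → f x = f y) :
    avg κ f = f := by
  funext x
  have h1 : ∑ y ∈ fib κ x, f y = ((fib κ x).card : ℝ) * f x := by
    rw [Finset.sum_congr rfl (g := fun _ => f x)]
    · simp
    · intro y hy
      exact hf y x (mem_fib.1 hy)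
  simp only [avg, h1]
  field_simp [card_fib_ne κ x]

lemma avg_invariant (κ : Ω → K) (f : Ω → ℝ) : ∀ x y, κ x = κ y → avg κ f x = avg κ f y :=
  fun _ _ h => avg_congr f h

lemma avg_idem (κ : Ω → K) (f : Ω → ℝ) : avg κ (avg κ f) = avg κ f :=
  avg_of_invariant (avg_invariant κ f)

/-- The bilinear form of the averaging operator, written as a double sum. -/
lemma ip_avg_eq (κ : Ω → K) (f g : Ω → ℝ) :
    ip (avg κ f) g = ∑ x, ∑ y, (if κ y = κ x then f y * g x / ((fib κ x).card : ℝ) else 0) := by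
  unfold ip avg
  refine Finset.sum_congr rfl fun x _ => ?_
  rw [div_mul_eq_mul_div, Finset.sum_mul, Finset.sum_div, fib, Finset.sum_filter]

/-- Averaging is self-adjoint. -/
lemma ip_avg_left (κ : Ω → K) (f g : Ω → ℝ) : ip (avg κ f) g = ip f (avg κ g) := by
  rw [ip_comm f, ip_avg_eq, ip_avg_eq, Finset.sum_comm]
  refine Finset.sum_congr rfl fun y _ => Finset.sum_congr rfl fun x _ => ?_
  by_cases h : κ x = κ y
  · have h' : κ y = κ x := h.symm
    rw [if_pos h, if_pos h', fib_eq h]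
    ring
  · have h' : ¬ κ y = κ x := fun e => h e.symm
    simp [h, h']

lemma ip_avg_avg (κ : Ω → K) (f g : Ω → ℝ) : ip (avg κ f) (avg κ g) = ip (avg κ f) g := by
  rw [ip_avg_left, avg_idem, ip_avg_left]

lemma ip_avg_self (κ : Ω → K) (f : Ω → ℝ) : ip (avg κ f) f = ip (avg κ f) (avg κ f) :=
  (ip_avg_avg κ f f).symm

/-- Averaging is a contraction. -/
lemma ip_avg_le (κ : Ω → K) (f : Ω → ℝ) : ip (avg κ f) (avg κ f) ≤ ip f f := by
  have h := ip_self_nonneg (f - avg κ f)
  rw [ip_sub_left, ip_sub_right, ip_sub_right, ip_comm f (avg κ f), ip_avg_self] at h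
  linarith

/-- The complementary projection. -/
noncomputable def coavg (κ : Ω → K) (f : Ω → ℝ) : Ω → ℝ := f - avg κ f

lemma coavg_apply (κ : Ω → K) (f : Ω → ℝ) (x : Ω) : coavg κ f x = f x - avg κ f x := rfl

lemma ip_coavg_left (κ : Ω → K) (f g : Ω → ℝ) : ip (coavg κ f) g = ip f (coavg κ g) := by
  simp only [coavg, ip_sub_left, ip_sub_right, ip_avg_left]

lemma ip_coavg_coavg (κ : Ω → K) (f g : Ω → ℝ) : ip (coavg κ f) (coavg κ g) = ip (coavg κ f) g := by
  have h : ip (coavg κ f) (avg κ g) = 0 := by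
    simp only [coavg, ip_sub_left]
    rw [ip_avg_avg, ip_avg_left]
    ring
  simp only [coavg] at h ⊢
  rw [ip_sub_right, h, sub_zero]

lemma coavg_add (κ : Ω → K) (f g : Ω → ℝ) : coavg κ (f + g) = coavg κ f + coavg κ g := by
  simp only [coavg, avg_add]; abel

lemma coavg_sub (κ : Ω → K) (f g : Ω → ℝ) : coavg κ (f - g) = coavg κ f - coavg κ g := by
  simp only [coavg, avg_sub]; abel

lemma coavg_smul (κ : Ω → K) (c : ℝ) (f : Ω → ℝ) : coavg κ (c • f) = c • coavg κ f := by
  simp only [coavg, avg_smul, smul_sub]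

lemma coavg_zero (κ : Ω → K) : coavg κ (0 : Ω → ℝ) = 0 := by
  simp [coavg, avg_zero]

/-- If the key `κ'` refines `κ`, averaging over the finer fibres first changes nothing. -/
lemma avg_avg_of_refines {K' : Type*} [DecidableEq K'] {κ : Ω → K} {κ' : Ω → K'}
    (hr : ∀ x y, κ' x = κ' y → κ x = κ y) (f : Ω → ℝ) : avg κ (avg κ' f) = avg κ f := by
  classical
  funext x
  let u : Ω → ℝ := fun y => if κ y = κ x then 1 else 0
  have hu : avg κ' u = u := by
    apply avg_of_invariant
    intro a b hab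
    simp only [u, hr a b hab]
  have key : ∀ g : Ω → ℝ, ∑ y ∈ fib κ x, g y = ip g u := by
    intro g
    simp only [ip, u, fib, Finset.sum_filter, mul_ite, mul_one, mul_zero]
  have h1 : ∑ y ∈ fib κ x, avg κ' f y = ∑ y ∈ fib κ x, f y := by
    rw [key, key, ip_avg_left, hu]
  simp only [avg] at h1 ⊢
  rw [h1]

lemma avg_avg_of_refines' {K' : Type*} [DecidableEq K'] {κ : Ω → K} {κ' : Ω → K'}
    (hr : ∀ x y, κ' x = κ' y → κ x = κ y) (f : Ω → ℝ) : avg κ' (avg κ f) = avg κ f :=
  avg_of_invariant fun a b hab => avg_congr f (hr a b hab)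

/-- Commutation of two averaging operators at a point, from a rectangle structure. -/
lemma avg_comm_at {K' : Type*} [DecidableEq K'] {κ : Ω → K} {κ' : Ω → K'} (f : Ω → ℝ) (x : Ω)
    (Φ : Ω → Ω → Ω)
    (h1 : ∀ y ∈ fib κ x, Set.BijOn (fun z => Φ y z) (fib κ' x : Set Ω) (fib κ' y : Set Ω))
    (h2 : ∀ z ∈ fib κ' x, Set.BijOn (fun y => Φ y z) (fib κ x : Set Ω) (fib κ z : Set Ω)) :
    avg κ (avg κ' f) x = avg κ' (avg κ f) x := by
  have e1 : ∀ y ∈ fib κ x, avg κ' f y = (∑ z ∈ fib κ' x, f (Φ y z)) / ((fib κ' x).card : ℝ) := by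
    intro y hy
    have hb := h1 y hy
    have hc : (fib κ' y).card = (fib κ' x).card := by
      symm
      refine Finset.card_bij (fun z _ => Φ y z) (fun z hz => ?_) (fun a ha b hb' hab => ?_) ?_
      · exact hb.mapsTo (by exact_mod_cast hz)
      · exact hb.injOn (by exact_mod_cast ha) (by exact_mod_cast hb') hab
      · intro w hw
        obtain ⟨z, hz, rfl⟩ := hb.surjOn (by exact_mod_cast hw)
        exact ⟨z, by exact_mod_cast hz, rfl⟩
    have hs : ∑ w ∈ fib κ' y, f w = ∑ z ∈ fib κ' x, f (Φ y z) := by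
      symm
      refine Finset.sum_bij (fun z _ => Φ y z) (fun z hz => ?_) (fun a ha b hb' hab => ?_) ?_
        (fun _ _ => rfl)
      · exact hb.mapsTo (by exact_mod_cast hz)
      · exact hb.injOn (by exact_mod_cast ha) (by exact_mod_cast hb') hab
      · intro w hw
        obtain ⟨z, hz, rfl⟩ := hb.surjOn (by exact_mod_cast hw)
        exact ⟨z, by exact_mod_cast hz, rfl⟩
    simp only [avg, hs, hc]
  have e2 : ∀ z ∈ fib κ' x, avg κ f z = (∑ y ∈ fib κ x, f (Φ y z)) / ((fib κ x).card : ℝ) := by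
    intro z hz
    have hb := h2 z hz
    have hc : (fib κ z).card = (fib κ x).card := by
      symm
      refine Finset.card_bij (fun y _ => Φ y z) (fun y hy => ?_) (fun a ha b hb' hab => ?_) ?_
      · exact hb.mapsTo (by exact_mod_cast hy)
      · exact hb.injOn (by exact_mod_cast ha) (by exact_mod_cast hb') hab
      · intro w hw
        obtain ⟨y, hy, rfl⟩ := hb.surjOn (by exact_mod_cast hw)
        exact ⟨y, by exact_mod_cast hy, rfl⟩
    have hs : ∑ w ∈ fib κ z, f w = ∑ y ∈ fib κ x, f (Φ y z) := by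
      symm
      refine Finset.sum_bij (fun y _ => Φ y z) (fun y hy => ?_) (fun a ha b hb' hab => ?_) ?_
        (fun _ _ => rfl)
      · exact hb.mapsTo (by exact_mod_cast hy)
      · exact hb.injOn (by exact_mod_cast ha) (by exact_mod_cast hb') hab
      · intro w hw
        obtain ⟨y, hy, rfl⟩ := hb.surjOn (by exact_mod_cast hw)
        exact ⟨y, by exact_mod_cast hy, rfl⟩
    simp only [avg, hs, hc]
  have l : avg κ (avg κ' f) x =
      (∑ y ∈ fib κ x, ∑ z ∈ fib κ' x, f (Φ y z)) / (((fib κ x).card : ℝ) * ((fib κ' x).card : ℝ)) := by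
    simp only [avg]
    rw [Finset.sum_congr rfl (fun y hy => by simpa [avg] using e1 y hy), ← Finset.sum_div]
    rw [div_div, mul_comm ((fib κ' x).card : ℝ)]
  have r : avg κ' (avg κ f) x =
      (∑ z ∈ fib κ' x, ∑ y ∈ fib κ x, f (Φ y z)) / (((fib κ' x).card : ℝ) * ((fib κ x).card : ℝ)) := by
    simp only [avg]
    rw [Finset.sum_congr rfl (fun z hz => by simpa [avg] using e2 z hz), ← Finset.sum_div]
    rw [div_div, mul_comm ((fib κ x).card : ℝ)]
  rw [l, r, Finset.sum_comm, mul_comm]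

end Avg

end Vale.Agent.Lib.P335
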