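import Mathlib

namespace Vale.Agent.Lib.P335

open Finset

section CondExp

variable {T K : Type*} [DecidableEq K]

/-- The part of `S` with the same key as `x`. -/
def sfib (S : Finset T) (κ : T → K) (x : T) : Finset T := S.filter (fun y => κ y = κ x)

/-- Average of `f` over the key-class of `x` inside `S`. -/
noncomputable def cexp (S : Finset T) (κ : T → K) (f : T → ℝ) (x : T) : ℝ :=
  (∑ y ∈ sfib S κ x, f y) / ((sfib S κ x).card : ℝ)

variable {S : Finset T} {κ : T → K}

lemma mem_sfib {x y : T} : y ∈ sfib S κ x ↔ y ∈ S ∧ κ y = κ x := by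
  simp [sfib]

lemma self_mem_sfib {x : T} (hx : x ∈ S) : x ∈ sfib S κ x := mem_sfib.2 ⟨hx, rfl⟩

lemma fib_card_pos {x : T} (hx : x ∈ S) : 0 < ((sfib S κ x).card : ℝ) := by
  exact_mod_cast Finset.card_pos.2 ⟨x, self_mem_sfib hx⟩

lemma fib_congr {x y : T} (h : κ x = κ y) : sfib S κ x = sfib S κ y := by
  ext z; simp [sfib, h]

lemma cexp_congr (f : T → ℝ) {x y : T} (h : κ x = κ y) : cexp S κ f x = cexp S κ f y := by
  simp [cexp, fib_congr (S := S) h]

lemma cexp_of_measurable {h : T → ℝ} (hm : ∀ x ∈ S, ∀ y ∈ S, κ x = κ y → h x = h y) {x : T}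
    (hx : x ∈ S) : cexp S κ h x = h x := by
  have hpos := fib_card_pos (S := S) (κ := κ) hx
  unfold cexp
  rw [div_eq_iff hpos.ne']
  have : ∑ y ∈ sfib S κ x, h y = ∑ _y ∈ sfib S κ x, h x := by
    apply Finset.sum_congr rfl
    intro y hy
    rcases mem_sfib.1 hy with ⟨hy1, hy2⟩
    exact hm y hy1 x hx hy2
  rw [this, Finset.sum_const, nsmul_eq_mul, mul_comm]

lemma cexp_measurable (f : T → ℝ) : ∀ x ∈ S, ∀ y ∈ S, κ x = κ y → cexp S κ f x = cexp S κ f y := by
  intro x _ y _ h
  exact cexp_congr f h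

lemma cexp_cexp (f : T → ℝ) {x : T} (hx : x ∈ S) : cexp S κ (cexp S κ f) x = cexp S κ f x :=
  cexp_of_measurable (cexp_measurable f) hx

/-- Averaging over classes: swapping a measurable factor. -/
lemma sum_mul_cexp_of_measurable {h : T → ℝ} (hm : ∀ x ∈ S, ∀ y ∈ S, κ x = κ y → h x = h y)
    (g : T → ℝ) : ∑ x ∈ S, h x * cexp S κ g x = ∑ x ∈ S, h x * g x := by
  classical
  have key : ∑ x ∈ S, h x * cexp S κ g x
      = ∑ x ∈ S, ∑ y ∈ S, if κ y = κ x then h y * g y / ((sfib S κ y).card : ℝ) else 0 := by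
    apply Finset.sum_congr rfl
    intro x hx
    unfold cexp
    rw [mul_div_assoc', Finset.mul_sum, Finset.sum_div]
    unfold sfib
    rw [Finset.sum_filter]
    apply Finset.sum_congr rfl
    intro y hy
    by_cases hxy : κ y = κ x
    · have hyx : h x = h y := hm x hx y hy hxy.symm
      have hf : (S.filter (fun z => κ z = κ x)) = (S.filter (fun z => κ z = κ y)) := by
        ext z; simp [hxy]
      simp only [hxy, if_true, hyx, hf]
    · simp [hxy]
  rw [key, Finset.sum_comm]
  apply Finset.sum_congr rfl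
  intro y hy
  have hpos := fib_card_pos (S := S) (κ := κ) hy
  have : ∑ x ∈ S, (if κ y = κ x then h y * g y / ((sfib S κ y).card : ℝ) else 0)
      = ∑ x ∈ sfib S κ y, h y * g y / ((sfib S κ y).card : ℝ) := by
    unfold sfib
    rw [Finset.sum_filter]
    apply Finset.sum_congr rfl
    intro x _
    by_cases hxy : κ x = κ y
    · simp [hxy]
    · have : ¬ κ y = κ x := fun h => hxy h.symm
      simp [hxy, this]
  rw [this, Finset.sum_const, nsmul_eq_mul]
  field_simp

/-- `cexp` is symmetric for the form on `S`. -/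
lemma sum_cexp_mul (f g : T → ℝ) :
    ∑ x ∈ S, cexp S κ f x * g x = ∑ x ∈ S, f x * cexp S κ g x := by
  have h1 := sum_mul_cexp_of_measurable (S := S) (κ := κ) (cexp_measurable f) g
  have h2 := sum_mul_cexp_of_measurable (S := S) (κ := κ) (cexp_measurable g) f
  rw [← h1]
  calc ∑ x ∈ S, cexp S κ f x * cexp S κ g x
      = ∑ x ∈ S, cexp S κ g x * cexp S κ f x := by
        apply Finset.sum_congr rfl; intros; ring
    _ = ∑ x ∈ S, cexp S κ g x * f x := h2
    _ = ∑ x ∈ S, f x * cexp S κ g x := by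
        apply Finset.sum_congr rfl; intros; ring

lemma sum_cexp (f : T → ℝ) : ∑ x ∈ S, cexp S κ f x = ∑ x ∈ S, f x := by
  have := sum_mul_cexp_of_measurable (S := S) (κ := κ) (h := fun _ => 1)
    (fun _ _ _ _ _ => rfl) f
  simpa using this

/-- The form of `f - E f` against `f`. -/
lemma sum_sub_cexp_mul (f : T → ℝ) :
    ∑ x ∈ S, (f x - cexp S κ f x) * f x = ∑ x ∈ S, (f x - cexp S κ f x) ^ 2 := by
  have h := sum_mul_cexp_of_measurable (S := S) (κ := κ) (cexp_measurable f) f
  have e : ∀ x, (f x - cexp S κ f x) ^ 2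
      = (f x - cexp S κ f x) * f x - cexp S κ f x * f x + cexp S κ f x * cexp S κ f x := by
    intro x; ring
  simp_rw [e]
  rw [Finset.sum_add_distrib, Finset.sum_sub_distrib, h]
  ring

lemma cexp_add (f g : T → ℝ) (x : T) :
    cexp S κ (fun y => f y + g y) x = cexp S κ f x + cexp S κ g x := by
  unfold cexp
  rw [Finset.sum_add_distrib, add_div]

lemma cexp_smul (c : ℝ) (f : T → ℝ) (x : T) :
    cexp S κ (fun y => c * f y) x = c * cexp S κ f x := by
  unfold cexp
  rw [← Finset.mul_sum, mul_div_assoc]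

lemma cexp_const (c : ℝ) {x : T} (hx : x ∈ S) : cexp S κ (fun _ => c) x = c :=
  cexp_of_measurable (h := fun _ => c) (fun _ _ _ _ _ => rfl) hx

lemma cexp_sub (f g : T → ℝ) (x : T) :
    cexp S κ (fun y => f y - g y) x = cexp S κ f x - cexp S κ g x := by
  unfold cexp
  rw [Finset.sum_sub_distrib, sub_div]

lemma cexp_sub_const (f : T → ℝ) (c : ℝ) {x : T} (hx : x ∈ S) :
    cexp S κ (fun y => f y - c) x = cexp S κ f x - c := by
  rw [cexp_sub, cexp_const c hx]

end CondExp

section Eigen

variable {T : Type*} [Fintype T]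

/-- Largest Rayleigh quotient on an invariant subspace is an eigenvalue, in elementary form. -/
theorem exists_top_eigen (A : (T → ℝ) →ₗ[ℝ] (T → ℝ))
    (hsymm : ∀ f g : T → ℝ, ∑ x, f x * A g x = ∑ x, A f x * g x)
    (W : Submodule ℝ (T → ℝ)) (hW : ∀ f ∈ W, A f ∈ W) (hne : ∃ f ∈ W, f ≠ 0) :
    ∃ v ∈ W, v ≠ 0 ∧ ∃ η : ℝ, A v = η • v ∧ ∀ w ∈ W, ∑ x, w x * A w x ≤ η * ∑ x, w x * w x := by
  classical
  -- the unit sphere of W
  let Q : (T → ℝ) → ℝ := fun w => ∑ x, w x * w x
  let R : (T → ℝ) → ℝ := fun w => ∑ x, w x * A w x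
  have hQcont : Continuous Q := by
    apply continuous_finsetSum
    intro x _
    exact (continuous_apply x).mul (continuous_apply x)
  have hAcont : Continuous A := LinearMap.continuous_of_finiteDimensional A
  have hRcont : Continuous R := by
    apply continuous_finsetSum
    intro x _
    exact (continuous_apply x).mul ((continuous_apply x).comp hAcont)
  have hWclosed : IsClosed (W : Set (T → ℝ)) := Submodule.closed_of_finiteDimensional W
  let Sph : Set (T → ℝ) := (W : Set (T → ℝ)) ∩ Q ⁻¹' {1}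
  have hSclosed : IsClosed Sph := hWclosed.inter (isClosed_singleton.preimage hQcont)
  have hSbdd : Bornology.IsBounded Sph := by
    rw [Metric.isBounded_iff_subset_closedBall (0 : T → ℝ)]
    refine ⟨1, ?_⟩
    intro w hw
    rw [mem_closedBall_zero_iff, pi_norm_le_iff_of_nonneg zero_le_one]
    intro x
    have h1 : w x * w x ≤ Q w :=
      Finset.single_le_sum (f := fun y => w y * w y) (fun y _ => mul_self_nonneg (w y))
        (Finset.mem_univ x)
    have h2 : Q w = 1 := hw.2
    rw [Real.norm_eq_abs]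
    rw [h2] at h1
    exact abs_le_one_iff_mul_self_le_one.2 h1
  have hScomp : IsCompact Sph := Metric.isCompact_of_isClosed_isBounded hSclosed hSbdd
  have hQpos : ∀ w : T → ℝ, w ≠ 0 → 0 < Q w := by
    intro w hw
    obtain ⟨x, hx⟩ := Function.ne_iff.1 hw
    have h1 : w x * w x ≤ Q w :=
      Finset.single_le_sum (f := fun y => w y * w y) (fun y _ => mul_self_nonneg (w y))
        (Finset.mem_univ x)
    have h2 : 0 < w x * w x := mul_self_pos.2 hx
    linarith
  obtain ⟨f0, hf0W, hf00⟩ := hne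
  have hSne : Sph.Nonempty := by
    have hq := hQpos f0 hf00
    refine ⟨(Real.sqrt (Q f0))⁻¹ • f0, W.smul_mem _ hf0W, ?_⟩
    show Q _ = 1
    have hs : Real.sqrt (Q f0) * Real.sqrt (Q f0) = Q f0 := Real.mul_self_sqrt hq.le
    have hs0 : Real.sqrt (Q f0) ≠ 0 := (Real.sqrt_pos.2 hq).ne'
    have hgen : ∀ (s : ℝ), s * s = Q f0 → s ≠ 0 → Q (s⁻¹ • f0) = 1 := by
      intro s hss hs0'
      have e : Q (s⁻¹ • f0) = s⁻¹ * s⁻¹ * Q f0 := by
        simp only [Q, Pi.smul_apply, smul_eq_mul]
        rw [Finset.mul_sum]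
        apply Finset.sum_congr rfl
        intro x _
        ring
      rw [e, ← hss]
      field_simp
    exact hgen _ hs hs0
  obtain ⟨v, hvS, hvmax⟩ := hScomp.exists_isMaxOn hSne hRcont.continuousOn
  have hvW : v ∈ W := hvS.1
  have hvQ : Q v = 1 := hvS.2
  have hv0 : v ≠ 0 := by
    intro h
    rw [h] at hvQ
    simp [Q] at hvQ
  let η := R v
  have hmax : ∀ w ∈ W, R w ≤ η * Q w := by
    intro w hw
    by_cases hw0 : w = 0
    · subst hw0; simp [R, Q]
    · have hq := hQpos w hw0
      have hgen : ∀ s : ℝ, s * s = Q w → 0 < s → R w ≤ η * Q w := by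
        intro s hss hs0
        let u : T → ℝ := s⁻¹ • w
        have huW : u ∈ W := W.smul_mem _ hw
        have huQ : Q u = s⁻¹ * s⁻¹ * Q w := by
          simp only [Q, u, Pi.smul_apply, smul_eq_mul]
          rw [Finset.mul_sum]
          apply Finset.sum_congr rfl
          intro x _
          ring
        have huQ1 : Q u = 1 := by
          rw [huQ, ← hss]
          field_simp
        have huR : R u = s⁻¹ * s⁻¹ * R w := by
          simp only [R, u, map_smul, Pi.smul_apply, smul_eq_mul]
          rw [Finset.mul_sum]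
          apply Finset.sum_congr rfl
          intro x _
          ring
        have h1 : R u ≤ R v := hvmax ⟨huW, huQ1⟩
        rw [huR] at h1
        have h3 := mul_le_mul_of_nonneg_left h1 (mul_self_nonneg s)
        have h2 : s * s * (s⁻¹ * s⁻¹ * R w) = R w := by
          field_simp
        rw [h2, hss] at h3
        calc R w ≤ Q w * R v := h3
          _ = η * Q w := by simp only [η]; ring
      exact hgen _ (Real.mul_self_sqrt hq.le) (Real.sqrt_pos.2 hq)
  -- the residual vanishes
  let r : T → ℝ := A v - η • v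
  have hrW : r ∈ W := W.sub_mem (hW v hvW) (W.smul_mem _ hvW)
  have hRv : R v = η := rfl
  have hexp : ∀ t : ℝ, 0 ≤ - 2 * t * Q r + t ^ 2 * (η * Q r - R r) := by
    intro t
    have hm := hmax (v + t • r) (W.add_mem hvW (W.smul_mem _ hrW))
    have hsymr : ∑ x, r x * A v x = ∑ x, A r x * v x := hsymm r v
    have hAvr : ∀ x, A v x = r x + η * v x := by
      intro x; simp [r]
    have e1 : R (v + t • r) = R v + 2 * t * (Q r + η * ∑ x, r x * v x) + t ^ 2 * R r := by
      simp only [R, Q, map_add, map_smul, Pi.add_apply, Pi.smul_apply, smul_eq_mul]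
      have h1 : ∑ x, v x * A r x = ∑ x, A v x * r x := hsymm v r
      have h2 : ∑ x, A v x * r x = ∑ x, r x * r x + η * ∑ x, r x * v x := by
        rw [Finset.mul_sum, ← Finset.sum_add_distrib]
        apply Finset.sum_congr rfl
        intro x _
        rw [hAvr x]; ring
      have h3 : ∑ x, r x * A v x = ∑ x, A v x * r x := by
        apply Finset.sum_congr rfl; intros; ring
      calc _ = ∑ x, v x * A v x + t * ∑ x, v x * A r x + t * ∑ x, r x * A v x
                + t ^ 2 * ∑ x, r x * A r x := by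
            simp only [Finset.mul_sum, ← Finset.sum_add_distrib]
            apply Finset.sum_congr rfl
            intro x _
            ring
        _ = _ := by
            rw [h1, h3, h2]; ring
    have e2 : Q (v + t • r) = Q v + 2 * t * ∑ x, r x * v x + t ^ 2 * Q r := by
      simp only [Q, Pi.add_apply, Pi.smul_apply, smul_eq_mul]
      simp only [Finset.mul_sum, ← Finset.sum_add_distrib]
      apply Finset.sum_congr rfl
      intro x _
      ring
    rw [e1, e2, hvQ] at hm
    have : R v = η := rfl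
    nlinarith [hm]
  have hQr : Q r = 0 := by
    by_contra hne0
    have hnn : 0 ≤ Q r := Finset.sum_nonneg (fun x _ => mul_self_nonneg (r x))
    have hpos : 0 < Q r := lt_of_le_of_ne hnn (Ne.symm hne0)
    set D := η * Q r - R r with hD
    -- choose t small
    have h1 := hexp (Q r / (|D| + 1))
    have hd : 0 < |D| + 1 := by positivity
    have h2 : (Q r / (|D| + 1)) ^ 2 * D ≤ (Q r / (|D| + 1)) * Q r := by
      have h3 : D ≤ |D| + 1 := by linarith [le_abs_self D]
      have h4 : 0 ≤ Q r / (|D| + 1) := by positivity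
      have h5 : (Q r / (|D| + 1)) * D ≤ Q r := by
        rw [div_mul_eq_mul_div, div_le_iff₀ hd]
        exact mul_le_mul_of_nonneg_left h3 hnn
      calc (Q r / (|D| + 1)) ^ 2 * D = (Q r / (|D| + 1)) * ((Q r / (|D| + 1)) * D) := by ring
        _ ≤ (Q r / (|D| + 1)) * Q r := mul_le_mul_of_nonneg_left h5 h4
    have h6 : 0 < (Q r / (|D| + 1)) * Q r := by positivity
    nlinarith [h1, h2, h6]
  have hr0 : r = 0 := by
    by_contra h
    exact (hQpos r h).ne' hQr
  refine ⟨v, hvW, hv0, η, ?_, fun w hw => hmax w hw⟩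
  have : A v - η • v = 0 := hr0
  exact sub_eq_zero.1 this

end Eigen

end Vale.Agent.Lib.P335
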