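import Mathlib

/-!
Boolean facts about `2 × 2` binary blocks whose entry sum is not `2`.
-/

namespace Vale.Agent.Lib.P335

/-- The entry of the combined block: in a block of sum at most one the entry is the product of
the row and column indicators, otherwise the dual formula. -/
def cellB (low a b c e : Bool) : Bool :=
  if low then (a || b) && (c || e) else (a && b) || (c && e)

/-- The sum of a block. -/
def sumB (a b c e : Bool) : ℕ := a.toNat + b.toNat + c.toNat + e.toNat

/-- The combined block has the row sums of the first block and the column sums of the second. -/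
theorem rect_logic : ∀ y1 y2 y3 y4 z1 z2 z3 z4 : Bool,
    sumB y1 y2 y3 y4 = sumB z1 z2 z3 z4 → sumB y1 y2 y3 y4 ≠ 2 →
    (cellB (decide (sumB y1 y2 y3 y4 ≤ 1)) y1 y2 z1 z3).toNat +
      (cellB (decide (sumB y1 y2 y3 y4 ≤ 1)) y1 y2 z2 z4).toNat = y1.toNat + y2.toNat ∧
    (cellB (decide (sumB y1 y2 y3 y4 ≤ 1)) y3 y4 z1 z3).toNat +
      (cellB (decide (sumB y1 y2 y3 y4 ≤ 1)) y3 y4 z2 z4).toNat = y3.toNat + y4.toNat ∧
    (cellB (decide (sumB y1 y2 y3 y4 ≤ 1)) y1 y2 z1 z3).toNat +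
      (cellB (decide (sumB y1 y2 y3 y4 ≤ 1)) y3 y4 z1 z3).toNat = z1.toNat + z3.toNat ∧
    (cellB (decide (sumB y1 y2 y3 y4 ≤ 1)) y1 y2 z2 z4).toNat +
      (cellB (decide (sumB y1 y2 y3 y4 ≤ 1)) y3 y4 z2 z4).toNat = z2.toNat + z4.toNat := by
  decide

/-- A block of sum different from two is determined by its row and column sums. -/
theorem block_unique : ∀ u1 u2 u3 u4 v1 v2 v3 v4 : Bool,
    sumB u1 u2 u3 u4 ≠ 2 →
    u1.toNat + u2.toNat = v1.toNat + v2.toNat → u3.toNat + u4.toNat = v3.toNat + v4.toNat →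
    u1.toNat + u3.toNat = v1.toNat + v3.toNat → u2.toNat + u4.toNat = v2.toNat + v4.toNat →
    u1 = v1 ∧ u2 = v2 ∧ u3 = v3 ∧ u4 = v4 := by
  decide

/-- A block of sum two that is neither diagonal nor antidiagonal has constant rows or constant
columns. -/
theorem block_cases : ∀ u1 u2 u3 u4 : Bool, sumB u1 u2 u3 u4 = 2 →
    ¬ (((u1 = u4) ∧ (u2 = u3)) ∧ (u1 = !u2)) →
    (u1 = u2 ∧ u3 = u4) ∨ (u1 = u3 ∧ u2 = u4) := by
  decide

/-- A block of sum two with constant rows is rigid under moves preserving the row sums. -/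
theorem block_rigid_row : ∀ u1 u2 u3 u4 v1 v2 v3 v4 : Bool, sumB u1 u2 u3 u4 = 2 →
    u1 = u2 → u3 = u4 → u1.toNat + u2.toNat = v1.toNat + v2.toNat →
    u3.toNat + u4.toNat = v3.toNat + v4.toNat → u1 = v1 ∧ u2 = v2 ∧ u3 = v3 ∧ u4 = v4 := by
  decide

/-- A block of sum two with constant columns is rigid under moves preserving the column sums. -/
theorem block_rigid_col : ∀ u1 u2 u3 u4 v1 v2 v3 v4 : Bool, sumB u1 u2 u3 u4 = 2 →
    u1 = u3 → u2 = u4 → u1.toNat + u3.toNat = v1.toNat + v3.toNat →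
    u2.toNat + u4.toNat = v2.toNat + v4.toNat → u1 = v1 ∧ u2 = v2 ∧ u3 = v3 ∧ u4 = v4 := by
  decide

end Vale.Agent.Lib.P335
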