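import Vale.Agent.Lib.P335.Fiber

/-!
# P335: connectivity of the realizations under switches

A function on `Rz d` that is invariant under every `RowSwitch` is constant.
-/

namespace Vale.Agent.Lib.P335

open Finset

variable {n : ℕ} {d : Fin n → ℕ}

/-- Existence of the `RowSwitch` for a given alternating 4-cycle. -/
lemma exists_rowSwitch {i j x y : Fin n} (hij : i ≠ j) (hxi : x ≠ i) (hxj : x ≠ j) (hyi : y ≠ i)
    (hyj : y ≠ j) (hxy : x ≠ y) {G : Rz d} (h1 : s(i, x) ∈ G.1) (h2 : s(j, x) ∉ G.1)
    (h3 : s(i, y) ∉ G.1) (h4 : s(j, y) ∈ G.1) : ∃ G', RowSwitch i j x y G G' := by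
  have hxS : x ∈ rowS i j G.1 := mem_rowS.2 ⟨hxi, hxj, h1, h2⟩
  have hyF : y ∈ rowF i j G.1 :=
    mem_rowF.2 ⟨hyi, hyj, fun h => h3 (h.2 h4)⟩
  have hyS : y ∉ rowS i j G.1 := fun h => h3 (mem_rowS.1 h).2.2.1
  have hsub : insert y ((rowS i j G.1).erase x) ⊆ rowF i j G.1 := by
    intro c hc
    rw [mem_insert] at hc
    rcases hc with rfl | hc
    · exact hyF
    · exact rowS_subset_rowF i j G.1 (mem_of_mem_erase hc)
  have hcard : (insert y ((rowS i j G.1).erase x)).card = (rowS i j G.1).card := by
    rw [card_insert_of_notMem (fun h => hyS (mem_of_mem_erase h)), card_erase_of_mem hxS]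
    have : 0 < (rowS i j G.1).card := card_pos.2 ⟨x, hxS⟩
    omega
  obtain ⟨G', hk, hS⟩ := rowGraph_spec hij G hsub hcard
  exact ⟨G', rowSwitch_of_rowS hij hk hxS hyF hyS hS⟩

/-- Two realizations agree on every slot with an endpoint outside `Q`. -/
def AgreeOff (Q : Finset (Fin n)) (G G' : Rz d) : Prop :=
  ∀ u, u ∉ Q → ∀ w, (s(u, w) ∈ G.1 ↔ s(u, w) ∈ G'.1)

/-- Number of neighbours of `x` inside `Q`. -/
def cntIn (Q : Finset (Fin n)) (E : Gr n) (x : Fin n) : ℕ :=
  (Q.filter fun w => s(x, w) ∈ E).card

lemma cntIn_eq {Q : Finset (Fin n)} {G G' : Rz d} (h : AgreeOff Q G G') (x : Fin n) :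
    cntIn Q G.1 x = cntIn Q G'.1 x := by
  have key : ∀ G : Rz d, d x = cntIn Q G.1 x + (Qᶜ.filter fun w => s(x, w) ∈ G.1).card := by
    intro G
    rw [← G.2.2 x]
    unfold degreeIn cntIn
    rw [← card_union_of_disjoint]
    · congr 1
      ext w
      simp only [mem_filter, mem_univ, true_and, mem_union, mem_compl]
      tauto
    · rw [disjoint_left]
      intro w hw hw2
      rw [mem_filter] at hw hw2
      exact (mem_compl.1 hw2.1) hw.1
  have h1 := key G
  have h2 := key G'
  have h3 : (Qᶜ.filter fun w => s(x, w) ∈ G.1) = (Qᶜ.filter fun w => s(x, w) ∈ G'.1) := by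
    refine filter_congr fun w hw => ?_
    rw [Sym2.eq_swap]
    exact h w (mem_compl.1 hw) x
  rw [h3] at h1
  omega

/-- Finding the fourth vertex of a switch. -/
lemma exists_fourth {Q : Finset (Fin n)} {G : Rz d} {v a b : Fin n} (hv : v ∈ Q) (hvb : v ≠ b)
    (ha : a ∈ Q) (hb : b ∈ Q) (hcnt : cntIn Q G.1 a ≤ cntIn Q G.1 b) (h1 : s(v, a) ∈ G.1) (h2 : s(v, b) ∉ G.1) :
    ∃ x, x ∈ Q ∧ x ≠ v ∧ x ≠ a ∧ x ≠ b ∧ s(b, x) ∈ G.1 ∧ s(a, x) ∉ G.1 := by
  by_contra hcon
  push Not at hcon
  set A := Q.filter fun w => s(a, w) ∈ G.1 with hA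
  set B := Q.filter fun w => s(b, w) ∈ G.1 with hB
  have hAB : A.card ≤ B.card := hcnt
  have hvA : v ∈ A := by
    rw [hA, mem_filter]
    exact ⟨hv, by rw [Sym2.eq_swap]; exact h1⟩
  have hvB : v ∉ B := by
    rw [hB, mem_filter]
    rintro ⟨_, h⟩
    exact h2 (by rw [Sym2.eq_swap]; exact h)
  have hbB : b ∉ B := by
    rw [hB, mem_filter]
    rintro ⟨_, h⟩
    exact G.2.1 b h
  have hsub : B.erase a ⊆ (A.erase v).erase b := by
    intro x hx
    rw [mem_erase] at hx
    have hxB := hx.2
    rw [hB, mem_filter] at hxB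
    have hxv : x ≠ v := fun h => hvB (h ▸ hx.2)
    have hxb : x ≠ b := fun h => hbB (h ▸ hx.2)
    have := hcon x hxB.1 hxv hx.1 hxb hxB.2
    rw [mem_erase, mem_erase, hA, mem_filter]
    exact ⟨hxb, hxv, hxB.1, this⟩
  have hcard := card_le_card hsub
  have hAv : (A.erase v).card = A.card - 1 := card_erase_of_mem hvA
  have hApos : 0 < A.card := card_pos.2 ⟨v, hvA⟩
  by_cases haB : a ∈ B
  · have hbA : b ∈ A := by
      rw [hB, mem_filter] at haB
      rw [hA, mem_filter]
      exact ⟨hb, by rw [Sym2.eq_swap]; exact haB.2⟩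
    have hbA' : b ∈ A.erase v := mem_erase.2 ⟨Ne.symm hvb, hbA⟩
    rw [card_erase_of_mem haB, card_erase_of_mem hbA', hAv] at hcard
    have hBpos : 0 < B.card := card_pos.2 ⟨a, haB⟩
    have hApos2 : 1 < A.card := by
      have : 0 < (A.erase v).card := card_pos.2 ⟨b, hbA'⟩
      omega
    omega
  · have hbA : b ∉ A := by
      rw [hA, mem_filter]
      rintro ⟨_, h⟩
      apply haB
      rw [hB, mem_filter]
      exact ⟨ha, by rw [Sym2.eq_swap]; exact h⟩
    rw [erase_eq_of_notMem haB, erase_eq_of_notMem (fun h => hbA (mem_of_mem_erase h)), hAv] at hcard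
    omega

/-- Membership of slots at the first row after a `RowSwitch`. -/
lemma RowSwitch.mem_left {i j x y : Fin n} {G G' : Rz d} (h : RowSwitch i j x y G G') (w : Fin n) :
    s(i, w) ∈ G'.1 ↔ w = y ∨ (s(i, w) ∈ G.1 ∧ w ≠ x) := by
  obtain ⟨hxi, hxj, hyi, hyj, hxy, h1, h2, h3, h4, h5⟩ := h
  have hij : i ≠ j := fun hij => h2 (hij ▸ h1)
  have e1 : s(i, w) = s(i, y) ↔ w = y := Sym2.congr_right
  have e2 : s(i, w) = s(j, x) ↔ False := by
    simp only [Sym2.eq_iff, iff_false, not_or, not_and]
    exact ⟨fun h => absurd h hij, fun h => absurd h.symm hxi⟩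
  have e3 : s(i, w) = s(i, x) ↔ w = x := Sym2.congr_right
  have e4 : s(i, w) = s(j, y) ↔ False := by
    simp only [Sym2.eq_iff, iff_false, not_or, not_and]
    exact ⟨fun h => absurd h hij, fun h => absurd h.symm hyi⟩
  rw [h5]
  simp only [mem_insert, mem_sdiff, mem_singleton, e1, e2, e3, e4, false_or, or_false, ne_eq]

/-- A slot away from the four switched ones is unchanged by a `RowSwitch`. -/
lemma RowSwitch.mem_off {i j x y : Fin n} {G G' : Rz d} (h : RowSwitch i j x y G G')
    {e : Sym2 (Fin n)} (h1 : e ≠ s(i, x)) (h2 : e ≠ s(i, y)) (h3 : e ≠ s(j, x)) (h4 : e ≠ s(j, y)) :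
    e ∈ G'.1 ↔ e ∈ G.1 := by
  obtain ⟨_, _, _, _, _, _, _, _, _, h5⟩ := h
  rw [h5]
  simp only [mem_insert, mem_sdiff, mem_singleton, h1, h2, h3, h4, false_or, or_self,
    not_false_eq_true, and_true]

/-- A slot having an endpoint off `{i, j, x, y}` is unchanged by a `RowSwitch`. -/
lemma RowSwitch.mem_away {i j x y : Fin n} {G G' : Rz d} (h : RowSwitch i j x y G G')
    {u w : Fin n} (h1 : u ≠ i) (h2 : u ≠ j) (h3 : u ≠ x) (h4 : u ≠ y) :
    s(u, w) ∈ G'.1 ↔ s(u, w) ∈ G.1 := by
  apply h.mem_off
  · simp [h1, h3]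
  · simp [h1, h4]
  · simp [h2, h3]
  · simp [h2, h4]

/-- Equal degree, nested neighbourhoods: equal neighbourhoods. -/
lemma nbr_eq_of_subset {v : Fin n} {G G' : Rz d}
    (h : ∀ a, s(v, a) ∈ G.1 → s(v, a) ∈ G'.1) (a : Fin n) : s(v, a) ∈ G.1 ↔ s(v, a) ∈ G'.1 := by
  have hsub : (univ.filter fun u => s(v, u) ∈ G.1) ⊆ (univ.filter fun u => s(v, u) ∈ G'.1) := by
    intro u hu
    rw [mem_filter] at hu ⊢
    exact ⟨hu.1, h u hu.2⟩
  have hc : (univ.filter fun u => s(v, u) ∈ G'.1).card ≤ (univ.filter fun u => s(v, u) ∈ G.1).card := by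
    have h1 := G.2.2 v
    have h2 := G'.2.2 v
    unfold degreeIn at h1 h2
    omega
  have heq := eq_of_subset_of_card_le hsub hc
  have := Finset.ext_iff.1 heq a
  simpa using this

/-- **Connectivity**: a function invariant under all `RowSwitch`es is constant. -/
theorem rowSwitch_connected (f : Rz d → ℝ)
    (hinv : ∀ i j x y G G', RowSwitch i j x y G G' → f G = f G') (G G' : Rz d) : f G = f G' := by
  have outer : ∀ (m : ℕ) (Q : Finset (Fin n)), Q.card = m → ∀ G G' : Rz d, AgreeOff Q G G' →
      f G = f G' := by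
    intro m
    induction m with
    | zero =>
      intro Q hQ G G' hag
      have hQ0 : Q = ∅ := card_eq_zero.1 hQ
      subst hQ0
      have : G = G' := by
        apply Subtype.ext
        ext e
        induction e using Sym2.ind with
        | _ u w => exact hag u (by simp) w
      rw [this]
    | succ m ih =>
      intro Q hQ
      obtain ⟨v, hv⟩ : Q.Nonempty := card_pos.1 (by omega)
      have inner : ∀ (k : ℕ) (G G' : Rz d), AgreeOff Q G G' →
          (univ.filter fun a => s(v, a) ∈ G.1 ∧ s(v, a) ∉ G'.1).card = k → f G = f G' := by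
        intro k
        induction k with
        | zero =>
          intro G G' hag hk
          have hemp := card_eq_zero.1 hk
          have hsub : ∀ a, s(v, a) ∈ G.1 → s(v, a) ∈ G'.1 := by
            intro a ha
            by_contra hna
            have : a ∈ (univ.filter fun a => s(v, a) ∈ G.1 ∧ s(v, a) ∉ G'.1) := by
              simp [ha, hna]
            rw [hemp] at this
            simp at this
          refine ih (Q.erase v) (by rw [card_erase_of_mem hv]; omega) G G' ?_
          intro u hu w
          by_cases huv : u = v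
          · subst huv
            exact nbr_eq_of_subset hsub w
          · exact hag u (fun h => hu (mem_erase.2 ⟨huv, h⟩)) w
        | succ k ihk =>
          intro G G' hag hk
          obtain ⟨a, ha⟩ : (univ.filter fun a => s(v, a) ∈ G.1 ∧ s(v, a) ∉ G'.1).Nonempty :=
            card_pos.1 (by omega)
          rw [mem_filter] at ha
          obtain ⟨_, haG, haG'⟩ := ha
          obtain ⟨b, hbG', hbG⟩ : ∃ b, s(v, b) ∈ G'.1 ∧ s(v, b) ∉ G.1 := by
            by_contra hcon
            push Not at hcon
            exact haG' ((nbr_eq_of_subset (G := G') (G' := G) hcon a).2 haG)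
          have hva : v ≠ a := by
            rintro rfl
            exact G.2.1 v haG
          have hvb : v ≠ b := by
            rintro rfl
            exact G'.2.1 v hbG'
          have hab : a ≠ b := by
            rintro rfl
            exact hbG haG
          have haQ : a ∈ Q := by
            by_contra h
            have := hag a h v
            rw [Sym2.eq_swap] at this
            exact haG' (this.1 haG)
          have hbQ : b ∈ Q := by
            by_contra h
            have := hag b h v
            rw [Sym2.eq_swap] at this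
            exact hbG (this.2 hbG')
          by_cases hc : cntIn Q G.1 a ≤ cntIn Q G.1 b
          · obtain ⟨x, hxQ, hxv, hxa, hxb, hbx, hax⟩ := exists_fourth hv hvb haQ hbQ hc haG hbG
            have hxa' : s(x, a) ∉ G.1 := by rw [Sym2.eq_swap]; exact hax
            have hxb' : s(x, b) ∈ G.1 := by rw [Sym2.eq_swap]; exact hbx
            obtain ⟨G1, hG1⟩ := exists_rowSwitch (Ne.symm hxv) (Ne.symm hva) (Ne.symm hxa)
              (Ne.symm hvb) (Ne.symm hxb) hab haG hxa' hbG hxb'
            rw [hinv _ _ _ _ _ _ hG1]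
            refine ihk G1 G' ?_ ?_
            · intro u hu w
              have hne : ∀ t ∈ Q, u ≠ t := fun t ht h => hu (h ▸ ht)
              rw [hG1.mem_away (hne v hv) (hne x hxQ) (hne a haQ) (hne b hbQ)]
              exact hag u hu w
            · have hset : (univ.filter fun w => s(v, w) ∈ G1.1 ∧ s(v, w) ∉ G'.1)
                  = (univ.filter fun w => s(v, w) ∈ G.1 ∧ s(v, w) ∉ G'.1).erase a := by
                ext w
                simp only [mem_filter, mem_univ, true_and, mem_erase, hG1.mem_left]
                constructor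
                · rintro ⟨rfl | ⟨h1, h2⟩, h3⟩
                  · exact absurd hbG' h3
                  · exact ⟨h2, h1, h3⟩
                · rintro ⟨h2, h1, h3⟩
                  exact ⟨Or.inr ⟨h1, h2⟩, h3⟩
              rw [hset, card_erase_of_mem, hk]
              · rfl
              · simp [haG, haG']
          · have hc' : cntIn Q G'.1 b ≤ cntIn Q G'.1 a := by
              rw [← cntIn_eq hag, ← cntIn_eq hag]
              omega
            obtain ⟨x, hxQ, hxv, hxb, hxa, hax, hbx⟩ :=
              exists_fourth hv hva hbQ haQ hc' hbG' haG'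
            have hxb' : s(x, b) ∉ G'.1 := by rw [Sym2.eq_swap]; exact hbx
            have hxa' : s(x, a) ∈ G'.1 := by rw [Sym2.eq_swap]; exact hax
            obtain ⟨G1, hG1⟩ := exists_rowSwitch (Ne.symm hxv) (Ne.symm hvb) (Ne.symm hxb)
              (Ne.symm hva) (Ne.symm hxa) (Ne.symm hab) hbG' hxb' haG' hxa'
            rw [hinv _ _ _ _ _ _ hG1]
            refine ihk G G1 ?_ ?_
            · intro u hu w
              have hne : ∀ t ∈ Q, u ≠ t := fun t ht h => hu (h ▸ ht)
              rw [hG1.mem_away (hne v hv) (hne x hxQ) (hne b hbQ) (hne a haQ)]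
              exact hag u hu w
            · have hset : (univ.filter fun w => s(v, w) ∈ G.1 ∧ s(v, w) ∉ G1.1)
                  = (univ.filter fun w => s(v, w) ∈ G.1 ∧ s(v, w) ∉ G'.1).erase a := by
                ext w
                simp only [mem_filter, mem_univ, true_and, mem_erase]
                rw [hG1.mem_left]
                constructor
                · rintro ⟨h1, h2⟩
                  refine ⟨fun h => h2 (Or.inl h), h1, fun h4 => h2 (Or.inr ⟨h4, ?_⟩)⟩
                  rintro rfl
                  exact hbG h1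
                · rintro ⟨h2, h1, h3⟩
                  refine ⟨h1, ?_⟩
                  rintro (h | ⟨h, _⟩)
                  · exact h2 h
                  · exact h3 h
              rw [hset, card_erase_of_mem, hk]
              · rfl
              · simp [haG, haG']
      intro G G' hag
      exact inner _ G G' hag rfl
  exact outer n univ (by simp) G G' (fun u hu => absurd (mem_univ u) hu)

/-- **Kernel of the row-pair projections**: if all the projections vanish, `f` is constant. -/
theorem const_of_rowProj_zero (f : Rz d → ℝ) (h : ∀ i j : Fin n, i ≠ j → rowProj i j f = 0)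
    (G G' : Rz d) : f G = f G' := by
  refine rowSwitch_connected f ?_ G G'
  intro i j x y G G' hsw
  have hij : i ≠ j := by
    rintro rfl
    exact hsw.2.2.2.2.2.2.1 hsw.2.2.2.2.2.1
  have h0 := h i j hij
  have hk : offKey (rowSlots i j) G = offKey (rowSlots i j) G' := by
    rw [offKey_eq_iff]
    intro e he
    have hxi := hsw.1
    have hxj := hsw.2.1
    have hyi := hsw.2.2.1
    have hyj := hsw.2.2.2.1
    rw [hsw.mem_off]
    · exact fun h => he (h ▸ left_mem_rowSlots hxi hxj)
    · exact fun h => he (h ▸ left_mem_rowSlots hyi hyj)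
    · exact fun h => he (h ▸ right_mem_rowSlots hxi hxj)
    · exact fun h => he (h ▸ right_mem_rowSlots hyi hyj)
  have e1 : f G = rowAvg i j f G := by
    have := congrFun h0 G
    simp only [rowProj, Pi.sub_apply, Pi.zero_apply] at this
    linarith
  have e2 : f G' = rowAvg i j f G' := by
    have := congrFun h0 G'
    simp only [rowProj, Pi.sub_apply, Pi.zero_apply] at this
    linarith
  rw [e1, e2]
  exact avg_congr f hk

end Vale.Agent.Lib.P335
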