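import Vale.Agent.Lib.P335.PairAbs

/-!
The cross term of `PairAbs` computed along the orbits of the coarser key.
-/

namespace Vale.Agent.Lib.P335

open Finset

section

variable {Ω K₁ K₃ : Type*} [Fintype Ω] [DecidableEq Ω] [DecidableEq K₁] [DecidableEq K₃]

/-- The total sum equals the sum of the averages. -/
lemma sum_avg_eq (κ : Ω → K₁) (u : Ω → ℝ) : ∑ x, avg κ u x = ∑ x, u x := by
  have h := ip_avg_left κ u (fun _ => 1)
  have h1 : avg κ (fun _ : Ω => (1 : ℝ)) = fun _ => 1 :=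
    avg_of_invariant (fun _ _ _ => rfl)
  rw [h1] at h
  simpa [ip] using h

/-- Comparing sums through the fibres of a key. -/
lemma sum_le_of_fib (κ : Ω → K₁) {u v : Ω → ℝ}
    (h : ∀ x, ∑ y ∈ fib κ x, u y ≤ ∑ y ∈ fib κ x, v y) : ∑ x, u x ≤ ∑ x, v x := by
  rw [← sum_avg_eq κ u, ← sum_avg_eq κ v]
  refine Finset.sum_le_sum fun x _ => ?_
  unfold avg
  exact div_le_div_of_nonneg_right (h x) (by positivity)

variable {κp : Ω → K₁} {κA : Ω → K₃} {C : Ω → Prop} [DecidablePred C] {σ : Ω → Ω}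

/-- How a partial involution splits the central part of an orbit into two fibres of the finer
key. -/
structure OrbitSplit (C : Ω → Prop) (σ : Ω → Ω) (κp : Ω → K₁) (κA : Ω → K₃) : Prop where
  hC : ∀ x, C x → C (σ x)
  hσ : ∀ x, C x → σ (σ x) = x
  hσp : ∀ x, C x → κp (σ x) = κp x
  hpA : ∀ x y, κA x = κA y → κp x = κp y
  hσA : ∀ x y, C x → κA y = κA x → C y ∧ κA (σ y) = κA (σ x)
  hsplit : ∀ x y, C x → κp y = κp x → C y → κA y = κA x ∨ κA y = κA (σ x)
  hne : ∀ x, C x → κA (σ x) ≠ κA x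

variable (H : OrbitSplit C σ κp κA)

include H

lemma OrbitSplit.filter_eq {x : Ω} (hx : C x) :
    (fib κp x).filter C = fib κA x ∪ fib κA (σ x) := by
  ext y
  simp only [mem_filter, mem_fib, mem_union]
  constructor
  · rintro ⟨h1, h2⟩
    exact H.hsplit x y hx h1 h2
  · rintro (h1 | h1)
    · exact ⟨H.hpA _ _ h1, (H.hσA x y hx h1).1⟩
    · refine ⟨(H.hpA _ _ h1).trans (H.hσp x hx), (H.hσA (σ x) y (H.hC x hx) h1).1⟩

lemma OrbitSplit.disj {x : Ω} (hx : C x) : Disjoint (fib κA x) (fib κA (σ x)) := by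
  rw [Finset.disjoint_left]
  intro y h1 h2
  exact H.hne x hx ((mem_fib.1 h2).symm.trans (mem_fib.1 h1))

lemma OrbitSplit.card_eq {x : Ω} (hx : C x) : (fib κA (σ x)).card = (fib κA x).card := by
  symm
  refine Finset.card_nbij' σ σ ?_ ?_ ?_ ?_
  · intro y hy
    exact mem_fib.2 (H.hσA x y hx (mem_fib.1 hy)).2
  · intro y hy
    have h1 := H.hσA (σ x) y (H.hC x hx) (mem_fib.1 hy)
    have : κA (σ y) = κA x := by rw [h1.2, H.hσ x hx]
    exact mem_fib.2 this
  · intro y hy
    exact H.hσ y (H.hσA x y hx (mem_fib.1 hy)).1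
  · intro y hy
    exact H.hσ y (H.hσA (σ x) y (H.hC x hx) (mem_fib.1 hy)).1

/-- The symmetrised average on the centre is the mean over the central part of the orbit. -/
lemma OrbitSplit.symOp_eq (g : Ω → ℝ) {x : Ω} (hx : C x) :
    symOp C σ (avg κA g) x =
      (∑ y ∈ fib κp x, if C y then g y else 0) / ((fib κp x).filter C).card := by
  have hd := H.disj hx
  have hc := H.card_eq hx
  have hpos : ((fib κA x).card : ℝ) ≠ 0 := card_fib_ne κA x
  rw [← Finset.sum_filter, H.filter_eq hx, Finset.sum_union hd, Finset.card_union_of_disjoint hd, hc]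
  simp only [symOp, hx, if_true, avg, hc]
  push_cast
  field_simp
  ring

/-- The contribution of one orbit to the cross term. -/
lemma OrbitSplit.orbit_sum (g : Ω → ℝ) (x₀ : Ω) :
    ∑ y ∈ fib κp x₀, (symOp C σ (avg κA g) y) ^ 2 =
      (∑ y ∈ fib κp x₀, if C y then g y else 0) ^ 2 / ((fib κp x₀).filter C).card := by
  have h1 : ∀ y ∈ fib κp x₀, (symOp C σ (avg κA g) y) ^ 2 =
      if C y then ((∑ y ∈ fib κp x₀, if C y then g y else 0) / ((fib κp x₀).filter C).card) ^ 2
      else 0 := by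
    intro y hy
    by_cases hC : C y
    · rw [if_pos hC, H.symOp_eq g hC, fib_eq (mem_fib.1 hy)]
    · simp [symOp, hC]
  rw [Finset.sum_congr rfl h1, ← Finset.sum_filter, Finset.sum_const, nsmul_eq_mul]
  by_cases h0 : (((fib κp x₀).filter C).card : ℝ) = 0
  · rw [h0]
    simp
  · field_simp

end

end Vale.Agent.Lib.P335
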