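import Mathlib

/-!
# Poincare inequality for the Johnson graph `J(M, a)` with the sharp constant `|M|`

All sets are subsets of a fixed finite set `M`; functions are defined on all finsets.
`johnsonForm M b g` is the Dirichlet form of `g` on the `(b+1)`-subsets of `M` in the
clique form: half the sum, over `b`-subsets `B`, of `(g (B+x) - g (B+y))^2` over `x, y` outside `B`.
(Each edge of the Johnson graph `J(M, b+1)` is counted exactly once.)
-/

namespace Vale.Agent.Lib.P335

open Finset

variable {α : Type} [DecidableEq α] (M : Finset α)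

/-- Dirichlet form of `g` on the Johnson graph of `(b+1)`-subsets of `M`. -/
noncomputable def johnsonForm (b : ℕ) (g : Finset α → ℝ) : ℝ :=
  (1 / 2 : ℝ) * ∑ B ∈ powersetCard b M, ∑ x ∈ M \ B, ∑ y ∈ M \ B,
    (g (insert x B) - g (insert y B)) ^ 2

/-- Double counting of flags `B ⊂ A`, `|A| = |B| + 1`. -/
theorem johnson_double (b : ℕ) (h : Finset α → α → ℝ) :
    ∑ B ∈ powersetCard b M, ∑ x ∈ M \ B, h (insert x B) x
      = ∑ A ∈ powersetCard (b + 1) M, ∑ x ∈ A, h A x := by
  rw [Finset.sum_sigma', Finset.sum_sigma']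
  refine Finset.sum_nbij' (fun p => ⟨insert p.2 p.1, p.2⟩) (fun p => ⟨p.1.erase p.2, p.2⟩)
    ?_ ?_ ?_ ?_ ?_
  · rintro ⟨B, x⟩ hp
    simp only [mem_sigma, mem_powersetCard, mem_sdiff] at hp ⊢
    obtain ⟨⟨hB, hc⟩, hx, hxB⟩ := hp
    refine ⟨⟨insert_subset hx hB, ?_⟩, mem_insert_self _ _⟩
    rw [card_insert_of_notMem hxB, hc]
  · rintro ⟨A, x⟩ hp
    simp only [mem_sigma, mem_powersetCard, mem_sdiff] at hp ⊢
    obtain ⟨⟨hA, hc⟩, hx⟩ := hp
    refine ⟨⟨(erase_subset _ _).trans hA, ?_⟩, hA hx, notMem_erase _ _⟩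
    rw [card_erase_of_mem hx, hc]
    simp
  · rintro ⟨B, x⟩ hp
    simp only [mem_sigma, mem_powersetCard, mem_sdiff] at hp
    obtain ⟨⟨hB, hc⟩, hx, hxB⟩ := hp
    simp [erase_insert hxB]
  · rintro ⟨A, x⟩ hp
    simp only [mem_sigma, mem_powersetCard] at hp
    obtain ⟨⟨hA, hc⟩, hx⟩ := hp
    simp [insert_erase hx]
  · rintro ⟨B, x⟩ _
    rfl

/-- Elementary identity for a finite family of reals. -/
theorem sum_sum_sub_sq {ι : Type} (s : Finset ι) (a : ι → ℝ) :
    ∑ x ∈ s, ∑ y ∈ s, (a x - a y) ^ 2
      = 2 * (s.card : ℝ) * ∑ x ∈ s, a x ^ 2 - 2 * (∑ x ∈ s, a x) ^ 2 := by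
  have e : ∀ x y, (a x - a y) ^ 2 = a x ^ 2 + a y ^ 2 - 2 * (a x * a y) := fun x y => by ring
  have e2 : ∑ x ∈ s, ∑ y ∈ s, a x * a y = (∑ x ∈ s, a x) ^ 2 := by
    rw [sq, Finset.sum_mul_sum]
  have e3 : ∑ x ∈ s, ∑ y ∈ s, (2 : ℝ) * (a x * a y) = 2 * (∑ x ∈ s, a x) ^ 2 := by
    rw [← e2, mul_sum]
    exact sum_congr rfl fun x _ => by rw [mul_sum]
  simp only [e, sum_sub_distrib, sum_add_distrib, sum_const, nsmul_eq_mul]
  rw [e3, ← mul_sum]
  ring

/-- The down operator, normalized by `k`. -/
noncomputable def johnsonDown (k : ℝ) (g : Finset α → ℝ) : Finset α → ℝ :=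
  fun B => (∑ x ∈ M \ B, g (insert x B)) / k

/-- First identity for the down operator. -/
theorem johnson_identity (b : ℕ) (g : Finset α → ℝ) (k : ℝ)
    (hk : k = (M.card : ℝ) - (b : ℝ) - 1) (hk0 : 0 < k) :
    ((b : ℝ) + 2) * k * ∑ A ∈ powersetCard (b + 2) M, g A ^ 2
      = johnsonForm M (b + 1) g
        + k ^ 2 * ∑ B ∈ powersetCard (b + 1) M, johnsonDown M k g B ^ 2 := by
  have hcard : ∀ B ∈ powersetCard (b + 1) M, (((M \ B).card : ℕ) : ℝ) = k := by
    intro B hB
    rw [mem_powersetCard] at hB
    rw [card_sdiff_of_subset hB.1, hB.2, Nat.cast_sub (card_le_card hB.1 |>.trans' (by omega))]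
    · push_cast
      rw [hk]
      ring
  have h1 : ∑ B ∈ powersetCard (b + 1) M, ∑ x ∈ M \ B, g (insert x B) ^ 2
      = ((b : ℝ) + 2) * ∑ A ∈ powersetCard (b + 2) M, g A ^ 2 := by
    have := johnson_double M (b + 1) (fun A _ => g A ^ 2)
    rw [this, mul_sum]
    refine sum_congr rfl fun A hA => ?_
    rw [mem_powersetCard] at hA
    rw [sum_const, hA.2, nsmul_eq_mul]
    push_cast
    ring
  unfold johnsonForm
  have h2 : ∀ B ∈ powersetCard (b + 1) M,
      ∑ x ∈ M \ B, ∑ y ∈ M \ B, (g (insert x B) - g (insert y B)) ^ 2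
        = 2 * k * ∑ x ∈ M \ B, g (insert x B) ^ 2
          - 2 * (k ^ 2 * johnsonDown M k g B ^ 2) := by
    intro B hB
    rw [sum_sum_sub_sq (M \ B) (fun x => g (insert x B)), hcard B hB]
    unfold johnsonDown
    field_simp
  rw [sum_congr rfl h2, sum_sub_distrib, ← mul_sum, h1, ← mul_sum, ← mul_sum]
  ring

/-- Telescoping of the down operator along an edge of the lower Johnson graph. -/
theorem johnson_down_diff (g : Finset α → ℝ) (C : Finset α) (u v : α)
    (hu : u ∈ M \ C) (hv : v ∈ M \ C) (huv : u ≠ v) :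
    (∑ x ∈ M \ insert u C, g (insert x (insert u C)))
        - (∑ x ∈ M \ insert v C, g (insert x (insert v C)))
      = ∑ x ∈ (M \ C).filter (fun x => x ≠ u ∧ x ≠ v),
          (g (insert x (insert u C)) - g (insert x (insert v C))) := by
  have e1 : M \ insert u C = insert v ((M \ C).filter (fun x => x ≠ u ∧ x ≠ v)) := by
    ext x
    simp only [mem_sdiff, mem_insert, mem_filter, not_or] at hu hv ⊢
    constructor
    · rintro ⟨hxM, hxu, hxC⟩
      by_cases hxv : x = v
      · exact Or.inl hxv
      · exact Or.inr ⟨⟨hxM, hxC⟩, hxu, hxv⟩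
    · rintro (rfl | ⟨⟨hxM, hxC⟩, hxu, _⟩)
      · exact ⟨hv.1, huv.symm, hv.2⟩
      · exact ⟨hxM, hxu, hxC⟩
  have e2 : M \ insert v C = insert u ((M \ C).filter (fun x => x ≠ u ∧ x ≠ v)) := by
    ext x
    simp only [mem_sdiff, mem_insert, mem_filter, not_or] at hu hv ⊢
    constructor
    · rintro ⟨hxM, hxv, hxC⟩
      by_cases hxu : x = u
      · exact Or.inl hxu
      · exact Or.inr ⟨⟨hxM, hxC⟩, hxu, hxv⟩
    · rintro (rfl | ⟨⟨hxM, hxC⟩, _, hxv⟩)
      · exact ⟨hu.1, huv, hu.2⟩
      · exact ⟨hxM, hxv, hxC⟩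
  have hnv : v ∉ (M \ C).filter (fun x => x ≠ u ∧ x ≠ v) := by simp
  have hnu : u ∉ (M \ C).filter (fun x => x ≠ u ∧ x ≠ v) := by simp
  rw [e1, e2, sum_insert hnv, sum_insert hnu, sum_sub_distrib, insert_comm v u C]
  ring

/-- Second inequality for the down operator: the down operator contracts the Dirichlet form. -/
theorem johnson_down_form (b : ℕ) (g : Finset α → ℝ) (k : ℝ)
    (hk : k = (M.card : ℝ) - (b : ℝ) - 1) (hk0 : 0 < k) :
    k ^ 2 * johnsonForm M b (johnsonDown M k g)
      ≤ (k - 1) * ((b : ℝ) + 1) * johnsonForm M (b + 1) g := by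
  -- pointwise Cauchy-Schwarz on an edge
  have hpt : ∀ C ∈ powersetCard b M, ∀ u ∈ M \ C, ∀ v ∈ M \ C,
      k ^ 2 * (johnsonDown M k g (insert u C) - johnsonDown M k g (insert v C)) ^ 2
        ≤ (k - 1) * ∑ x ∈ (M \ C).filter (fun x => x ≠ u ∧ x ≠ v),
            (g (insert u (insert x C)) - g (insert v (insert x C))) ^ 2 := by
    intro C hC u hu v hv
    rw [mem_powersetCard] at hC
    by_cases huv : u = v
    · subst huv
      simp only [sub_self]
      simp
    · have hW : (((M \ C).filter (fun x => x ≠ u ∧ x ≠ v)).card : ℝ) = k - 1 := by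
        have h1 : (M \ C).filter (fun x => x ≠ u ∧ x ≠ v) = ((M \ C).erase u).erase v := by
          ext x
          simp only [mem_filter, mem_erase]
          tauto
        have hbm : b ≤ M.card := by
          rw [← hC.2]
          exact card_le_card hC.1
        have hu' : v ∈ (M \ C).erase u := mem_erase.mpr ⟨Ne.symm huv, hv⟩
        have h2 : (M \ C).card = M.card - b := by
          rw [card_sdiff_of_subset hC.1, hC.2]
        have h3 : 2 ≤ (M \ C).card := by
          have := card_le_card (s := {u, v}) (t := M \ C) (by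
            intro y hy
            simp only [mem_insert, mem_singleton] at hy
            rcases hy with rfl | rfl
            · exact hu
            · exact hv)
          rw [card_pair huv] at this
          exact this
        rw [h1, card_erase_of_mem hu', card_erase_of_mem hu, h2]
        have h4 : 2 ≤ M.card - b := h2 ▸ h3
        have h5 : M.card - b - 1 - 1 + 2 = M.card - b := by omega
        have h6 : ((M.card - b - 1 - 1 : ℕ) : ℝ) + 2 = ((M.card - b : ℕ) : ℝ) := by
          exact_mod_cast h5
        rw [Nat.cast_sub hbm] at h6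
        rw [hk]
        linarith
      have hd := johnson_down_diff M g C u v hu hv huv
      have hsub : k * (johnsonDown M k g (insert u C) - johnsonDown M k g (insert v C))
          = ∑ x ∈ (M \ C).filter (fun x => x ≠ u ∧ x ≠ v),
              (g (insert x (insert u C)) - g (insert x (insert v C))) := by
        rw [← hd]
        unfold johnsonDown
        field_simp
      have hcs := sq_sum_le_card_mul_sum_sq (s := (M \ C).filter (fun x => x ≠ u ∧ x ≠ v))
        (f := fun x => g (insert x (insert u C)) - g (insert x (insert v C)))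
      rw [hW, ← hsub] at hcs
      have e : ∀ x, (g (insert u (insert x C)) - g (insert v (insert x C))) ^ 2
          = (g (insert x (insert u C)) - g (insert x (insert v C))) ^ 2 := by
        intro x
        rw [insert_comm u x C, insert_comm v x C]
      simp only [e]
      calc k ^ 2 * (johnsonDown M k g (insert u C) - johnsonDown M k g (insert v C)) ^ 2
          = (k * (johnsonDown M k g (insert u C) - johnsonDown M k g (insert v C))) ^ 2 := by
            ring
        _ ≤ _ := hcs
  -- summing up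
  have hswap : ∀ C ∈ powersetCard b M,
      ∑ u ∈ M \ C, ∑ v ∈ M \ C, ∑ x ∈ (M \ C).filter (fun x => x ≠ u ∧ x ≠ v),
          (g (insert u (insert x C)) - g (insert v (insert x C))) ^ 2
        = ∑ x ∈ M \ C, ∑ u ∈ M \ insert x C, ∑ v ∈ M \ insert x C,
          (g (insert u (insert x C)) - g (insert v (insert x C))) ^ 2 := by
    intro C _
    have hT : ∀ x, M \ insert x C = (M \ C).filter (fun y => y ≠ x) := by
      intro x
      ext y
      simp only [mem_sdiff, mem_insert, mem_filter, not_or]
      tauto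
    simp only [hT, sum_filter]
    calc _ = ∑ u ∈ M \ C, ∑ x ∈ M \ C, ∑ v ∈ M \ C,
          if x ≠ u ∧ x ≠ v then (g (insert u (insert x C)) - g (insert v (insert x C))) ^ 2
            else 0 := by
          refine sum_congr rfl fun u _ => ?_
          rw [sum_comm]
      _ = ∑ x ∈ M \ C, ∑ u ∈ M \ C, ∑ v ∈ M \ C,
          if x ≠ u ∧ x ≠ v then (g (insert u (insert x C)) - g (insert v (insert x C))) ^ 2
            else 0 := sum_comm
      _ = _ := by
          refine sum_congr rfl fun x _ => ?_
          refine sum_congr rfl fun u _ => ?_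
          by_cases hxu : x = u
          · subst hxu
            simp
          · have : u ≠ x := Ne.symm hxu
            simp only [this, ne_eq, not_false_eq_true, if_true]
            refine sum_congr rfl fun v _ => ?_
            by_cases hxv : x = v
            · subst hxv
              simp
            · have : v ≠ x := Ne.symm hxv
              simp [hxv, this, hxu]
  have htotal : ∑ C ∈ powersetCard b M, ∑ x ∈ M \ C, ∑ u ∈ M \ insert x C, ∑ v ∈ M \ insert x C,
        (g (insert u (insert x C)) - g (insert v (insert x C))) ^ 2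
      = ((b : ℝ) + 1) * (2 * johnsonForm M (b + 1) g) := by
    have := johnson_double M b (fun B _ => ∑ u ∈ M \ B, ∑ v ∈ M \ B,
        (g (insert u B) - g (insert v B)) ^ 2)
    rw [this]
    unfold johnsonForm
    have e : ∀ A ∈ powersetCard (b + 1) M, ∑ x ∈ A, ∑ u ∈ M \ A, ∑ v ∈ M \ A,
          (g (insert u A) - g (insert v A)) ^ 2
        = ((b : ℝ) + 1) * ∑ u ∈ M \ A, ∑ v ∈ M \ A, (g (insert u A) - g (insert v A)) ^ 2 := by
      intro A hA
      rw [mem_powersetCard] at hA
      rw [sum_const, hA.2, nsmul_eq_mul]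
      push_cast
      ring
    rw [sum_congr rfl e, ← mul_sum]
    ring
  unfold johnsonForm at htotal ⊢
  have hmain : k ^ 2 * ∑ C ∈ powersetCard b M, ∑ u ∈ M \ C, ∑ v ∈ M \ C,
        (johnsonDown M k g (insert u C) - johnsonDown M k g (insert v C)) ^ 2
      ≤ (k - 1) * ∑ C ∈ powersetCard b M, ∑ u ∈ M \ C, ∑ v ∈ M \ C,
          ∑ x ∈ (M \ C).filter (fun x => x ≠ u ∧ x ≠ v),
            (g (insert u (insert x C)) - g (insert v (insert x C))) ^ 2 := by
    rw [mul_sum, mul_sum]
    refine sum_le_sum fun C hC => ?_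
    rw [mul_sum, mul_sum]
    refine sum_le_sum fun u hu => ?_
    rw [mul_sum, mul_sum]
    refine sum_le_sum fun v hv => ?_
    exact hpt C hC u hu v hv
  rw [sum_congr rfl hswap, htotal] at hmain
  have : k ^ 2 * ((1 / 2 : ℝ) * ∑ B ∈ powersetCard b M, ∑ x ∈ M \ B, ∑ y ∈ M \ B,
      (johnsonDown M k g (insert x B) - johnsonDown M k g (insert y B)) ^ 2)
      = (1 / 2) * (k ^ 2 * ∑ B ∈ powersetCard b M, ∑ x ∈ M \ B, ∑ y ∈ M \ B,
      (johnsonDown M k g (insert x B) - johnsonDown M k g (insert y B)) ^ 2) := by ring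
  rw [this]
  nlinarith [hmain]

/-- **Sharp Poincare inequality on the Johnson graph**, mean-zero form:
if `g` has mean zero on the `(b+1)`-subsets of `M` then `|M| ‖g‖² ≤ 𝓔(g)`. -/
theorem johnson_gap (b : ℕ) (g : Finset α → ℝ) (hg : ∑ A ∈ powersetCard (b + 1) M, g A = 0) :
    (M.card : ℝ) * ∑ A ∈ powersetCard (b + 1) M, g A ^ 2 ≤ johnsonForm M b g := by
  induction b generalizing g with
  | zero =>
    unfold johnsonForm
    simp only [powersetCard_zero, sum_singleton, sdiff_empty]
    rw [sum_sum_sub_sq M (fun x => g (insert x ∅))]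
    have e1 : ∑ x ∈ M, g (insert x ∅) = ∑ A ∈ powersetCard 1 M, g A := by
      have := johnson_double M 0 (fun A _ => g A)
      simp only [powersetCard_zero, sum_singleton, sdiff_empty] at this
      rw [this]
      refine sum_congr rfl fun A hA => ?_
      rw [mem_powersetCard] at hA
      rw [sum_const, hA.2]
      simp
    have e2 : ∑ x ∈ M, g (insert x ∅) ^ 2 = ∑ A ∈ powersetCard 1 M, g A ^ 2 := by
      have := johnson_double M 0 (fun A _ => g A ^ 2)
      simp only [powersetCard_zero, sum_singleton, sdiff_empty] at this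
      rw [this]
      refine sum_congr rfl fun A hA => ?_
      rw [mem_powersetCard] at hA
      rw [sum_const, hA.2]
      simp
    rw [e1, e2, hg]
    simp only [zero_add] at hg
    apply le_of_eq
    ring
  | succ b ih =>
    by_cases hm : (M.card : ℝ) - ((b : ℝ) + 1) ≤ 0
    · -- no (b+2)-subsets remain unless b+2 ≤ |M|
      have hm' : M.card ≤ b + 1 := by
        have h2 : (M.card : ℝ) ≤ (b : ℝ) + 1 := by linarith
        exact_mod_cast h2
      have : powersetCard (b + 1 + 1) M = ∅ := powersetCard_eq_empty.mpr (by omega)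
      rw [this]
      simp only [sum_empty, mul_zero]
      unfold johnsonForm
      apply mul_nonneg (by norm_num)
      exact sum_nonneg fun _ _ => sum_nonneg fun _ _ => sum_nonneg fun _ _ => sq_nonneg _
    · have hm := not_le.mp hm
      have hk0 : 0 < (M.card : ℝ) - (b : ℝ) - 1 := by
        linarith
      set k : ℝ := (M.card : ℝ) - (b : ℝ) - 1 with hk
      have hid := johnson_identity M b g k hk hk0
      have hform := johnson_down_form M b g k hk hk0
      have hmean : ∑ B ∈ powersetCard (b + 1) M, johnsonDown M k g B = 0 := by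
        unfold johnsonDown
        rw [← sum_div]
        have := johnson_double M (b + 1) (fun A _ => g A)
        rw [this]
        have e : ∀ A ∈ powersetCard (b + 1 + 1) M, ∑ x ∈ A, g A = ((b : ℝ) + 2) * g A := by
          intro A hA
          rw [mem_powersetCard] at hA
          rw [sum_const, hA.2, nsmul_eq_mul]
          push_cast
          ring
        rw [sum_congr rfl e, ← mul_sum, hg]
        simp
      have hind := ih (johnsonDown M k g) hmean
      set E := johnsonForm M (b + 1) g with hE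
      set N2 := ∑ A ∈ powersetCard (b + 1 + 1) M, g A ^ 2 with hN2
      set D2 := ∑ B ∈ powersetCard (b + 1) M, johnsonDown M k g B ^ 2 with hD2
      set F := johnsonForm M b (johnsonDown M k g) with hF
      have hmpos : 0 < (M.card : ℝ) := by
        have : (0 : ℝ) ≤ (b : ℝ) := Nat.cast_nonneg b
        linarith
      -- combine
      have hb : (0 : ℝ) ≤ (b : ℝ) := Nat.cast_nonneg b
      have hMk : (M.card : ℝ) = k + (b : ℝ) + 1 := by rw [hk]; ring
      have h1 : (M.card : ℝ) * (((b : ℝ) + 2) * k * N2) = (M.card : ℝ) * E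
          + k ^ 2 * ((M.card : ℝ) * D2) := by
        rw [hid]; ring
      have h2 : k ^ 2 * ((M.card : ℝ) * D2) ≤ k ^ 2 * F :=
        mul_le_mul_of_nonneg_left hind (sq_nonneg k)
      have h3 : (M.card : ℝ) * (((b : ℝ) + 2) * k * N2) ≤ (((b : ℝ) + 2) * k) * E := by
        have : (M.card : ℝ) * E + (k - 1) * ((b : ℝ) + 1) * E = (((b : ℝ) + 2) * k) * E := by
          rw [hMk]; ring
        rw [h1]
        linarith
      have h4 : 0 < ((b : ℝ) + 2) * k := by positivity
      have h5 : ((b : ℝ) + 2) * k * ((M.card : ℝ) * N2) ≤ ((b : ℝ) + 2) * k * E := by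
        calc ((b : ℝ) + 2) * k * ((M.card : ℝ) * N2)
            = (M.card : ℝ) * (((b : ℝ) + 2) * k * N2) := by ring
          _ ≤ _ := h3
      exact le_of_mul_le_mul_left h5 h4

/-- **Sharp Poincare inequality on the Johnson graph**:
`|M| (∑ g² - (∑ g)² / #J) ≤ 𝓔(g)`, where `J` is the family of `(b+1)`-subsets of `M`. -/
theorem johnson_poincare (b : ℕ) (g : Finset α → ℝ) :
    (M.card : ℝ) * (∑ A ∈ powersetCard (b + 1) M, g A ^ 2
        - (∑ A ∈ powersetCard (b + 1) M, g A) ^ 2 / ((powersetCard (b + 1) M).card : ℝ))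
      ≤ johnsonForm M b g := by
  set J := powersetCard (b + 1) M with hJ
  by_cases hJ0 : J.card = 0
  · have hJe : J = ∅ := card_eq_zero.mp hJ0
    rw [hJe]
    simp only [sum_empty, card_empty]
    simp only [ne_eq, OfNat.ofNat_ne_zero, not_false_eq_true, zero_pow, Nat.cast_zero, div_zero,
      sub_self, mul_zero]
    unfold johnsonForm
    apply mul_nonneg (by norm_num)
    exact sum_nonneg fun _ _ => sum_nonneg fun _ _ => sum_nonneg fun _ _ => sq_nonneg _
  · have hJpos : (0 : ℝ) < (J.card : ℝ) := by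
      exact_mod_cast Nat.pos_of_ne_zero hJ0
    set c : ℝ := (∑ A ∈ J, g A) / (J.card : ℝ) with hc
    have hsum : ∑ A ∈ J, g A = (J.card : ℝ) * c := by
      rw [hc]
      field_simp
    have hmean : ∑ A ∈ powersetCard (b + 1) M, (fun A => g A - c) A = 0 := by
      rw [← hJ]
      simp only [sum_sub_distrib, sum_const, nsmul_eq_mul]
      rw [hsum]
      ring
    have hgap := johnson_gap M b (fun A => g A - c) hmean
    have hform : johnsonForm M b (fun A => g A - c) = johnsonForm M b g := by
      unfold johnsonForm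
      refine congrArg _ (sum_congr rfl fun B _ => sum_congr rfl fun x _ => sum_congr rfl fun y _ => ?_)
      ring
    rw [hform, ← hJ] at hgap
    have e : ∑ A ∈ J, (g A - c) ^ 2 = ∑ A ∈ J, g A ^ 2 - (∑ A ∈ J, g A) ^ 2 / (J.card : ℝ) := by
      have : ∀ A, (g A - c) ^ 2 = g A ^ 2 - 2 * c * g A + c ^ 2 := fun A => by ring
      simp only [this, sum_add_distrib, sum_sub_distrib, ← mul_sum, sum_const, nsmul_eq_mul]
      rw [hsum]
      field_simp
      ring
    rw [← e]
    exact hgap

end Vale.Agent.Lib.P335
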