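import Vale.Agent.Lib.P335.Slots
import Vale.Agent.Lib.P335.Johnson

/-!
# P335: the fibres of row-pair resampling are Johnson graphs

Fix `i ≠ j`. The fibre of `offKey (rowSlots i j)` through a realization is in bijection with the
`a`-subsets of the set `F` of columns where the rows `i`, `j` differ.
-/

namespace Vale.Agent.Lib.P335

open Finset

variable {n : ℕ} {d : Fin n → ℕ}

set_option linter.unusedSimpArgs false

/-- Columns where the rows `i`, `j` differ. -/
def rowF (i j : Fin n) (E : Gr n) : Finset (Fin n) :=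
  univ.filter fun c => c ≠ i ∧ c ≠ j ∧ ¬ (s(i, c) ∈ E ↔ s(j, c) ∈ E)

/-- Columns where row `i` has a one and row `j` has a zero. -/
def rowS (i j : Fin n) (E : Gr n) : Finset (Fin n) :=
  univ.filter fun c => c ≠ i ∧ c ≠ j ∧ s(i, c) ∈ E ∧ s(j, c) ∉ E

lemma mem_rowF {i j c : Fin n} {E : Gr n} :
    c ∈ rowF i j E ↔ c ≠ i ∧ c ≠ j ∧ ¬ (s(i, c) ∈ E ↔ s(j, c) ∈ E) := by
  simp [rowF]

lemma mem_rowS {i j c : Fin n} {E : Gr n} :
    c ∈ rowS i j E ↔ c ≠ i ∧ c ≠ j ∧ s(i, c) ∈ E ∧ s(j, c) ∉ E := by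
  simp [rowS]

lemma rowS_subset_rowF (i j : Fin n) (E : Gr n) : rowS i j E ⊆ rowF i j E := by
  intro c hc
  rw [mem_rowS] at hc
  rw [mem_rowF]
  refine ⟨hc.1, hc.2.1, ?_⟩
  intro h
  exact hc.2.2.2 (h.1 hc.2.2.1)

/-- A slot `{c, u}` off the rows `i`, `j` does not lie in `rowSlots i j`. -/
lemma not_mem_rowSlots {i j c u : Fin n} (hci : c ≠ i) (hcj : c ≠ j) (hui : u ≠ i) (huj : u ≠ j) :
    s(c, u) ∉ rowSlots i j := by
  rw [mem_rowSlots]
  rintro ⟨b, hbi, hbj, h | h⟩
  · rw [Sym2.eq_iff] at h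
    rcases h with ⟨h1, _⟩ | ⟨_, h2⟩
    · exact hci h1
    · exact hui h2
  · rw [Sym2.eq_iff] at h
    rcases h with ⟨h1, _⟩ | ⟨_, h2⟩
    · exact hcj h1
    · exact huj h2

lemma self_not_mem_rowSlots (i j : Fin n) : s(i, j) ∉ rowSlots i j := by
  rw [mem_rowSlots]
  rintro ⟨b, hbi, hbj, h | h⟩
  · rw [Sym2.eq_iff] at h
    rcases h with ⟨_, h2⟩ | ⟨h1, _⟩
    · exact hbj h2.symm
    · exact hbi h1.symm
  · rw [Sym2.eq_iff] at h
    rcases h with ⟨_, h2⟩ | ⟨h1, _⟩
    · exact hbj h2.symm
    · exact hbi h1.symm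

lemma left_mem_rowSlots {i j c : Fin n} (hci : c ≠ i) (hcj : c ≠ j) : s(i, c) ∈ rowSlots i j :=
  mem_rowSlots.2 ⟨c, hci, hcj, Or.inl rfl⟩

lemma right_mem_rowSlots {i j c : Fin n} (hci : c ≠ i) (hcj : c ≠ j) : s(j, c) ∈ rowSlots i j :=
  mem_rowSlots.2 ⟨c, hci, hcj, Or.inr rfl⟩

/-- Sum over all vertices splitting off two of them. -/
lemma sum_split_two {i j : Fin n} (hij : i ≠ j) {M : Type} [AddCommMonoid M] (h : Fin n → M) :
    ∑ u, h u = h i + h j + ∑ u ∈ univ.filter (fun u => u ≠ i ∧ u ≠ j), h u := by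
  have e : (univ : Finset (Fin n)) = insert i (insert j (univ.filter (fun u => u ≠ i ∧ u ≠ j))) := by
    ext u
    simp only [mem_univ, mem_insert, mem_filter, true_and, true_iff]
    by_cases h1 : u = i
    · exact Or.inl h1
    · by_cases h2 : u = j
      · exact Or.inr (Or.inl h2)
      · exact Or.inr (Or.inr ⟨h1, h2⟩)
  conv_lhs => rw [e]
  rw [sum_insert, sum_insert, add_assoc]
  · simp
  · simp [hij]

/-- The degree sum at a vertex `c` off the rows: the two row slots have a conserved sum. -/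
lemma row_sum_conserved {i j : Fin n} (hij : i ≠ j) {G G' : Rz d}
    (hk : offKey (rowSlots i j) G = offKey (rowSlots i j) G') {c : Fin n}
    (hci : c ≠ i) (hcj : c ≠ j) :
    (if s(i, c) ∈ G.1 then 1 else 0) + (if s(j, c) ∈ G.1 then 1 else 0)
      = (if s(i, c) ∈ G'.1 then 1 else 0) + (if s(j, c) ∈ G'.1 then (1 : ℕ) else 0) := by
  have hk' := offKey_eq_iff.1 hk
  have h1 := G.2.2 c
  have h2 := G'.2.2 c
  rw [degreeIn_eq_sum, sum_split_two hij] at h1 h2
  have hrest : ∑ u ∈ univ.filter (fun u => u ≠ i ∧ u ≠ j), (if s(c, u) ∈ G.1 then (1 : ℕ) else 0)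
      = ∑ u ∈ univ.filter (fun u => u ≠ i ∧ u ≠ j), (if s(c, u) ∈ G'.1 then (1 : ℕ) else 0) := by
    refine sum_congr rfl fun u hu => ?_
    rw [mem_filter] at hu
    have := hk' _ (not_mem_rowSlots hci hcj hu.2.1 hu.2.2)
    simp only [this]
  rw [Sym2.eq_swap (a := c) (b := i), Sym2.eq_swap (a := c) (b := j)] at h1 h2
  omega

lemma row_iff_of_conserved {p q p' q' : Prop} [Decidable p] [Decidable q] [Decidable p']
    [Decidable q']
    (h : (if p then 1 else 0) + (if q then 1 else 0)
      = (if p' then 1 else 0) + (if q' then (1 : ℕ) else 0)) (hpq : p ↔ q) : (p ↔ p') ∧ (q ↔ q') := by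
  by_cases h1 : p <;> by_cases h2 : q <;> by_cases h3 : p' <;> by_cases h4 : q' <;>
    simp_all

/-- `rowF` is constant on a fibre. -/
lemma rowF_eq {i j : Fin n} (hij : i ≠ j) {G G' : Rz d}
    (hk : offKey (rowSlots i j) G = offKey (rowSlots i j) G') :
    rowF i j G.1 = rowF i j G'.1 := by
  ext c
  rw [mem_rowF, mem_rowF]
  refine and_congr_right fun hci => and_congr_right fun hcj => ?_
  have := row_sum_conserved hij hk hci hcj
  by_cases h1 : s(i, c) ∈ G.1 <;> by_cases h2 : s(j, c) ∈ G.1 <;>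
    by_cases h3 : s(i, c) ∈ G'.1 <;> by_cases h4 : s(j, c) ∈ G'.1 <;>
    simp_all

/-- A graph in the fibre agrees with the base graph on the row slots off `F`. -/
lemma row_off_F {i j : Fin n} (hij : i ≠ j) {G G' : Rz d}
    (hk : offKey (rowSlots i j) G = offKey (rowSlots i j) G') {c : Fin n}
    (hci : c ≠ i) (hcj : c ≠ j) (hc : c ∉ rowF i j G.1) :
    (s(i, c) ∈ G.1 ↔ s(i, c) ∈ G'.1) ∧ (s(j, c) ∈ G.1 ↔ s(j, c) ∈ G'.1) := by
  have h0 : s(i, c) ∈ G.1 ↔ s(j, c) ∈ G.1 := by
    by_contra h
    exact hc (mem_rowF.2 ⟨hci, hcj, h⟩)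
  exact row_iff_of_conserved (row_sum_conserved hij hk hci hcj) h0

/-- Inside `F`, membership of the left slot is membership in `rowS`. -/
lemma left_iff_rowS {i j c : Fin n} {E : Gr n} (hc : c ∈ rowF i j E) :
    s(i, c) ∈ E ↔ c ∈ rowS i j E := by
  rw [mem_rowF] at hc
  rw [mem_rowS]
  constructor
  · intro h
    refine ⟨hc.1, hc.2.1, h, fun h2 => hc.2.2 ⟨fun _ => h2, fun _ => h⟩⟩
  · intro h
    exact h.2.2.1

lemma right_iff_rowS {i j c : Fin n} {E : Gr n} (hc : c ∈ rowF i j E) :
    s(j, c) ∈ E ↔ c ∉ rowS i j E := by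
  rw [mem_rowF] at hc
  rw [mem_rowS]
  constructor
  · intro h h2
    exact h2.2.2.2 h
  · intro h
    by_contra h2
    apply h
    refine ⟨hc.1, hc.2.1, ?_, h2⟩
    by_contra h3
    exact hc.2.2 ⟨fun h4 => absurd h4 h3, fun h4 => absurd h4 h2⟩

/-- `rowS` is injective on a fibre. -/
lemma eq_of_rowS_eq {i j : Fin n} (hij : i ≠ j) {G G' : Rz d}
    (hk : offKey (rowSlots i j) G = offKey (rowSlots i j) G')
    (hS : rowS i j G.1 = rowS i j G'.1) : G = G' := by
  apply Subtype.ext
  ext e
  by_cases he : e ∈ rowSlots i j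
  · obtain ⟨c, hci, hcj, rfl | rfl⟩ := mem_rowSlots.1 he
    · by_cases hc : c ∈ rowF i j G.1
      · have hc' : c ∈ rowF i j G'.1 := rowF_eq hij hk ▸ hc
        rw [left_iff_rowS hc, left_iff_rowS hc', hS]
      · exact (row_off_F hij hk hci hcj hc).1
    · by_cases hc : c ∈ rowF i j G.1
      · have hc' : c ∈ rowF i j G'.1 := rowF_eq hij hk ▸ hc
        rw [right_iff_rowS hc, right_iff_rowS hc', hS]
      · exact (row_off_F hij hk hci hcj hc).2
  · exact offKey_eq_iff.1 hk e he

/-- Count of the degree at `i` through `F`. -/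
lemma degree_count {i j : Fin n} (hij : i ≠ j) (E : Gr n) (hloop : s(i, i) ∉ E) :
    degreeIn E i = (if s(i, j) ∈ E then 1 else 0) + (rowS i j E).card +
      ∑ c ∈ univ.filter (fun c => c ≠ i ∧ c ≠ j ∧ c ∉ rowF i j E),
        (if s(i, c) ∈ E then (1 : ℕ) else 0) := by
  rw [degreeIn_eq_sum, sum_split_two hij]
  simp only [hloop, if_false, zero_add]
  rw [add_assoc]
  congr 1
  -- split the rest according to `rowF`
  have hsplit : ∑ u ∈ univ.filter (fun u => u ≠ i ∧ u ≠ j), (if s(i, u) ∈ E then (1 : ℕ) else 0)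
      = ∑ u ∈ rowF i j E, (if s(i, u) ∈ E then (1 : ℕ) else 0)
        + ∑ c ∈ univ.filter (fun c => c ≠ i ∧ c ≠ j ∧ c ∉ rowF i j E),
            (if s(i, c) ∈ E then (1 : ℕ) else 0) := by
    rw [← sum_union]
    · refine sum_congr ?_ fun _ _ => rfl
      ext c
      simp only [mem_filter, mem_univ, true_and, mem_union]
      constructor
      · rintro ⟨h2, h3⟩
        by_cases hc : c ∈ rowF i j E
        · exact Or.inl hc
        · exact Or.inr ⟨h2, h3, hc⟩
      · rintro (hc | hc)
        · have := mem_rowF.1 hc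
          exact ⟨this.1, this.2.1⟩
        · exact ⟨hc.1, hc.2.1⟩
    · rw [disjoint_left]
      intro c hc h2
      rw [mem_filter] at h2
      exact h2.2.2.2 hc
  rw [hsplit]
  congr 1
  have : ∑ u ∈ rowF i j E, (if s(i, u) ∈ E then (1 : ℕ) else 0)
      = ∑ u ∈ rowF i j E, (if u ∈ rowS i j E then (1 : ℕ) else 0) := by
    refine sum_congr rfl fun u hu => ?_
    simp only [left_iff_rowS hu]
  rw [this, sum_boole, filter_mem_eq_inter, inter_eq_right.2 (rowS_subset_rowF i j E)]
  simp

/-- `|rowS|` is constant on a fibre. -/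
lemma card_rowS_eq {i j : Fin n} (hij : i ≠ j) {G G' : Rz d}
    (hk : offKey (rowSlots i j) G = offKey (rowSlots i j) G') :
    (rowS i j G.1).card = (rowS i j G'.1).card := by
  have h1 := degree_count hij G.1 (G.2.1 i)
  have h2 := degree_count hij G'.1 (G'.2.1 i)
  rw [G.2.2 i] at h1
  rw [G'.2.2 i] at h2
  have hF := rowF_eq hij hk
  have hij' : s(i, j) ∈ G.1 ↔ s(i, j) ∈ G'.1 :=
    offKey_eq_iff.1 hk _ (self_not_mem_rowSlots i j)
  have hrest : ∑ c ∈ univ.filter (fun c => c ≠ i ∧ c ≠ j ∧ c ∉ rowF i j G.1),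
        (if s(i, c) ∈ G.1 then (1 : ℕ) else 0)
      = ∑ c ∈ univ.filter (fun c => c ≠ i ∧ c ≠ j ∧ c ∉ rowF i j G'.1),
        (if s(i, c) ∈ G'.1 then (1 : ℕ) else 0) := by
    rw [← hF]
    refine sum_congr rfl fun c hc => ?_
    rw [mem_filter] at hc
    have := (row_off_F hij hk hc.2.1 hc.2.2.1 hc.2.2.2).1
    simp only [this]
  simp only [hij'] at h1
  omega

/-- The graph obtained from `E` by setting row `i` to `S` on `F` and row `j` to the complement. -/
def rowGraph (i j : Fin n) (E : Gr n) (S : Finset (Fin n)) : Gr n :=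
  (E \ ((rowF i j E).image (fun c => s(i, c)) ∪ (rowF i j E).image (fun c => s(j, c))))
    ∪ S.image (fun c => s(i, c)) ∪ (rowF i j E \ S).image (fun c => s(j, c))

lemma rowGraph_left {i j : Fin n} (hij : i ≠ j) (E : Gr n) {S : Finset (Fin n)}
    (hS : S ⊆ rowF i j E) {c : Fin n} (hcj : c ≠ j) :
    s(i, c) ∈ rowGraph i j E S ↔ if c ∈ rowF i j E then c ∈ S else s(i, c) ∈ E := by
  have e1 : ∀ c', s(i, c') = s(i, c) ↔ c' = c := fun c' => Sym2.congr_right
  have e2 : ∀ c', s(j, c') = s(i, c) ↔ False := by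
    intro c'
    simp only [Sym2.eq_iff, iff_false, not_or, not_and]
    exact ⟨fun h => absurd h.symm hij, fun h => absurd h.symm hcj⟩
  unfold rowGraph
  simp only [mem_union, mem_sdiff, mem_image, e1, e2, and_false, exists_false, or_false,
    exists_eq_right]
  by_cases hc : c ∈ rowF i j E
  · simp only [hc, not_true_eq_false, and_false, false_or, if_true]
  · have : c ∉ S := fun h => hc (hS h)
    simp [hc, this]

lemma rowGraph_right {i j : Fin n} (hij : i ≠ j) (E : Gr n) {S : Finset (Fin n)}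
    (hS : S ⊆ rowF i j E) {c : Fin n} (hci : c ≠ i) :
    s(j, c) ∈ rowGraph i j E S ↔ if c ∈ rowF i j E then c ∉ S else s(j, c) ∈ E := by
  have e1 : ∀ c', s(j, c') = s(j, c) ↔ c' = c := fun c' => Sym2.congr_right
  have e2 : ∀ c', s(i, c') = s(j, c) ↔ False := by
    intro c'
    simp only [Sym2.eq_iff, iff_false, not_or, not_and]
    exact ⟨fun h => absurd h hij, fun h => absurd h hci.symm⟩
  unfold rowGraph
  simp only [mem_union, mem_sdiff, mem_image, e1, e2, and_false, exists_false, or_false, false_or,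
    exists_eq_right]
  by_cases hc : c ∈ rowF i j E
  · simp only [hc, not_true_eq_false, and_false, false_or, if_true, true_and]
  · simp [hc]

lemma rowGraph_off {i j : Fin n} (E : Gr n) {S : Finset (Fin n)}
    (hS : S ⊆ rowF i j E) {e : Sym2 (Fin n)} (he : e ∉ rowSlots i j) :
    e ∈ rowGraph i j E S ↔ e ∈ E := by
  have h1 : ∀ c ∈ rowF i j E, s(i, c) ≠ e := by
    intro c hc h
    rw [mem_rowF] at hc
    exact he (h ▸ left_mem_rowSlots hc.1 hc.2.1)
  have h2 : ∀ c ∈ rowF i j E, s(j, c) ≠ e := by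
    intro c hc h
    rw [mem_rowF] at hc
    exact he (h ▸ right_mem_rowSlots hc.1 hc.2.1)
  unfold rowGraph
  simp only [mem_union, mem_sdiff, mem_image, not_or, not_exists, not_and]
  constructor
  · rintro ((⟨h, _⟩ | ⟨c, hc, h⟩) | ⟨c, hc, h⟩)
    · exact h
    · exact absurd h (h1 c (hS hc))
    · exact absurd h (h2 c hc.1)
  · intro h
    exact Or.inl (Or.inl ⟨h, fun c hc => h1 c hc, fun c hc => h2 c hc⟩)

lemma rowF_rowGraph {i j : Fin n} (hij : i ≠ j) (E : Gr n) {S : Finset (Fin n)}
    (hS : S ⊆ rowF i j E) : rowF i j (rowGraph i j E S) = rowF i j E := by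
  ext c
  rw [mem_rowF, mem_rowF]
  refine and_congr_right fun hci => and_congr_right fun hcj => ?_
  rw [rowGraph_left hij E hS hcj, rowGraph_right hij E hS hci]
  by_cases hc : c ∈ rowF i j E
  · simp only [hc, if_true]
    have := (mem_rowF.1 hc).2.2
    tauto
  · simp only [hc, if_false]

lemma rowS_rowGraph {i j : Fin n} (hij : i ≠ j) (E : Gr n) {S : Finset (Fin n)}
    (hS : S ⊆ rowF i j E) : rowS i j (rowGraph i j E S) = S := by
  ext c
  rw [mem_rowS]
  constructor
  · rintro ⟨hci, hcj, h1, h2⟩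
    rw [rowGraph_left hij E hS hcj] at h1
    rw [rowGraph_right hij E hS hci] at h2
    by_cases hc : c ∈ rowF i j E
    · simpa [hc] using h1
    · simp only [hc, if_false] at h1 h2
      exact absurd (mem_rowF.2 ⟨hci, hcj, fun h => h2 (h.1 h1)⟩) hc
  · intro hc
    have hcF := hS hc
    have hcF' := mem_rowF.1 hcF
    refine ⟨hcF'.1, hcF'.2.1, ?_, ?_⟩
    · rw [rowGraph_left hij E hS hcF'.2.1]
      simpa [hcF] using hc
    · rw [rowGraph_right hij E hS hcF'.1]
      simpa [hcF] using hc

lemma rowF_comm (i j : Fin n) (E : Gr n) : rowF j i E = rowF i j E := by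
  ext c
  rw [mem_rowF, mem_rowF]
  tauto

lemma rowS_comm (i j : Fin n) (E : Gr n) : rowS j i E = rowF i j E \ rowS i j E := by
  ext c
  rw [mem_sdiff, mem_rowS, mem_rowF, mem_rowS]
  tauto

/-- Every subset of `F` of the right size is realized in the fibre. -/
theorem rowGraph_spec {i j : Fin n} (hij : i ≠ j) (G0 : Rz d) {S : Finset (Fin n)}
    (hS : S ⊆ rowF i j G0.1) (hc : S.card = (rowS i j G0.1).card) :
    ∃ G : Rz d, offKey (rowSlots i j) G = offKey (rowSlots i j) G0 ∧ rowS i j G.1 = S := by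
  set E := G0.1 with hE
  set E' := rowGraph i j E S with hE'
  have hoff : ∀ e, e ∉ rowSlots i j → (e ∈ E' ↔ e ∈ E) := fun e he => rowGraph_off E hS he
  have hF' : rowF i j E' = rowF i j E := rowF_rowGraph hij E hS
  have hS' : rowS i j E' = S := rowS_rowGraph hij E hS
  have hdiag : ∀ v, s(v, v) ∉ rowSlots i j := by
    intro v
    rw [mem_rowSlots]
    rintro ⟨b, hbi, hbj, h | h⟩
    · rw [Sym2.eq_iff] at h
      rcases h with ⟨h1, h2⟩ | ⟨h1, h2⟩
      · exact hbi (h2.symm.trans h1)
      · exact hbi (h1.symm.trans h2)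
    · rw [Sym2.eq_iff] at h
      rcases h with ⟨h1, h2⟩ | ⟨h1, h2⟩
      · exact hbj (h2.symm.trans h1)
      · exact hbj (h1.symm.trans h2)
  have hloop : ∀ v, s(v, v) ∉ E' := fun v h => G0.2.1 v ((hoff _ (hdiag v)).1 h)
  have hR : IsRealization d E' := by
    refine ⟨hloop, ?_⟩
    intro v
    by_cases hvi : v = i
    · subst hvi
      rw [degree_count hij E' (hloop v), ← G0.2.2 v, degree_count hij E (G0.2.1 v), hS', hF', hc]
      have h1 : (if s(v, j) ∈ E' then 1 else 0) = (if s(v, j) ∈ E then (1 : ℕ) else 0) := by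
        simp only [hoff _ (self_not_mem_rowSlots v j)]
      rw [h1]
      congr 1
      refine sum_congr rfl fun c hc' => ?_
      rw [mem_filter] at hc'
      have h : s(v, c) ∈ E' ↔ s(v, c) ∈ E := by
        have := rowGraph_left hij E hS hc'.2.2.1
        simpa [hc'.2.2.2] using this
      simp only [h]
    by_cases hvj : v = j
    · subst hvj
      have hij' : v ≠ i := Ne.symm hij
      have hji : v ≠ i := hij'
      rw [degree_count hij' E' (hloop v), ← G0.2.2 v, degree_count hij' E (G0.2.1 v)]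
      have hS2 : rowS v i E' = rowF i v E \ S := by
        rw [rowS_comm, hF', hS']
      have hS3 : rowS v i E = rowF i v E \ rowS i v E := rowS_comm i v E
      have hcard : (rowS v i E').card = (rowS v i E).card := by
        rw [hS2, hS3, card_sdiff_of_subset hS, card_sdiff_of_subset (rowS_subset_rowF i v E), hc]
      rw [hcard]
      have hslot : s(v, i) ∉ rowSlots i v := by
        rw [Sym2.eq_swap]
        exact self_not_mem_rowSlots i v
      have h1 : (if s(v, i) ∈ E' then 1 else 0) = (if s(v, i) ∈ E then (1 : ℕ) else 0) := by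
        simp only [hoff _ hslot]
      rw [h1]
      congr 1
      rw [rowF_comm i v, rowF_comm i v, hF']
      refine sum_congr rfl fun c hc' => ?_
      rw [mem_filter] at hc'
      have h : s(v, c) ∈ E' ↔ s(v, c) ∈ E := by
        have := rowGraph_right hij E hS hc'.2.2.1
        simpa [hc'.2.2.2] using this
      simp only [h]
    · rw [← G0.2.2 v, degreeIn_eq_sum, degreeIn_eq_sum, sum_split_two hij, sum_split_two hij]
      have hrest : ∑ u ∈ univ.filter (fun u => u ≠ i ∧ u ≠ j), (if s(v, u) ∈ E' then (1 : ℕ) else 0)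
          = ∑ u ∈ univ.filter (fun u => u ≠ i ∧ u ≠ j), (if s(v, u) ∈ E then (1 : ℕ) else 0) := by
        refine sum_congr rfl fun u hu => ?_
        rw [mem_filter] at hu
        simp only [hoff _ (not_mem_rowSlots hvi hvj hu.2.1 hu.2.2)]
      rw [hrest, Sym2.eq_swap (a := v) (b := i), Sym2.eq_swap (a := v) (b := j)]
      congr 1
      rw [← hE]
      have hL : s(i, v) ∈ E' ↔ if v ∈ rowF i j E then v ∈ S else s(i, v) ∈ E :=
        rowGraph_left hij E hS hvj
      have hR : s(j, v) ∈ E' ↔ if v ∈ rowF i j E then v ∉ S else s(j, v) ∈ E :=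
        rowGraph_right hij E hS hvi
      by_cases hv : v ∈ rowF i j E
      · simp only [hv, if_true] at hL hR
        have h3 := (mem_rowF.1 hv).2.2
        simp only [hL, hR]
        by_cases h4 : v ∈ S <;> by_cases h5 : s(i, v) ∈ E <;> by_cases h6 : s(j, v) ∈ E <;>
          simp_all
      · simp only [hv, if_false] at hL hR
        simp only [hL, hR]
  refine ⟨⟨E', hR⟩, ?_, hS'⟩
  rw [offKey_eq_iff]
  exact fun e he => hoff e he

/-- A sum over a fibre, of a function of `rowS`, is a sum over the subsets. -/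
theorem sum_fib_rowS {i j : Fin n} (hij : i ≠ j) (G0 : Rz d) (h : Finset (Fin n) → ℝ) :
    ∑ G ∈ fib (offKey (rowSlots i j)) G0, h (rowS i j G.1)
      = ∑ A ∈ powersetCard (rowS i j G0.1).card (rowF i j G0.1), h A := by
  refine Finset.sum_bij (fun G _ => rowS i j G.1) ?_ ?_ ?_ (fun _ _ => rfl)
  · intro G hG
    have hk : offKey (rowSlots i j) G = offKey (rowSlots i j) G0 := mem_fib.1 hG
    rw [mem_powersetCard]
    refine ⟨?_, card_rowS_eq hij hk⟩
    rw [← rowF_eq hij hk]
    exact rowS_subset_rowF i j G.1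
  · intro G hG G' hG' hS
    have hk : offKey (rowSlots i j) G = offKey (rowSlots i j) G0 := mem_fib.1 hG
    have hk' : offKey (rowSlots i j) G' = offKey (rowSlots i j) G0 := mem_fib.1 hG'
    exact eq_of_rowS_eq hij (hk.trans hk'.symm) hS
  · intro A hA
    rw [mem_powersetCard] at hA
    obtain ⟨G, hk, hS⟩ := rowGraph_spec hij G0 hA.1 hA.2
    exact ⟨G, mem_fib.2 hk, hS⟩

theorem card_fib_rowS {i j : Fin n} (hij : i ≠ j) (G0 : Rz d) :
    (fib (offKey (rowSlots i j)) G0).card
      = (powersetCard (rowS i j G0.1).card (rowF i j G0.1)).card := by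
  have := sum_fib_rowS hij G0 (fun _ => 1)
  simp only [sum_const, nsmul_eq_mul, mul_one] at this
  exact_mod_cast this

/-- The elementary switch inside a row pair fibre: column `x` moves from `i` to `j` and
column `y` moves from `j` to `i`. -/
def RowSwitch (i j x y : Fin n) (G G' : Rz d) : Prop :=
  x ≠ i ∧ x ≠ j ∧ y ≠ i ∧ y ≠ j ∧ x ≠ y ∧ s(i, x) ∈ G.1 ∧ s(j, x) ∉ G.1 ∧ s(i, y) ∉ G.1 ∧
    s(j, y) ∈ G.1 ∧ G'.1 = insert s(i, y) (insert s(j, x) (G.1 \ {s(i, x), s(j, y)}))

instance (i j x y : Fin n) (G G' : Rz d) : Decidable (RowSwitch i j x y G G') := by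
  unfold RowSwitch; infer_instance

/-- Two graphs in one fibre whose row sets differ by an exchange are a `RowSwitch`. -/
lemma rowSwitch_of_rowS {i j x y : Fin n} (hij : i ≠ j) {G G' : Rz d}
    (hk : offKey (rowSlots i j) G' = offKey (rowSlots i j) G)
    (hx : x ∈ rowS i j G.1) (hy : y ∈ rowF i j G.1) (hyS : y ∉ rowS i j G.1)
    (hS : rowS i j G'.1 = insert y ((rowS i j G.1).erase x)) : RowSwitch i j x y G G' := by
  have hx' := mem_rowS.1 hx
  have hy' := mem_rowF.1 hy
  have hxy : x ≠ y := fun h => hyS (h ▸ hx)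
  have hxF : x ∈ rowF i j G.1 := rowS_subset_rowF i j G.1 hx
  have hiy : s(i, y) ∉ G.1 := fun h => hyS ((left_iff_rowS hy).1 h)
  have hjy : s(j, y) ∈ G.1 := (right_iff_rowS hy).2 hyS
  have hF : rowF i j G'.1 = rowF i j G.1 := rowF_eq hij hk
  refine ⟨hx'.1, hx'.2.1, hy'.1, hy'.2.1, hxy, hx'.2.2.1, hx'.2.2.2, hiy, hjy, ?_⟩
  ext e
  simp only [mem_insert, mem_sdiff, mem_singleton, not_or]
  by_cases he : e ∈ rowSlots i j
  · obtain ⟨c, hci, hcj, rfl | rfl⟩ := mem_rowSlots.1 he
    · have e1 : s(i, c) = s(i, y) ↔ c = y := Sym2.congr_right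
      have e2 : s(i, c) = s(j, x) ↔ False := by
        simp only [Sym2.eq_iff, iff_false, not_or, not_and]
        exact ⟨fun h => absurd h hij, fun h => absurd h.symm hx'.1⟩
      have e3 : s(i, c) = s(i, x) ↔ c = x := Sym2.congr_right
      have e4 : s(i, c) = s(j, y) ↔ False := by
        simp only [Sym2.eq_iff, iff_false, not_or, not_and]
        exact ⟨fun h => absurd h hij, fun h => absurd h.symm hy'.1⟩
      simp only [e1, e2, e3, e4, false_or, not_false_eq_true, and_true]
      by_cases hc : c ∈ rowF i j G.1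
      · have hc' : c ∈ rowF i j G'.1 := hF ▸ hc
        rw [left_iff_rowS hc', left_iff_rowS hc, hS, mem_insert, mem_erase]
        tauto
      · have hcx : c ≠ x := fun h => hc (h ▸ hxF)
        have hcy : c ≠ y := fun h => hc (h ▸ hy)
        simp only [hcx, hcy, false_or, not_false_eq_true, and_true]
        exact ((row_off_F hij hk.symm hci hcj hc).1).symm
    · have e1 : s(j, c) = s(i, y) ↔ False := by
        simp only [Sym2.eq_iff, iff_false, not_or, not_and]
        exact ⟨fun h => absurd h.symm hij, fun h => absurd h.symm hy'.2.1⟩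
      have e2 : s(j, c) = s(j, x) ↔ c = x := Sym2.congr_right
      have e3 : s(j, c) = s(i, x) ↔ False := by
        simp only [Sym2.eq_iff, iff_false, not_or, not_and]
        exact ⟨fun h => absurd h.symm hij, fun h => absurd h.symm hx'.2.1⟩
      have e4 : s(j, c) = s(j, y) ↔ c = y := Sym2.congr_right
      simp only [e1, e2, e3, e4, false_or, not_false_eq_true, true_and]
      by_cases hc : c ∈ rowF i j G.1
      · have hc' : c ∈ rowF i j G'.1 := hF ▸ hc
        rw [right_iff_rowS hc', right_iff_rowS hc, hS, mem_insert, mem_erase]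
        by_cases h1 : c = y
        · subst h1
          simp [Ne.symm hxy]
        · by_cases h2 : c = x
          · subst h2
            simp [h1]
          · simp [h1, h2]
      · have hcx : c ≠ x := fun h => hc (h ▸ hxF)
        have hcy : c ≠ y := fun h => hc (h ▸ hy)
        simp only [hcx, hcy, false_or, not_false_eq_true, and_true]
        exact ((row_off_F hij hk.symm hci hcj hc).2).symm
  · have h1 : e ≠ s(i, y) := fun h => he (h ▸ left_mem_rowSlots hy'.1 hy'.2.1)
    have h2 : e ≠ s(j, x) := fun h => he (h ▸ right_mem_rowSlots hx'.1 hx'.2.1)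
    have h3 : e ≠ s(i, x) := fun h => he (h ▸ left_mem_rowSlots hx'.1 hx'.2.1)
    have h4 : e ≠ s(j, y) := fun h => he (h ▸ right_mem_rowSlots hy'.1 hy'.2.1)
    simp only [h1, h2, h3, h4, false_or, not_false_eq_true, and_true]
    exact ((offKey_eq_iff.1 hk) e he)

/-- The switch energy at `G` for the row pair `i`, `j`. -/
noncomputable def rowEnergy (i j : Fin n) (f : Rz d → ℝ) (G : Rz d) : ℝ :=
  ∑ x, ∑ y, ∑ G', if RowSwitch i j x y G G' then (f G - f G') ^ 2 else 0

lemma rowEnergy_nonneg (i j : Fin n) (f : Rz d → ℝ) (G : Rz d) : 0 ≤ rowEnergy i j f G := by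
  unfold rowEnergy
  refine sum_nonneg fun x _ => sum_nonneg fun y _ => sum_nonneg fun G' _ => ?_
  split_ifs
  · exact sq_nonneg _
  · exact le_rfl

/-- **Poincare inequality on one fibre** of row pair resampling. -/
theorem fiber_energy {i j : Fin n} (hij : i ≠ j) (f : Rz d → ℝ) (G0 : Rz d) :
    ∑ G ∈ fib (offKey (rowSlots i j)) G0, f G ^ 2
        - (∑ G ∈ fib (offKey (rowSlots i j)) G0, f G) ^ 2
          / ((fib (offKey (rowSlots i j)) G0).card : ℝ)
      ≤ (1 / 4 : ℝ) * ∑ G ∈ fib (offKey (rowSlots i j)) G0, rowEnergy i j f G := by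
  set O := fib (offKey (rowSlots i j)) G0 with hO
  set F := rowF i j G0.1 with hF
  set a := (rowS i j G0.1).card with ha
  have hRHS : 0 ≤ (1 / 4 : ℝ) * ∑ G ∈ O, rowEnergy i j f G :=
    mul_nonneg (by norm_num) (sum_nonneg fun G _ => rowEnergy_nonneg i j f G)
  have hkO : ∀ G ∈ O, offKey (rowSlots i j) G = offKey (rowSlots i j) G0 :=
    fun G hG => mem_fib.1 hG
  have hG0 : G0 ∈ O := self_mem_fib _ _
  have hFG : ∀ G ∈ O, rowF i j G.1 = F := fun G hG => rowF_eq hij (hkO G hG)
  have hcardG : ∀ G ∈ O, (rowS i j G.1).card = a := fun G hG => card_rowS_eq hij (hkO G hG)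
  have hSF : ∀ G ∈ O, rowS i j G.1 ⊆ F := by
    intro G hG
    rw [← hFG G hG]
    exact rowS_subset_rowF i j G.1
  by_cases hm : 2 ≤ F.card ∧ 1 ≤ a
  · obtain ⟨hm2, ha1⟩ := hm
    obtain ⟨b, hb⟩ : ∃ b, a = b + 1 := ⟨a - 1, by omega⟩
    -- the function on subsets
    set g : Finset (Fin n) → ℝ := fun S => ∑ G ∈ O, if rowS i j G.1 = S then f G else 0 with hg
    have hgG : ∀ G ∈ O, g (rowS i j G.1) = f G := by
      intro G hG
      simp only [hg]
      rw [sum_eq_single G]
      · simp
      · intro G' hG' hne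
        rw [if_neg]
        intro hS
        exact hne (eq_of_rowS_eq hij ((hkO G' hG').trans (hkO G hG).symm) hS)
      · intro h
        exact absurd hG h
    have hpoin := johnson_poincare F b g
    have hJ : powersetCard (b + 1) F = powersetCard a F := by rw [hb]
    have hsum1 : ∑ A ∈ powersetCard (b + 1) F, g A ^ 2 = ∑ G ∈ O, f G ^ 2 := by
      rw [hJ, ← sum_fib_rowS hij G0 (fun A => g A ^ 2)]
      exact sum_congr rfl fun G hG => by rw [hgG G hG]
    have hsum2 : ∑ A ∈ powersetCard (b + 1) F, g A = ∑ G ∈ O, f G := by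
      rw [hJ, ← sum_fib_rowS hij G0 g]
      exact sum_congr rfl fun G hG => hgG G hG
    have hcard : ((powersetCard (b + 1) F).card : ℝ) = (O.card : ℝ) := by
      rw [hJ, card_fib_rowS hij G0]
    rw [hsum1, hsum2, hcard] at hpoin
    -- the Dirichlet form
    have hform : johnsonForm F b g ≤ (1 / 2 : ℝ) * ∑ G ∈ O, rowEnergy i j f G := by
      unfold johnsonForm
      apply mul_le_mul_of_nonneg_left _ (by norm_num)
      have hdouble := johnson_double F b (fun A x => ∑ y ∈ F \ A.erase x,
        (g A - g (insert y (A.erase x))) ^ 2)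
      have hrw : ∑ B ∈ powersetCard b F, ∑ x ∈ F \ B, ∑ y ∈ F \ B,
          (g (insert x B) - g (insert y B)) ^ 2
          = ∑ B ∈ powersetCard b F, ∑ x ∈ F \ B, ∑ y ∈ F \ (insert x B).erase x,
            (g (insert x B) - g (insert y ((insert x B).erase x))) ^ 2 := by
        refine sum_congr rfl fun B _ => sum_congr rfl fun x hx => ?_
        have hxB : x ∉ B := (mem_sdiff.1 hx).2
        rw [erase_insert hxB]
      rw [hrw, hdouble, hJ, ← sum_fib_rowS hij G0 (fun A => ∑ x ∈ A, ∑ y ∈ F \ A.erase x,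
        (g A - g (insert y (A.erase x))) ^ 2)]
      refine sum_le_sum fun G hG => ?_
      set A := rowS i j G.1 with hA
      have hterm : ∀ x ∈ A, ∀ y ∈ F \ A.erase x, (g A - g (insert y (A.erase x))) ^ 2
          ≤ ∑ G', if RowSwitch i j x y G G' then (f G - f G') ^ 2 else 0 := by
        intro x hx y hy
        have hnn : ∀ G' ∈ (univ : Finset (Rz d)),
            0 ≤ (if RowSwitch i j x y G G' then (f G - f G') ^ 2 else 0) := by
          intro G' _
          split_ifs
          · exact sq_nonneg _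
          · exact le_rfl
        rw [mem_sdiff] at hy
        by_cases hyx : y = x
        · subst hyx
          rw [insert_erase hx, sub_self]
          simp only [ne_eq, OfNat.ofNat_ne_zero, not_false_eq_true, zero_pow]
          exact sum_nonneg hnn
        · have hyA : y ∉ A := fun h => hy.2 (mem_erase.2 ⟨hyx, h⟩)
          have hA'F : insert y (A.erase x) ⊆ F := by
            intro c hc
            rw [mem_insert] at hc
            rcases hc with rfl | hc
            · exact hy.1
            · exact hSF G hG (mem_of_mem_erase hc)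
          have hA'card : (insert y (A.erase x)).card = (rowS i j G0.1).card := by
            rw [card_insert_of_notMem (fun h => hyA (mem_of_mem_erase h)),
              card_erase_of_mem hx, ← ha]
            have h0 : A.card = a := hcardG G hG
            have : 0 < A.card := card_pos.2 ⟨x, hx⟩
            omega
          obtain ⟨G', hk', hS'⟩ := rowGraph_spec hij G0 hA'F hA'card
          have hG'O : G' ∈ O := mem_fib.2 hk'
          have hsw : RowSwitch i j x y G G' := by
            refine rowSwitch_of_rowS hij (hk'.trans (hkO G hG).symm) hx ?_ hyA hS'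
            rw [hFG G hG]
            exact hy.1
          have h1 : g A = f G := hgG G hG
          have h2 : g (insert y (A.erase x)) = f G' := by
            rw [← hS']
            exact hgG G' hG'O
          rw [h1, h2]
          have := single_le_sum hnn (mem_univ G')
          simpa only [if_pos hsw] using this
      have hstep1 : ∑ x ∈ A, ∑ y ∈ F \ A.erase x, (g A - g (insert y (A.erase x))) ^ 2
          ≤ ∑ x ∈ A, ∑ y ∈ F \ A.erase x, ∑ G', if RowSwitch i j x y G G' then (f G - f G') ^ 2 else 0 :=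
        sum_le_sum fun x hx => sum_le_sum fun y hy => hterm x hx y hy
      refine hstep1.trans ?_
      unfold rowEnergy
      have hnn3 : ∀ x y, 0 ≤ ∑ G', if RowSwitch i j x y G G' then (f G - f G') ^ 2 else 0 := by
        intro x y
        refine sum_nonneg fun G' _ => ?_
        split_ifs
        · exact sq_nonneg _
        · exact le_rfl
      calc ∑ x ∈ A, ∑ y ∈ F \ A.erase x, ∑ G', (if RowSwitch i j x y G G' then (f G - f G') ^ 2 else 0)
          ≤ ∑ x ∈ A, ∑ y, ∑ G', (if RowSwitch i j x y G G' then (f G - f G') ^ 2 else 0) :=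
            sum_le_sum fun x _ => sum_le_sum_of_subset_of_nonneg (subset_univ _)
              (fun y _ _ => hnn3 x y)
        _ ≤ ∑ x, ∑ y, ∑ G', (if RowSwitch i j x y G G' then (f G - f G') ^ 2 else 0) :=
            sum_le_sum_of_subset_of_nonneg (subset_univ _)
              (fun x _ _ => sum_nonneg fun y _ => hnn3 x y)
    have hm2R : (2 : ℝ) ≤ (F.card : ℝ) := by exact_mod_cast hm2
    have hnonneg : 0 ≤ ∑ G ∈ O, rowEnergy i j f G := sum_nonneg fun G _ => rowEnergy_nonneg i j f G
    set L := ∑ G ∈ O, f G ^ 2 - (∑ G ∈ O, f G) ^ 2 / (O.card : ℝ) with hL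
    have hLnn : 0 ≤ L := by
      have hO0 : (0 : ℝ) < (O.card : ℝ) := by
        exact_mod_cast card_pos.2 ⟨G0, hG0⟩
      rw [hL, sub_nonneg, div_le_iff₀ hO0]
      have := sq_sum_le_card_mul_sum_sq (s := O) (f := f)
      linarith
    have : 2 * L ≤ (F.card : ℝ) * L := mul_le_mul_of_nonneg_right hm2R hLnn
    nlinarith
  · -- the fibre is a single point
    have hsing : ∀ G ∈ O, G = G0 := by
      intro G hG
      apply eq_of_rowS_eq hij (hkO G hG)
      by_cases ha0 : a = 0
      · have h1 : (rowS i j G.1).card = 0 := by rw [hcardG G hG, ha0]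
        have h2 : (rowS i j G0.1).card = 0 := ha0
        rw [card_eq_zero.1 h1, card_eq_zero.1 h2]
      · have hF1 : F.card ≤ 1 := by
          by_contra h
          exact hm ⟨by omega, by omega⟩
        have h1 : rowS i j G.1 = F := eq_of_subset_of_card_le (hSF G hG) (by
          rw [hcardG G hG]; omega)
        have h2 : rowS i j G0.1 = F := eq_of_subset_of_card_le (hSF G0 hG0) (by
          rw [hcardG G0 hG0]; omega)
        rw [h1, h2]
    have hOs : O = {G0} := by
      ext G
      rw [mem_singleton]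
      exact ⟨hsing G, fun h => h ▸ hG0⟩
    rw [hOs] at hRHS ⊢
    simp only [sum_singleton, card_singleton, Nat.cast_one, div_one, sub_self]
    simpa using hRHS

end Vale.Agent.Lib.P335
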