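import Vale.Agent.Lib.P335.PairMain
import Vale.Agent.Lib.P335.Fiber
import Vale.Agent.Lib.P335.CrossOrbit

/-!
The central part of a row-pair orbit: description through the row sets.
-/

namespace Vale.Agent.Lib.P335

open Finset

variable {n : ℕ} {d : Fin n → ℕ} {i j k l : Fin n}

/-- The centre described through the row sets. -/
lemma center_iff_rowS (h : D4 i j k l) (E : Gr n) :
    IsCenter i j k l E ↔
      (k ∈ rowF i j E ∧ l ∈ rowF i j E) ∧ (k ∈ rowS i j E ↔ l ∉ rowS i j E) := by
  obtain ⟨hij, hik, hil, hjk, hjl, hkl⟩ := h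
  unfold IsCenter
  simp only [mem_rowF, mem_rowS, ne_eq, hik.symm, hil.symm, hjk.symm, hjl.symm, not_false_eq_true,
    true_and]
  by_cases h1 : s(i, k) ∈ E <;> by_cases h2 : s(i, l) ∈ E <;> by_cases h3 : s(j, k) ∈ E <;>
    by_cases h4 : s(j, l) ∈ E <;> simp [h1, h2, h3, h4]

private lemma center_same {a b c e a' b' c' e' : Prop} (h1 : a ↔ e) (h2 : b ↔ c) (h3 : a ↔ ¬ b)
    (h1' : a' ↔ e') (h2' : b' ↔ c') (h3' : a' ↔ ¬ b') (hs : a' ↔ a) :
    (a' ↔ a) ∧ (b' ↔ b) ∧ (c' ↔ c) ∧ (e' ↔ e) := by
  tauto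

private lemma center_diff {a b c e a' b' c' e' : Prop} (h1 : a ↔ e) (h2 : b ↔ c) (h3 : a ↔ ¬ b)
    (h1' : a' ↔ e') (h2' : b' ↔ c') (h3' : a' ↔ ¬ b') (hs : ¬ (a' ↔ a)) :
    (a' ↔ ¬ a) ∧ (b' ↔ ¬ b) ∧ (c' ↔ ¬ c) ∧ (e' ↔ ¬ e) := by
  tauto

/-- The splitting of the central part of a row-pair orbit. -/
lemma orbitSplit (h : D4 i j k l) :
    OrbitSplit (fun G : Rz d => IsCenter i j k l G.1) (togG i j k l)
      (offKey (d := d) (rowSlots i j)) (offKey (d := d) (outerSlots i j k l)) := by
  have S := centerStructure (d := d) h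
  have P := pairStructure (d := d) h
  refine ⟨S.hC, S.hσ, S.hσp, P.hpA, S.hσA, ?_, ?_⟩
  · intro x y hx hk hy
    have hx' : IsCenter i j k l x.1 := hx
    have hy' : IsCenter i j k l y.1 := hy
    obtain ⟨⟨a1, a2⟩, a3⟩ := id hx'
    obtain ⟨⟨b1, b2⟩, b3⟩ := id hy'
    by_cases hs : s(i, k) ∈ y.1 ↔ s(i, k) ∈ x.1
    · left
      obtain ⟨c1, c2, c3, c4⟩ := center_same a1 a2 a3 b1 b2 b3 hs
      rw [offKey_eq_iff]
      intro e he
      by_cases hr : e ∈ rowSlots i j
      · rcases row_eq_outer_or_block (k := k) (l := l) hr with h5 | h5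
        · exact absurd h5 he
        · rw [mem_blockSlots] at h5
          rcases h5 with rfl | rfl | rfl | rfl
          · exact c1
          · exact c2
          · exact c3
          · exact c4
      · exact (offKey_eq_iff.1 hk) e hr
    · right
      obtain ⟨c1, c2, c3, c4⟩ := center_diff a1 a2 a3 b1 b2 b3 hs
      rw [offKey_eq_iff]
      intro e he
      rw [togG_val h hx']
      by_cases hr : e ∈ rowSlots i j
      · rcases row_eq_outer_or_block (k := k) (l := l) hr with h5 | h5
        · exact absurd h5 he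
        · rw [mem_blockSlots] at h5
          rcases h5 with rfl | rfl | rfl | rfl
          · rw [mem_toggle_ik h]; exact c1
          · rw [mem_toggle_il h]; exact c2
          · rw [mem_toggle_jk h]; exact c3
          · rw [mem_toggle_jl h]; exact c4
      · have h7 : e ∉ blockSlots i j k l := fun h6 => hr (block_sub_row h h6)
        rw [(offKey_eq_iff.1 hk) e hr, toggle_of_not_block h7]
  · intro x hx heq
    have hx' : IsCenter i j k l x.1 := hx
    have hb : s(i, k) ∈ blockSlots i j k l := by simp [blockSlots]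
    have := (offKey_eq_iff.1 heq) _ (block_not_outer h hb)
    rw [togG_val h hx', mem_toggle_ik h] at this
    tauto

/-- The switch acts on the row set by an exchange. -/
lemma rowS_togG (h : D4 i j k l) {G : Rz d} (hc : IsCenter i j k l G.1)
    (hk : k ∈ rowS i j G.1) (hl : l ∉ rowS i j G.1) :
    rowS i j (togG i j k l G).1 = insert l ((rowS i j G.1).erase k) := by
  have h0 := h
  obtain ⟨hij, hik, hil, hjk, hjl, hkl⟩ := h
  rw [togG_val h0 hc]
  have hcF := (center_iff_rowS h0 G.1).1 hc
  ext c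
  rw [mem_rowS, mem_insert, mem_erase, mem_rowS]
  by_cases hck : c = k
  · subst hck
    rw [mem_toggle_ik h0]
    have := (mem_rowS.1 hk).2.2.1
    simp only [hkl, false_or, ne_eq, not_true_eq_false, false_and, iff_false, not_and]
    intro _ _ h3
    exact absurd this h3
  by_cases hcl : c = l
  · subst hcl
    rw [mem_toggle_il h0, mem_toggle_jl h0]
    have hl1 : s(i, c) ∉ G.1 := fun h3 => hl ((left_iff_rowS hcF.1.2).1 h3)
    have hl2 : s(j, c) ∈ G.1 := (right_iff_rowS hcF.1.2).2 hl
    simp only [true_or, iff_true, hil.symm, hjl.symm, ne_eq, not_false_eq_true, true_and]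
    exact ⟨hl1, fun h3 => h3 hl2⟩
  · by_cases hci : c = i
    · simp [hci, hil]
    by_cases hcj : c = j
    · simp [hcj, hjl]
    have n1 : s(i, c) ∉ blockSlots i j k l := by
      rw [mem_block_iff]
      tauto
    have n2 : s(j, c) ∉ blockSlots i j k l := by
      rw [mem_block_iff]
      tauto
    rw [toggle_of_not_block n1, toggle_of_not_block n2]
    simp [hcl, hck]

/-- The switch does not depend on the order of the column pair on the centre. -/
lemma togG_comm_cols (h : D4 i j k l) {G : Rz d} (hc : IsCenter i j k l G.1)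
    (hc' : IsCenter i j l k G.1) (h' : D4 i j l k) : togG i j k l G = togG i j l k G := by
  apply Subtype.ext
  rw [togG_val h hc, togG_val h' hc']
  ext e
  rw [mem_toggleBlock, mem_toggleBlock, mem_blockSlots, mem_blockSlots]
  tauto

end Vale.Agent.Lib.P335
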