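import Mathlib

/-!
# P335: a cross inequality on the Johnson scheme

`J = powersetCard a F`, `|F| = m`, `1 ≤ a ≤ m - 1`.  For `f : Finset α → ℝ`,
the pair statistics `Ψ_{kl} = ∑_{S ∈ J} f S * (1[exactly one of k,l in S] - 2M/N)` with
`M = C(m-2,a-1)`, `N = C(m,a)` satisfy
`∑_{k ≠ l} Ψ_{kl}^2 ≤ M * En(f,f)` where `En` is the ordered Dirichlet form of the Johnson graph.
-/

namespace Vale.Agent.Lib.P335.JohnsonCross

open Finset

variable {α : Type*} [DecidableEq α]

/-- The exchange move `S ↦ S - k + l`. -/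
def swp (S : Finset α) (k l : α) : Finset α := insert l (S.erase k)

/-- The ordered bilinear Dirichlet form of the Johnson graph. -/
noncomputable def En (F : Finset α) (a : ℕ) (g h : Finset α → ℝ) : ℝ :=
  ∑ S ∈ powersetCard a F, ∑ k ∈ S, ∑ l ∈ F \ S, (g S - g (swp S k l)) * (h S - h (swp S k l))

/-- The Johnson Laplacian. -/
noncomputable def Lap (F : Finset α) (h : Finset α → ℝ) (S : Finset α) : ℝ :=
  ∑ k ∈ S, ∑ l ∈ F \ S, (h S - h (swp S k l))

lemma swp_mem {F S : Finset α} {a : ℕ} (hS : S ∈ powersetCard a F) {k l : α} (hk : k ∈ S)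
    (hl : l ∈ F \ S) : swp S k l ∈ powersetCard a F := by
  rw [mem_powersetCard] at hS ⊢
  rw [mem_sdiff] at hl
  constructor
  · intro x hx
    rw [swp, mem_insert, mem_erase] at hx
    rcases hx with rfl | ⟨_, hx⟩
    · exact hl.1
    · exact hS.1 hx
  · rw [swp, card_insert_of_notMem (fun h => hl.2 (mem_of_mem_erase h)), card_erase_of_mem hk, hS.2]
    have : 0 < S.card := card_pos.mpr ⟨k, hk⟩
    omega

lemma swp_swp {S : Finset α} {k l : α} (hk : k ∈ S) (hl : l ∉ S) :
    swp (swp S k l) l k = S := by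
  have hkl : k ≠ l := fun h => hl (h ▸ hk)
  unfold swp
  rw [erase_insert (fun h => hl (mem_of_mem_erase h)), insert_erase hk]

lemma mem_swp_left {S : Finset α} {k l : α} : l ∈ swp S k l := by
  simp [swp]

lemma notMem_swp_right {S : Finset α} {k l : α} (hkl : k ≠ l) : k ∉ swp S k l := by
  simp [swp, hkl]

/-- The exchange involution on the triples `(S, k, l)`. -/
lemma sum_swap_triple (F : Finset α) (a : ℕ) (Φ : Finset α → α → α → ℝ) :
    ∑ S ∈ powersetCard a F, ∑ k ∈ S, ∑ l ∈ F \ S, Φ S k l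
      = ∑ S ∈ powersetCard a F, ∑ k ∈ S, ∑ l ∈ F \ S, Φ (swp S k l) l k := by
  simp only [← sum_product']
  rw [Finset.sum_sigma' (powersetCard a F) (fun S => S ×ˢ (F \ S))
      (fun S p => Φ S p.1 p.2),
    Finset.sum_sigma' (powersetCard a F) (fun S => S ×ˢ (F \ S))
      (fun S p => Φ (swp S p.1 p.2) p.2 p.1)]
  refine Finset.sum_nbij' (fun t => ⟨swp t.1 t.2.1 t.2.2, (t.2.2, t.2.1)⟩)
    (fun t => ⟨swp t.1 t.2.1 t.2.2, (t.2.2, t.2.1)⟩) ?_ ?_ ?_ ?_ ?_
  · rintro ⟨S, k, l⟩ h
    simp only [mem_sigma, mem_product] at h ⊢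
    obtain ⟨hS, hk, hl⟩ := h
    refine ⟨swp_mem hS hk hl, mem_swp_left, ?_⟩
    have hS' := (mem_powersetCard.mp hS).1
    have hkl : k ≠ l := fun h => (mem_sdiff.mp hl).2 (h ▸ hk)
    exact mem_sdiff.mpr ⟨hS' hk, notMem_swp_right hkl⟩
  · rintro ⟨S, k, l⟩ h
    simp only [mem_sigma, mem_product] at h ⊢
    obtain ⟨hS, hk, hl⟩ := h
    refine ⟨swp_mem hS hk hl, mem_swp_left, ?_⟩
    have hS' := (mem_powersetCard.mp hS).1
    have hkl : k ≠ l := fun h => (mem_sdiff.mp hl).2 (h ▸ hk)
    exact mem_sdiff.mpr ⟨hS' hk, notMem_swp_right hkl⟩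
  · rintro ⟨S, k, l⟩ h
    simp only [mem_sigma, mem_product] at h
    obtain ⟨hS, hk, hl⟩ := h
    simp only [swp_swp hk (mem_sdiff.mp hl).2]
  · rintro ⟨S, k, l⟩ h
    simp only [mem_sigma, mem_product] at h
    obtain ⟨hS, hk, hl⟩ := h
    simp only [swp_swp hk (mem_sdiff.mp hl).2]
  · rintro ⟨S, k, l⟩ h
    simp only [mem_sigma, mem_product] at h
    obtain ⟨hS, hk, hl⟩ := h
    simp only [swp_swp hk (mem_sdiff.mp hl).2]

/-- Green's formula. -/
lemma En_eq (F : Finset α) (a : ℕ) (g h : Finset α → ℝ) :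
    En F a g h = 2 * ∑ S ∈ powersetCard a F, g S * Lap F h S := by
  have h1 := sum_swap_triple F a (fun S k l => g S * (h S - h (swp S k l)))
  have h2 : ∑ S ∈ powersetCard a F, ∑ k ∈ S, ∑ l ∈ F \ S,
        g (swp S k l) * (h (swp (swp S k l) l k) - h (swp S k l))
      = ∑ S ∈ powersetCard a F, ∑ k ∈ S, ∑ l ∈ F \ S,
        g (swp S k l) * (h S - h (swp S k l)) := by
    refine sum_congr rfl fun S _ => sum_congr rfl fun k hk => sum_congr rfl fun l hl => ?_
    rw [swp_swp hk (mem_sdiff.mp hl).2]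
  have h3 : ∑ S ∈ powersetCard a F, ∑ k ∈ S, ∑ l ∈ F \ S,
        g (swp S k l) * (h S - h (swp S k l))
      = - ∑ S ∈ powersetCard a F, ∑ k ∈ S, ∑ l ∈ F \ S,
        g S * (h S - h (swp S k l)) := by
    rw [h1]
    simp only [← sum_neg_distrib]
    refine sum_congr rfl fun S _ => sum_congr rfl fun k hk => sum_congr rfl fun l hl => ?_
    rw [swp_swp hk (mem_sdiff.mp hl).2]
    ring
  have h4 : En F a g h = ∑ S ∈ powersetCard a F, ∑ k ∈ S, ∑ l ∈ F \ S,
        g S * (h S - h (swp S k l))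
      - ∑ S ∈ powersetCard a F, ∑ k ∈ S, ∑ l ∈ F \ S,
        g (swp S k l) * (h S - h (swp S k l)) := by
    unfold En
    simp only [← sum_sub_distrib]
    refine sum_congr rfl fun S _ => sum_congr rfl fun k _ => sum_congr rfl fun l _ => ?_
    ring
  rw [h4, h3, sub_neg_eq_add, ← two_mul]
  congr 1
  refine sum_congr rfl fun S _ => ?_
  unfold Lap
  simp only [mul_sum]

lemma En_nonneg (F : Finset α) (a : ℕ) (g : Finset α → ℝ) : 0 ≤ En F a g g := by
  unfold En
  exact sum_nonneg fun S _ => sum_nonneg fun k _ => sum_nonneg fun l _ => mul_self_nonneg _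

lemma En_sub_self (F : Finset α) (a : ℕ) (g h : Finset α → ℝ) :
    En F a (fun S => g S - h S) (fun S => g S - h S)
      = En F a g g - 2 * En F a g h + En F a h h := by
  unfold En
  simp only [mul_sum, ← sum_sub_distrib, ← sum_add_distrib]
  refine sum_congr rfl fun S _ => sum_congr rfl fun k _ => sum_congr rfl fun l _ => ?_
  ring

lemma sum_swp (u : α → ℝ) {S : Finset α} {k l : α} (hk : k ∈ S) (hl : l ∉ S) :
    ∑ i ∈ swp S k l, u i = ∑ i ∈ S, u i - u k + u l := by
  unfold swp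
  rw [sum_insert (fun h => hl (mem_of_mem_erase h)), sum_erase_eq_sub hk]
  ring

/-- The level one test function. -/
def vf (u : α → ℝ) (S : Finset α) : ℝ := ∑ i ∈ S, u i

/-- The level two test function. -/
noncomputable def wf (d : α → α → ℝ) (S : Finset α) : ℝ := (1 / 2) * ∑ i ∈ S, ∑ j ∈ S, d i j

lemma Lap_vf (F : Finset α) (a : ℕ) (u : α → ℝ) (hu : ∑ i ∈ F, u i = 0)
    {S : Finset α} (hS : S ∈ powersetCard a F) :
    Lap F (vf u) S = (F.card : ℝ) * vf u S := by
  obtain ⟨hSF, hcard⟩ := mem_powersetCard.mp hS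
  have h1 : ∀ k ∈ S, ∀ l ∈ F \ S, vf u S - vf u (swp S k l) = u k - u l := by
    intro k hk l hl
    unfold vf
    rw [sum_swp u hk (mem_sdiff.mp hl).2]
    ring
  have h2 : ∑ l ∈ F \ S, u l = - vf u S := by
    have := sum_sdiff (f := u) hSF
    unfold vf
    linarith
  have hc : ((F \ S).card : ℝ) = F.card - a := by
    rw [card_sdiff_of_subset hSF, hcard, Nat.cast_sub (by rw [← hcard]; exact card_le_card hSF)]
  unfold Lap
  rw [sum_congr rfl fun k hk => sum_congr rfl fun l hl => h1 k hk l hl]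
  simp only [sum_sub_distrib, sum_const, nsmul_eq_mul]
  rw [h2, hcard, hc, ← mul_sum]
  unfold vf
  ring

lemma wf_swp (d : α → α → ℝ) (hsymm : ∀ i j, d i j = d j i) (hdiag : ∀ i, d i i = 0)
    {S : Finset α} {k l : α} (hk : k ∈ S) (hl : l ∉ S) :
    wf d (swp S k l) = wf d S - ∑ o ∈ S, d k o + ∑ o ∈ S, d l o - d k l := by
  unfold wf
  have h1 : ∀ i, ∑ j ∈ swp S k l, d i j = ∑ j ∈ S, d i j - d i k + d i l :=
    fun i => sum_swp (d i) hk hl
  simp only [h1]
  rw [sum_swp (fun i => ∑ j ∈ S, d i j - d i k + d i l) hk hl]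
  simp only [sum_add_distrib, sum_sub_distrib]
  have h2 : ∑ i ∈ S, d i k = ∑ o ∈ S, d k o := sum_congr rfl fun i _ => hsymm i k
  have h3 : ∑ i ∈ S, d i l = ∑ o ∈ S, d l o := sum_congr rfl fun i _ => hsymm i l
  rw [h2, h3, hdiag k, hdiag l, hsymm l k]
  ring

lemma Lap_wf (F : Finset α) (a : ℕ) (d : α → α → ℝ) (hsymm : ∀ i j, d i j = d j i)
    (hdiag : ∀ i, d i i = 0) (hharm : ∀ i ∈ F, ∑ j ∈ F, d i j = 0)
    {S : Finset α} (hS : S ∈ powersetCard a F) :
    Lap F (wf d) S = 2 * ((F.card : ℝ) - 1) * wf d S := by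
  obtain ⟨hSF, hcard⟩ := mem_powersetCard.mp hS
  have hc : ((F \ S).card : ℝ) = F.card - a := by
    rw [card_sdiff_of_subset hSF, hcard, Nat.cast_sub (by rw [← hcard]; exact card_le_card hSF)]
  have h1 : ∀ k ∈ S, ∀ l ∈ F \ S, wf d S - wf d (swp S k l)
      = ∑ o ∈ S, d k o - ∑ o ∈ S, d l o + d k l := by
    intro k hk l hl
    rw [wf_swp d hsymm hdiag hk (mem_sdiff.mp hl).2]
    ring
  have hw : ∑ i ∈ S, ∑ j ∈ S, d i j = 2 * wf d S := by
    unfold wf; ring
  have hcut : ∑ k ∈ S, ∑ l ∈ F \ S, d k l = - (2 * wf d S) := by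
    rw [← hw, ← sum_neg_distrib]
    refine sum_congr rfl fun k hk => ?_
    have := sum_sdiff (f := d k) hSF
    rw [hharm k (hSF hk)] at this
    linarith
  have hcut' : ∑ l ∈ F \ S, ∑ o ∈ S, d l o = - (2 * wf d S) := by
    rw [← hcut, sum_comm]
    exact sum_congr rfl fun k _ => sum_congr rfl fun l _ => hsymm l k
  unfold Lap
  rw [sum_congr rfl fun k hk => sum_congr rfl fun l hl => h1 k hk l hl]
  simp only [sum_add_distrib, sum_sub_distrib, sum_const, nsmul_eq_mul]
  rw [hcut, hcut', ← mul_sum, hw, hcard, hc]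
  ring

/-- Indicator of membership. -/
noncomputable def X (k : α) (S : Finset α) : ℝ := if k ∈ S then 1 else 0

lemma X_mul_self (k : α) (S : Finset α) : X k S * X k S = X k S := by
  unfold X; split_ifs <;> simp

/-- Number of `a`-subsets of an `m`-set containing a given `u`-subset. -/
def cnt (m a u : ℕ) : ℕ := if u ≤ a then (m - u).choose (a - u) else 0

lemma card_superset {F U : Finset α} (hU : U ⊆ F) (a : ℕ) :
    ((powersetCard a F).filter (fun S => U ⊆ S)).card = cnt F.card a U.card := by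
  unfold cnt
  split_ifs with h
  · rw [← card_sdiff_of_subset hU, ← card_powersetCard]
    refine card_bij' (fun S _ => S \ U) (fun T _ => T ∪ U) ?_ ?_ ?_ ?_
    · intro S hS
      obtain ⟨hS1, hS2⟩ := mem_filter.mp hS
      obtain ⟨hS3, hS4⟩ := mem_powersetCard.mp hS1
      refine mem_powersetCard.mpr ⟨sdiff_subset_sdiff hS3 (Subset.refl _), ?_⟩
      rw [card_sdiff_of_subset hS2, hS4]
    · intro T hT
      obtain ⟨hT1, hT2⟩ := mem_powersetCard.mp hT
      have hdisj : Disjoint T U := disjoint_of_subset_left hT1 sdiff_disjoint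
      refine mem_filter.mpr ⟨mem_powersetCard.mpr ⟨union_subset (hT1.trans sdiff_subset) hU, ?_⟩,
        subset_union_right⟩
      rw [card_union_of_disjoint hdisj, hT2]
      omega
    · intro S hS
      exact sdiff_union_of_subset (mem_filter.mp hS).2
    · intro T hT
      obtain ⟨hT1, _⟩ := mem_powersetCard.mp hT
      have hdisj : Disjoint T U := disjoint_of_subset_left hT1 sdiff_disjoint
      exact union_sdiff_cancel_right hdisj
  · rw [card_eq_zero, filter_eq_empty_iff]
    intro S hS hUS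
    have := card_le_card hUS
    rw [(mem_powersetCard.mp hS).2] at this
    exact h this

lemma sum_ind_superset {F U : Finset α} (hU : U ⊆ F) (a : ℕ) :
    ∑ S ∈ powersetCard a F, (if U ⊆ S then (1 : ℝ) else 0) = cnt F.card a U.card := by
  rw [← card_superset hU a, sum_boole]

/-- Pascal-type relation. -/
lemma cnt_one_sub_two {m a : ℕ} (ha : 1 ≤ a) (hm : 2 ≤ m) :
    (cnt m a 1 : ℝ) - cnt m a 2 = (m - 2).choose (a - 1) := by
  obtain ⟨m, rfl⟩ : ∃ m', m = m' + 2 := ⟨m - 2, by omega⟩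
  obtain ⟨b, rfl⟩ : ∃ b, a = b + 1 := ⟨a - 1, by omega⟩
  cases b with
  | zero => simp [cnt]
  | succ b =>
    have h1 : m + 2 - 1 = m + 1 := by omega
    have h2 : b + 1 + 1 - 1 = b + 1 := by omega
    have h3 : b + 1 + 1 - 2 = b := by omega
    have h4 : m + 2 - 2 = m := by omega
    simp only [cnt, h1, h2, h3, h4]
    have h5 : 1 ≤ b + 1 + 1 := by omega
    have h6 : 2 ≤ b + 1 + 1 := by omega
    rw [if_pos h5, if_pos h6, Nat.choose_succ_succ]
    push_cast
    ring

/-- `K ≤ M`. -/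
lemma cnt_second_diff_le {m a : ℕ} (ha : 1 ≤ a) (ham : a + 1 ≤ m) (hm : 3 ≤ m) :
    (cnt m a 2 : ℝ) - 2 * cnt m a 3 + cnt m a 4 ≤ (m - 2).choose (a - 1) := by
  obtain ⟨b, rfl⟩ : ∃ b, a = b + 1 := ⟨a - 1, by omega⟩
  cases b with
  | zero => simp [cnt]
  | succ b =>
    cases b with
    | zero =>
      obtain ⟨p, rfl⟩ : ∃ p, m = p + 3 := ⟨m - 3, by omega⟩
      simp [cnt]
    | succ b =>
      cases b with
      | zero =>
        obtain ⟨p, rfl⟩ : ∃ p, m = p + 4 := ⟨m - 4, by omega⟩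
        have h1 : p + 4 - 2 = p + 2 := by omega
        have h2 : p + 4 - 3 = p + 1 := by omega
        have h3 : (3 : ℕ) - 1 = 2 := by omega
        simp only [cnt, h1, h2]
        norm_num
        have h4 : (p + 2).choose 2 = (p + 1).choose 1 + (p + 1).choose 2 := Nat.choose_succ_succ _ _
        rw [h4]
        push_cast
        simp
        have : (0 : ℝ) ≤ ((p + 1).choose 2 : ℝ) := Nat.cast_nonneg _
        linarith
      | succ b =>
        obtain ⟨p, rfl⟩ : ∃ p, m = p + 4 := ⟨m - 4, by omega⟩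
        have h1 : p + 4 - 2 = p + 2 := by omega
        have h2 : p + 4 - 3 = p + 1 := by omega
        have h3 : p + 4 - 4 = p := by omega
        have e2 : b + 1 + 1 + 1 + 1 - 2 = b + 2 := by omega
        have e3 : b + 1 + 1 + 1 + 1 - 3 = b + 1 := by omega
        have e4 : b + 1 + 1 + 1 + 1 - 4 = b := by omega
        have e1 : b + 1 + 1 + 1 + 1 - 1 = b + 3 := by omega
        have l2 : 2 ≤ b + 1 + 1 + 1 + 1 := by omega
        have l3 : 3 ≤ b + 1 + 1 + 1 + 1 := by omega
        have l4 : 4 ≤ b + 1 + 1 + 1 + 1 := by omega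
        simp only [cnt, h1, h2, h3, e1, e2, e3, e4, if_pos l2, if_pos l3, if_pos l4]
        have p1 : (p + 2).choose (b + 2) = (p + 1).choose (b + 1) + (p + 1).choose (b + 2) :=
          Nat.choose_succ_succ _ _
        have p2 : (p + 1).choose (b + 1) = p.choose b + p.choose (b + 1) :=
          Nat.choose_succ_succ _ _
        have p3 : (p + 1).choose (b + 2) = p.choose (b + 1) + p.choose (b + 2) :=
          Nat.choose_succ_succ _ _
        have p4 : (p + 2).choose (b + 3) = (p + 1).choose (b + 2) + (p + 1).choose (b + 3) :=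
          Nat.choose_succ_succ _ _
        rw [p1, p4, p3, p2]
        push_cast
        have h5 : (0 : ℝ) ≤ ((p + 1).choose (b + 3) : ℝ) := Nat.cast_nonneg _
        have h6 : (0 : ℝ) ≤ (p.choose (b + 1) : ℝ) := Nat.cast_nonneg _
        linarith

lemma sum_mem_eq {F S : Finset α} (hS : S ⊆ F) (g : α → ℝ) :
    ∑ i ∈ S, g i = ∑ i ∈ F, g i * X i S := by
  have : ∀ i, g i * X i S = if i ∈ S then g i else 0 := by
    intro i; unfold X; split_ifs <;> simp
  simp only [this]
  rw [sum_ite_mem, inter_eq_right.mpr hS]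

/-- Second moments. -/
lemma mom2 {F : Finset α} (a : ℕ) {j k : α} (hj : j ∈ F) (hk : k ∈ F) :
    ∑ S ∈ powersetCard a F, X j S * X k S
      = (cnt F.card a 2 : ℝ) + ((cnt F.card a 1 : ℝ) - cnt F.card a 2) * (if j = k then 1 else 0) := by
  by_cases h : j = k
  · subst h
    have e : ∀ S, X j S * X j S = if ({j} : Finset α) ⊆ S then (1 : ℝ) else 0 := by
      intro S; rw [X_mul_self]; simp [X]
    simp only [e]
    rw [sum_ind_superset (singleton_subset_iff.mpr hj), card_singleton]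
    simp
  · have e : ∀ S, X j S * X k S = if ({j, k} : Finset α) ⊆ S then (1 : ℝ) else 0 := by
      intro S
      unfold X
      simp only [insert_subset_iff, singleton_subset_iff]
      split_ifs <;> simp_all
    simp only [e]
    rw [sum_ind_superset (by simp [insert_subset_iff, hj, hk]), card_pair h]
    simp [h]

/-- First moments. -/
lemma mom1 {F : Finset α} (a : ℕ) {j : α} (hj : j ∈ F) :
    ∑ S ∈ powersetCard a F, X j S = (cnt F.card a 1 : ℝ) := by
  have e : ∀ S, X j S = if ({j} : Finset α) ⊆ S then (1 : ℝ) else 0 := by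
    intro S; simp [X]
  simp only [e]
  rw [sum_ind_superset (singleton_subset_iff.mpr hj), card_singleton]

/-- Third moments. -/
lemma mom3 {F : Finset α} (a : ℕ) {j k l : α} (hj : j ∈ F) (hk : k ∈ F) (hl : l ∈ F) (hkl : k ≠ l) :
    ∑ S ∈ powersetCard a F, X j S * (X k S * X l S)
      = (cnt F.card a 3 : ℝ) + ((cnt F.card a 2 : ℝ) - cnt F.card a 3) *
          ((if j = k then 1 else 0) + (if j = l then 1 else 0)) := by
  by_cases h1 : j = k
  · subst h1
    have hne : j ≠ l := hkl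
    have e : ∀ S, X j S * (X j S * X l S) = X j S * X l S := by
      intro S; rw [← mul_assoc, X_mul_self]
    simp only [e]
    rw [mom2 a hj hl]
    simp [hne]
  · by_cases h2 : j = l
    · subst h2
      have e : ∀ S, X j S * (X k S * X j S) = X k S * X j S := by
        intro S
        rw [mul_comm (X k S), ← mul_assoc, X_mul_self, mul_comm]
      simp only [e]
      rw [mom2 a hk hj]
      simp [hkl, h1]
    · have e : ∀ S, X j S * (X k S * X l S) = if ({j, k, l} : Finset α) ⊆ S then (1 : ℝ) else 0 := by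
        intro S
        unfold X
        simp only [insert_subset_iff, singleton_subset_iff]
        split_ifs <;> simp_all
      simp only [e]
      rw [sum_ind_superset (by simp [insert_subset_iff, hj, hk, hl]),
        card_eq_three.mpr ⟨j, k, l, h1, h2, hkl, rfl⟩]
      simp [h1, h2]

/-- Fourth moments. -/
lemma mom4 {F : Finset α} (a : ℕ) {k l k' l' : α} (hk : k ∈ F) (hl : l ∈ F) (hk' : k' ∈ F)
    (hl' : l' ∈ F) (hkl : k ≠ l) (hkl' : k' ≠ l') :
    ∑ S ∈ powersetCard a F, (X k S * X l S) * (X k' S * X l' S)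
      = (cnt F.card a 4 : ℝ) + ((cnt F.card a 3 : ℝ) - cnt F.card a 4) *
          ((if k' = k then 1 else 0) + (if k' = l then 1 else 0)
            + (if l' = k then 1 else 0) + (if l' = l then 1 else 0))
        + ((cnt F.card a 2 : ℝ) - 2 * cnt F.card a 3 + cnt F.card a 4) *
          (((if k' = k then 1 else 0) + (if k' = l then 1 else 0))
            * ((if l' = k then 1 else 0) + (if l' = l then 1 else 0))) := by
  have e : ∀ S, (X k S * X l S) * (X k' S * X l' S)
      = if ({k, l, k', l'} : Finset α) ⊆ S then (1 : ℝ) else 0 := by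
    intro S
    unfold X
    simp only [insert_subset_iff, singleton_subset_iff]
    split_ifs <;> simp_all
  simp only [e]
  rw [sum_ind_superset (by simp [insert_subset_iff, hk, hl, hk', hl'])]
  by_cases h1 : k' = k
  · subst h1
    by_cases h2 : l' = l
    · subst h2
      have hU : ({k', l', k', l'} : Finset α) = {k', l'} := by
        ext x; simp only [mem_insert, mem_singleton]; tauto
      rw [hU, card_pair hkl]
      simp [hkl, hkl.symm]
      ring
    · have hU : ({k', l, k', l'} : Finset α) = {k', l, l'} := by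
        ext x; simp only [mem_insert, mem_singleton]; tauto
      rw [hU, card_eq_three.mpr ⟨k', l, l', hkl, hkl', fun h => h2 h.symm, rfl⟩]
      simp [hkl, hkl.symm, h2, hkl', hkl'.symm]
  · by_cases h2 : k' = l
    · subst h2
      by_cases h3 : l' = k
      · subst h3
        have hU : ({l', k', k', l'} : Finset α) = {l', k'} := by
          ext x; simp only [mem_insert, mem_singleton]; tauto
        rw [hU, card_pair hkl]
        simp [hkl, hkl.symm]
        ring
      · have hU : ({k, k', k', l'} : Finset α) = {k, k', l'} := by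
          ext x; simp only [mem_insert, mem_singleton]; tauto
        rw [hU, card_eq_three.mpr ⟨k, k', l', hkl, fun h => h3 h.symm, hkl', rfl⟩]
        simp [hkl, hkl.symm, h3, hkl', hkl'.symm]
    · by_cases h3 : l' = k
      · subst h3
        have hU : ({l', l, k', l'} : Finset α) = {l', l, k'} := by
          ext x; simp only [mem_insert, mem_singleton]; tauto
        rw [hU, card_eq_three.mpr ⟨l', l, k', hkl, fun h => h1 h.symm, fun h => h2 h.symm, rfl⟩]
        simp [hkl, hkl.symm, h1, h2]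
      · by_cases h4 : l' = l
        · subst h4
          have hU : ({k, l', k', l'} : Finset α) = {k, l', k'} := by
            ext x; simp only [mem_insert, mem_singleton]; tauto
          rw [hU, card_eq_three.mpr ⟨k, l', k', hkl, fun h => h1 h.symm, fun h => h2 h.symm, rfl⟩]
          simp [hkl, hkl.symm, h1, h2]
        · have hU : ({k, l, k', l'} : Finset α).card = 4 := by
            rw [card_insert_of_notMem, card_insert_of_notMem, card_pair hkl']
            · simp [Ne.symm h2, Ne.symm h4]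
            · simp [hkl, Ne.symm h1, Ne.symm h3]
          rw [hU]
          simp [h1, h2, h3, h4]

section Main

variable (F : Finset α) (a : ℕ) (f : Finset α → ℝ)

/-- Level one coefficients. -/
noncomputable def uu (k : α) : ℝ := ∑ S ∈ powersetCard a F, f S * X k S

/-- Pair moments. -/
noncomputable def bb (k l : α) : ℝ := ∑ S ∈ powersetCard a F, f S * (X k S * X l S)

/-- Level two coefficients. -/
noncomputable def dd (k l : α) : ℝ :=
  if k = l then 0 else
    bb F a f k l - ((a : ℝ) - 1) / ((F.card : ℝ) - 2) * (uu F a f k + uu F a f l)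

lemma sum_X {S : Finset α} (hS : S ∈ powersetCard a F) : ∑ k ∈ F, X k S = a := by
  obtain ⟨h1, h2⟩ := mem_powersetCard.mp hS
  have := sum_mem_eq h1 (fun _ => (1 : ℝ))
  simp only [one_mul, sum_const, nsmul_eq_mul, mul_one] at this
  rw [← this, h2]

lemma uu_sum : ∑ k ∈ F, uu F a f k = a * ∑ S ∈ powersetCard a F, f S := by
  unfold uu
  rw [sum_comm, mul_sum]
  refine sum_congr rfl fun S hS => ?_
  rw [← mul_sum, sum_X F a hS, mul_comm]

lemma bb_sum (k : α) : ∑ l ∈ F, bb F a f k l = a * uu F a f k := by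
  unfold bb uu
  rw [sum_comm, mul_sum]
  refine sum_congr rfl fun S hS => ?_
  simp only [← mul_sum]
  rw [sum_X F a hS]
  ring

lemma bb_self (k : α) : bb F a f k k = uu F a f k := by
  unfold bb uu
  simp only [X_mul_self]

lemma bb_comm (k l : α) : bb F a f k l = bb F a f l k := by
  unfold bb
  simp only [mul_comm (X k _)]

lemma dd_symm (k l : α) : dd F a f k l = dd F a f l k := by
  unfold dd
  by_cases h : k = l
  · subst h; rfl
  · rw [if_neg h, if_neg (Ne.symm h), bb_comm, add_comm (uu F a f k)]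

lemma dd_diag (k : α) : dd F a f k k = 0 := by
  simp [dd]

lemma dd_harm (hf : ∑ S ∈ powersetCard a F, f S = 0) (hm : 3 ≤ F.card) {k : α} (hk : k ∈ F) :
    ∑ l ∈ F, dd F a f k l = 0 := by
  have hu : ∑ l ∈ F, uu F a f l = 0 := by rw [uu_sum, hf, mul_zero]
  have hne : (F.card : ℝ) - 2 ≠ 0 := by
    have : (3 : ℝ) ≤ F.card := by exact_mod_cast hm
    linarith
  have e : ∀ l, dd F a f k l = (bb F a f k l - ((a : ℝ) - 1) / ((F.card : ℝ) - 2) *
      (uu F a f k + uu F a f l)) - (if l = k then (bb F a f k l - ((a : ℝ) - 1) / ((F.card : ℝ) - 2) *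
      (uu F a f k + uu F a f l)) else 0) := by
    intro l
    unfold dd
    by_cases h : k = l
    · subst h; simp
    · rw [if_neg h, if_neg (Ne.symm h)]; ring
  simp only [e, sum_sub_distrib, sum_ite_eq', if_pos hk, bb_sum, bb_self, sum_add_distrib,
    ← mul_sum, sum_const, nsmul_eq_mul, hu]
  field_simp
  ring

lemma inner_f_v (u : α → ℝ) :
    ∑ S ∈ powersetCard a F, f S * vf u S = ∑ k ∈ F, u k * uu F a f k := by
  unfold uu
  simp only [mul_sum]
  rw [sum_comm]
  refine sum_congr rfl fun S hS => ?_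
  unfold vf
  rw [sum_mem_eq (mem_powersetCard.mp hS).1 u, mul_sum]
  refine sum_congr rfl fun k _ => ?_
  ring

lemma wf_eq (d : α → α → ℝ) {S : Finset α} (hS : S ⊆ F) :
    wf d S = (1 / 2) * ∑ i ∈ F, ∑ j ∈ F, d i j * (X i S * X j S) := by
  unfold wf
  congr 1
  rw [sum_mem_eq hS (fun i => ∑ j ∈ S, d i j)]
  refine sum_congr rfl fun i _ => ?_
  rw [sum_mem_eq hS (d i), sum_mul]
  refine sum_congr rfl fun j _ => ?_
  ring

lemma inner_f_w (d : α → α → ℝ) :
    ∑ S ∈ powersetCard a F, f S * wf d S = (1 / 2) * ∑ k ∈ F, ∑ l ∈ F, d k l * bb F a f k l := by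
  have : ∀ S ∈ powersetCard a F, f S * wf d S
      = (1 / 2) * ∑ k ∈ F, ∑ l ∈ F, d k l * (f S * (X k S * X l S)) := by
    intro S hS
    rw [wf_eq F d (mem_powersetCard.mp hS).1]
    simp only [mul_sum]
    refine sum_congr rfl fun k _ => sum_congr rfl fun l _ => ?_
    ring
  rw [sum_congr rfl this, ← mul_sum]
  congr 1
  rw [sum_comm]
  refine sum_congr rfl fun k _ => ?_
  rw [sum_comm]
  refine sum_congr rfl fun l _ => ?_
  unfold bb
  rw [mul_sum]

lemma inner_v_v (u : α → ℝ) :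
    ∑ S ∈ powersetCard a F, vf u S * vf u S
      = ((cnt F.card a 1 : ℝ) - cnt F.card a 2) * ∑ k ∈ F, u k * u k
        + (cnt F.card a 2 : ℝ) * (∑ k ∈ F, u k) * (∑ k ∈ F, u k) := by
  have h1 : ∀ S ∈ powersetCard a F, vf u S * vf u S
      = ∑ j ∈ F, ∑ k ∈ F, u j * u k * (X j S * X k S) := by
    intro S hS
    have := sum_mem_eq (mem_powersetCard.mp hS).1 u
    unfold vf
    rw [this, sum_mul_sum]
    refine sum_congr rfl fun j _ => sum_congr rfl fun k _ => ?_
    ring
  rw [sum_congr rfl h1, sum_comm]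
  have h2 : ∀ j ∈ F, ∑ S ∈ powersetCard a F, ∑ k ∈ F, u j * u k * (X j S * X k S)
      = ∑ k ∈ F, u j * u k * ((cnt F.card a 2 : ℝ) + ((cnt F.card a 1 : ℝ) - cnt F.card a 2)
          * (if j = k then 1 else 0)) := by
    intro j hj
    rw [sum_comm]
    refine sum_congr rfl fun k hk => ?_
    rw [← mul_sum, mom2 a hj hk]
  rw [sum_congr rfl h2]
  have h3 : ∀ j ∈ F, ∑ k ∈ F, u j * u k * ((cnt F.card a 2 : ℝ) + ((cnt F.card a 1 : ℝ) - cnt F.card a 2)
          * (if j = k then 1 else 0))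
      = (cnt F.card a 2 : ℝ) * u j * (∑ k ∈ F, u k) + ((cnt F.card a 1 : ℝ) - cnt F.card a 2) * (u j * u j) := by
    intro j hj
    have : ∀ k, u j * u k * ((cnt F.card a 2 : ℝ) + ((cnt F.card a 1 : ℝ) - cnt F.card a 2)
          * (if j = k then 1 else 0))
        = (cnt F.card a 2 : ℝ) * u j * u k + ((cnt F.card a 1 : ℝ) - cnt F.card a 2) * u j *
          (if j = k then u k else 0) := by
      intro k
      split_ifs <;> ring
    simp only [this, sum_add_distrib, ← mul_sum, sum_ite_eq, if_pos hj]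
    ring
  rw [sum_congr rfl h3, sum_add_distrib, ← mul_sum, ← sum_mul, ← mul_sum]
  ring

lemma inner_v_w (u : α → ℝ) (d : α → α → ℝ) (hsymm : ∀ i j, d i j = d j i)
    (hdiag : ∀ i, d i i = 0) (hharm : ∀ i ∈ F, ∑ j ∈ F, d i j = 0) :
    ∑ S ∈ powersetCard a F, vf u S * wf d S = 0 := by
  have h1 : ∀ S ∈ powersetCard a F, vf u S * wf d S
      = (1 / 2) * ∑ i ∈ F, ∑ k ∈ F, ∑ l ∈ F, u i * d k l * (X i S * (X k S * X l S)) := by
    intro S hS
    have hSF := (mem_powersetCard.mp hS).1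
    rw [wf_eq F d hSF]
    unfold vf
    rw [sum_mem_eq hSF u, mul_left_comm, sum_mul]
    congr 1
    refine sum_congr rfl fun i _ => ?_
    rw [mul_sum]
    refine sum_congr rfl fun k _ => ?_
    rw [mul_sum]
    refine sum_congr rfl fun l _ => ?_
    ring
  rw [sum_congr rfl h1, ← mul_sum]
  have h2 : ∑ S ∈ powersetCard a F, ∑ i ∈ F, ∑ k ∈ F, ∑ l ∈ F,
      u i * d k l * (X i S * (X k S * X l S))
      = ∑ i ∈ F, u i * ∑ k ∈ F, ∑ l ∈ F, d k l *
          ∑ S ∈ powersetCard a F, (X i S * (X k S * X l S)) := by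
    rw [sum_comm]
    refine sum_congr rfl fun i _ => ?_
    rw [sum_comm, mul_sum]
    refine sum_congr rfl fun k _ => ?_
    rw [sum_comm, mul_sum]
    refine sum_congr rfl fun l _ => ?_
    rw [mul_sum, mul_sum]
    refine sum_congr rfl fun S _ => ?_
    ring
  rw [h2]
  have h3 : ∀ i ∈ F, ∑ k ∈ F, ∑ l ∈ F, d k l *
      ∑ S ∈ powersetCard a F, (X i S * (X k S * X l S)) = 0 := by
    intro i hi
    have e : ∀ k ∈ F, ∀ l ∈ F, d k l * ∑ S ∈ powersetCard a F, (X i S * (X k S * X l S))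
        = (cnt F.card a 3 : ℝ) * d k l + ((cnt F.card a 2 : ℝ) - cnt F.card a 3) *
          ((if i = k then d k l else 0) + (if i = l then d k l else 0)) := by
      intro k hk l hl
      by_cases hkl : k = l
      · subst hkl
        rw [hdiag]
        simp
      · rw [mom3 a hi hk hl hkl]
        split_ifs <;> ring
    rw [sum_congr rfl fun k hk => sum_congr rfl fun l hl => e k hk l hl]
    have t1 : ∑ k ∈ F, ∑ l ∈ F, d k l = 0 := sum_eq_zero fun k hk => hharm k hk
    have t2 : ∑ k ∈ F, ∑ l ∈ F, (if i = k then d k l else 0) = 0 := by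
      have : ∀ k, ∑ l ∈ F, (if i = k then d k l else 0) = if i = k then ∑ l ∈ F, d k l else 0 := by
        intro k; split_ifs <;> simp
      simp only [this, sum_ite_eq, if_pos hi]
      exact hharm i hi
    have t3 : ∑ k ∈ F, ∑ l ∈ F, (if i = l then d k l else 0) = 0 := by
      simp only [sum_ite_eq, if_pos hi]
      rw [sum_congr rfl fun k _ => hsymm k i]
      exact hharm i hi
    simp only [sum_add_distrib, ← mul_sum]
    rw [t1, t2, t3]
    simp
  rw [sum_eq_zero fun i hi => by rw [h3 i hi, mul_zero]]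
  simp

lemma A1 {F : Finset α} (D : α → α → ℝ) {k : α} (hk : k ∈ F) :
    ∑ k' ∈ F, ∑ l' ∈ F, (if k' = k then D k' l' else 0) = ∑ l' ∈ F, D k l' := by
  have : ∀ k', ∑ l' ∈ F, (if k' = k then D k' l' else 0)
      = if k' = k then ∑ l' ∈ F, D k' l' else 0 := by
    intro k'; split_ifs <;> simp
  simp only [this, sum_ite_eq', if_pos hk]

lemma A2 {F : Finset α} (D : α → α → ℝ) {k : α} (hk : k ∈ F) :
    ∑ k' ∈ F, ∑ l' ∈ F, (if l' = k then D k' l' else 0) = ∑ k' ∈ F, D k' k := by
  simp only [sum_ite_eq', if_pos hk]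

lemma A3 {F : Finset α} (D : α → α → ℝ) {k l : α} (hk : k ∈ F) (hl : l ∈ F) :
    ∑ k' ∈ F, ∑ l' ∈ F, (if k' = k then (if l' = l then D k' l' else 0) else 0) = D k l := by
  have : ∀ k', ∑ l' ∈ F, (if k' = k then (if l' = l then D k' l' else 0) else 0)
      = if k' = k then D k' l else 0 := by
    intro k'
    split_ifs
    · simp only [sum_ite_eq', if_pos hl]
    · simp
  simp only [this, sum_ite_eq', if_pos hk]

lemma inner_w_w (d : α → α → ℝ) (hsymm : ∀ i j, d i j = d j i)
    (hdiag : ∀ i, d i i = 0) (hharm : ∀ i ∈ F, ∑ j ∈ F, d i j = 0) :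
    ∑ S ∈ powersetCard a F, wf d S * wf d S
      = ((cnt F.card a 2 : ℝ) - 2 * cnt F.card a 3 + cnt F.card a 4) / 2
        * ∑ k ∈ F, ∑ l ∈ F, d k l * d k l := by
  set K : ℝ := (cnt F.card a 2 : ℝ) - 2 * cnt F.card a 3 + cnt F.card a 4 with hK
  have h1 : ∀ S ∈ powersetCard a F, wf d S * wf d S
      = (1 / 4) * ∑ k ∈ F, ∑ l ∈ F, ∑ k' ∈ F, ∑ l' ∈ F,
          d k l * d k' l' * ((X k S * X l S) * (X k' S * X l' S)) := by
    intro S hS
    have hSF := (mem_powersetCard.mp hS).1
    rw [wf_eq F d hSF]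
    have key : (∑ i ∈ F, ∑ j ∈ F, d i j * (X i S * X j S)) *
          (∑ i ∈ F, ∑ j ∈ F, d i j * (X i S * X j S))
        = ∑ k ∈ F, ∑ l ∈ F, ∑ k' ∈ F, ∑ l' ∈ F,
          d k l * d k' l' * ((X k S * X l S) * (X k' S * X l' S)) := by
      rw [sum_mul]
      refine sum_congr rfl fun k _ => ?_
      rw [sum_mul]
      refine sum_congr rfl fun l _ => ?_
      rw [mul_sum]
      refine sum_congr rfl fun k' _ => ?_
      rw [mul_sum]
      refine sum_congr rfl fun l' _ => ?_
      ring
    rw [← key]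
    ring
  rw [sum_congr rfl h1, ← mul_sum]
  have h2 : ∑ S ∈ powersetCard a F, ∑ k ∈ F, ∑ l ∈ F, ∑ k' ∈ F, ∑ l' ∈ F,
          d k l * d k' l' * ((X k S * X l S) * (X k' S * X l' S))
      = ∑ k ∈ F, ∑ l ∈ F, d k l * ∑ k' ∈ F, ∑ l' ∈ F, d k' l' *
          ∑ S ∈ powersetCard a F, ((X k S * X l S) * (X k' S * X l' S)) := by
    rw [sum_comm]
    refine sum_congr rfl fun k _ => ?_
    rw [sum_comm]
    refine sum_congr rfl fun l _ => ?_
    rw [sum_comm, mul_sum]
    refine sum_congr rfl fun k' _ => ?_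
    rw [sum_comm, mul_sum]
    refine sum_congr rfl fun l' _ => ?_
    rw [mul_sum, mul_sum]
    refine sum_congr rfl fun S _ => ?_
    ring
  rw [h2]
  have h3 : ∀ k ∈ F, ∀ l ∈ F, d k l * ∑ k' ∈ F, ∑ l' ∈ F, d k' l' *
      ∑ S ∈ powersetCard a F, ((X k S * X l S) * (X k' S * X l' S))
      = 2 * K * (d k l * d k l) := by
    intro k hk l hl
    by_cases hkl : k = l
    · subst hkl; rw [hdiag]; simp
    have e : ∀ k' ∈ F, ∀ l' ∈ F, d k' l' * ∑ S ∈ powersetCard a F, ((X k S * X l S) * (X k' S * X l' S))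
        = (cnt F.card a 4 : ℝ) * d k' l' + ((cnt F.card a 3 : ℝ) - cnt F.card a 4) *
            ((if k' = k then d k' l' else 0) + (if k' = l then d k' l' else 0)
            + (if l' = k then d k' l' else 0) + (if l' = l then d k' l' else 0))
          + K * ((if k' = k then (if l' = k then d k' l' else 0) else 0)
            + (if k' = k then (if l' = l then d k' l' else 0) else 0)
            + (if k' = l then (if l' = k then d k' l' else 0) else 0)
            + (if k' = l then (if l' = l then d k' l' else 0) else 0)) := by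
      intro k' hk' l' hl'
      by_cases hkl' : k' = l'
      · subst hkl'
        rw [hdiag]
        simp
      · rw [mom4 a hk hl hk' hl' hkl hkl', ← hK]
        split_ifs <;> ring
    rw [sum_congr rfl fun k' hk' => sum_congr rfl fun l' hl' => e k' hk' l' hl']
    simp only [sum_add_distrib, ← mul_sum]
    rw [A1 d hk, A1 d hl, A2 d hk, A2 d hl, A3 d hk hk, A3 d hk hl, A3 d hl hk, A3 d hl hl,
      hharm k hk, hharm l hl, hdiag k, hdiag l, hsymm l k,
      sum_eq_zero (fun k' hk' => hharm k' hk'),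
      sum_congr rfl (fun k' _ => hsymm k' k), sum_congr rfl (fun k' _ => hsymm k' l),
      hharm k hk, hharm l hl]
    ring
  rw [sum_congr rfl fun k hk => sum_congr rfl fun l hl => h3 k hk l hl]
  simp only [← mul_sum]
  ring

lemma dd_mul_bb (k l : α) : dd F a f k l * bb F a f k l
    = dd F a f k l * dd F a f k l
      + ((a : ℝ) - 1) / ((F.card : ℝ) - 2) * (dd F a f k l * uu F a f k + dd F a f k l * uu F a f l) := by
  by_cases h : k = l
  · subst h; simp [dd]
  · unfold dd
    rw [if_neg h]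
    ring

lemma inner_f_wd (hf : ∑ S ∈ powersetCard a F, f S = 0) (hm : 3 ≤ F.card) :
    ∑ S ∈ powersetCard a F, f S * wf (dd F a f) S
      = (1 / 2) * ∑ k ∈ F, ∑ l ∈ F, dd F a f k l * dd F a f k l := by
  rw [inner_f_w]
  congr 1
  simp only [dd_mul_bb, sum_add_distrib, ← mul_sum]
  have t1 : ∑ k ∈ F, ∑ l ∈ F, dd F a f k l * uu F a f k = 0 := by
    refine sum_eq_zero fun k hk => ?_
    rw [← sum_mul, dd_harm F a f hf hm hk, zero_mul]
  have t2 : ∑ k ∈ F, ∑ l ∈ F, dd F a f k l * uu F a f l = 0 := by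
    rw [sum_comm]
    refine sum_eq_zero fun l hl => ?_
    rw [← sum_mul, sum_congr rfl fun k _ => dd_symm F a f k l, dd_harm F a f hf hm hl, zero_mul]
  rw [t1, t2]
  ring

lemma Lap_comb (F : Finset α) (v w : Finset α → ℝ) (s : ℝ) (S : Finset α) :
    Lap F (fun T => s * (v T + w T)) S = s * (Lap F v S + Lap F w S) := by
  unfold Lap
  simp only [mul_sum, ← sum_add_distrib]
  refine sum_congr rfl fun k _ => sum_congr rfl fun l _ => ?_
  ring

lemma choose_pos_M {m a : ℕ} (ha : 1 ≤ a) (ham : a + 1 ≤ m) : 0 < ((m - 2).choose (a - 1) : ℝ) := by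
  have : 0 < (m - 2).choose (a - 1) := Nat.choose_pos (by omega)
  exact_mod_cast this

lemma main_meanzero (ha : 1 ≤ a) (ham : a + 1 ≤ F.card) (hm : 3 ≤ F.card)
    (hf : ∑ S ∈ powersetCard a F, f S = 0) :
    2 * (F.card : ℝ) * ∑ k ∈ F, uu F a f k * uu F a f k
        + 2 * ((F.card : ℝ) - 1) * ∑ k ∈ F, ∑ l ∈ F, dd F a f k l * dd F a f k l
      ≤ ((F.card - 2).choose (a - 1) : ℝ) * En F a f f := by
  set M : ℝ := ((F.card - 2).choose (a - 1) : ℝ) with hMdef
  have hM : 0 < M := choose_pos_M ha ham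
  set u := uu F a f with hu_def
  set d := dd F a f with hd_def
  have hu0 : ∑ k ∈ F, u k = 0 := by rw [hu_def, uu_sum, hf, mul_zero]
  have hsymm : ∀ i j, d i j = d j i := dd_symm F a f
  have hdiag : ∀ i, d i i = 0 := dd_diag F a f
  have hharm : ∀ i ∈ F, ∑ j ∈ F, d i j = 0 := fun i hi => dd_harm F a f hf hm hi
  set A : ℝ := ∑ k ∈ F, u k * u k with hA
  set D : ℝ := ∑ k ∈ F, ∑ l ∈ F, d k l * d k l with hD
  have hA0 : 0 ≤ A := sum_nonneg fun k _ => mul_self_nonneg _
  have hD0 : 0 ≤ D := sum_nonneg fun k _ => sum_nonneg fun l _ => mul_self_nonneg _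
  set m : ℝ := (F.card : ℝ) with hm_def
  have hm3 : (3 : ℝ) ≤ m := by rw [hm_def]; exact_mod_cast hm
  set K : ℝ := (cnt F.card a 2 : ℝ) - 2 * cnt F.card a 3 + cnt F.card a 4 with hK
  have hKM : K ≤ M := cnt_second_diff_le ha ham hm
  have I1 : ∑ S ∈ powersetCard a F, f S * vf u S = A := inner_f_v F a f u
  have I2 : ∑ S ∈ powersetCard a F, f S * wf d S = (1 / 2) * D := inner_f_wd F a f hf hm
  have I3 : ∑ S ∈ powersetCard a F, vf u S * vf u S = M * A := by
    rw [inner_v_v, hu0, cnt_one_sub_two ha (by omega)]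
    ring
  have I4 : ∑ S ∈ powersetCard a F, vf u S * wf d S = 0 := inner_v_w F a u d hsymm hdiag hharm
  have I5 : ∑ S ∈ powersetCard a F, wf d S * wf d S = K / 2 * D := inner_w_w F a d hsymm hdiag hharm
  set h : Finset α → ℝ := fun T => (1 / M) * (vf u T + wf d T) with hh
  have hLap : ∀ S ∈ powersetCard a F, Lap F h S = (1 / M) * (m * vf u S + 2 * (m - 1) * wf d S) := by
    intro S hS
    rw [hh, Lap_comb, Lap_vf F a u hu0 hS, Lap_wf F a d hsymm hdiag hharm hS]
  have E1 : En F a f h = (2 / M) * (m * A + (m - 1) * D) := by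
    rw [En_eq, sum_congr rfl fun S hS => by rw [hLap S hS]]
    have : ∀ S, f S * ((1 / M) * (m * vf u S + 2 * (m - 1) * wf d S))
        = (1 / M) * (m * (f S * vf u S) + 2 * (m - 1) * (f S * wf d S)) := by
      intro S; ring
    simp only [this, ← mul_sum, sum_add_distrib, I1, I2]
    ring
  have E2 : En F a h h = (2 / M) * (m * A + (m - 1) * (K / M) * D) := by
    rw [En_eq, sum_congr rfl fun S hS => by rw [hLap S hS]]
    have : ∀ S, h S * ((1 / M) * (m * vf u S + 2 * (m - 1) * wf d S))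
        = (1 / M) * (1 / M) * (m * (vf u S * vf u S) + (m + 2 * (m - 1)) * (vf u S * wf d S)
          + 2 * (m - 1) * (wf d S * wf d S)) := by
      intro S; rw [hh]; ring
    simp only [this, ← mul_sum, sum_add_distrib, I3, I4, I5]
    field_simp
    ring
  have hpos := En_nonneg F a (fun S => f S - h S)
  rw [En_sub_self, E1, E2] at hpos
  have hq : K / M ≤ 1 := (div_le_one hM).mpr hKM
  have hm1 : 0 ≤ (m - 1) * D := mul_nonneg (by linarith) hD0
  have key : 2 * m * A + 2 * (m - 1) * D ≤ M * En F a f f := by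
    have e : M * (En F a f f - 2 * ((2 / M) * (m * A + (m - 1) * D)) + (2 / M) * (m * A + (m - 1) * (K / M) * D))
        = M * En F a f f - 2 * m * A - 4 * (m - 1) * D + 2 * (m - 1) * D * (K / M) := by
      field_simp
      ring
    have hpos' := mul_nonneg hM.le hpos
    rw [e] at hpos'
    have : 2 * ((m - 1) * D) * (K / M) ≤ 2 * ((m - 1) * D) * 1 :=
      mul_le_mul_of_nonneg_left hq (by linarith)
    nlinarith
  exact key

/-- Indicator that exactly one of `k, l` lies in `S`. -/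
noncomputable def psi (k l : α) (S : Finset α) : ℝ := X k S + X l S - 2 * (X k S * X l S)

lemma sum_psi (a : ℕ) {F : Finset α} {k l : α} (hk : k ∈ F) (hl : l ∈ F) (hkl : k ≠ l)
    (ha : 1 ≤ a) (hm : 2 ≤ F.card) :
    ∑ S ∈ powersetCard a F, psi k l S = 2 * ((F.card - 2).choose (a - 1) : ℝ) := by
  unfold psi
  rw [sum_sub_distrib, sum_add_distrib, ← mul_sum, mom1 a hk, mom1 a hl, mom2 a hk hl, if_neg hkl,
    ← cnt_one_sub_two ha hm]
  ring

lemma sum_f_psi {k l : α} :
    ∑ S ∈ powersetCard a F, f S * psi k l S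
      = uu F a f k + uu F a f l - 2 * bb F a f k l := by
  unfold psi uu bb
  rw [mul_sum, ← sum_add_distrib, ← sum_sub_distrib]
  refine sum_congr rfl fun S _ => ?_
  ring

lemma psi_decomp (hm : 3 ≤ F.card) {k l : α} (hkl : k ≠ l) :
    ∑ S ∈ powersetCard a F, f S * psi k l S
      = (((F.card : ℝ) - 2 * a) / ((F.card : ℝ) - 2)) * (uu F a f k + uu F a f l)
        - 2 * dd F a f k l := by
  have hne : (F.card : ℝ) - 2 ≠ 0 := by
    have : (3 : ℝ) ≤ F.card := by exact_mod_cast hm
    linarith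
  rw [sum_f_psi]
  unfold dd
  rw [if_neg hkl]
  field_simp
  ring

lemma sum_square_decomp (A : ℝ) (u : α → ℝ) (d : α → α → ℝ) (hu : ∑ k ∈ F, u k = 0)
    (hsymm : ∀ i j, d i j = d j i) (hdiag : ∀ i, d i i = 0) (hharm : ∀ i ∈ F, ∑ j ∈ F, d i j = 0) :
    ∑ k ∈ F, ∑ l ∈ F.erase k, (A * (u k + u l) - 2 * d k l) ^ 2
      = A ^ 2 * (2 * (F.card : ℝ) - 4) * ∑ k ∈ F, u k * u k
        + 4 * ∑ k ∈ F, ∑ l ∈ F, d k l * d k l := by
  have h1 : ∀ k ∈ F, ∑ l ∈ F.erase k, (A * (u k + u l) - 2 * d k l) ^ 2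
      = ∑ l ∈ F, (A * (u k + u l) - 2 * d k l) ^ 2 - (A * (u k + u k) - 2 * d k k) ^ 2 := by
    intro k hk
    rw [sum_erase_eq_sub hk]
  rw [sum_congr rfl h1, sum_sub_distrib]
  have h2 : ∀ k ∈ F, ∑ l ∈ F, (A * (u k + u l) - 2 * d k l) ^ 2
      = A ^ 2 * ((F.card : ℝ) * (u k * u k) + 2 * u k * (∑ l ∈ F, u l) + ∑ l ∈ F, u l * u l)
        - 4 * A * (u k * ∑ l ∈ F, d k l + ∑ l ∈ F, d k l * u l)
        + 4 * ∑ l ∈ F, d k l * d k l := by
    intro k _
    have : ∀ l, (A * (u k + u l) - 2 * d k l) ^ 2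
        = A ^ 2 * (u k * u k) + A ^ 2 * (2 * u k) * u l + A ^ 2 * (u l * u l)
          - 4 * A * u k * d k l - 4 * A * (d k l * u l) + 4 * (d k l * d k l) := by
      intro l; ring
    simp only [this, sum_add_distrib, sum_sub_distrib, ← mul_sum, sum_const, nsmul_eq_mul]
    ring
  rw [sum_congr rfl h2]
  have t : ∑ k ∈ F, ∑ l ∈ F, d k l * u l = 0 := by
    rw [sum_comm]
    refine sum_eq_zero fun l hl => ?_
    rw [← sum_mul, sum_congr rfl fun k _ => hsymm k l, hharm l hl, zero_mul]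
  have h3 : ∀ k ∈ F, (A * (u k + u k) - 2 * d k k) ^ 2 = 4 * A ^ 2 * (u k * u k) := by
    intro k _
    rw [hdiag]; ring
  rw [sum_congr rfl h3]
  simp only [hu, sum_add_distrib, sum_sub_distrib, ← mul_sum, sum_const, nsmul_eq_mul, t]
  have t2 : ∑ k ∈ F, u k * ∑ l ∈ F, d k l = 0 :=
    sum_eq_zero fun k hk => by rw [hharm k hk, mul_zero]
  rw [t2]
  simp only [mul_zero, sum_const_zero, add_zero]
  ring

lemma coef_le {m a : ℝ} (ha : 1 ≤ a) (ham : a + 1 ≤ m) (hm : 3 ≤ m) :
    ((m - 2 * a) / (m - 2)) ^ 2 * (2 * m - 4) ≤ 2 * m := by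
  have hpos : 0 < m - 2 := by linarith
  have e : ((m - 2 * a) / (m - 2)) ^ 2 * (2 * m - 4) = 2 * (m - 2 * a) ^ 2 / (m - 2) := by
    field_simp
    ring
  rw [e, div_le_iff₀ hpos]
  nlinarith [mul_nonneg (sub_nonneg.mpr ha) (sub_nonneg.mpr ham)]

theorem cross_meanzero (ha : 1 ≤ a) (ham : a + 1 ≤ F.card) (hm : 3 ≤ F.card)
    (hf : ∑ S ∈ powersetCard a F, f S = 0) :
    ∑ k ∈ F, ∑ l ∈ F.erase k, (∑ S ∈ powersetCard a F, f S * psi k l S) ^ 2
      ≤ ((F.card - 2).choose (a - 1) : ℝ) * En F a f f := by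
  have hu0 : ∑ k ∈ F, uu F a f k = 0 := by rw [uu_sum, hf, mul_zero]
  have h1 : ∀ k ∈ F, ∀ l ∈ F.erase k, (∑ S ∈ powersetCard a F, f S * psi k l S) ^ 2
      = ((((F.card : ℝ) - 2 * a) / ((F.card : ℝ) - 2)) * (uu F a f k + uu F a f l)
        - 2 * dd F a f k l) ^ 2 := by
    intro k _ l hl
    rw [psi_decomp F a f hm (Ne.symm (ne_of_mem_erase hl))]
  rw [sum_congr rfl fun k hk => sum_congr rfl fun l hl => h1 k hk l hl,
    sum_square_decomp F _ _ _ hu0 (dd_symm F a f) (dd_diag F a f)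
      (fun i hi => dd_harm F a f hf hm hi)]
  refine le_trans ?_ (main_meanzero F a f ha ham hm hf)
  have hA : 0 ≤ ∑ k ∈ F, uu F a f k * uu F a f k := sum_nonneg fun k _ => mul_self_nonneg _
  have hD : 0 ≤ ∑ k ∈ F, ∑ l ∈ F, dd F a f k l * dd F a f k l :=
    sum_nonneg fun k _ => sum_nonneg fun l _ => mul_self_nonneg _
  have hm3 : (3 : ℝ) ≤ F.card := by exact_mod_cast hm
  have ha1 : (1 : ℝ) ≤ a := by exact_mod_cast ha
  have ham' : (a : ℝ) + 1 ≤ F.card := by exact_mod_cast ham
  have hc := coef_le ha1 ham' hm3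
  have h2 := mul_le_mul_of_nonneg_right hc hA
  nlinarith

end Main

/-- **The cross inequality on the Johnson scheme** (ordered pairs). -/
theorem johnson_cross (F : Finset α) (a : ℕ) (ha : 1 ≤ a) (ham : a + 1 ≤ F.card)
    (f : Finset α → ℝ) :
    ∑ k ∈ F, ∑ l ∈ F.erase k, (∑ S ∈ powersetCard a F, f S *
        (psi k l S - 2 * ((F.card - 2).choose (a - 1) : ℝ) / (F.card.choose a : ℝ))) ^ 2
      ≤ ((F.card - 2).choose (a - 1) : ℝ) * En F a f f := by
  set M : ℝ := ((F.card - 2).choose (a - 1) : ℝ) with hM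
  set N : ℝ := (F.card.choose a : ℝ) with hN
  have hMpos : 0 < M := choose_pos_M ha ham
  have hNpos : 0 < N := Nat.cast_pos.mpr (Nat.choose_pos (by omega))
  have hJ : ∑ S ∈ powersetCard a F, (1 : ℝ) = N := by
    simp [hN, card_powersetCard]
  by_cases hm : 3 ≤ F.card
  · set μ : ℝ := (∑ S ∈ powersetCard a F, f S) / N with hμ
    set f₀ : Finset α → ℝ := fun S => f S - μ with hf₀
    have h0 : ∑ S ∈ powersetCard a F, f₀ S = 0 := by
      rw [hf₀]
      simp only [sum_sub_distrib, sum_const, nsmul_eq_mul]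
      rw [card_powersetCard, hμ]
      field_simp
      simp [hN]
    have hEn : En F a f₀ f₀ = En F a f f := by
      unfold En
      refine sum_congr rfl fun S _ => sum_congr rfl fun k _ => sum_congr rfl fun l _ => ?_
      rw [hf₀]
      ring
    have hkey := cross_meanzero F a f₀ ha ham hm h0
    rw [hEn] at hkey
    refine le_trans (le_of_eq ?_) hkey
    refine sum_congr rfl fun k hk => sum_congr rfl fun l hl => ?_
    congr 1
    have hl' := mem_of_mem_erase hl
    have hkl : k ≠ l := Ne.symm (ne_of_mem_erase hl)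
    have hs := sum_psi a hk hl' hkl ha (by omega)
    have e : ∀ S, f S * (psi k l S - 2 * M / N)
        = f₀ S * psi k l S + μ * psi k l S - 2 * M / N * f S := by
      intro S; rw [hf₀]; ring
    simp only [e, sum_add_distrib, sum_sub_distrib, ← mul_sum]
    rw [hs]
    have : (∑ S ∈ powersetCard a F, f S) = μ * N := by
      rw [hμ]; field_simp
    rw [this]
    field_simp
    ring
  · have hm2 : F.card = 2 := by omega
    have ha1 : a = 1 := by omega
    subst ha1
    have hM1 : M = 1 := by simp [hM, hm2]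
    have hN2 : N = 2 := by simp [hN, hm2]
    have hzero : ∀ k ∈ F, ∀ l ∈ F.erase k, ∑ S ∈ powersetCard 1 F, f S *
        (psi k l S - 2 * M / N) = 0 := by
      intro k hk l hl
      refine sum_eq_zero fun S hS => ?_
      have hl' := mem_of_mem_erase hl
      have hkl : k ≠ l := Ne.symm (ne_of_mem_erase hl)
      obtain ⟨hS1, hS2⟩ := mem_powersetCard.mp hS
      obtain ⟨x, rfl⟩ := card_eq_one.mp hS2
      have hx : x ∈ F := hS1 (mem_singleton_self x)
      have hF : F = {k, l} := by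
        symm
        apply eq_of_subset_of_card_le
        · simp [insert_subset_iff, hk, hl']
        · rw [card_pair hkl, hm2]
      have hxkl : x = k ∨ x = l := by
        rw [hF] at hx
        simpa using hx
      have hp : psi k l {x} = 1 := by
        unfold psi X
        rcases hxkl with rfl | rfl
        · simp [hkl.symm]
        · simp [hkl]
      rw [hp, hM1, hN2]
      norm_num
    rw [sum_eq_zero fun k hk => sum_eq_zero fun l hl => by rw [hzero k hk l hl]; norm_num]
    exact mul_nonneg hMpos.le (En_nonneg F 1 f)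

end Vale.Agent.Lib.P335.JohnsonCross
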