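import Vale.Agent.Lib.P335.CrossSplit
import Vale.Agent.Lib.P335.JohnsonCross

/-!
The cross terms of the row pair `i`, `j`, summed over the column pairs, are dominated by the switch
energies: the transport of the Johnson cross inequality.
-/

namespace Vale.Agent.Lib.P335

open Finset
open JohnsonCross (psi X En swp johnson_cross sum_psi)

variable {n : ℕ} {d : Fin n → ℕ} {i j : Fin n}

instance D4.decidable (i j k l : Fin n) : Decidable (D4 i j k l) :=
  decidable_of_iff (i ≠ j ∧ i ≠ k ∧ i ≠ l ∧ j ≠ k ∧ j ≠ l ∧ k ≠ l)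
    ⟨fun ⟨a, b, c, e, f, g⟩ => ⟨a, b, c, e, f, g⟩, fun h => ⟨h.ij, h.ik, h.il, h.jk, h.jl, h.kl⟩⟩

/-- A section of `rowS` over the fibre. -/
noncomputable def orbPhi (i j : Fin n) (G0 : Rz d) (A : Finset (Fin n)) : Rz d :=
  if h : ∃ G : Rz d, offKey (rowSlots i j) G = offKey (rowSlots i j) G0 ∧ rowS i j G.1 = A then
    h.choose else G0

lemma phi_spec (hij : i ≠ j) (G0 : Rz d) {A : Finset (Fin n)}
    (hA : A ∈ powersetCard (rowS i j G0.1).card (rowF i j G0.1)) :
    offKey (rowSlots i j) (orbPhi i j G0 A) = offKey (rowSlots i j) G0 ∧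
      rowS i j (orbPhi i j G0 A).1 = A := by
  rw [mem_powersetCard] at hA
  have h := rowGraph_spec hij G0 hA.1 hA.2
  unfold orbPhi
  rw [dif_pos h]
  exact h.choose_spec

lemma phi_rowS (hij : i ≠ j) {G0 G : Rz d}
    (hG : offKey (rowSlots i j) G = offKey (rowSlots i j) G0) :
    orbPhi i j G0 (rowS i j G.1) = G := by
  have h : ∃ G' : Rz d, offKey (rowSlots i j) G' = offKey (rowSlots i j) G0 ∧
      rowS i j G'.1 = rowS i j G.1 := ⟨G, hG, rfl⟩
  unfold orbPhi
  rw [dif_pos h]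
  exact eq_of_rowS_eq hij (h.choose_spec.1.trans hG.symm) h.choose_spec.2

lemma sum_fib_phi (hij : i ≠ j) (G0 : Rz d) (u : Rz d → ℝ) :
    ∑ G ∈ fib (offKey (rowSlots i j)) G0, u G =
      ∑ A ∈ powersetCard (rowS i j G0.1).card (rowF i j G0.1), u (orbPhi i j G0 A) := by
  rw [← sum_fib_rowS hij G0 (fun A => u (orbPhi i j G0 A))]
  refine sum_congr rfl fun G hG => ?_
  rw [phi_rowS hij (mem_fib.1 hG)]

lemma d4_of_mem {E : Gr n} {k l : Fin n} (hij : i ≠ j) (hk : k ∈ rowF i j E) (hl : l ∈ rowF i j E)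
    (hkl : k ≠ l) : D4 i j k l := by
  have h1 := mem_rowF.1 hk
  have h2 := mem_rowF.1 hl
  exact ⟨hij, h1.1.symm, h2.1.symm, h1.2.1.symm, h2.2.1.symm, hkl⟩

/-- Centre on the fibre, through the section. -/
lemma center_phi (hij : i ≠ j) (G0 : Rz d) {k l : Fin n} (hk : k ∈ rowF i j G0.1)
    (hl : l ∈ rowF i j G0.1) (hkl : k ≠ l) {A : Finset (Fin n)}
    (hA : A ∈ powersetCard (rowS i j G0.1).card (rowF i j G0.1)) :
    (if IsCenter i j k l (orbPhi i j G0 A).1 then (1 : ℝ) else 0) = psi k l A := by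
  have h := d4_of_mem hij hk hl hkl
  obtain ⟨h1, h2⟩ := phi_spec hij G0 hA
  have hF := rowF_eq hij h1
  have hc : IsCenter i j k l (orbPhi i j G0 A).1 ↔ (k ∈ A ↔ l ∉ A) := by
    rw [center_iff_rowS h, hF, h2]
    simp [hk, hl]
  unfold psi X
  by_cases h3 : k ∈ A <;> by_cases h4 : l ∈ A <;> simp [hc, h3, h4]
  norm_num

/-- The part of the orbit where `k`, `l` are separated has `2 M` elements. -/
lemma card_center (hij : i ≠ j) (G0 : Rz d) {k l : Fin n} (hk : k ∈ rowF i j G0.1)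
    (hl : l ∈ rowF i j G0.1) (hkl : k ≠ l) (ha : 1 ≤ (rowS i j G0.1).card) :
    (((fib (offKey (rowSlots i j)) G0).filter fun G : Rz d => IsCenter i j k l G.1).card : ℝ) =
      2 * (((rowF i j G0.1).card - 2).choose ((rowS i j G0.1).card - 1) : ℝ) := by
  have hm : 2 ≤ (rowF i j G0.1).card := by
    have : ({k, l} : Finset (Fin n)) ⊆ rowF i j G0.1 := by
      intro c hc
      simp only [mem_insert, mem_singleton] at hc
      rcases hc with rfl | rfl <;> assumption
    have h2 := card_le_card this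
    rwa [card_pair hkl] at h2
  rw [natCast_card_filter, sum_fib_phi hij, ← sum_psi _ hk hl hkl ha hm]
  exact sum_congr rfl fun A hA => center_phi hij G0 hk hl hkl hA

/-- The sum of the centred function over the central part of the orbit, as a Johnson statistic. -/
lemma center_sum_eq (hij : i ≠ j) (G0 : Rz d) {k l : Fin n} (hk : k ∈ rowF i j G0.1)
    (hl : l ∈ rowF i j G0.1) (hkl : k ≠ l) (ha : 1 ≤ (rowS i j G0.1).card) (f : Rz d → ℝ) :
    (∑ y ∈ fib (offKey (rowSlots i j)) G0,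
        if IsCenter i j k l y.1 then coavg (offKey (rowSlots i j)) f y else 0) =
      ∑ A ∈ powersetCard (rowS i j G0.1).card (rowF i j G0.1), f (orbPhi i j G0 A) *
        (psi k l A - 2 * (((rowF i j G0.1).card - 2).choose ((rowS i j G0.1).card - 1) : ℝ) /
          ((rowF i j G0.1).card.choose (rowS i j G0.1).card : ℝ)) := by
  set F := rowF i j G0.1 with hF
  set a := (rowS i j G0.1).card with ha'
  set J := powersetCard a F with hJ
  set c := avg (offKey (rowSlots i j)) f G0 with hc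
  have hm : 2 ≤ F.card := by
    have : ({k, l} : Finset (Fin n)) ⊆ F := by
      intro c hc
      simp only [mem_insert, mem_singleton] at hc
      rcases hc with rfl | rfl <;> assumption
    have h2 := card_le_card this
    rwa [card_pair hkl] at h2
  have hcN : c * (F.card.choose a : ℝ) = ∑ A ∈ J, f (orbPhi i j G0 A) := by
    rw [← sum_fib_phi hij G0 f, hc]
    have h1 : ((fib (offKey (rowSlots i j)) G0).card : ℝ) = (F.card.choose a : ℝ) := by
      rw [card_fib_rowS hij G0, card_powersetCard]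
    unfold avg
    rw [h1]
    have hpos : (F.card.choose a : ℝ) ≠ 0 := by
      rw [← h1]
      exact card_fib_ne _ _
    field_simp
  have hNpos : (F.card.choose a : ℝ) ≠ 0 := by
    have h1 : ((fib (offKey (rowSlots i j)) G0).card : ℝ) = (F.card.choose a : ℝ) := by
      rw [card_fib_rowS hij G0, card_powersetCard]
    rw [← h1]
    exact card_fib_ne _ _
  rw [sum_fib_phi hij]
  have e1 : ∀ A ∈ J, (if IsCenter i j k l (orbPhi i j G0 A).1 then
        coavg (offKey (rowSlots i j)) f (orbPhi i j G0 A) else 0) =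
      (f (orbPhi i j G0 A) - c) * psi k l A := by
    intro A hA
    rw [← center_phi hij G0 hk hl hkl hA, coavg_apply, hc,
      avg_congr f (phi_spec hij G0 hA).1]
    split_ifs <;> ring
  rw [sum_congr rfl e1]
  have hs := sum_psi a hk hl hkl ha hm
  have e2 : ∑ A ∈ J, (f (orbPhi i j G0 A) - c) * psi k l A =
      ∑ A ∈ J, f (orbPhi i j G0 A) * psi k l A - c * ∑ A ∈ J, psi k l A := by
    rw [mul_sum, ← sum_sub_distrib]
    exact sum_congr rfl fun _ _ => by ring
  have e3 : ∑ A ∈ J, f (orbPhi i j G0 A) * (psi k l A - 2 * ((F.card - 2).choose (a - 1) : ℝ) /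
        (F.card.choose a : ℝ)) =
      ∑ A ∈ J, f (orbPhi i j G0 A) * psi k l A - (∑ A ∈ J, f (orbPhi i j G0 A)) *
        (2 * ((F.card - 2).choose (a - 1) : ℝ) / (F.card.choose a : ℝ)) := by
    rw [sum_mul, ← sum_sub_distrib]
    exact sum_congr rfl fun _ _ => by ring
  rw [e2, e3, hs, ← hcN]
  field_simp

/-- The symmetrised cross function. -/
noncomputable def crossFn (i j k l : Fin n) (f : Rz d → ℝ) : Rz d → ℝ :=
  symOp (fun G : Rz d => IsCenter i j k l G.1) (togG i j k l)
    (avg (offKey (outerSlots i j k l)) (coavg (offKey (rowSlots i j)) f))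

/-- The switch antisymmetrisation. -/
noncomputable def tauFn (i j k l : Fin n) (f : Rz d → ℝ) : Rz d → ℝ :=
  tauOp (fun G : Rz d => IsCenter i j k l G.1) (togG i j k l) f

lemma center_empty (hij : i ≠ j) {G0 y : Rz d} (hy : y ∈ fib (offKey (rowSlots i j)) G0)
    {k l : Fin n} (h : D4 i j k l) (hn : ¬ (k ∈ rowF i j G0.1 ∧ l ∈ rowF i j G0.1)) :
    ¬ IsCenter i j k l y.1 := by
  rw [center_iff_rowS h, rowF_eq hij (mem_fib.1 hy)]
  tauto

lemma center_empty_trivial (hij : i ≠ j) {G0 y : Rz d} (hy : y ∈ fib (offKey (rowSlots i j)) G0)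
    {k l : Fin n} (h : D4 i j k l)
    (ha : ¬ (1 ≤ (rowS i j G0.1).card ∧ (rowS i j G0.1).card + 1 ≤ (rowF i j G0.1).card)) :
    ¬ IsCenter i j k l y.1 := by
  have hk := mem_fib.1 hy
  have hF := rowF_eq hij hk
  have hc := card_rowS_eq hij hk
  rw [center_iff_rowS h, hF]
  rintro ⟨⟨h1, h2⟩, h3⟩
  have hsub : rowS i j y.1 ⊆ rowF i j G0.1 := hF ▸ rowS_subset_rowF i j y.1
  by_cases h0 : (rowS i j G0.1).card = 0
  · rw [h0, card_eq_zero] at hc
    rw [hc] at h3
    simp at h3
  · have hle : (rowS i j G0.1).card = (rowF i j G0.1).card := by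
      have := card_le_card hsub
      omega
    have heq : rowS i j y.1 = rowF i j G0.1 := eq_of_subset_of_card_le hsub (by omega)
    rw [heq] at h3
    simp [h1, h2] at h3

/-- The contribution of an orbit to a cross term. -/
lemma orbit_cross_value (hij : i ≠ j) (G0 : Rz d) {k l : Fin n} (hk : k ∈ rowF i j G0.1)
    (hl : l ∈ rowF i j G0.1) (hkl : k ≠ l) (ha : 1 ≤ (rowS i j G0.1).card) (f : Rz d → ℝ) :
    ∑ y ∈ fib (offKey (rowSlots i j)) G0, (crossFn i j k l f y) ^ 2 =
      (∑ A ∈ powersetCard (rowS i j G0.1).card (rowF i j G0.1), f (orbPhi i j G0 A) *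
        (psi k l A - 2 * (((rowF i j G0.1).card - 2).choose ((rowS i j G0.1).card - 1) : ℝ) /
          ((rowF i j G0.1).card.choose (rowS i j G0.1).card : ℝ))) ^ 2 /
        (2 * (((rowF i j G0.1).card - 2).choose ((rowS i j G0.1).card - 1) : ℝ)) := by
  have h := d4_of_mem hij hk hl hkl
  unfold crossFn
  rw [(orbitSplit h).orbit_sum, center_sum_eq hij G0 hk hl hkl ha f, card_center hij G0 hk hl hkl ha]

/-- The energy of a point of the orbit. -/
lemma tau_pointwise (hij : i ≠ j) (G0 : Rz d) (f : Rz d → ℝ) {y : Rz d}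
    (hy : y ∈ fib (offKey (rowSlots i j)) G0) :
    (1 / 2 : ℝ) * ∑ k ∈ rowS i j y.1, ∑ l ∈ rowF i j G0.1 \ rowS i j y.1,
        (f (orbPhi i j G0 (rowS i j y.1)) - f (orbPhi i j G0 (swp (rowS i j y.1) k l))) *
        (f (orbPhi i j G0 (rowS i j y.1)) - f (orbPhi i j G0 (swp (rowS i j y.1) k l))) ≤
      ∑ k ∈ rowF i j G0.1, ∑ l ∈ (rowF i j G0.1).erase k, (tauFn i j k l f y) ^ 2 := by
  have hy' := mem_fib.1 hy
  have hF := rowF_eq hij hy'
  set F := rowF i j G0.1 with hFdef
  set A := rowS i j y.1 with hA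
  have hsub : A ⊆ F := hF ▸ rowS_subset_rowF i j y.1
  -- values of the terms
  have key : ∀ k ∈ A, ∀ l ∈ F \ A,
      (tauFn i j k l f y) ^ 2 =
        (1 / 4 : ℝ) * ((f (orbPhi i j G0 A) - f (orbPhi i j G0 (swp A k l))) *
          (f (orbPhi i j G0 A) - f (orbPhi i j G0 (swp A k l)))) ∧
      (tauFn i j l k f y) ^ 2 =
        (1 / 4 : ℝ) * ((f (orbPhi i j G0 A) - f (orbPhi i j G0 (swp A k l))) *
          (f (orbPhi i j G0 A) - f (orbPhi i j G0 (swp A k l)))) := by
    intro k hk l hl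
    have hl' := mem_sdiff.1 hl
    have hkF : k ∈ F := hsub hk
    have hkl : k ≠ l := fun h => hl'.2 (h ▸ hk)
    have h4 : D4 i j k l := d4_of_mem hij hkF hl'.1 hkl
    have h4' : D4 i j l k := d4_of_mem hij hl'.1 hkF hkl.symm
    have hc : IsCenter i j k l y.1 := by
      rw [center_iff_rowS h4, hF]
      exact ⟨⟨hkF, hl'.1⟩, by simp [← hA, hk, hl'.2]⟩
    have hc' : IsCenter i j l k y.1 := by
      rw [center_iff_rowS h4', hF]
      exact ⟨⟨hl'.1, hkF⟩, by simp [← hA, hk, hl'.2]⟩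
    have hσ : togG i j l k y = togG i j k l y := (togG_comm_cols h4 hc hc' h4').symm
    have hphi1 : orbPhi i j G0 A = y := phi_rowS hij hy'
    have hS := rowS_togG h4 hc hk hl'.2
    have hkey : offKey (rowSlots i j) (togG i j k l y) = offKey (rowSlots i j) G0 :=
      ((centerStructure h4).hσp y hc).trans hy'
    have hphi2 : orbPhi i j G0 (swp A k l) = togG i j k l y := by
      have : swp A k l = rowS i j (togG i j k l y).1 := hS.symm
      rw [this]
      exact phi_rowS hij hkey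
    rw [hphi1, hphi2]
    constructor
    · simp only [tauFn, tauOp, hc, if_true]
      ring
    · simp only [tauFn, tauOp, hc', if_true, hσ]
      ring
  set E : Fin n → Fin n → ℝ := fun k l =>
    (f (orbPhi i j G0 A) - f (orbPhi i j G0 (swp A k l))) *
      (f (orbPhi i j G0 A) - f (orbPhi i j G0 (swp A k l))) with hE
  have hV : ∀ k l, 0 ≤ (tauFn i j k l f y) ^ 2 := fun k l => sq_nonneg _
  have s1 : ∑ k ∈ A, ∑ l ∈ F \ A, (tauFn i j k l f y) ^ 2 ≤
      ∑ k ∈ A, ∑ l ∈ F.erase k, (tauFn i j k l f y) ^ 2 := by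
    refine sum_le_sum fun k hk => ?_
    refine sum_le_sum_of_subset_of_nonneg ?_ fun l _ _ => hV k l
    intro l hl
    have hl' := mem_sdiff.1 hl
    exact mem_erase.2 ⟨fun h => hl'.2 (h ▸ hk), hl'.1⟩
  have s2 : ∑ k ∈ F \ A, ∑ l ∈ A, (tauFn i j k l f y) ^ 2 ≤
      ∑ k ∈ F \ A, ∑ l ∈ F.erase k, (tauFn i j k l f y) ^ 2 := by
    refine sum_le_sum fun k hk => ?_
    refine sum_le_sum_of_subset_of_nonneg ?_ fun l _ _ => hV k l
    intro l hl
    have hk' := mem_sdiff.1 hk
    exact mem_erase.2 ⟨fun h => hk'.2 (h ▸ hl), hsub hl⟩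
  have s3 : ∑ k ∈ F, ∑ l ∈ F.erase k, (tauFn i j k l f y) ^ 2 =
      ∑ k ∈ F \ A, ∑ l ∈ F.erase k, (tauFn i j k l f y) ^ 2 +
        ∑ k ∈ A, ∑ l ∈ F.erase k, (tauFn i j k l f y) ^ 2 :=
    (sum_sdiff hsub).symm
  have s4 : ∑ k ∈ A, ∑ l ∈ F \ A, (tauFn i j k l f y) ^ 2 =
      (1 / 4 : ℝ) * ∑ k ∈ A, ∑ l ∈ F \ A, E k l := by
    rw [mul_sum]
    refine sum_congr rfl fun k hk => ?_
    rw [mul_sum]
    exact sum_congr rfl fun l hl => (key k hk l hl).1
  have s5 : ∑ k ∈ F \ A, ∑ l ∈ A, (tauFn i j k l f y) ^ 2 =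
      (1 / 4 : ℝ) * ∑ k ∈ A, ∑ l ∈ F \ A, E k l := by
    rw [sum_comm, mul_sum]
    refine sum_congr rfl fun k hk => ?_
    rw [mul_sum]
    exact sum_congr rfl fun l hl => (key k hk l hl).2
  linarith

/-- The inequality on one orbit. -/
theorem orbit_main (hij : i ≠ j) (G0 : Rz d) (f : Rz d → ℝ) :
    ∑ k, ∑ l, (if D4 i j k l then
        ∑ y ∈ fib (offKey (rowSlots i j)) G0, (crossFn i j k l f y) ^ 2 else 0) ≤
      ∑ k, ∑ l, (if D4 i j k l then
        ∑ y ∈ fib (offKey (rowSlots i j)) G0, (tauFn i j k l f y) ^ 2 else 0) := by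
  set F := rowF i j G0.1 with hF
  set a := (rowS i j G0.1).card with ha'
  set J := powersetCard a F with hJ
  have hT0 : ∀ k l, 0 ≤ (if D4 i j k l then
      ∑ y ∈ fib (offKey (rowSlots i j)) G0, (tauFn i j k l f y) ^ 2 else 0) := by
    intro k l
    split_ifs
    · exact sum_nonneg fun _ _ => sq_nonneg _
    · exact le_rfl
  by_cases htriv : 1 ≤ a ∧ a + 1 ≤ F.card
  · obtain ⟨ha, ham⟩ := htriv
    set M : ℝ := ((F.card - 2).choose (a - 1) : ℝ) with hM
    have hMpos : 0 < M := JohnsonCross.choose_pos_M ha ham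
    set g : Finset (Fin n) → ℝ := fun A => f (orbPhi i j G0 A) with hg
    -- the left side
    have hL0 : ∀ k l, ¬ (k ∈ F ∧ l ∈ F.erase k) → (if D4 i j k l then
        ∑ y ∈ fib (offKey (rowSlots i j)) G0, (crossFn i j k l f y) ^ 2 else 0) = 0 := by
      intro k l hn
      by_cases h : D4 i j k l
      · rw [if_pos h]
        refine sum_eq_zero fun y hy => ?_
        have hc : ¬ IsCenter i j k l y.1 := center_empty hij hy h (by
          intro hh
          exact hn ⟨hh.1, mem_erase.2 ⟨h.kl.symm, hh.2⟩⟩)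
        simp [crossFn, symOp, hc]
      · rw [if_neg h]
    have hL : ∑ k, ∑ l, (if D4 i j k l then
        ∑ y ∈ fib (offKey (rowSlots i j)) G0, (crossFn i j k l f y) ^ 2 else 0) =
        ∑ k ∈ F, ∑ l ∈ F.erase k,
          (∑ A ∈ J, g A * (psi k l A - 2 * M / (F.card.choose a : ℝ))) ^ 2 / (2 * M) := by
      rw [← sum_subset (subset_univ F)]
      · refine sum_congr rfl fun k hk => ?_
        rw [← sum_subset (subset_univ (F.erase k))]
        · refine sum_congr rfl fun l hl => ?_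
          have hl' := mem_erase.1 hl
          have h4 : D4 i j k l := d4_of_mem hij hk hl'.2 hl'.1.symm
          rw [if_pos h4]
          exact orbit_cross_value hij G0 hk hl'.2 hl'.1.symm ha f
        · intro l _ hl
          exact hL0 k l (fun hh => hl hh.2)
      · intro k _ hk
        exact sum_eq_zero fun l _ => hL0 k l (fun hh => hk hh.1)
    -- the right side
    have hR : ∑ k ∈ F, ∑ l ∈ F.erase k,
        (if D4 i j k l then
          ∑ y ∈ fib (offKey (rowSlots i j)) G0, (tauFn i j k l f y) ^ 2 else 0) ≤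
        ∑ k, ∑ l, (if D4 i j k l then
          ∑ y ∈ fib (offKey (rowSlots i j)) G0, (tauFn i j k l f y) ^ 2 else 0) := by
      have h1 : ∀ k ∈ F, ∑ l ∈ F.erase k, (if D4 i j k l then
            ∑ y ∈ fib (offKey (rowSlots i j)) G0, (tauFn i j k l f y) ^ 2 else 0) ≤
          ∑ l, (if D4 i j k l then
            ∑ y ∈ fib (offKey (rowSlots i j)) G0, (tauFn i j k l f y) ^ 2 else 0) := fun k _ =>
        sum_le_sum_of_subset_of_nonneg (subset_univ _) fun l _ _ => hT0 k l
      refine (sum_le_sum h1).trans ?_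
      exact sum_le_sum_of_subset_of_nonneg (subset_univ _) fun k _ _ =>
        sum_nonneg fun l _ => hT0 k l
    have hR2 : ∑ k ∈ F, ∑ l ∈ F.erase k,
        (if D4 i j k l then
          ∑ y ∈ fib (offKey (rowSlots i j)) G0, (tauFn i j k l f y) ^ 2 else 0) =
        ∑ y ∈ fib (offKey (rowSlots i j)) G0, ∑ k ∈ F, ∑ l ∈ F.erase k, (tauFn i j k l f y) ^ 2 := by
      rw [sum_comm]
      refine sum_congr rfl fun k hk => ?_
      rw [sum_comm]
      refine sum_congr rfl fun l hl => ?_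
      have hl' := mem_erase.1 hl
      rw [if_pos (d4_of_mem hij hk hl'.2 hl'.1.symm)]
    have hR3 : (1 / 2 : ℝ) * En F a g g ≤
        ∑ y ∈ fib (offKey (rowSlots i j)) G0, ∑ k ∈ F, ∑ l ∈ F.erase k, (tauFn i j k l f y) ^ 2 := by
      refine le_trans (le_of_eq ?_) (sum_le_sum fun y hy => tau_pointwise hij G0 f hy)
      rw [← mul_sum]
      congr 1
      exact (sum_fib_rowS hij G0 (fun A => ∑ k ∈ A, ∑ l ∈ F \ A,
        (g A - g (swp A k l)) * (g A - g (swp A k l)))).symm
    have hJC := johnson_cross F a ha ham g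
    rw [hL]
    have e : ∑ k ∈ F, ∑ l ∈ F.erase k,
        (∑ A ∈ J, g A * (psi k l A - 2 * M / (F.card.choose a : ℝ))) ^ 2 / (2 * M) =
        (∑ k ∈ F, ∑ l ∈ F.erase k,
          (∑ A ∈ J, g A * (psi k l A - 2 * M / (F.card.choose a : ℝ))) ^ 2) / (2 * M) := by
      rw [sum_div]
      exact sum_congr rfl fun k _ => by rw [sum_div]
    rw [e]
    have h5 : (∑ k ∈ F, ∑ l ∈ F.erase k,
          (∑ A ∈ J, g A * (psi k l A - 2 * M / (F.card.choose a : ℝ))) ^ 2) / (2 * M) ≤
        (1 / 2 : ℝ) * En F a g g := by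
      rw [div_le_iff₀ (by positivity)]
      nlinarith [hJC]
    linarith
  · have hL : ∑ k, ∑ l, (if D4 i j k l then
        ∑ y ∈ fib (offKey (rowSlots i j)) G0, (crossFn i j k l f y) ^ 2 else 0) = 0 := by
      refine sum_eq_zero fun k _ => sum_eq_zero fun l _ => ?_
      by_cases h : D4 i j k l
      · rw [if_pos h]
        refine sum_eq_zero fun y hy => ?_
        have hc : ¬ IsCenter i j k l y.1 := center_empty_trivial hij hy h htriv
        simp [crossFn, symOp, hc]
      · rw [if_neg h]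
    rw [hL]
    exact sum_nonneg fun k _ => sum_nonneg fun l _ => hT0 k l

/-- **The cross sum**: for a row pair, the cross terms over all column pairs are dominated by the
switch energies. -/
theorem cross_sum (hij : i ≠ j) (f : Rz d → ℝ) :
    ∑ k, ∑ l, (if D4 i j k l then ip (crossFn i j k l f) (crossFn i j k l f) else 0) ≤
      ∑ k, ∑ l, (if D4 i j k l then ip (tauFn i j k l f) (tauFn i j k l f) else 0) := by
  have e1 : ∀ (u : Fin n → Fin n → Rz d → ℝ),
      ∑ k, ∑ l, (if D4 i j k l then ip (u k l) (u k l) else 0) =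
        ∑ y, ∑ k, ∑ l, (if D4 i j k l then (u k l y) ^ 2 else 0) := by
    intro u
    symm
    refine sum_comm.trans (sum_congr rfl fun k _ => sum_comm.trans (sum_congr rfl fun l _ => ?_))
    by_cases h : D4 i j k l
    · simp only [if_pos h, ip]
      exact sum_congr rfl fun _ _ => by ring
    · simp [if_neg h]
  rw [e1, e1]
  refine sum_le_of_fib (offKey (rowSlots i j)) fun G0 => ?_
  have e2 : ∀ (u : Fin n → Fin n → Rz d → ℝ),
      ∑ y ∈ fib (offKey (rowSlots i j)) G0, ∑ k, ∑ l, (if D4 i j k l then (u k l y) ^ 2 else 0) =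
        ∑ k, ∑ l, (if D4 i j k l then
          ∑ y ∈ fib (offKey (rowSlots i j)) G0, (u k l y) ^ 2 else 0) := by
    intro u
    refine sum_comm.trans (sum_congr rfl fun k _ => sum_comm.trans (sum_congr rfl fun l _ => ?_))
    by_cases h : D4 i j k l
    · simp only [if_pos h]
    · simp [if_neg h]
  rw [e2, e2]
  exact orbit_main hij G0 f

end Vale.Agent.Lib.P335
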