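import Mathlib

/-!
# P335: the switch chain on simple graphs with given degrees (definitions)

All definitions literally follow the problem file:
`Omega d` is the set of labeled simple graphs on `Fin n` with degree sequence `d`,
`switchChain d` is the transition matrix of the chain `P_d`,
`tvDist` is the total variation distance, and `tmix d` is the mixing time.
-/

namespace Vale.Agent.Lib.P335

open Finset

variable {n : ℕ}

open Classical in
/-- `Omega d`: the labeled simple graphs on `Fin n` having degree `d i` at each vertex `i`. -/
def Omega (d : Fin n → ℕ) : Type :=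
  {G : SimpleGraph (Fin n) // ∀ i, G.degree i = d i}

noncomputable instance (d : Fin n → ℕ) : Fintype (Omega d) := by
  unfold Omega; exact Fintype.ofFinite _

noncomputable instance (d : Fin n → ℕ) : DecidableEq (Omega d) := Classical.decEq _

/-- `d` is graphical: some simple graph has degree `d i` at each vertex `i`. -/
def Graphical (d : Fin n → ℕ) : Prop := Nonempty (Omega d)

open Classical in
/-- The perfect matchings of the complete graph on the vertex set `S`, each given as its
set of edges: sets of non-loop edges inside `S` such that every vertex of `S` lies on exactly one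
of them. -/
noncomputable def perfectMatchings (S : Finset (Fin n)) : Finset (Finset (Sym2 (Fin n))) :=
  S.sym2.powerset.filter fun F => (∀ e ∈ F, ¬ e.IsDiag) ∧ ∀ v ∈ S, ∃! e, e ∈ F ∧ v ∈ e

open Classical in
/-- The move of the chain for an ordered pair `(F, F')` of edge sets: if all edges of `F` are
present and all edges of `F'` are absent, replace `F` by `F'`; otherwise stay put. -/
noncomputable def applyMove (F F' : Finset (Sym2 (Fin n))) (G : SimpleGraph (Fin n)) :
    SimpleGraph (Fin n) :=
  if (∀ e ∈ F, e ∈ G.edgeSet) ∧ (∀ e ∈ F', e ∉ G.edgeSet) then
    SimpleGraph.fromEdgeSet ((G.edgeSet \ (F : Set (Sym2 (Fin n)))) ∪ (F' : Set (Sym2 (Fin n))))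
  else G

open Classical in
/-- The transition matrix of the switch chain `P_d`: with probability `1/2` stay put; otherwise
choose a `4`-element set `S` uniformly, then one of the six ordered pairs `(F, F')` of distinct
perfect matchings of the complete graph on `S` uniformly, and apply the move for `(F, F')`. -/
noncomputable def switchChain (d : Fin n → ℕ) : Matrix (Omega d) (Omega d) ℝ :=
  fun G G' =>
    (if G = G' then (1 / 2 : ℝ) else 0) +
      (1 / 2 : ℝ) * ((1 / (Nat.choose n 4 : ℝ)) *
        ∑ S ∈ powersetCard 4 (univ : Finset (Fin n)),
          ((1 / 6 : ℝ) * ∑ p ∈ (perfectMatchings S).offDiag,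
            if applyMove p.1 p.2 G.1 = G'.1 then (1 : ℝ) else 0))

/-- Total variation distance of two functions on a finite set (half of the `ℓ¹` distance). -/
noncomputable def tvDist {Ω : Type} [Fintype Ω] (μ ν : Ω → ℝ) : ℝ :=
  (1 / 2 : ℝ) * ∑ x, |μ x - ν x|

/-- The uniform distribution on `Omega d`. -/
noncomputable def uniformDist (d : Fin n → ℕ) : Omega d → ℝ :=
  fun _ => 1 / (Fintype.card (Omega d) : ℝ)

/-- `t` is a good time: from every start the distribution at time `t` is within total variation
distance `1/4` of uniform. -/
def MixedAt (d : Fin n → ℕ) (t : ℕ) : Prop :=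
  ∀ G : Omega d, tvDist ((switchChain d ^ t) G) (uniformDist d) ≤ 1 / 4

/-- The mixing time `t_mix(d)`: the least `t` with `MixedAt d t`. -/
noncomputable def tmix (d : Fin n → ℕ) : ℕ := sInf {t : ℕ | MixedAt d t}

end Vale.Agent.Lib.P335
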