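import Vale.Agent.Lib.P335.CrossSum

/-!
The sum over all ordered disjoint row pairs of the mixed inner products is nonnegative.
-/

namespace Vale.Agent.Lib.P335

open Finset

variable {n : ℕ} {d : Fin n → ℕ}

lemma center_swap (i j k l : Fin n) (E : Gr n) : IsCenter k l i j E ↔ IsCenter i j k l E := by
  unfold IsCenter
  simp only [Sym2.eq_swap (a := k) (b := i), Sym2.eq_swap (a := k) (b := j),
    Sym2.eq_swap (a := l) (b := i), Sym2.eq_swap (a := l) (b := j)]
  tauto

lemma togG_swap {i j k l : Fin n} (h : D4 i j k l) {G : Rz d} (hc : IsCenter i j k l G.1) :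
    togG k l i j G = togG i j k l G := by
  apply Subtype.ext
  rw [togG_val h hc, togG_val h.swap ((center_swap i j k l G.1).2 hc)]
  unfold toggleBlock
  rw [blockSlots_swap]

/-- The second cross term of the pair inequality is the first one for the swapped pairs. -/
lemma crossTerm_swap {i j k l : Fin n} (h : D4 i j k l) (f : Rz d → ℝ) :
    crossTerm (fun G : Rz d => IsCenter i j k l G.1) (togG i j k l)
        (offKey (outerSlots k l i j)) (offKey (rowSlots k l)) f =
      ip (crossFn k l i j f) (crossFn k l i j f) := by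
  have : symOp (fun G : Rz d => IsCenter i j k l G.1) (togG i j k l)
      (avg (offKey (outerSlots k l i j)) (coavg (offKey (rowSlots k l)) f)) = crossFn k l i j f := by
    funext x
    unfold crossFn symOp
    by_cases hc : IsCenter i j k l x.1
    · rw [if_pos hc, if_pos ((center_swap i j k l x.1).2 hc), togG_swap h hc]
    · rw [if_neg hc, if_neg (fun h' => hc ((center_swap i j k l x.1).1 h'))]
  unfold crossTerm
  rw [this]

lemma d4_swap_iff (i j k l : Fin n) : D4 k l i j ↔ D4 i j k l :=
  ⟨fun h => h.swap, fun h => h.swap⟩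

/-- Swapping the two pairs in a fourfold sum. -/
lemma sum4_swap (h : Fin n → Fin n → Fin n → Fin n → ℝ) :
    ∑ i, ∑ j, ∑ k, ∑ l, h k l i j = ∑ i, ∑ j, ∑ k, ∑ l, h i j k l := by
  calc ∑ i, ∑ j, ∑ k, ∑ l, h k l i j
      = ∑ i, ∑ k, ∑ j, ∑ l, h k l i j := sum_congr rfl fun i _ => sum_comm
    _ = ∑ k, ∑ i, ∑ j, ∑ l, h k l i j := sum_comm
    _ = ∑ k, ∑ i, ∑ l, ∑ j, h k l i j :=
        sum_congr rfl fun k _ => sum_congr rfl fun i _ => sum_comm
    _ = ∑ k, ∑ l, ∑ i, ∑ j, h k l i j := sum_congr rfl fun k _ => sum_comm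

/-- **The disjoint part is nonnegative.** -/
theorem disj_nonneg (f : Rz d → ℝ) :
    0 ≤ ∑ i, ∑ j, ∑ k, ∑ l, (if D4 i j k l then ip (rowProj i j f) (rowProj k l f) else 0) := by
  set T : Fin n → Fin n → Fin n → Fin n → ℝ := fun i j k l =>
    if D4 i j k l then ip (tauFn i j k l f) (tauFn i j k l f) else 0 with hT
  set X : Fin n → Fin n → Fin n → Fin n → ℝ := fun i j k l =>
    if D4 i j k l then ip (crossFn i j k l f) (crossFn i j k l f) else 0 with hX
  set P : Fin n → Fin n → Fin n → Fin n → ℝ := fun i j k l =>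
    if D4 i j k l then ip (rowProj i j f) (rowProj k l f) else 0 with hP
  have hpoint : ∀ i j k l, 2 * T i j k l ≤ 2 * P i j k l + X i j k l + X k l i j := by
    intro i j k l
    simp only [hT, hX, hP]
    by_cases h : D4 i j k l
    · rw [if_pos h, if_pos h, if_pos h, if_pos h.swap]
      have := pair_ineq h f
      rw [crossTerm_swap h f] at this
      exact this
    · rw [if_neg h, if_neg h, if_neg h, if_neg (fun h' => h h'.swap)]
      simp
  have hcross : ∑ i, ∑ j, ∑ k, ∑ l, X i j k l ≤ ∑ i, ∑ j, ∑ k, ∑ l, T i j k l := by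
    refine sum_le_sum fun i _ => sum_le_sum fun j _ => ?_
    by_cases hij : i = j
    · subst hij
      have h0 : ∀ k l, ¬ D4 i i k l := fun k l h => h.ij rfl
      simp [hX, hT, h0]
    · exact cross_sum hij f
  have hswap : ∑ i, ∑ j, ∑ k, ∑ l, X k l i j = ∑ i, ∑ j, ∑ k, ∑ l, X i j k l := sum4_swap X
  have hsum : ∑ i, ∑ j, ∑ k, ∑ l, (2 * T i j k l) ≤
      ∑ i, ∑ j, ∑ k, ∑ l, (2 * P i j k l + X i j k l + X k l i j) :=
    sum_le_sum fun i _ => sum_le_sum fun j _ => sum_le_sum fun k _ => sum_le_sum fun l _ =>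
      hpoint i j k l
  simp only [sum_add_distrib, ← mul_sum] at hsum
  linarith

end Vale.Agent.Lib.P335
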