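import Vale.Agent.Lib.P335.SplitDefs

namespace Vale.Agent.Lib.P335

open Finset

set_option linter.unusedSectionVars false

section Chain

variable {X T : Type*} [Fintype X] [DecidableEq X] [DecidableEq T]

variable {τ : Finset T} {step : X → T → X} {conj : T → T} {Ω : Finset X}

/-- Adjointness of the averaging operator, from reversibility of moves. -/
lemma move_adj (hconj : ∀ t ∈ τ, conj t ∈ τ ∧ conj (conj t) = t)
    (hΩ : ∀ x ∈ Ω, ∀ t ∈ τ, step x t ∈ Ω)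
    (hrev : ∀ x ∈ Ω, ∀ t ∈ τ, step x t ≠ x → step (step x t) (conj t) = x) (g f : X → ℝ) :
    ∑ x ∈ Ω, ∑ t ∈ τ, g x * f (step x t) = ∑ x ∈ Ω, ∑ t ∈ τ, g (step x t) * f x := by
  rw [← sub_eq_zero, ← Finset.sum_sub_distrib]
  simp_rw [← Finset.sum_sub_distrib]
  rw [← Finset.sum_product']
  apply Finset.sum_involution
    (fun (p : X × T) _ => if step p.1 p.2 ≠ p.1 then (step p.1 p.2, conj p.2) else p)
  · rintro ⟨x, t⟩ hp
    obtain ⟨hx, ht⟩ := mem_product.1 hp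
    simp only at hx ht
    by_cases h : step x t = x
    · simp [h]
    · simp only [ne_eq, h, not_false_eq_true, if_true]
      rw [hrev x hx t ht h]
      ring
  · rintro ⟨x, t⟩ hp hne
    by_cases h : step x t = x
    · exfalso
      apply hne
      simp [h]
    · simp only [ne_eq, h, not_false_eq_true, if_true]
      intro he
      exact h (congrArg Prod.fst he)
  · rintro ⟨x, t⟩ hp
    obtain ⟨hx, ht⟩ := mem_product.1 hp
    simp only at hx ht
    by_cases h : step x t = x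
    · simp only [h, ne_eq, not_true_eq_false, if_false]
      exact mem_product.2 ⟨hx, ht⟩
    · simp only [ne_eq, h, not_false_eq_true, if_true]
      exact mem_product.2 ⟨hΩ x hx t ht, (hconj t ht).1⟩
  · rintro ⟨x, t⟩ hp
    obtain ⟨hx, ht⟩ := mem_product.1 hp
    simp only at hx ht
    by_cases h : step x t = x
    · simp [h]
    · have h1 := hrev x hx t ht h
      have h3 : ¬ x = step x t := fun he => h he.symm
      simp only [ne_eq, h, not_false_eq_true, if_true, h1, h3, (hconj t ht).2]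

/-- The averaging operator. -/
noncomputable def lazyOp (τ : Finset T) (step : X → T → X) (g : X → ℝ) (x : X) : ℝ :=
  (1 / 2) * g x + (1 / 2) * ((∑ t ∈ τ, g (step x t)) / (τ.card : ℝ))

/-- Double stochasticity. -/
lemma move_sum (hconj : ∀ t ∈ τ, conj t ∈ τ ∧ conj (conj t) = t)
    (hΩ : ∀ x ∈ Ω, ∀ t ∈ τ, step x t ∈ Ω)
    (hrev : ∀ x ∈ Ω, ∀ t ∈ τ, step x t ≠ x → step (step x t) (conj t) = x) (h : X → ℝ) :
    ∑ x ∈ Ω, ∑ t ∈ τ, h (step x t) = (τ.card : ℝ) * ∑ x ∈ Ω, h x := by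
  have := move_adj hconj hΩ hrev (fun _ => 1) h
  simp only [one_mul] at this
  rw [this]
  have h2 := move_adj hconj hΩ hrev h (fun _ => 1)
  simp only [mul_one] at h2
  rw [Finset.mul_sum]
  apply Finset.sum_congr rfl
  intro x _
  rw [Finset.sum_const, nsmul_eq_mul]

/-- One step of the law is the operator, on `Ω`. -/
lemma law_step (hconj : ∀ t ∈ τ, conj t ∈ τ ∧ conj (conj t) = t)
    (hΩ : ∀ x ∈ Ω, ∀ t ∈ τ, step x t ∈ Ω)
    (hrev : ∀ x ∈ Ω, ∀ t ∈ τ, step x t ≠ x → step (step x t) (conj t) = x)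
    (μ : X → ℝ) (hμ : ∀ x, x ∉ Ω → μ x = 0) {y : X} (hy : y ∈ Ω) :
    ∑ z, μ z * lazyKernel τ step z y = lazyOp τ step μ y := by
  have hrestrict : ∑ z, μ z * lazyKernel τ step z y = ∑ z ∈ Ω, μ z * lazyKernel τ step z y := by
    symm
    apply Finset.sum_subset (subset_univ _)
    intro z _ hz
    rw [hμ z hz, zero_mul]
  rw [hrestrict]
  unfold lazyKernel lazyOp
  have hcount : ∀ z, ((τ.filter (fun t => step z t = y)).card : ℝ)
      = ∑ t ∈ τ, (if step z t = y then (1 : ℝ) else 0) := by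
    intro z
    rw [Finset.card_filter]
    push_cast
    rfl
  have hadj := move_adj hconj hΩ hrev μ (fun z => if z = y then (1 : ℝ) else 0)
  have h1 : ∑ z ∈ Ω, ∑ t ∈ τ, μ (step z t) * (if z = y then (1 : ℝ) else 0)
      = ∑ t ∈ τ, μ (step y t) := by
    have : ∀ z ∈ Ω, ∑ t ∈ τ, μ (step z t) * (if z = y then (1 : ℝ) else 0)
        = if z = y then ∑ t ∈ τ, μ (step y t) else 0 := by
      intro z _
      by_cases hz : z = y
      · subst hz
        simp
      · simp [hz]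
    rw [Finset.sum_congr rfl this, Finset.sum_ite_eq' Ω y, if_pos hy]
  rw [h1] at hadj
  have h2 : ∑ z ∈ Ω, μ z * ((1 / 2) * (if z = y then 1 else 0)
      + (1 / 2) * (((τ.filter (fun t => step z t = y)).card : ℝ) / (τ.card : ℝ)))
      = (1 / 2) * μ y + (1 / 2) * ((∑ z ∈ Ω, ∑ t ∈ τ, μ z * (if step z t = y then (1 : ℝ) else 0))
          / (τ.card : ℝ)) := by
    have h3 : ∑ z ∈ Ω, μ z * ((1 / 2) * (if z = y then 1 else 0)) = (1 / 2) * μ y := by
      have : ∀ z ∈ Ω, μ z * ((1 / 2) * (if z = y then 1 else 0))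
          = if z = y then (1 / 2) * μ y else 0 := by
        intro z _
        by_cases hz : z = y
        · subst hz
          simp
          ring
        · simp [hz]
      rw [Finset.sum_congr rfl this, Finset.sum_ite_eq' Ω y, if_pos hy]
    simp_rw [mul_add]
    rw [Finset.sum_add_distrib, h3, Finset.sum_div, Finset.mul_sum]
    congr 1
    apply Finset.sum_congr rfl
    intro z _
    rw [hcount z, ← Finset.mul_sum]
    ring
  rw [h2, hadj]

/-- Contraction in the quadratic mean. -/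
lemma lazy_contract (hconj : ∀ t ∈ τ, conj t ∈ τ ∧ conj (conj t) = t)
    (hΩ : ∀ x ∈ Ω, ∀ t ∈ τ, step x t ∈ Ω)
    (hrev : ∀ x ∈ Ω, ∀ t ∈ τ, step x t ≠ x → step (step x t) (conj t) = x)
    (hτ : τ.Nonempty) (f : X → ℝ) :
    ∑ x ∈ Ω, (lazyOp τ step f x) ^ 2
      ≤ ∑ x ∈ Ω, (f x) ^ 2
        - (∑ x ∈ Ω, ∑ t ∈ τ, (f x - f (step x t)) ^ 2) / (4 * (τ.card : ℝ)) := by
  have hn : 0 < (τ.card : ℝ) := by exact_mod_cast Finset.card_pos.2 hτ
  set N : ℝ := (τ.card : ℝ) with hN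
  set Qf : X → ℝ := fun x => (∑ t ∈ τ, f (step x t)) / N with hQf
  -- Jensen
  have hJ : ∀ x, (Qf x) ^ 2 ≤ (∑ t ∈ τ, (f (step x t)) ^ 2) / N := by
    intro x
    simp only [hQf]
    rw [div_pow, div_le_div_iff₀ (by positivity) hn]
    have hcs := Finset.sum_mul_sq_le_sq_mul_sq τ (fun _ => (1 : ℝ)) (fun t => f (step x t))
    simp only [one_mul, one_pow, Finset.sum_const, nsmul_eq_mul, mul_one] at hcs
    rw [← hN] at hcs
    nlinarith [hcs]
  have hsq := move_sum hconj hΩ hrev (fun x => (f x) ^ 2)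
  rw [← hN] at hsq
  have hQsq : ∑ x ∈ Ω, (Qf x) ^ 2 ≤ ∑ x ∈ Ω, (f x) ^ 2 := by
    calc ∑ x ∈ Ω, (Qf x) ^ 2 ≤ ∑ x ∈ Ω, (∑ t ∈ τ, (f (step x t)) ^ 2) / N :=
          Finset.sum_le_sum (fun x _ => hJ x)
      _ = (∑ x ∈ Ω, ∑ t ∈ τ, (f (step x t)) ^ 2) / N := by rw [Finset.sum_div]
      _ = ∑ x ∈ Ω, (f x) ^ 2 := by
          rw [hsq]
          field_simp
  set S₂ : ℝ := ∑ x ∈ Ω, (f x) ^ 2 with hS₂
  set Cr : ℝ := ∑ x ∈ Ω, f x * Qf x with hCr
  have hD : ∑ x ∈ Ω, ∑ t ∈ τ, (f x - f (step x t)) ^ 2 = 2 * N * S₂ - 2 * N * Cr := by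
    have h1 : ∀ x ∈ Ω, ∑ t ∈ τ, (f x - f (step x t)) ^ 2
        = N * (f x) ^ 2 - 2 * N * (f x * Qf x) + ∑ t ∈ τ, (f (step x t)) ^ 2 := by
      intro x _
      have e : ∀ t ∈ τ, (f x - f (step x t)) ^ 2
          = (f x) ^ 2 - 2 * (f x * f (step x t)) + (f (step x t)) ^ 2 := by
        intro t _
        ring
      rw [Finset.sum_congr rfl e, Finset.sum_add_distrib, Finset.sum_sub_distrib, Finset.sum_const,
        nsmul_eq_mul, ← Finset.mul_sum, ← Finset.mul_sum]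
      simp only [hQf]
      rw [← hN]
      field_simp
    rw [Finset.sum_congr rfl h1, Finset.sum_add_distrib, Finset.sum_sub_distrib, hsq,
      ← Finset.mul_sum, ← Finset.mul_sum, ← hS₂, ← hCr]
    ring
  have hP : ∑ x ∈ Ω, (lazyOp τ step f x) ^ 2 = (1 / 4) * S₂ + (1 / 2) * Cr
      + (1 / 4) * ∑ x ∈ Ω, (Qf x) ^ 2 := by
    rw [hS₂, hCr, Finset.mul_sum, Finset.mul_sum, Finset.mul_sum, ← Finset.sum_add_distrib,
      ← Finset.sum_add_distrib]
    apply Finset.sum_congr rfl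
    intro x _
    unfold lazyOp
    simp only [hQf]
    rw [← hN]
    ring
  rw [hP, hD]
  have e3 : (2 * N * S₂ - 2 * N * Cr) / (4 * N) = (1 / 2) * S₂ - (1 / 2) * Cr := by
    field_simp
    ring
  rw [e3]
  linarith

lemma lazyOp_sum (hconj : ∀ t ∈ τ, conj t ∈ τ ∧ conj (conj t) = t)
    (hΩ : ∀ x ∈ Ω, ∀ t ∈ τ, step x t ∈ Ω)
    (hrev : ∀ x ∈ Ω, ∀ t ∈ τ, step x t ≠ x → step (step x t) (conj t) = x)
    (hτ : τ.Nonempty) (f : X → ℝ) :
    ∑ x ∈ Ω, lazyOp τ step f x = ∑ x ∈ Ω, f x := by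
  have hn : 0 < (τ.card : ℝ) := by exact_mod_cast Finset.card_pos.2 hτ
  unfold lazyOp
  rw [Finset.sum_add_distrib, ← Finset.mul_sum, ← Finset.mul_sum, ← Finset.sum_div,
    move_sum hconj hΩ hrev f]
  field_simp
  ring

lemma lazyOp_const (hτ : τ.Nonempty) (f : X → ℝ) (u : ℝ) (x : X) :
    lazyOp τ step (fun y => f y - u) x = lazyOp τ step f x - u := by
  have hn : 0 < (τ.card : ℝ) := by exact_mod_cast Finset.card_pos.2 hτ
  unfold lazyOp
  rw [Finset.sum_sub_distrib, Finset.sum_const, nsmul_eq_mul]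
  field_simp
  ring

/-- Abstract mixing estimate from a Poincare inequality. -/
theorem tv_bound (hconj : ∀ t ∈ τ, conj t ∈ τ ∧ conj (conj t) = t)
    (hΩ : ∀ x ∈ Ω, ∀ t ∈ τ, step x t ∈ Ω)
    (hrev : ∀ x ∈ Ω, ∀ t ∈ τ, step x t ≠ x → step (step x t) (conj t) = x)
    (hτ : τ.Nonempty) {c₀ : ℝ}
    (hP : ∀ f : X → ℝ, ∑ x ∈ Ω, f x = 0 →
      c₀ * ∑ x ∈ Ω, (f x) ^ 2 ≤ ∑ x ∈ Ω, ∑ t ∈ τ, (f x - f (step x t)) ^ 2)
    (hρ : 0 ≤ 1 - c₀ / (4 * (τ.card : ℝ))) {x₀ : X} (hx₀ : x₀ ∈ Ω) (k : ℕ) :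
    (tvUnif τ step Ω k x₀) ^ 2 ≤ (1 / 4) * (Ω.card : ℝ) * (1 - c₀ / (4 * (τ.card : ℝ))) ^ k := by
  have hn : 0 < (τ.card : ℝ) := by exact_mod_cast Finset.card_pos.2 hτ
  have hΩne : 0 < (Ω.card : ℝ) := by exact_mod_cast Finset.card_pos.2 ⟨x₀, hx₀⟩
  set ρ := 1 - c₀ / (4 * (τ.card : ℝ)) with hρdef
  set u : ℝ := 1 / (Ω.card : ℝ) with hu
  -- support
  have hsupp : ∀ j, ∀ y, y ∉ Ω → kernelPow τ step j x₀ y = 0 := by
    intro j
    induction j with
    | zero =>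
      intro y hy
      have : x₀ ≠ y := fun h => hy (h ▸ hx₀)
      simp [kernelPow, this]
    | succ j ih =>
      intro y hy
      simp only [kernelPow]
      apply Finset.sum_eq_zero
      intro z _
      by_cases hz : z ∈ Ω
      · have h1 : z ≠ y := fun h => hy (h ▸ hz)
        have h2 : τ.filter (fun t => step z t = y) = ∅ := by
          apply Finset.filter_eq_empty_iff.2
          intro t ht he
          exact hy (he ▸ hΩ z hz t ht)
        simp [lazyKernel, h1, h2]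
      · rw [ih z hz, zero_mul]
  -- the defect functions
  set F : ℕ → X → ℝ := fun j y => kernelPow τ step j x₀ y - u with hF
  have hFstep : ∀ j, ∀ y ∈ Ω, F (j + 1) y = lazyOp τ step (F j) y := by
    intro j y hy
    simp only [hF]
    rw [lazyOp_const hτ]
    congr 1
    exact law_step hconj hΩ hrev _ (hsupp j) hy
  have hFcongr : ∀ (g₁ g₂ : X → ℝ), (∀ y ∈ Ω, g₁ y = g₂ y) →
      ∀ y ∈ Ω, lazyOp τ step g₁ y = lazyOp τ step g₂ y := by
    intro g₁ g₂ h y hy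
    unfold lazyOp
    rw [h y hy]
    congr 3
    apply Finset.sum_congr rfl
    intro t ht
    exact h _ (hΩ y hy t ht)
  have hmean : ∀ j, ∑ y ∈ Ω, F j y = 0 := by
    intro j
    induction j with
    | zero =>
      simp only [hF, kernelPow]
      rw [Finset.sum_sub_distrib, Finset.sum_ite_eq Ω x₀, if_pos hx₀, Finset.sum_const,
        nsmul_eq_mul, hu]
      field_simp
      ring
    | succ j ih =>
      rw [Finset.sum_congr rfl (hFstep j), lazyOp_sum hconj hΩ hrev hτ, ih]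
  have hdecay : ∀ j, ∑ y ∈ Ω, (F j y) ^ 2 ≤ ρ ^ j := by
    intro j
    induction j with
    | zero =>
      simp only [hF, kernelPow, pow_zero]
      have e : ∀ y ∈ Ω, ((if x₀ = y then (1 : ℝ) else 0) - u) ^ 2
          = u ^ 2 + (if x₀ = y then 1 - 2 * u else 0) := by
        intro y _
        by_cases h : x₀ = y
        · simp [h]
          ring
        · simp [h]
      rw [Finset.sum_congr rfl e, Finset.sum_add_distrib, Finset.sum_ite_eq Ω x₀, if_pos hx₀,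
        Finset.sum_const, nsmul_eq_mul, hu]
      have h1 : (Ω.card : ℝ) * (1 / (Ω.card : ℝ)) ^ 2 = 1 / (Ω.card : ℝ) := by
        field_simp
      rw [h1]
      have h2 : 0 < 1 / (Ω.card : ℝ) := by positivity
      linarith
    | succ j ih =>
      have h1 : ∑ y ∈ Ω, (F (j + 1) y) ^ 2 = ∑ y ∈ Ω, (lazyOp τ step (F j) y) ^ 2 :=
        Finset.sum_congr rfl (fun y hy => by rw [hFstep j y hy])
      rw [h1]
      have h2 := lazy_contract hconj hΩ hrev hτ (F j)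
      have h3 := hP (F j) (hmean j)
      have h4 : (∑ x ∈ Ω, ∑ t ∈ τ, (F j x - F j (step x t)) ^ 2) / (4 * (τ.card : ℝ))
          ≥ c₀ / (4 * (τ.card : ℝ)) * ∑ y ∈ Ω, (F j y) ^ 2 := by
        rw [ge_iff_le, div_mul_eq_mul_div]
        exact div_le_div_of_nonneg_right h3 (by positivity)
      calc ∑ y ∈ Ω, (lazyOp τ step (F j) y) ^ 2
          ≤ ∑ y ∈ Ω, (F j y) ^ 2 - c₀ / (4 * (τ.card : ℝ)) * ∑ y ∈ Ω, (F j y) ^ 2 := by linarith
        _ = ρ * ∑ y ∈ Ω, (F j y) ^ 2 := by rw [hρdef]; ring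
        _ ≤ ρ * ρ ^ j := mul_le_mul_of_nonneg_left ih hρ
        _ = ρ ^ (j + 1) := by ring
  -- Cauchy-Schwarz
  unfold tvUnif
  rw [mul_pow]
  have hcs := Finset.sum_mul_sq_le_sq_mul_sq Ω (fun _ => (1 : ℝ)) (fun y => |F k y|)
  simp only [one_mul, one_pow, Finset.sum_const, nsmul_eq_mul, mul_one, sq_abs] at hcs
  have h5 : (∑ y ∈ Ω, |kernelPow τ step k x₀ y - 1 / (Ω.card : ℝ)|) ^ 2
      ≤ (Ω.card : ℝ) * ρ ^ k := by
    calc _ = (∑ y ∈ Ω, |F k y|) ^ 2 := rfl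
      _ ≤ (Ω.card : ℝ) * ∑ y ∈ Ω, (F k y) ^ 2 := hcs
      _ ≤ _ := mul_le_mul_of_nonneg_left (hdecay k) hΩne.le
  nlinarith [h5]

end Chain

end Vale.Agent.Lib.P335
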