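import Vale.Agent.Lib.P335.Poincare
import Vale.Agent.Lib.P335.Mixing

namespace Vale.Agent.Lib.P335

open Finset Equiv

set_option linter.unusedSectionVars false
set_option linter.unusedSimpArgs false

section Step

variable {n : ℕ}

lemma graphStep_fire {G : SimpleGraph (Fin n)} {a b c e : Fin n}
    (h : G.Adj a b ∧ G.Adj c e ∧ ¬ G.Adj a c ∧ ¬ G.Adj b e) :
    graphStep G (a, b, c, e)
      = SimpleGraph.fromEdgeSet ((G.edgeSet \ {s(a, b), s(c, e)}) ∪ {s(a, c), s(b, e)}) := by
  unfold graphStep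
  simp only
  rw [if_pos h]

lemma graphStep_stay {G : SimpleGraph (Fin n)} {a b c e : Fin n}
    (h : ¬ (G.Adj a b ∧ G.Adj c e ∧ ¬ G.Adj a c ∧ ¬ G.Adj b e)) :
    graphStep G (a, b, c, e) = G := by
  unfold graphStep
  simp only
  rw [if_neg h]

lemma graphStep_adj {G : SimpleGraph (Fin n)} {a b c e : Fin n} (hac : a ≠ c) (hbe : b ≠ e)
    (h : G.Adj a b ∧ G.Adj c e ∧ ¬ G.Adj a c ∧ ¬ G.Adj b e) (u v : Fin n) :
    (graphStep G (a, b, c, e)).Adj u v ↔
      (G.Adj u v ∧ s(u, v) ≠ s(a, b) ∧ s(u, v) ≠ s(c, e)) ∨ s(u, v) = s(a, c) ∨ s(u, v) = s(b, e) := by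
  rw [graphStep_fire h, SimpleGraph.fromEdgeSet_adj]
  simp only [Set.mem_union, Set.mem_sdiff, SimpleGraph.mem_edgeSet, Set.mem_insert_iff,
    Set.mem_singleton_iff, not_or]
  constructor
  · rintro ⟨h1 | h1, _⟩
    · exact Or.inl h1
    · exact Or.inr h1
  · intro h1
    rcases h1 with h1 | h1 | h1
    · exact ⟨Or.inl h1, h1.1.ne⟩
    · refine ⟨Or.inr (Or.inl h1), ?_⟩
      intro huv
      subst huv
      rw [eq_comm, Sym2.eq_iff] at h1
      rcases h1 with ⟨h2, h3⟩ | ⟨h2, h3⟩
      · exact hac (h2.trans h3.symm)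
      · exact hac (h2.trans h3.symm)
    · refine ⟨Or.inr (Or.inr h1), ?_⟩
      intro huv
      subst huv
      rw [eq_comm, Sym2.eq_iff] at h1
      rcases h1 with ⟨h2, h3⟩ | ⟨h2, h3⟩
      · exact hbe (h2.trans h3.symm)
      · exact hbe (h2.trans h3.symm)

lemma gdeg_swap_one {G G' : SimpleGraph (Fin n)} {v r p : Fin n} (hr : G.Adj v r)
    (hp : ¬ G.Adj v p) (h : ∀ w, G'.Adj v w ↔ (G.Adj v w ∧ w ≠ r) ∨ w = p) :
    gdeg G' v = gdeg G v := by
  classical
  unfold gdeg
  have hset : (univ.filter (fun w => G'.Adj v w))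
      = insert p ((univ.filter (fun w => G.Adj v w)).erase r) := by
    ext w
    simp only [mem_filter, mem_univ, true_and, mem_insert, mem_erase, h]
    tauto
  have hmem : r ∈ univ.filter (fun w => G.Adj v w) := by simp [hr]
  have hnot : p ∉ (univ.filter (fun w => G.Adj v w)).erase r := by
    simp [hp]
  have hpos : 0 < (univ.filter (fun w => G.Adj v w)).card := Finset.card_pos.2 ⟨r, hmem⟩
  rw [show (univ.filter (fun w => G'.Adj v w)) = _ from hset, card_insert_of_notMem hnot,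
    card_erase_of_mem hmem]
  omega

lemma gdeg_congr {G G' : SimpleGraph (Fin n)} {v : Fin n} (h : ∀ w, G'.Adj v w ↔ G.Adj v w) :
    gdeg G' v = gdeg G v := by
  classical
  unfold gdeg
  congr 1
  ext w
  simp [h]

/-- Membership in the tuple set. -/
lemma mem_fourTuples {a b c e : Fin n} :
    (a, b, c, e) ∈ fourTuples n ↔ a ≠ b ∧ a ≠ c ∧ a ≠ e ∧ b ≠ c ∧ b ≠ e ∧ c ≠ e := by
  simp [fourTuples]

/-- A switch keeps all degrees. -/
lemma gdeg_graphStep {G : SimpleGraph (Fin n)} {t : Fin n × Fin n × Fin n × Fin n}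
    (ht : t ∈ fourTuples n) (v : Fin n) : gdeg (graphStep G t) v = gdeg G v := by
  classical
  obtain ⟨a, b, c, e⟩ := t
  obtain ⟨hab, hac, hae, hbc, hbe, hce⟩ := mem_fourTuples.1 ht
  by_cases h : G.Adj a b ∧ G.Adj c e ∧ ¬ G.Adj a c ∧ ¬ G.Adj b e
  · obtain ⟨h1, h2, h3, h4⟩ := h
    have hadj := graphStep_adj hac hbe ⟨h1, h2, h3, h4⟩
    by_cases hva : v = a
    · subst hva
      apply gdeg_swap_one (r := b) (p := c) h1 h3
      intro w
      rw [hadj]
      simp only [ne_eq, Sym2.eq_iff]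
      simp [hab, hac, hae]
    · by_cases hvb : v = b
      · subst hvb
        apply gdeg_swap_one (r := a) (p := e) h1.symm h4
        intro w
        rw [hadj]
        simp only [ne_eq, Sym2.eq_iff]
        simp [hab.symm, hbc, hbe]
      · by_cases hvc : v = c
        · subst hvc
          apply gdeg_swap_one (r := e) (p := a) h2 (fun h' => h3 h'.symm)
          intro w
          rw [hadj]
          simp only [ne_eq, Sym2.eq_iff]
          simp [hac.symm, hbc.symm, hce]
        · by_cases hve : v = e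
          · subst hve
            apply gdeg_swap_one (r := c) (p := b) h2.symm (fun h' => h4 h'.symm)
            intro w
            rw [hadj]
            simp only [ne_eq, Sym2.eq_iff]
            simp [hae.symm, hbe.symm, hce.symm]
          · apply gdeg_congr
            intro w
            rw [hadj]
            simp only [ne_eq, Sym2.eq_iff]
            simp [hva, hvb, hvc, hve]
  · rw [graphStep_stay h]

/-- A fired switch is undone by the conjugate tuple. -/
lemma graphStep_rev {G : SimpleGraph (Fin n)} {t : Fin n × Fin n × Fin n × Fin n}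
    (ht : t ∈ fourTuples n) (hne : graphStep G t ≠ G) :
    graphStep (graphStep G t) (t.1, t.2.2.1, t.2.1, t.2.2.2) = G := by
  classical
  obtain ⟨a, b, c, e⟩ := t
  obtain ⟨hab, hac, hae, hbc, hbe, hce⟩ := mem_fourTuples.1 ht
  simp only at hne ⊢
  by_cases h : G.Adj a b ∧ G.Adj c e ∧ ¬ G.Adj a c ∧ ¬ G.Adj b e
  · have hadj := graphStep_adj hac hbe h
    obtain ⟨h1, h2, h3, h4⟩ := h
    have hab' : ¬ (graphStep G (a, b, c, e)).Adj a b := by
      rw [hadj]
      simp only [ne_eq, Sym2.eq_iff]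
      simp [hab, hac, hae, hbc, hbe, hce, hab.symm, hac.symm, hae.symm]
    have hce' : ¬ (graphStep G (a, b, c, e)).Adj c e := by
      rw [hadj]
      simp only [ne_eq, Sym2.eq_iff]
      simp [hab, hac, hae, hbc, hbe, hce, hbc.symm, hbe.symm, hce.symm, hac.symm, hae.symm]
    have hac' : (graphStep G (a, b, c, e)).Adj a c := by
      rw [hadj]
      exact Or.inr (Or.inl rfl)
    have hbe' : (graphStep G (a, b, c, e)).Adj b e := by
      rw [hadj]
      exact Or.inr (Or.inr rfl)
    have hadj' := graphStep_adj (G := graphStep G (a, b, c, e)) (a := a) (b := c) (c := b) (e := e)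
      hab hce ⟨hac', hbe', hab', hce'⟩
    ext u v
    rw [hadj', hadj]
    have hE : ∀ p : Sym2 (Fin n), ((p ∈ G.edgeSet ∧ p ≠ s(a, b) ∧ p ≠ s(c, e)) ∨ p = s(a, c) ∨ p = s(b, e))
        ∧ p ≠ s(a, c) ∧ p ≠ s(b, e) ∨ p = s(a, b) ∨ p = s(c, e) ↔ p ∈ G.edgeSet := by
      intro p
      have e1 : s(a, b) ∈ G.edgeSet := h1
      have e2 : s(c, e) ∈ G.edgeSet := h2
      have e3 : s(a, c) ∉ G.edgeSet := h3
      have e4 : s(b, e) ∉ G.edgeSet := h4
      constructor
      · rintro (⟨h5 | h5 | h5, h6, h7⟩ | h5 | h5)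
        · exact h5.1
        · exact absurd h5 h6
        · exact absurd h5 h7
        · rw [h5]; exact e1
        · rw [h5]; exact e2
      · intro h5
        by_cases h6 : p = s(a, b)
        · exact Or.inr (Or.inl h6)
        · by_cases h7 : p = s(c, e)
          · exact Or.inr (Or.inr h7)
          · refine Or.inl ⟨Or.inl ⟨h5, h6, h7⟩, ?_, ?_⟩
            · rintro rfl; exact e3 h5
            · rintro rfl; exact e4 h5
    have := hE s(u, v)
    simp only [SimpleGraph.mem_edgeSet] at this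
    exact this
  · exact absurd (graphStep_stay h) hne

lemma graphStep_mem {d : Fin n → ℕ} {G : SimpleGraph (Fin n)} (hG : G ∈ realizations d)
    {t : Fin n × Fin n × Fin n × Fin n} (ht : t ∈ fourTuples n) :
    graphStep G t ∈ realizations d := by
  classical
  unfold realizations at hG ⊢
  rw [mem_filter] at hG ⊢
  refine ⟨mem_univ _, fun v => ?_⟩
  rw [gdeg_graphStep ht]
  exact hG.2 v

end Step

section Split

variable {n : ℕ} (A : Finset (Fin n))

/-- The split graph with clique `A`, independent complement, and bipartite part `M`. -/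
def splitGraph (M : {v // v ∈ A} → {v // v ∈ Aᶜ} → Bool) : SimpleGraph (Fin n) :=
  SimpleGraph.fromRel
    (fun u v => (u ∈ A ∧ v ∈ A) ∨ ∃ (hu : u ∈ A) (hv : v ∈ Aᶜ), M ⟨u, hu⟩ ⟨v, hv⟩ = true)

variable {A}

lemma split_adj_AA (M : {v // v ∈ A} → {v // v ∈ Aᶜ} → Bool) {u v : Fin n} (hu : u ∈ A)
    (hv : v ∈ A) : (splitGraph A M).Adj u v ↔ u ≠ v := by
  simp [splitGraph, SimpleGraph.fromRel_adj, hu, hv]

lemma split_adj_CC (M : {v // v ∈ A} → {v // v ∈ Aᶜ} → Bool) {u v : Fin n} (hu : u ∉ A)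
    (hv : v ∉ A) : ¬ (splitGraph A M).Adj u v := by
  simp [splitGraph, SimpleGraph.fromRel_adj, hu, hv]

lemma split_adj_AC (M : {v // v ∈ A} → {v // v ∈ Aᶜ} → Bool) (i : {v // v ∈ A})
    (z : {v // v ∈ Aᶜ}) : (splitGraph A M).Adj i.1 z.1 ↔ M i z = true := by
  have hz : z.1 ∉ A := mem_compl.1 z.2
  have hi : i.1 ∈ A := i.2
  rw [splitGraph, SimpleGraph.fromRel_adj]
  constructor
  · rintro ⟨_, h | h⟩
    · rcases h with ⟨_, h⟩ | ⟨_, _, h⟩
      · exact absurd h hz
      · exact h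
    · rcases h with ⟨h, _⟩ | ⟨h, _, _⟩
      · exact absurd h hz
      · exact absurd h hz
  · intro h
    refine ⟨fun he => hz (he ▸ hi), Or.inl (Or.inr ⟨i.2, z.2, h⟩)⟩

lemma split_adj_CA (M : {v // v ∈ A} → {v // v ∈ Aᶜ} → Bool) (i : {v // v ∈ A})
    (z : {v // v ∈ Aᶜ}) : (splitGraph A M).Adj z.1 i.1 ↔ M i z = true := by
  rw [SimpleGraph.adj_comm]
  exact split_adj_AC M i z

open Classical in
/-- The bipartite part of a graph. -/
noncomputable def bipOf (A : Finset (Fin n)) (G : SimpleGraph (Fin n)) :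
    {v // v ∈ A} → {v // v ∈ Aᶜ} → Bool := fun i z => decide (G.Adj i.1 z.1)

lemma bipOf_split (M : {v // v ∈ A} → {v // v ∈ Aᶜ} → Bool) : bipOf A (splitGraph A M) = M := by
  classical
  funext i z
  unfold bipOf
  by_cases h : M i z = true
  · rw [h]
    simpa using (split_adj_AC M i z).2 h
  · have h' : ¬ (splitGraph A M).Adj i.1 z.1 := fun hh => h ((split_adj_AC M i z).1 hh)
    simp only [h', decide_false]
    cases hm : M i z
    · rfl
    · exact absurd hm h

lemma bipOf_apply (G : SimpleGraph (Fin n)) (i : {v // v ∈ A}) (z : {v // v ∈ Aᶜ}) :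
    bipOf A G i z = true ↔ G.Adj i.1 z.1 := by
  classical
  simp [bipOf]

lemma split_bipOf {G : SimpleGraph (Fin n)} (hcl : ∀ u v, u ∈ A → v ∈ A → u ≠ v → G.Adj u v)
    (hind : ∀ u v, u ∉ A → v ∉ A → ¬ G.Adj u v) : splitGraph A (bipOf A G) = G := by
  ext u v
  by_cases hu : u ∈ A
  · by_cases hv : v ∈ A
    · rw [split_adj_AA _ hu hv]
      exact ⟨hcl u v hu hv, fun h => h.ne⟩
    · have := split_adj_AC (bipOf A G) ⟨u, hu⟩ ⟨v, mem_compl.2 hv⟩
      rw [this, bipOf_apply]
  · by_cases hv : v ∈ A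
    · have := split_adj_CA (bipOf A G) ⟨v, hv⟩ ⟨u, mem_compl.2 hu⟩
      rw [this, bipOf_apply, SimpleGraph.adj_comm]
    · simp only [split_adj_CC _ hu hv, hind u v hu hv]

lemma gdeg_sum (G : SimpleGraph (Fin n)) (v : Fin n) (A : Finset (Fin n)) :
    gdeg G v = ∑ w ∈ A, (by classical exact if G.Adj v w then 1 else 0 : ℕ)
      + ∑ w ∈ Aᶜ, (by classical exact if G.Adj v w then 1 else 0 : ℕ) := by
  classical
  unfold gdeg
  rw [Finset.card_filter, Finset.sum_add_sum_compl]

lemma gdeg_split_row (M : {v // v ∈ A} → {v // v ∈ Aᶜ} → Bool) (i : {v // v ∈ A}) :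
    gdeg (splitGraph A M) i.1 = (A.card - 1) + rowSum M i := by
  classical
  rw [gdeg_sum _ _ A]
  congr 1
  · have h1 : ∀ w ∈ A, (if (splitGraph A M).Adj i.1 w then 1 else 0 : ℕ)
        = if w ∈ A.erase i.1 then 1 else 0 := by
      intro w hw
      have := split_adj_AA M i.2 hw
      by_cases h : w = i.1
      · simp [h]
      · have h2 : (splitGraph A M).Adj i.1 w := this.2 (fun he => h he.symm)
        simp [h2, h, hw]
    have h3 : ∑ w ∈ A, (if (splitGraph A M).Adj i.1 w then 1 else 0 : ℕ)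
        = ∑ w ∈ A, if w ∈ A.erase i.1 then 1 else 0 := Finset.sum_congr rfl h1
    convert h3 using 1
    rw [Finset.sum_ite_mem, Finset.inter_eq_right.2 (erase_subset _ _), Finset.sum_const,
      card_erase_of_mem i.2]
    simp
  · unfold rowSum
    rw [← Finset.sum_coe_sort Aᶜ]
    apply Finset.sum_congr rfl
    intro z _
    by_cases h : M i z = true
    · have h2 := (split_adj_AC M i z).2 h
      simp [h, h2]
    · have h2 : ¬ (splitGraph A M).Adj i.1 z.1 := fun hh => h ((split_adj_AC M i z).1 hh)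
      have h3 : M i z = false := by simpa using h
      simp [h3, h2]

lemma gdeg_split_col (M : {v // v ∈ A} → {v // v ∈ Aᶜ} → Bool) (z : {v // v ∈ Aᶜ}) :
    gdeg (splitGraph A M) z.1 = colSum M z := by
  classical
  rw [gdeg_sum _ _ A]
  have h0 : ∑ w ∈ Aᶜ, (if (splitGraph A M).Adj z.1 w then 1 else 0 : ℕ) = 0 := by
    apply Finset.sum_eq_zero
    intro w hw
    rw [if_neg (split_adj_CC M (mem_compl.1 z.2) (mem_compl.1 hw))]
  have h1 : ∑ w ∈ A, (if (splitGraph A M).Adj z.1 w then 1 else 0 : ℕ) = colSum M z := by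
    unfold colSum
    rw [← Finset.sum_coe_sort A]
    apply Finset.sum_congr rfl
    intro i _
    by_cases h : M i z = true
    · have h2 := (split_adj_CA M i z).2 h
      simp [h, h2]
    · have h2 : ¬ (splitGraph A M).Adj z.1 i.1 := fun hh => h ((split_adj_CA M i z).1 hh)
      have h3 : M i z = false := by simpa using h
      simp [h3, h2]
  rw [h1, h0, add_zero]

/-- Equality of Erdos-Gallai type forces every realization to be split along `A`. -/
lemma clique_indep {d : Fin n → ℕ} {G : SimpleGraph (Fin n)} (hG : G ∈ realizations d)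
    (htight : ∑ v ∈ A, d v = A.card * (A.card - 1) + ∑ v ∈ Aᶜ, d v) :
    (∀ u v, u ∈ A → v ∈ A → u ≠ v → G.Adj u v) ∧ (∀ u v, u ∉ A → v ∉ A → ¬ G.Adj u v) := by
  classical
  set χ : Fin n → Fin n → ℕ := fun u v => if G.Adj u v then 1 else 0 with hχ
  have hsymm : ∀ u v, χ u v = χ v u := by
    intro u v
    simp only [hχ, SimpleGraph.adj_comm]
  have hdeg : ∀ v, d v = ∑ w ∈ A, χ v w + ∑ w ∈ Aᶜ, χ v w := by
    intro v
    unfold realizations at hG
    rw [← (mem_filter.1 hG).2 v, gdeg_sum G v A]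
  have hx : ∑ v ∈ Aᶜ, ∑ w ∈ A, χ v w = ∑ v ∈ A, ∑ w ∈ Aᶜ, χ v w := by
    rw [Finset.sum_comm]
    apply Finset.sum_congr rfl
    intro v _
    apply Finset.sum_congr rfl
    intro w _
    exact hsymm w v
  have hSA : ∑ v ∈ A, d v = ∑ v ∈ A, ∑ w ∈ A, χ v w + ∑ v ∈ A, ∑ w ∈ Aᶜ, χ v w := by
    rw [← Finset.sum_add_distrib]
    exact Finset.sum_congr rfl (fun v _ => hdeg v)
  have hSC : ∑ v ∈ Aᶜ, d v = ∑ v ∈ A, ∑ w ∈ Aᶜ, χ v w + ∑ v ∈ Aᶜ, ∑ w ∈ Aᶜ, χ v w := by
    rw [← hx, ← Finset.sum_add_distrib]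
    exact Finset.sum_congr rfl (fun v _ => hdeg v)
  have hself : ∀ v, χ v v = 0 := by
    intro v
    simp [hχ]
  have hinner : ∀ v ∈ A, ∑ w ∈ A, χ v w = ∑ w ∈ A.erase v, χ v w := by
    intro v hv
    rw [← Finset.add_sum_erase A _ hv, hself, zero_add]
  have hle1 : ∀ u v, χ u v ≤ 1 := by
    intro u v
    simp only [hχ]
    split_ifs <;> omega
  have hinner_le : ∀ v ∈ A, ∑ w ∈ A, χ v w ≤ A.card - 1 := by
    intro v hv
    rw [hinner v hv]
    calc ∑ w ∈ A.erase v, χ v w ≤ ∑ _w ∈ A.erase v, 1 := Finset.sum_le_sum (fun w _ => hle1 v w)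
      _ = A.card - 1 := by
        rw [Finset.sum_const, card_erase_of_mem hv]
        simp
  have ha_le : ∑ v ∈ A, ∑ w ∈ A, χ v w ≤ A.card * (A.card - 1) := by
    calc ∑ v ∈ A, ∑ w ∈ A, χ v w ≤ ∑ _v ∈ A, (A.card - 1) := Finset.sum_le_sum hinner_le
      _ = A.card * (A.card - 1) := by rw [Finset.sum_const, smul_eq_mul]
  rw [hSA, hSC] at htight
  have hb : ∑ v ∈ Aᶜ, ∑ w ∈ Aᶜ, χ v w = 0 := by omega
  have ha : ∑ v ∈ A, ∑ w ∈ A, χ v w = A.card * (A.card - 1) := by omega
  constructor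
  · intro u v hu hv huv
    have h1 : ∑ v ∈ A, ∑ w ∈ A, χ v w = ∑ _v ∈ A, (A.card - 1) := by
      rw [ha, Finset.sum_const, smul_eq_mul]
    have h2 := (Finset.sum_eq_sum_iff_of_le hinner_le).1 h1 u hu
    rw [hinner u hu] at h2
    have h3 : ∑ w ∈ A.erase u, χ u w = ∑ _w ∈ A.erase u, 1 := by
      rw [h2, Finset.sum_const, card_erase_of_mem hu]
      simp
    have h4 := (Finset.sum_eq_sum_iff_of_le (fun w _ => hle1 u w)).1 h3 v
      (mem_erase.2 ⟨huv.symm, hv⟩)
    by_contra hadj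
    simp [hχ, hadj] at h4
  · intro u v hu hv hadj
    have h1 := (Finset.sum_eq_zero_iff.1 hb) u (mem_compl.2 hu)
    have h2 := (Finset.sum_eq_zero_iff.1 h1) v (mem_compl.2 hv)
    simp [hχ, hadj] at h2

/-- Row targets for the bipartite part. -/
def rowT (A : Finset (Fin n)) (d : Fin n → ℕ) : {v // v ∈ A} → ℕ := fun i => d i.1 - (A.card - 1)

/-- Column targets for the bipartite part. -/
def colT (A : Finset (Fin n)) (d : Fin n → ℕ) : {v // v ∈ Aᶜ} → ℕ := fun z => d z.1

lemma bipOf_mem {d : Fin n → ℕ} {G : SimpleGraph (Fin n)} (hG : G ∈ realizations d)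
    (htight : ∑ v ∈ A, d v = A.card * (A.card - 1) + ∑ v ∈ Aᶜ, d v) :
    bipOf A G ∈ Tables (rowT A d) (colT A d) := by
  classical
  obtain ⟨hcl, hind⟩ := clique_indep hG htight
  have hsplit := split_bipOf (A := A) hcl hind
  unfold realizations at hG
  have hdeg := (mem_filter.1 hG).2
  rw [mem_Tables]
  refine ⟨fun i => ?_, fun z => ?_⟩
  · have h1 := gdeg_split_row (bipOf A G) i
    rw [hsplit, hdeg] at h1
    unfold rowT
    omega
  · have h1 := gdeg_split_col (bipOf A G) z
    rw [hsplit, hdeg] at h1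
    exact h1.symm

lemma split_mem {d : Fin n → ℕ} {G₀ : SimpleGraph (Fin n)} (hG₀ : G₀ ∈ realizations d)
    (htight : ∑ v ∈ A, d v = A.card * (A.card - 1) + ∑ v ∈ Aᶜ, d v)
    {M : {v // v ∈ A} → {v // v ∈ Aᶜ} → Bool} (hM : M ∈ Tables (rowT A d) (colT A d)) :
    splitGraph A M ∈ realizations d := by
  classical
  obtain ⟨hcl, hind⟩ := clique_indep hG₀ htight
  have hsplit := split_bipOf (A := A) hcl hind
  have hdeg₀ := hG₀
  unfold realizations at hdeg₀
  have hdeg := (mem_filter.1 hdeg₀).2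
  rw [mem_Tables] at hM
  unfold realizations
  refine mem_filter.2 ⟨mem_univ _, fun v => ?_⟩
  by_cases hv : v ∈ A
  · have h1 := gdeg_split_row M ⟨v, hv⟩
    have h2 := gdeg_split_row (bipOf A G₀) ⟨v, hv⟩
    rw [hsplit, hdeg] at h2
    simp only at h1 h2
    rw [h1, hM.1 ⟨v, hv⟩]
    unfold rowT
    simp only
    omega
  · have h1 := gdeg_split_col M ⟨v, mem_compl.2 hv⟩
    simp only at h1
    rw [h1, hM.2]
    rfl

lemma sym_AC (i₀ i : {v // v ∈ A}) (z₀ z : {v // v ∈ Aᶜ}) :
    s(i₀.1, z₀.1) = s(i.1, z.1) ↔ i₀ = i ∧ z₀ = z := by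
  rw [Sym2.eq_iff]
  constructor
  · rintro (⟨h1, h2⟩ | ⟨h1, h2⟩)
    · exact ⟨Subtype.ext h1, Subtype.ext h2⟩
    · have := i₀.2
      rw [h1] at this
      exact absurd this (mem_compl.1 z.2)
  · rintro ⟨rfl, rfl⟩
    exact Or.inl ⟨rfl, rfl⟩

lemma sym_CA (i₀ i : {v // v ∈ A}) (z₀ z : {v // v ∈ Aᶜ}) :
    s(i₀.1, z₀.1) = s(z.1, i.1) ↔ i₀ = i ∧ z₀ = z := by
  rw [Sym2.eq_swap (a := z.1), sym_AC]

/-- A fired tuple of the form (row, column, column, row) acts as the switch on the bipartite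
part. -/
lemma graphStep_split (M : {v // v ∈ A} → {v // v ∈ Aᶜ} → Bool) {i j : {v // v ∈ A}}
    {z z' : {v // v ∈ Aᶜ}} (hij : i ≠ j) (hzz : z ≠ z') (h1 : M i z = true) (h2 : M i z' = false)
    (h3 : M j z = false) (h4 : M j z' = true) :
    graphStep (splitGraph A M) (i.1, z.1, z'.1, j.1) = splitGraph A (sw i j z z' M) := by
  have hnotA : ∀ w : {v // v ∈ Aᶜ}, w.1 ∉ A := fun w => mem_compl.1 w.2
  have hac : i.1 ≠ z'.1 := fun h => hnotA z' (h ▸ i.2)
  have hbe : z.1 ≠ j.1 := fun h => hnotA z (h ▸ j.2)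
  have hfire : (splitGraph A M).Adj i.1 z.1 ∧ (splitGraph A M).Adj z'.1 j.1 ∧
      ¬ (splitGraph A M).Adj i.1 z'.1 ∧ ¬ (splitGraph A M).Adj z.1 j.1 := by
    refine ⟨(split_adj_AC M i z).2 h1, (split_adj_CA M j z').2 h4, ?_, ?_⟩
    · rw [split_adj_AC, h2]; simp
    · rw [split_adj_CA, h3]; simp
  have hadj := graphStep_adj hac hbe hfire
  have hcross : ∀ (i₀ : {v // v ∈ A}) (z₀ : {v // v ∈ Aᶜ}),
      (graphStep (splitGraph A M) (i.1, z.1, z'.1, j.1)).Adj i₀.1 z₀.1
        ↔ (splitGraph A (sw i j z z' M)).Adj i₀.1 z₀.1 := by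
    intro i₀ z₀
    have e1 := sym_AC i₀ i z₀ z
    have e2 := sym_CA i₀ j z₀ z'
    have e3 := sym_AC i₀ i z₀ z'
    have e4 := sym_CA i₀ j z₀ z
    rw [hadj, split_adj_AC, split_adj_AC]
    simp only [ne_eq, e1, e2, e3, e4]
    by_cases hi : i₀ = i
    · subst hi
      by_cases hz : z₀ = z
      · subst hz
        have e : sw i₀ j z₀ z' M i₀ z₀ = false := by
          simp [sw, h2]
        simp [e, hzz, hij]
      · by_cases hz' : z₀ = z'
        · subst hz'
          have e : sw i₀ j z z₀ M i₀ z₀ = true := by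
            simp [sw, h1]
          simp [e]
        · have e : sw i₀ j z z' M i₀ z₀ = M i₀ z₀ := by
            simp [sw, swap_apply_of_ne_of_ne hz hz']
          simp [e, hz, hz', hij]
    · by_cases hj : i₀ = j
      · subst hj
        by_cases hz : z₀ = z
        · subst hz
          have e : sw i i₀ z₀ z' M i₀ z₀ = true := by
            simp [sw, h4]
          simp [e]
        · by_cases hz' : z₀ = z'
          · subst hz'
            have e : sw i i₀ z z₀ M i₀ z₀ = false := by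
              simp [sw, h3]
            simp [e, hi, hz]
          · have e : sw i i₀ z z' M i₀ z₀ = M i₀ z₀ := by
              simp [sw, swap_apply_of_ne_of_ne hz hz']
            simp [e, hz, hz', hi]
      · have e : sw i j z z' M i₀ z₀ = M i₀ z₀ := by
          simp [sw, hi, hj]
        simp [e, hi, hj]
  ext u v
  by_cases hu : u ∈ A
  · by_cases hv : v ∈ A
    · rw [hadj, split_adj_AA _ hu hv, split_adj_AA _ hu hv]
      have hno : ∀ (x : {v // v ∈ A}) (y : {v // v ∈ Aᶜ}), s(u, v) ≠ s(x.1, y.1) := by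
        intro x y he
        rw [Sym2.eq_iff] at he
        rcases he with ⟨_, h6⟩ | ⟨h5, _⟩
        · exact hnotA y (h6 ▸ hv)
        · exact hnotA y (h5 ▸ hu)
      have hno' : ∀ (x : {v // v ∈ A}) (y : {v // v ∈ Aᶜ}), s(u, v) ≠ s(y.1, x.1) := by
        intro x y
        rw [Sym2.eq_swap (a := y.1)]
        exact hno x y
      simp only [hno, hno', ne_eq, not_false_eq_true, and_true, or_false, split_adj_AA _ hu hv]
    · have := hcross ⟨u, hu⟩ ⟨v, mem_compl.2 hv⟩
      exact this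
  · by_cases hv : v ∈ A
    · have := hcross ⟨v, hv⟩ ⟨u, mem_compl.2 hu⟩
      rw [SimpleGraph.adj_comm, SimpleGraph.adj_comm (splitGraph A (sw i j z z' M))]
      exact this
    · rw [hadj]
      constructor
      · rintro (⟨h5, _⟩ | he | he)
        · exact absurd h5 (split_adj_CC _ hu hv)
        · exfalso
          rw [Sym2.eq_iff] at he
          rcases he with ⟨h5, _⟩ | ⟨_, h6⟩
          · exact hu (h5 ▸ i.2)
          · exact hv (h6 ▸ i.2)
        · exfalso
          rw [Sym2.eq_iff] at he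
          rcases he with ⟨_, h6⟩ | ⟨h5, _⟩
          · exact hv (h6 ▸ j.2)
          · exact hu (h5 ▸ j.2)
      · intro h5
        exact absurd h5 (split_adj_CC _ hu hv)

/-- Poincare inequality for the switch chain on split-tight degree sequences. -/
theorem graph_poincare {d : Fin n → ℕ} {G₀ : SimpleGraph (Fin n)} (hG₀ : G₀ ∈ realizations d)
    (htight : ∑ v ∈ A, d v = A.card * (A.card - 1) + ∑ v ∈ Aᶜ, d v)
    (f : SimpleGraph (Fin n) → ℝ) (hf : ∑ G ∈ realizations d, f G = 0) :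
    8 * ∑ G ∈ realizations d, (f G) ^ 2
      ≤ ∑ G ∈ realizations d, ∑ t ∈ fourTuples n, (f G - f (graphStep G t)) ^ 2 := by
  classical
  set Om := Tables (rowT A d) (colT A d) with hOm
  have hsum : ∀ F : SimpleGraph (Fin n) → ℝ,
      ∑ G ∈ realizations d, F G = ∑ M ∈ Om, F (splitGraph A M) := by
    intro F
    apply Finset.sum_nbij' (bipOf A) (splitGraph A)
    · intro G hG
      exact bipOf_mem hG htight
    · intro M hM
      exact split_mem hG₀ htight hM
    · intro G hG
      obtain ⟨hcl, hind⟩ := clique_indep hG htight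
      exact split_bipOf hcl hind
    · intro M _
      exact bipOf_split M
    · intro G hG
      obtain ⟨hcl, hind⟩ := clique_indep hG htight
      rw [split_bipOf hcl hind]
  set g : ({v // v ∈ A} → {v // v ∈ Aᶜ} → Bool) → ℝ := fun M => f (splitGraph A M) with hg
  have hmean : ∑ M ∈ Om, g M = 0 := by
    rw [← hf, hsum f]
  have hP := poincare_valid (rowT A d) (colT A d) g hmean
  rw [← hOm] at hP
  rw [hsum, hsum]
  -- the basic terms
  set At : {v // v ∈ A} → {v // v ∈ Aᶜ} → {v // v ∈ Aᶜ} → {v // v ∈ A} →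
      ({v // v ∈ A} → {v // v ∈ Aᶜ} → Bool) → ℝ :=
    fun i z z' j M => if i ≠ j ∧ z ≠ z' then
      (f (splitGraph A M) - f (graphStep (splitGraph A M) (i.1, z.1, z'.1, j.1))) ^ 2 else 0
    with hAt
  have hAt0 : ∀ i z z' j M, 0 ≤ At i z z' j M := by
    intro i z z' j M
    simp only [hAt]
    split_ifs
    · positivity
    · exact le_rfl
  have hterm : ∀ i j z z' M, (if i ≠ j ∧ z ≠ z' ∧ validM M i j z z' then
        (g M - g (sw i j z z' M)) ^ 2 else 0) ≤ At i z z' j M + At i z' z j M := by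
    intro i j z z' M
    by_cases hc : i ≠ j ∧ z ≠ z' ∧ validM M i j z z'
    · rw [if_pos hc]
      obtain ⟨hij, hzz, hv1, hv2, hv3⟩ := hc
      cases hM : M i z
      · have e1 : M i z' = true := by
          rw [hM] at hv1
          cases h : M i z'
          · rw [h] at hv1; exact absurd rfl hv1
          · rfl
        have e2 : M j z = true := by
          rw [hM] at hv3
          cases h : M j z
          · rw [h] at hv3; exact absurd rfl hv3
          · rfl
        have e3 : M j z' = false := by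
          rw [e2] at hv2
          cases h : M j z'
          · rfl
          · rw [h] at hv2; exact absurd rfl hv2
        have hstep := graphStep_split M hij hzz.symm e1 hM e3 e2
        have hsw : sw i j z' z M = sw i j z z' M := by
          funext l w
          simp only [sw, swap_comm]
        have e4 : At i z' z j M = (g M - g (sw i j z z' M)) ^ 2 := by
          simp only [hAt, hg]
          rw [if_pos ⟨hij, hzz.symm⟩, hstep, hsw]
        rw [e4]
        linarith [hAt0 i z z' j M]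
      · have e1 : M i z' = false := by
          rw [hM] at hv1
          cases h : M i z'
          · rfl
          · rw [h] at hv1; exact absurd rfl hv1
        have e2 : M j z = false := by
          rw [hM] at hv3
          cases h : M j z
          · rfl
          · rw [h] at hv3; exact absurd rfl hv3
        have e3 : M j z' = true := by
          rw [e2] at hv2
          cases h : M j z'
          · rw [h] at hv2; exact absurd rfl hv2
          · rfl
        have hstep := graphStep_split M hij hzz hM e1 e2 e3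
        have e4 : At i z z' j M = (g M - g (sw i j z z' M)) ^ 2 := by
          simp only [hAt, hg]
          rw [if_pos ⟨hij, hzz⟩, hstep]
        rw [e4]
        linarith [hAt0 i z' z j M]
    · rw [if_neg hc]
      linarith [hAt0 i z z' j M, hAt0 i z' z j M]
  -- injection into tuples
  have hinj : ∀ M, ∑ i, ∑ j, ∑ z, ∑ z', At i z z' j M
      ≤ ∑ t ∈ fourTuples n, (f (splitGraph A M) - f (graphStep (splitGraph A M) t)) ^ 2 := by
    intro M
    set h : Fin n × Fin n × Fin n × Fin n → ℝ :=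
      fun t => (f (splitGraph A M) - f (graphStep (splitGraph A M) t)) ^ 2 with hh
    let I := (univ : Finset ({v // v ∈ A} × {v // v ∈ A} × {v // v ∈ Aᶜ} × {v // v ∈ Aᶜ})).filter
      (fun p => p.1 ≠ p.2.1 ∧ p.2.2.1 ≠ p.2.2.2)
    let ι : {v // v ∈ A} × {v // v ∈ A} × {v // v ∈ Aᶜ} × {v // v ∈ Aᶜ} →
        Fin n × Fin n × Fin n × Fin n := fun p => (p.1.1, p.2.2.1.1, p.2.2.2.1, p.2.1.1)
    have h1 : ∑ i, ∑ j, ∑ z, ∑ z', At i z z' j M = ∑ p ∈ I, h (ι p) := by
      simp only [I, Finset.sum_filter, ← Fintype.sum_prod_type']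
      rw [Fintype.sum_prod_type]
    rw [h1]
    have hιinj : Set.InjOn ι (I : Set _) := by
      rintro ⟨i, j, z, z'⟩ _ ⟨i', j', w, w'⟩ _ he
      simp only [ι, Prod.mk.injEq] at he
      obtain ⟨h1, h2, h3, h4⟩ := he
      have e1 : i = i' := Subtype.ext h1
      have e2 : j = j' := Subtype.ext h4
      have e3 : z = w := Subtype.ext h2
      have e4 : z' = w' := Subtype.ext h3
      subst e1 e2 e3 e4
      rfl
    rw [← Finset.sum_image (f := h) hιinj]
    apply Finset.sum_le_sum_of_subset_of_nonneg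
    · intro t ht
      obtain ⟨⟨i, j, z, z'⟩, hp, rfl⟩ := mem_image.1 ht
      obtain ⟨_, hij, hzz⟩ := mem_filter.1 hp
      simp only at hij hzz
      have hA : ∀ (x : {v // v ∈ A}) (y : {v // v ∈ Aᶜ}), x.1 ≠ y.1 := by
        intro x y he
        exact (mem_compl.1 y.2) (he ▸ x.2)
      simp only [ι]
      refine mem_fourTuples.2 ⟨hA i z, hA i z', ?_, ?_, (hA j z).symm, (hA j z').symm⟩
      · exact fun he => hij (Subtype.ext he)
      · exact fun he => hzz (Subtype.ext he)
    · intro t _ _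
      positivity
  -- assembling
  have hstep1 : ∑ i, ∑ j, ∑ z, ∑ z', ∑ M ∈ Om,
        (if i ≠ j ∧ z ≠ z' ∧ validM M i j z z' then (g M - g (sw i j z z' M)) ^ 2 else 0)
      ≤ ∑ i, ∑ j, ∑ z, ∑ z', ∑ M ∈ Om, (At i z z' j M + At i z' z j M) := by
    apply Finset.sum_le_sum; intro i _
    apply Finset.sum_le_sum; intro j _
    apply Finset.sum_le_sum; intro z _
    apply Finset.sum_le_sum; intro z' _
    apply Finset.sum_le_sum; intro M _
    exact hterm i j z z' M
  have hstep2 : ∑ i, ∑ j, ∑ z, ∑ z', ∑ M ∈ Om, (At i z z' j M + At i z' z j M)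
      = 2 * ∑ M ∈ Om, ∑ i, ∑ j, ∑ z, ∑ z', At i z z' j M := by
    have hswapz : ∀ i j, ∑ z, ∑ z', ∑ M ∈ Om, At i z' z j M = ∑ z, ∑ z', ∑ M ∈ Om, At i z z' j M :=
      fun i j => Finset.sum_comm
    have hcomm : ∑ M ∈ Om, ∑ i, ∑ j, ∑ z, ∑ z', At i z z' j M
        = ∑ i, ∑ j, ∑ z, ∑ z', ∑ M ∈ Om, At i z z' j M := by
      rw [Finset.sum_comm]
      apply Finset.sum_congr rfl; intro i _
      rw [Finset.sum_comm]
      apply Finset.sum_congr rfl; intro j _
      rw [Finset.sum_comm]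
      apply Finset.sum_congr rfl; intro z _
      rw [Finset.sum_comm]
    rw [hcomm, Finset.mul_sum]
    apply Finset.sum_congr rfl; intro i _
    rw [Finset.mul_sum]
    apply Finset.sum_congr rfl; intro j _
    simp_rw [Finset.sum_add_distrib]
    rw [hswapz i j]
    ring
  have hstep3 : ∑ M ∈ Om, ∑ i, ∑ j, ∑ z, ∑ z', At i z z' j M
      ≤ ∑ M ∈ Om, ∑ t ∈ fourTuples n,
          (f (splitGraph A M) - f (graphStep (splitGraph A M) t)) ^ 2 :=
    Finset.sum_le_sum (fun M _ => hinj M)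
  have hgg : ∑ M ∈ Om, (f (splitGraph A M)) ^ 2 = ∑ M ∈ Om, (g M) ^ 2 := rfl
  rw [hgg]
  linarith

end Split

section Final

variable {n : ℕ}

lemma fourTuples_card_le (n : ℕ) : (fourTuples n).card ≤ n ^ 4 := by
  calc (fourTuples n).card ≤ (univ : Finset (Fin n × Fin n × Fin n × Fin n)).card :=
        Finset.card_le_card (subset_univ _)
    _ = n ^ 4 := by
        simp only [card_univ, Fintype.card_prod, Fintype.card_fin]
        ring

lemma fourTuples_card_ge (hn : 4 ≤ n) : 2 ≤ (fourTuples n).card := by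
  let a : Fin n := ⟨0, by omega⟩
  let b : Fin n := ⟨1, by omega⟩
  let c : Fin n := ⟨2, by omega⟩
  let e : Fin n := ⟨3, by omega⟩
  have hab : a ≠ b := by simp [a, b, Fin.ext_iff]
  have hac : a ≠ c := by simp [a, c, Fin.ext_iff]
  have hae : a ≠ e := by simp [a, e, Fin.ext_iff]
  have hbc : b ≠ c := by simp [b, c, Fin.ext_iff]
  have hbe : b ≠ e := by simp [b, e, Fin.ext_iff]
  have hce : c ≠ e := by simp [c, e, Fin.ext_iff]
  have h1 : (a, b, c, e) ∈ fourTuples n := mem_fourTuples.2 ⟨hab, hac, hae, hbc, hbe, hce⟩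
  have h2 : (a, c, b, e) ∈ fourTuples n :=
    mem_fourTuples.2 ⟨hac, hab, hae, hbc.symm, hce, hbe⟩
  have hne : (a, b, c, e) ≠ (a, c, b, e) := by
    intro h
    simp only [Prod.mk.injEq, true_and] at h
    exact hbc h.1
  have hsub : ({(a, b, c, e), (a, c, b, e)} : Finset _) ⊆ fourTuples n := by
    intro t ht
    simp only [mem_insert, mem_singleton] at ht
    rcases ht with rfl | rfl
    · exact h1
    · exact h2
  have := Finset.card_le_card hsub
  rwa [card_pair hne] at this

lemma realizations_card_le (d : Fin n → ℕ) : (realizations d).card ≤ 2 ^ (n ^ 2) := by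
  classical
  have hinj : Function.Injective
      (fun (G : SimpleGraph (Fin n)) (p : Fin n × Fin n) => decide (G.Adj p.1 p.2)) := by
    intro G G' h
    ext u v
    have := congrFun h (u, v)
    simpa using this
  have h1 := Fintype.card_le_of_injective _ hinj
  calc (realizations d).card ≤ Fintype.card (SimpleGraph (Fin n)) := Finset.card_le_univ _
    _ ≤ _ := h1
    _ = 2 ^ (n ^ 2) := by
        simp [Fintype.card_prod, Fintype.card_fin, sq]

open Classical in
/-- The switch chain mixes in at most `n ^ 6` steps for split-tight degree sequences. -/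
theorem split_mixing (hn : 4 ≤ n) {d : Fin n → ℕ} {A : Finset (Fin n)}
    (htight : ∑ v ∈ A, d v = A.card * (A.card - 1) + ∑ v ∈ Aᶜ, d v)
    {G₀ : SimpleGraph (Fin n)} (hG₀ : G₀ ∈ realizations d) {k : ℕ} (hk : n ^ 6 ≤ k) :
    tvUnif (fourTuples n) graphStep (realizations d) k G₀ ≤ 1 / 4 := by
  have hN2 := fourTuples_card_ge hn
  have hNle := fourTuples_card_le n
  have hNpos : (0 : ℝ) < ((fourTuples n).card : ℝ) := by
    have : 0 < (fourTuples n).card := by omega
    exact_mod_cast this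
  have hτ : (fourTuples n).Nonempty := Finset.card_pos.1 (by omega)
  have hN2' : (2 : ℝ) ≤ ((fourTuples n).card : ℝ) := by exact_mod_cast hN2
  have hρ0 : 0 ≤ 1 - (8 : ℝ) / (4 * ((fourTuples n).card : ℝ)) := by
    have : (8 : ℝ) / (4 * ((fourTuples n).card : ℝ)) ≤ 1 := by
      rw [div_le_one (by positivity)]
      linarith
    linarith
  have hbound := tv_bound (τ := fourTuples n) (step := graphStep) (Ω := realizations d)
    (conj := fun t => (t.1, t.2.2.1, t.2.1, t.2.2.2)) (c₀ := 8)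
    (by
      rintro ⟨a, b, c, e⟩ ht
      obtain ⟨hab, hac, hae, hbc, hbe, hce⟩ := mem_fourTuples.1 ht
      exact ⟨mem_fourTuples.2 ⟨hac, hab, hae, hbc.symm, hce, hbe⟩, rfl⟩)
    (fun G hG t ht => graphStep_mem hG ht)
    (fun G _ t ht hne => graphStep_rev ht hne)
    hτ
    (fun f hf => graph_poincare hG₀ htight f hf)
    hρ0 hG₀ k
  -- numerics
  set N : ℝ := ((fourTuples n).card : ℝ) with hN
  have hρ : 1 - (8 : ℝ) / (4 * N) = 1 - 2 / N := by
    field_simp
    ring
  rw [hρ] at hbound hρ0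
  have hρexp : 1 - 2 / N ≤ Real.exp (-(2 / N)) := by
    have := Real.add_one_le_exp (-(2 / N))
    linarith
  have hpow : (1 - 2 / N) ^ k ≤ Real.exp (-(2 * (n : ℝ) ^ 2)) := by
    calc (1 - 2 / N) ^ k ≤ (Real.exp (-(2 / N))) ^ k := pow_le_pow_left₀ hρ0 hρexp k
      _ = Real.exp ((k : ℝ) * (-(2 / N))) := (Real.exp_nat_mul _ _).symm
      _ ≤ Real.exp (-(2 * (n : ℝ) ^ 2)) := by
          apply Real.exp_le_exp.2
          have hk' : ((n : ℝ)) ^ 6 ≤ (k : ℝ) := by exact_mod_cast hk
          have hN' : N ≤ (n : ℝ) ^ 4 := by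
            rw [hN]
            exact_mod_cast hNle
          have hnn : (0 : ℝ) ≤ (n : ℝ) ^ 2 := by positivity
          have h1 : (n : ℝ) ^ 2 * N ≤ (k : ℝ) := by
            calc (n : ℝ) ^ 2 * N ≤ (n : ℝ) ^ 2 * (n : ℝ) ^ 4 := mul_le_mul_of_nonneg_left hN' hnn
              _ = (n : ℝ) ^ 6 := by ring
              _ ≤ k := hk'
          have h2 : (n : ℝ) ^ 2 ≤ (k : ℝ) / N := by
            rw [le_div_iff₀ hNpos]
            exact h1
          have h3 : (k : ℝ) * (-(2 / N)) = -(2 * ((k : ℝ) / N)) := by ring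
          rw [h3]
          linarith
  have hcard : ((realizations d).card : ℝ) ≤ (2 : ℝ) ^ (n ^ 2) := by
    exact_mod_cast realizations_card_le d
  have hexp2 : Real.exp (-2) ≤ 1 / 4 := by
    have h1 : (2 : ℝ) ≤ Real.exp 1 := by
      have := Real.add_one_le_exp (1 : ℝ)
      linarith
    have h2 : Real.exp (2 : ℝ) = Real.exp 1 * Real.exp 1 := by
      rw [← Real.exp_add]
      norm_num
    have h3 : (4 : ℝ) ≤ Real.exp 2 := by
      rw [h2]
      nlinarith
    rw [Real.exp_neg, one_div]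
    exact inv_anti₀ (by norm_num) h3
  have hn2 : 2 ≤ n ^ 2 := by nlinarith
  have hexpn : Real.exp (-(2 * (n : ℝ) ^ 2)) = (Real.exp (-2)) ^ (n ^ 2) := by
    rw [← Real.exp_nat_mul]
    congr 1
    push_cast
    ring
  have hfinal : ((realizations d).card : ℝ) * (1 - 2 / N) ^ k ≤ 1 / 4 := by
    have hpos : 0 ≤ (1 - 2 / N) ^ k := pow_nonneg hρ0 k
    calc ((realizations d).card : ℝ) * (1 - 2 / N) ^ k
        ≤ (2 : ℝ) ^ (n ^ 2) * (Real.exp (-2)) ^ (n ^ 2) := by
          apply mul_le_mul hcard _ hpos (by positivity)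
          rw [← hexpn]
          exact hpow
      _ = (2 * Real.exp (-2)) ^ (n ^ 2) := (mul_pow _ _ _).symm
      _ ≤ (1 / 2 : ℝ) ^ (n ^ 2) := by
          apply pow_le_pow_left₀ (by positivity)
          linarith
      _ ≤ (1 / 2 : ℝ) ^ 2 := pow_le_pow_of_le_one (by norm_num) (by norm_num) hn2
      _ = 1 / 4 := by norm_num
  have hsq : (tvUnif (fourTuples n) graphStep (realizations d) k G₀) ^ 2 ≤ (1 / 4) ^ 2 := by
    calc _ ≤ (1 / 4) * ((realizations d).card : ℝ) * (1 - 2 / N) ^ k := hbound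
      _ = (1 / 4) * (((realizations d).card : ℝ) * (1 - 2 / N) ^ k) := by ring
      _ ≤ (1 / 4) * (1 / 4) := by linarith
      _ = (1 / 4) ^ 2 := by ring
  exact (abs_le_of_sq_le_sq' hsq (by norm_num)).2

end Final

end Vale.Agent.Lib.P335
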