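import Vale.Agent.Lib.P335.ThreeRows

namespace Vale.Agent.Lib.P335

open Finset

set_option linter.unusedSectionVars false

section Algebra

variable {T R : Type*} [DecidableEq R]

/-- Expansion of a square of a sum over a finite index family, in bilinear form. -/
lemma sum_sq_expand (S : Finset T) (P : Finset (Finset R)) (a : Finset R → T → ℝ) :
    ∑ x ∈ S, (∑ e ∈ P, a e x) ^ 2 = ∑ e ∈ P, ∑ f ∈ P, ∑ x ∈ S, a e x * a f x := by
  have : ∀ x ∈ S, (∑ e ∈ P, a e x) ^ 2 = ∑ e ∈ P, ∑ f ∈ P, a e x * a f x := by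
    intro x _
    rw [sq, Finset.sum_mul_sum]
  rw [Finset.sum_congr rfl this, Finset.sum_comm]
  apply Finset.sum_congr rfl
  intro e _
  rw [Finset.sum_comm]

variable [Fintype R]

/-- Pairs of `R` as finsets of size two. -/
def pairsOf (Q : Finset R) : Finset (Finset R) := powersetCard 2 Q

/-- The combinatorial identity: each ordered pair of distinct two-sets is either disjoint or lies
in exactly one three-set. -/
lemma pair_identity (e f : Finset R) (he : e.card = 2) (hf : f.card = 2) (b : ℝ) :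
    (if f ≠ e then b else 0)
      = (if f ≠ e ∧ Disjoint e f then b else 0)
        + ∑ t ∈ powersetCard 3 (univ : Finset R),
            (if e ⊆ t ∧ f ⊆ t ∧ f ≠ e then b else 0) := by
  by_cases hfe : f = e
  · subst hfe
    simp
  · by_cases hd : Disjoint e f
    · have h0 : ∀ t ∈ powersetCard 3 (univ : Finset R), ¬ (e ⊆ t ∧ f ⊆ t ∧ f ≠ e) := by
        rintro t ht ⟨h1, h2, _⟩
        have hcard := (mem_powersetCard.1 ht).2
        have hu : (e ∪ f).card = 4 := by
          rw [card_union_of_disjoint hd, he, hf]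
        have := card_le_card (union_subset h1 h2)
        omega
      rw [Finset.sum_eq_zero (fun t ht => if_neg (h0 t ht))]
      simp [hfe, hd]
    · have hinter : (e ∩ f).card = 1 := by
        have h1 : (e ∩ f).Nonempty := by
          rw [← not_disjoint_iff_nonempty_inter]
          exact hd
        have h2 : (e ∩ f).card ≠ 2 := by
          intro h
          have h3 : e ∩ f = e := eq_of_subset_of_card_le inter_subset_left (by omega)
          have h4 : e ∩ f = f := eq_of_subset_of_card_le inter_subset_right (by omega)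
          exact hfe (h4.symm.trans h3)
        have h3 : (e ∩ f).card ≤ 2 := he ▸ card_le_card inter_subset_left
        have h4 : 0 < (e ∩ f).card := card_pos.2 h1
        omega
      have hu : (e ∪ f).card = 3 := by
        have := card_union_add_card_inter e f
        omega
      have hmem : e ∪ f ∈ powersetCard 3 (univ : Finset R) :=
        mem_powersetCard.2 ⟨subset_univ _, hu⟩
      have hiff : ∀ t ∈ powersetCard 3 (univ : Finset R),
          (if e ⊆ t ∧ f ⊆ t ∧ f ≠ e then b else 0) = (if t = e ∪ f then b else 0) := by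
        intro t ht
        have hcard := (mem_powersetCard.1 ht).2
        by_cases h : t = e ∪ f
        · subst h
          simp [hfe]
        · have : ¬ (e ⊆ t ∧ f ⊆ t ∧ f ≠ e) := by
            rintro ⟨h1, h2, _⟩
            exact h (eq_of_subset_of_card_le (union_subset h1 h2) (by omega)).symm
          rw [if_neg this, if_neg h]
      rw [Finset.sum_congr rfl hiff, Finset.sum_ite_eq' _ _ _, if_pos hmem]
      simp [hfe, hd]

/-- The abstract Knabe inequality. -/
theorem knabe_algebra (S : Finset T) (a : Finset R → T → ℝ)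
    (hcomm : ∀ e ∈ pairsOf (univ : Finset R), ∀ f ∈ pairsOf (univ : Finset R), Disjoint e f →
      0 ≤ ∑ x ∈ S, a e x * a f x)
    (htri : ∀ t ∈ powersetCard 3 (univ : Finset R),
      ∑ e ∈ pairsOf t, ∑ x ∈ S, (a e x) ^ 2 ≤ ∑ x ∈ S, (∑ e ∈ pairsOf t, a e x) ^ 2) :
    ∑ e ∈ pairsOf (univ : Finset R), ∑ x ∈ S, (a e x) ^ 2
      ≤ ∑ x ∈ S, (∑ e ∈ pairsOf (univ : Finset R), a e x) ^ 2 := by
  set P := pairsOf (univ : Finset R) with hP
  set B : Finset R → Finset R → ℝ := fun e f => ∑ x ∈ S, a e x * a f x with hB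
  have hself : ∀ e, ∑ x ∈ S, (a e x) ^ 2 = B e e := by
    intro e
    apply Finset.sum_congr rfl
    intros
    ring
  have hmemP : ∀ e ∈ P, e.card = 2 := fun e he => (mem_powersetCard.1 he).2
  -- the difference
  have hdiff : ∑ x ∈ S, (∑ e ∈ P, a e x) ^ 2 - ∑ e ∈ P, ∑ x ∈ S, (a e x) ^ 2
      = ∑ e ∈ P, ∑ f ∈ P, (if f ≠ e then B e f else 0) := by
    rw [sum_sq_expand, ← Finset.sum_sub_distrib]
    apply Finset.sum_congr rfl
    intro e he
    rw [hself, eq_comm]
    have : ∀ f ∈ P, (if f ≠ e then B e f else 0) = B e f - (if f = e then B e e else 0) := by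
      intro f _
      by_cases h : f = e
      · subst h; simp
      · simp [h]
    rw [Finset.sum_congr rfl this, Finset.sum_sub_distrib, Finset.sum_ite_eq' _ _ _, if_pos he]
  -- the triple sum
  have htsum : ∀ t ∈ powersetCard 3 (univ : Finset R),
      ∑ x ∈ S, (∑ e ∈ pairsOf t, a e x) ^ 2 - ∑ e ∈ pairsOf t, ∑ x ∈ S, (a e x) ^ 2
      = ∑ e ∈ P, ∑ f ∈ P, (if e ⊆ t ∧ f ⊆ t ∧ f ≠ e then B e f else 0) := by
    intro t _
    have hsub : pairsOf t = P.filter (fun e => e ⊆ t) := by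
      ext e
      simp only [pairsOf, hP, mem_powersetCard, mem_filter, subset_univ, true_and]
      tauto
    rw [sum_sq_expand, ← Finset.sum_sub_distrib]
    rw [hsub, Finset.sum_filter]
    apply Finset.sum_congr rfl
    intro e he
    by_cases het : e ⊆ t
    · rw [if_pos het, hself, eq_comm]
      have : ∀ f ∈ P, (if e ⊆ t ∧ f ⊆ t ∧ f ≠ e then B e f else 0)
          = (if f ⊆ t then B e f else 0) - (if f = e then B e e else 0) := by
        intro f _
        by_cases h : f = e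
        · subst h; simp [het]
        · simp [h, het]
      rw [Finset.sum_congr rfl this, Finset.sum_sub_distrib, Finset.sum_filter,
        Finset.sum_ite_eq' _ _ _, if_pos he]
    · rw [if_neg het]
      symm
      apply Finset.sum_eq_zero
      intro f _
      simp [het]
  have hdecomp : ∑ e ∈ P, ∑ f ∈ P, (if f ≠ e then B e f else 0)
      = ∑ e ∈ P, ∑ f ∈ P, (if f ≠ e ∧ Disjoint e f then B e f else 0)
        + ∑ t ∈ powersetCard 3 (univ : Finset R),
            ∑ e ∈ P, ∑ f ∈ P, (if e ⊆ t ∧ f ⊆ t ∧ f ≠ e then B e f else 0) := by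
    have hswap : ∑ t ∈ powersetCard 3 (univ : Finset R),
            ∑ e ∈ P, ∑ f ∈ P, (if e ⊆ t ∧ f ⊆ t ∧ f ≠ e then B e f else 0)
        = ∑ e ∈ P, ∑ f ∈ P, ∑ t ∈ powersetCard 3 (univ : Finset R),
            (if e ⊆ t ∧ f ⊆ t ∧ f ≠ e then B e f else 0) := by
      rw [Finset.sum_comm]
      apply Finset.sum_congr rfl
      intro e _
      rw [Finset.sum_comm]
    rw [hswap, ← Finset.sum_add_distrib]
    apply Finset.sum_congr rfl
    intro e he
    rw [← Finset.sum_add_distrib]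
    apply Finset.sum_congr rfl
    intro f hf
    exact pair_identity e f (hmemP e he) (hmemP f hf) (B e f)
  have hpos1 : 0 ≤ ∑ e ∈ P, ∑ f ∈ P, (if f ≠ e ∧ Disjoint e f then B e f else 0) := by
    apply Finset.sum_nonneg
    intro e he
    apply Finset.sum_nonneg
    intro f hf
    by_cases h : f ≠ e ∧ Disjoint e f
    · rw [if_pos h]
      exact hcomm e he f hf h.2
    · rw [if_neg h]
  have hpos2 : 0 ≤ ∑ t ∈ powersetCard 3 (univ : Finset R),
            ∑ e ∈ P, ∑ f ∈ P, (if e ⊆ t ∧ f ⊆ t ∧ f ≠ e then B e f else 0) := by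
    apply Finset.sum_nonneg
    intro t ht
    rw [← htsum t ht]
    linarith [htri t ht]
  linarith

end Algebra

section Gap

variable {T K : Type*} [Fintype T] [DecidableEq T] [DecidableEq K]
  {R : Type*} [Fintype R] [DecidableEq R]

/-- The defect of conditioning. -/
noncomputable def dd (S : Finset T) (κ : Finset R → T → K) (e : Finset R) (f : T → ℝ) (x : T) : ℝ :=
  f x - cexp S (κ e) f x

lemma sum_dd_sq (S : Finset T) (κ : Finset R → T → K) (e : Finset R) (f : T → ℝ) :
    ∑ x ∈ S, (dd S κ e f x) ^ 2 = ∑ x ∈ S, (f x) ^ 2 - ∑ x ∈ S, (cexp S (κ e) f x) ^ 2 := by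
  have h1 := sum_mul_cexp_of_measurable (S := S) (κ := κ e) (cexp_measurable f) f
  rw [eq_sub_iff_add_eq, ← Finset.sum_add_distrib]
  have e1 : ∀ x, (dd S κ e f x) ^ 2 + (cexp S (κ e) f x) ^ 2
      = (f x) ^ 2 - 2 * (cexp S (κ e) f x * f x) + 2 * (cexp S (κ e) f x * cexp S (κ e) f x) := by
    intro x
    unfold dd
    ring
  simp_rw [e1]
  rw [Finset.sum_add_distrib, Finset.sum_sub_distrib, ← Finset.mul_sum, ← Finset.mul_sum, h1]
  ring

lemma sum_dd_mul (S : Finset T) (κ : Finset R → T → K) (e : Finset R) (f : T → ℝ) :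
    ∑ x ∈ S, f x * dd S κ e f x = ∑ x ∈ S, (dd S κ e f x) ^ 2 := by
  have := sum_sub_cexp_mul (S := S) (κ := κ e) f
  unfold dd
  rw [← this]
  apply Finset.sum_congr rfl
  intros
  ring

/-- Spectrum of the sum of defects avoids the open interval from zero to one, hence gap one. -/
theorem gap_of_square (S : Finset T) (κ : Finset R → T → K) (P : Finset (Finset R))
    (hG2 : ∀ f : T → ℝ, ∑ e ∈ P, ∑ x ∈ S, (dd S κ e f x) ^ 2
      ≤ ∑ x ∈ S, (∑ e ∈ P, dd S κ e f x) ^ 2)
    (hker : ∀ f : T → ℝ, (∀ e ∈ P, ∀ x ∈ S, dd S κ e f x = 0) → ∀ x ∈ S, ∀ y ∈ S, f x = f y)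
    (f : T → ℝ) (hf : ∑ x ∈ S, f x = 0) :
    ∑ x ∈ S, (f x) ^ 2 ≤ ∑ e ∈ P, ∑ x ∈ S, (dd S κ e f x) ^ 2 := by
  have hg := gap_of_no_eigen (I := {e // e ∈ P}) S (fun e => κ e.1) ((P.card : ℝ) - 1) ?_ f hf
  · rw [Finset.sum_coe_sort P (fun e => ∑ x ∈ S, (cexp S (κ e) f x) ^ 2)] at hg
    have h1 : ∑ e ∈ P, ∑ x ∈ S, (dd S κ e f x) ^ 2
        = (P.card : ℝ) * ∑ x ∈ S, (f x) ^ 2 - ∑ e ∈ P, ∑ x ∈ S, (cexp S (κ e) f x) ^ 2 := by
      simp_rw [sum_dd_sq]
      rw [Finset.sum_sub_distrib, Finset.sum_const, nsmul_eq_mul]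
    rw [h1]
    linarith
  · intro v η hmean hev hη
    have hev' : ∀ x ∈ S, ∑ e ∈ P, cexp S (κ e) v x = η * v x := by
      intro x hx
      have := hev x hx
      rwa [Finset.sum_coe_sort P (fun e => cexp S (κ e) v x)] at this
    set μ : ℝ := (P.card : ℝ) - η with hμ
    have hμ1 : μ < 1 := by rw [hμ]; linarith
    have hsumdd : ∀ x ∈ S, ∑ e ∈ P, dd S κ e v x = μ * v x := by
      intro x hx
      unfold dd
      rw [Finset.sum_sub_distrib, hev' x hx, Finset.sum_const, nsmul_eq_mul, hμ]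
      ring
    set Q : ℝ := ∑ x ∈ S, (v x) ^ 2 with hQ
    have hQ0 : 0 ≤ Q := Finset.sum_nonneg (fun x _ => sq_nonneg _)
    have hform : ∑ e ∈ P, ∑ x ∈ S, (dd S κ e v x) ^ 2 = μ * Q := by
      simp_rw [← sum_dd_mul]
      rw [Finset.sum_comm, hQ, Finset.mul_sum]
      apply Finset.sum_congr rfl
      intro x hx
      rw [← Finset.mul_sum, hsumdd x hx]
      ring
    have hsq : ∑ x ∈ S, (∑ e ∈ P, dd S κ e v x) ^ 2 = μ ^ 2 * Q := by
      rw [hQ, Finset.mul_sum]
      apply Finset.sum_congr rfl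
      intro x hx
      rw [hsumdd x hx]
      ring
    have h1 := hG2 v
    rw [hform, hsq] at h1
    have hnonneg : 0 ≤ μ * Q := by
      rw [← hform]
      exact Finset.sum_nonneg (fun e _ => Finset.sum_nonneg (fun x _ => sq_nonneg _))
    by_cases hQz : Q = 0
    · intro x hx
      have := (Finset.sum_eq_zero_iff_of_nonneg (fun x _ => sq_nonneg (v x))).1 hQz x hx
      exact pow_eq_zero_iff (two_ne_zero) |>.1 this
    · have hQpos : 0 < Q := lt_of_le_of_ne hQ0 (Ne.symm hQz)
      have hμ0 : 0 ≤ μ := by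
        by_contra hlt
        push Not at hlt
        nlinarith
      have hμz : μ = 0 := by
        by_contra hne
        have hμpos : 0 < μ := lt_of_le_of_ne hμ0 (Ne.symm hne)
        have : μ * Q ≤ μ * μ * Q := by nlinarith
        have h2 : 1 ≤ μ := by
          by_contra hlt
          push Not at hlt
          have h3 : μ * μ < μ * 1 := mul_lt_mul_of_pos_left hlt hμpos
          nlinarith
        linarith
      have hzero : ∑ e ∈ P, ∑ x ∈ S, (dd S κ e v x) ^ 2 = 0 := by
        rw [hform, hμz, zero_mul]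
      have hdd : ∀ e ∈ P, ∀ x ∈ S, dd S κ e v x = 0 := by
        intro e he x hx
        have h2 := (Finset.sum_eq_zero_iff_of_nonneg
          (fun e _ => Finset.sum_nonneg (fun x _ => sq_nonneg (dd S κ e v x)))).1 hzero e he
        have h3 := (Finset.sum_eq_zero_iff_of_nonneg (fun x _ => sq_nonneg (dd S κ e v x))).1 h2 x hx
        exact pow_eq_zero_iff (two_ne_zero) |>.1 h3
      have hconst := hker v hdd
      intro x hx
      have h2 : ∑ y ∈ S, v y = ∑ _y ∈ S, v x :=
        Finset.sum_congr rfl (fun y hy => hconst y hy x hx)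
      rw [hmean, Finset.sum_const, nsmul_eq_mul] at h2
      have hpos : 0 < (S.card : ℝ) := by exact_mod_cast Finset.card_pos.2 ⟨x, hx⟩
      exact (mul_eq_zero.1 h2.symm).resolve_left hpos.ne'

/-- From a gap for the mean-zero part on each coarse fiber to the square inequality on a coarse
block. -/
theorem square_of_block_gap (S : Finset T) (κ : Finset R → T → K) (t : Finset R)
    (P : Finset (Finset R))
    (htower : ∀ e ∈ P, ∀ x y, κ e x = κ e y → κ t x = κ t y)
    (hblock : ∀ x₀ ∈ S, ∀ g : T → ℝ, ∑ y ∈ sfib S (κ t) x₀, g y = 0 →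
      ∑ y ∈ sfib S (κ t) x₀, (g y) ^ 2 ≤ ∑ e ∈ P, ∑ y ∈ sfib S (κ t) x₀, (dd S κ e g y) ^ 2)
    (f : T → ℝ) :
    ∑ e ∈ P, ∑ x ∈ S, (dd S κ e f x) ^ 2 ≤ ∑ x ∈ S, (∑ e ∈ P, dd S κ e f x) ^ 2 := by
  -- the mean-zero part on coarse fibers
  set f₀ : T → ℝ := fun x => f x - cexp S (κ t) f x with hf₀
  have hdd₀ : ∀ e ∈ P, ∀ x ∈ S, dd S κ e f₀ x = dd S κ e f x := by
    intro e he x hx
    unfold dd
    have h1 : cexp S (κ e) (cexp S (κ t) f) x = cexp S (κ t) f x := by
      apply cexp_of_measurable _ hx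
      intro y _ z _ h
      exact cexp_congr f (htower e he y z h)
    simp only [hf₀]
    rw [cexp_sub, h1]
    ring
  have hmean : ∀ x₀ ∈ S, ∑ y ∈ sfib S (κ t) x₀, f₀ y = 0 := by
    intro x₀ hx₀
    have hpos := fib_card_pos (S := S) (κ := κ t) hx₀
    have h1 : ∑ y ∈ sfib S (κ t) x₀, cexp S (κ t) f y
        = ((sfib S (κ t) x₀).card : ℝ) * cexp S (κ t) f x₀ := by
      rw [← nsmul_eq_mul, ← Finset.sum_const]
      apply Finset.sum_congr rfl
      intro y hy
      exact cexp_congr f (mem_sfib.1 hy).2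
    simp only [hf₀]
    rw [Finset.sum_sub_distrib, h1]
    unfold cexp
    field_simp
    ring
  -- global inequality
  have hglob : ∑ x ∈ S, (f₀ x) ^ 2 ≤ ∑ e ∈ P, ∑ x ∈ S, (dd S κ e f₀ x) ^ 2 := by
    have h1 : ∀ x₀ ∈ S, cexp S (κ t) (fun x => (f₀ x) ^ 2) x₀
        ≤ cexp S (κ t) (fun x => ∑ e ∈ P, (dd S κ e f₀ x) ^ 2) x₀ := by
      intro x₀ hx₀
      have hpos := fib_card_pos (S := S) (κ := κ t) hx₀
      unfold cexp
      apply div_le_div_of_nonneg_right _ hpos.le
      have := hblock x₀ hx₀ f₀ (hmean x₀ hx₀)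
      rw [Finset.sum_comm]
      exact this
    have h2 := Finset.sum_le_sum h1
    rw [sum_cexp, sum_cexp, Finset.sum_comm] at h2
    exact h2
  set h : T → ℝ := fun x => ∑ e ∈ P, dd S κ e f x with hh
  set W : ℝ := ∑ e ∈ P, ∑ x ∈ S, (dd S κ e f x) ^ 2 with hW
  have hW' : W = ∑ e ∈ P, ∑ x ∈ S, (dd S κ e f₀ x) ^ 2 := by
    rw [hW]
    apply Finset.sum_congr rfl
    intro e he
    apply Finset.sum_congr rfl
    intro x hx
    rw [hdd₀ e he x hx]
  have hWnn : 0 ≤ W := Finset.sum_nonneg (fun e _ => Finset.sum_nonneg (fun x _ => sq_nonneg _))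
  -- W equals the pairing of f₀ and h
  have hpair : W = ∑ x ∈ S, f₀ x * h x := by
    rw [hW']
    simp_rw [← sum_dd_mul]
    rw [Finset.sum_comm]
    apply Finset.sum_congr rfl
    intro x hx
    simp only [hh]
    rw [Finset.mul_sum]
    apply Finset.sum_congr rfl
    intro e he
    rw [hdd₀ e he x hx]
  have hcs := Finset.sum_mul_sq_le_sq_mul_sq S f₀ h
  rw [← hpair] at hcs
  have hglob' : ∑ x ∈ S, (f₀ x) ^ 2 ≤ W := by rw [hW']; exact hglob
  have hh2 : 0 ≤ ∑ x ∈ S, (h x) ^ 2 := Finset.sum_nonneg (fun x _ => sq_nonneg _)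
  by_cases hWz : W = 0
  · rw [hWz]
    exact hh2
  · have hWpos : 0 < W := lt_of_le_of_ne hWnn (Ne.symm hWz)
    have : W * W ≤ W * ∑ x ∈ S, (h x) ^ 2 := by
      calc W * W = W ^ 2 := by ring
        _ ≤ (∑ x ∈ S, (f₀ x) ^ 2) * ∑ x ∈ S, (h x) ^ 2 := hcs
        _ ≤ W * ∑ x ∈ S, (h x) ^ 2 := mul_le_mul_of_nonneg_right hglob' hh2
    exact le_of_mul_le_mul_left this hWpos

end Gap

end Vale.Agent.Lib.P335
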