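import Vale.Agent.Lib.P335.Basic

namespace Vale.Agent.Lib.P335

open Finset Equiv

set_option linter.unusedSectionVars false

section Margins

variable {R C : Type*} [Fintype R] [DecidableEq R] [Fintype C] [DecidableEq C]

/-- Number of ones in row `i`. -/
def rowSum (M : R → C → Bool) (i : R) : ℕ := ∑ z, (M i z).toNat

/-- Number of ones in column `z`. -/
def colSum (M : R → C → Bool) (z : C) : ℕ := ∑ i, (M i z).toNat

/-- Zero-one matrices with prescribed row and column sums. -/
def Tables (r : R → ℕ) (c : C → ℕ) : Finset (R → C → Bool) :=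
  univ.filter (fun M => (∀ i, rowSum M i = r i) ∧ (∀ z, colSum M z = c z))

lemma mem_Tables {r : R → ℕ} {c : C → ℕ} {M : R → C → Bool} :
    M ∈ Tables r c ↔ (∀ i, rowSum M i = r i) ∧ (∀ z, colSum M z = c z) := by
  simp [Tables]

/-- Permute the columns of the whole matrix. -/
def colPerm (π : Perm C) (M : R → C → Bool) : R → C → Bool := fun i z => M i (π z)

/-- Exchange columns `x` and `y` inside the rows `a` and `q` only. -/
def sw (a q : R) (x y : C) (M : R → C → Bool) : R → C → Bool :=
  fun i z => if i = a ∨ i = q then M i (swap x y z) else M i z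

lemma rowSum_comp (f : C → Bool) (π : Perm C) :
    ∑ z, (f (π z)).toNat = ∑ z, (f z).toNat :=
  Equiv.sum_comp π (fun z => (f z).toNat)

lemma colPerm_mem {r : R → ℕ} {c : C → ℕ} {M : R → C → Bool} (π : Perm C)
    (hM : M ∈ Tables r c) (hc : ∀ z, c (π z) = c z) : colPerm π M ∈ Tables r c := by
  rw [mem_Tables] at hM ⊢
  refine ⟨fun i => ?_, fun z => ?_⟩
  · rw [← hM.1 i]
    exact rowSum_comp (M i) π
  · rw [← hc z, ← hM.2 (π z)]
    rfl

lemma colPerm_mul (π ρ : Perm C) (M : R → C → Bool) :
    colPerm ρ (colPerm π M) = colPerm (π * ρ) M := by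
  funext i z
  simp [colPerm]

lemma colPerm_one (M : R → C → Bool) : colPerm 1 M = M := by
  funext i z
  simp [colPerm]

lemma sum_two_erase {α : Type*} [Fintype α] [DecidableEq α] {a q : α} (h : a ≠ q) (g : α → ℕ) :
    ∑ i, g i = g a + g q + ∑ i ∈ (univ.erase a).erase q, g i := by
  rw [← Finset.add_sum_erase univ g (mem_univ a),
    ← Finset.add_sum_erase (univ.erase a) g (mem_erase.2 ⟨h.symm, mem_univ q⟩)]
  ring

lemma sw_colSum {a q : R} (hne : a ≠ q) {x y : C} {M : R → C → Bool}
    (h1 : M a x ≠ M a y) (h2 : M q x ≠ M q y) (h3 : M a x ≠ M q x) (z : C) :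
    colSum (sw a q x y M) z = colSum M z := by
  unfold colSum
  rw [sum_two_erase hne (fun i => (sw a q x y M i z).toNat),
    sum_two_erase hne (fun i => (M i z).toNat)]
  have hrest : ∑ i ∈ (univ.erase a).erase q, (sw a q x y M i z).toNat
      = ∑ i ∈ (univ.erase a).erase q, (M i z).toNat := by
    apply Finset.sum_congr rfl
    intro i hi
    have hi1 : i ≠ q := (mem_erase.1 hi).1
    have hi2 : i ≠ a := (mem_erase.1 (mem_erase.1 hi).2).1
    simp [sw, hi1, hi2]
  rw [hrest]
  have hxy : x ≠ y := fun h => h1 (by rw [h])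
  simp only [sw, true_or, or_true, if_true]
  by_cases hzx : z = x
  · subst hzx
    rw [swap_apply_left]
    congr 1
    cases hax : M a z <;> cases hay : M a y <;> cases hqx : M q z <;> cases hqy : M q y <;>
      simp_all
  · by_cases hzy : z = y
    · subst hzy
      rw [swap_apply_right]
      congr 1
      cases hax : M a x <;> cases hay : M a z <;> cases hqx : M q x <;> cases hqy : M q z <;>
        simp_all
    · rw [swap_apply_of_ne_of_ne hzx hzy]

lemma sw_rowSum (a q : R) (x y : C) (M : R → C → Bool) (i : R) :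
    rowSum (sw a q x y M) i = rowSum M i := by
  unfold rowSum
  by_cases hi : i = a ∨ i = q
  · simp only [sw, hi, if_true]
    exact rowSum_comp (M i) (swap x y)
  · simp only [sw, hi, if_false]

lemma sw_mem {r : R → ℕ} {c : C → ℕ} {a q : R} (hne : a ≠ q) {x y : C} {M : R → C → Bool}
    (hM : M ∈ Tables r c) (h1 : M a x ≠ M a y) (h2 : M q x ≠ M q y) (h3 : M a x ≠ M q x) :
    sw a q x y M ∈ Tables r c := by
  rw [mem_Tables] at hM ⊢
  refine ⟨fun i => ?_, fun z => ?_⟩
  · rw [sw_rowSum]; exact hM.1 i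
  · rw [sw_colSum hne h1 h2 h3]; exact hM.2 z

lemma sw_sw (a q : R) (x y : C) (M : R → C → Bool) : sw a q x y (sw a q x y M) = M := by
  funext i z
  by_cases hi : i = a ∨ i = q
  · simp [sw, hi]
  · simp [sw, hi]

lemma sw_apply_left (a q : R) (x y : C) (M : R → C → Bool) :
    sw a q x y M a = fun z => M a (swap x y z) := by
  funext z; simp [sw]

lemma sw_apply_right (a q : R) (x y : C) (M : R → C → Bool) :
    sw a q x y M q = fun z => M q (swap x y z) := by
  funext z; simp [sw]

lemma sw_apply_other {a q : R} (x y : C) (M : R → C → Bool) {i : R} (h1 : i ≠ a) (h2 : i ≠ q) :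
    sw a q x y M i = M i := by
  funext z; simp [sw, h1, h2]

/-- A row is unchanged by exchanging two positions with equal entries. -/
lemma comp_swap_of_eq {f : C → Bool} {x y : C} (h : f x = f y) : (fun z => f (swap x y z)) = f := by
  funext z
  by_cases hzx : z = x
  · subst hzx; simp [h]
  · by_cases hzy : z = y
    · subst hzy; simp [h]
    · rw [swap_apply_of_ne_of_ne hzx hzy]

/-- Count of ones of `f` within `P`. -/
def cnt (P : Finset C) (f : C → Bool) : ℕ := ∑ z ∈ P, (f z).toNat

lemma cnt_swap_in_out {P : Finset C} {x y : C} (hx : x ∈ P) (hy : y ∉ P) (f : C → Bool) :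
    cnt P (fun z => f (swap x y z)) + (f x).toNat = cnt P f + (f y).toNat := by
  unfold cnt
  rw [← Finset.add_sum_erase P _ hx, ← Finset.add_sum_erase P (fun z => (f z).toNat) hx]
  have hrest : ∑ z ∈ P.erase x, (f (swap x y z)).toNat = ∑ z ∈ P.erase x, (f z).toNat := by
    apply Finset.sum_congr rfl
    intro z hz
    have hz1 : z ≠ x := (mem_erase.1 hz).1
    have hz2 : z ≠ y := fun h => hy (h ▸ (mem_erase.1 hz).2)
    rw [swap_apply_of_ne_of_ne hz1 hz2]
  rw [hrest]
  simp only [swap_apply_left]
  ring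

lemma cnt_swap_out_in {P : Finset C} {x y : C} (hx : x ∉ P) (hy : y ∈ P) (f : C → Bool) :
    cnt P (fun z => f (swap x y z)) + (f y).toNat = cnt P f + (f x).toNat := by
  have := cnt_swap_in_out hy hx f
  rwa [swap_comm] at this

lemma cnt_swap_in_in {P : Finset C} {x y : C} (hx : x ∈ P) (hy : y ∈ P) (f : C → Bool) :
    cnt P (fun z => f (swap x y z)) = cnt P f := by
  unfold cnt
  apply Finset.sum_equiv (swap x y)
  · intro z
    by_cases hzx : z = x
    · subst hzx; simp [hx, hy]
    · by_cases hzy : z = y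
      · subst hzy; simp [hx, hy]
      · rw [swap_apply_of_ne_of_ne hzx hzy]
  · intro z _
    rfl

lemma cnt_swap_out_out {P : Finset C} {x y : C} (hx : x ∉ P) (hy : y ∉ P) (f : C → Bool) :
    cnt P (fun z => f (swap x y z)) = cnt P f := by
  unfold cnt
  apply Finset.sum_congr rfl
  intro z hz
  have hz1 : z ≠ x := fun h => hx (h ▸ hz)
  have hz2 : z ≠ y := fun h => hy (h ▸ hz)
  simp only [swap_apply_of_ne_of_ne hz1 hz2]

end Margins

end Vale.Agent.Lib.P335
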