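import Vale.Agent.Lib.P335.Defs

/-!
# P335: classification of perfect matchings on four vertices
-/

namespace Vale.Agent.Lib.P335

open Finset

variable {n : ℕ}

/-- Membership in `perfectMatchings`. -/
theorem mem_perfectMatchings {S : Finset (Fin n)} {F : Finset (Sym2 (Fin n))} :
    F ∈ perfectMatchings S ↔
      F ⊆ S.sym2 ∧ (∀ e ∈ F, ¬ e.IsDiag) ∧ ∀ v ∈ S, ∃! e, e ∈ F ∧ v ∈ e := by
  classical
  unfold perfectMatchings
  simp only [mem_filter, mem_powerset]

/-- `{xy, zw}` is a perfect matching of `{x,y,z,w}`. -/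
theorem pm_mem {x y z w : Fin n} (hxy : x ≠ y) (hxz : x ≠ z) (hxw : x ≠ w)
    (hyz : y ≠ z) (hyw : y ≠ w) (hzw : z ≠ w) :
    ({s(x, y), s(z, w)} : Finset (Sym2 (Fin n))) ∈ perfectMatchings ({x, y, z, w} : Finset (Fin n)) := by
  classical
  rw [mem_perfectMatchings]
  refine ⟨?_, ?_, ?_⟩
  · intro e he
    simp only [mem_insert, mem_singleton] at he
    rcases he with rfl | rfl <;> simp
  · intro e he
    simp only [mem_insert, mem_singleton] at he
    rcases he with rfl | rfl <;> simp [Sym2.mk_isDiag_iff, hxy, hzw]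
  · intro v hv
    simp only [mem_insert, mem_singleton] at hv
    rcases hv with rfl | rfl | rfl | rfl
    · refine ⟨s(v, y), ⟨by simp, by simp⟩, ?_⟩
      rintro e ⟨he, hv⟩
      simp only [mem_insert, mem_singleton] at he
      rcases he with rfl | rfl
      · rfl
      · simp [hxz, hxw] at hv
    · refine ⟨s(x, v), ⟨by simp, by simp⟩, ?_⟩
      rintro e ⟨he, hv⟩
      simp only [mem_insert, mem_singleton] at he
      rcases he with rfl | rfl
      · rfl
      · simp [hyz, hyw] at hv
    · refine ⟨s(v, w), ⟨by simp, by simp⟩, ?_⟩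
      rintro e ⟨he, hv⟩
      simp only [mem_insert, mem_singleton] at he
      rcases he with rfl | rfl
      · simp [Ne.symm hxz, Ne.symm hyz] at hv
      · rfl
    · refine ⟨s(z, v), ⟨by simp, by simp⟩, ?_⟩
      rintro e ⟨he, hv⟩
      simp only [mem_insert, mem_singleton] at he
      rcases he with rfl | rfl
      · simp [Ne.symm hxw, Ne.symm hyw] at hv
      · rfl

/-- A perfect matching of `{a,b,c,d}` containing `ab` is `{ab, cd}`. -/
theorem pm_eq_of_mem {a b c d : Fin n} (hab : a ≠ b) (hac : a ≠ c) (had : a ≠ d)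
    (hbc : b ≠ c) (hbd : b ≠ d) (hcd : c ≠ d) {F : Finset (Sym2 (Fin n))}
    (hF : F ∈ perfectMatchings ({a, b, c, d} : Finset (Fin n))) (h : s(a, b) ∈ F) :
    F = {s(a, b), s(c, d)} := by
  classical
  rw [mem_perfectMatchings] at hF
  obtain ⟨hsub, hnd, hun⟩ := hF
  -- uniqueness on `a` and `b`
  have huna : ∀ e, e ∈ F → a ∈ e → e = s(a, b) := by
    intro e he hae
    obtain ⟨e0, _, h0⟩ := hun a (by simp)
    rw [h0 e ⟨he, hae⟩, h0 s(a, b) ⟨h, by simp⟩]
  have hunb : ∀ e, e ∈ F → b ∈ e → e = s(a, b) := by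
    intro e he hbe
    obtain ⟨e0, _, h0⟩ := hun b (by simp)
    rw [h0 e ⟨he, hbe⟩, h0 s(a, b) ⟨h, by simp⟩]
  -- the edge through `c`
  obtain ⟨ec, ⟨hecF, hcec⟩, hec⟩ := hun c (by simp)
  obtain ⟨t, rfl⟩ := Sym2.mem_iff_exists.mp hcec |>.imp (fun _ h => h)
  have htS : t ∈ ({a, b, c, d} : Finset (Fin n)) := by
    have := hsub hecF
    rw [Finset.mk_mem_sym2_iff] at this
    exact this.2
  have htc : t ≠ c := by
    intro htc
    subst htc
    exact hnd _ hecF (by simp [Sym2.mk_isDiag_iff])
  have hta : t ≠ a := by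
    intro hta
    subst hta
    have := huna _ hecF (by simp)
    have h2 : c ∈ s(t, b) := this ▸ (by simp)
    simp [Ne.symm hac, Ne.symm hbc] at h2
  have htb : t ≠ b := by
    intro htb
    subst htb
    have := hunb _ hecF (by simp)
    have h2 : c ∈ s(a, t) := this ▸ (by simp)
    simp [Ne.symm hac, Ne.symm hbc] at h2
  have htd : t = d := by
    simp only [mem_insert, mem_singleton] at htS
    rcases htS with h1 | h1 | h1 | h1
    · exact absurd h1 hta
    · exact absurd h1 htb
    · exact absurd h1 htc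
    · exact h1
  subst htd
  have hcdF : s(c, t) ∈ F := hecF
  have hund : ∀ e, e ∈ F → t ∈ e → e = s(c, t) := by
    intro e he hde
    obtain ⟨e0, _, h0⟩ := hun t (by simp)
    rw [h0 e ⟨he, hde⟩, h0 s(c, t) ⟨hcdF, by simp⟩]
  have hunc : ∀ e, e ∈ F → c ∈ e → e = s(c, t) := by
    intro e he hce
    exact hec e ⟨he, hce⟩
  ext e
  simp only [mem_insert, mem_singleton]
  constructor
  · intro he
    induction e using Sym2.ind with
    | _ u v =>
      have huS := hsub he
      rw [Finset.mk_mem_sym2_iff] at huS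
      have hu := huS.1
      simp only [mem_insert, mem_singleton] at hu
      rcases hu with rfl | rfl | rfl | rfl
      · exact Or.inl (huna _ he (by simp))
      · exact Or.inl (hunb _ he (by simp))
      · exact Or.inr (hunc _ he (by simp))
      · exact Or.inr (hund _ he (by simp))
  · rintro (rfl | rfl)
    · exact h
    · exact hcdF

/-- **Classification of the perfect matchings of four vertices.** -/
theorem perfectMatchings_four {a b c d : Fin n} (hab : a ≠ b) (hac : a ≠ c) (had : a ≠ d)
    (hbc : b ≠ c) (hbd : b ≠ d) (hcd : c ≠ d) :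
    perfectMatchings ({a, b, c, d} : Finset (Fin n))
      = {{s(a, b), s(c, d)}, {s(a, c), s(b, d)}, {s(a, d), s(b, c)}} := by
  classical
  have e1 : ({a, c, b, d} : Finset (Fin n)) = {a, b, c, d} := by
    ext x; simp only [mem_insert, mem_singleton]; tauto
  have e2 : ({a, d, b, c} : Finset (Fin n)) = {a, b, c, d} := by
    ext x; simp only [mem_insert, mem_singleton]; tauto
  ext F
  simp only [mem_insert, mem_singleton]
  constructor
  · intro hF
    have hF' := mem_perfectMatchings.1 hF
    obtain ⟨hsub, hnd, hun⟩ := hF'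
    obtain ⟨e0, ⟨he0F, hae0⟩, _⟩ := hun a (by simp)
    obtain ⟨t, rfl⟩ := Sym2.mem_iff_exists.mp hae0 |>.imp (fun _ h => h)
    have htS : t ∈ ({a, b, c, d} : Finset (Fin n)) := by
      have := hsub he0F
      rw [Finset.mk_mem_sym2_iff] at this
      exact this.2
    have hta : t ≠ a := by
      intro hta
      subst hta
      exact hnd _ he0F (by simp [Sym2.mk_isDiag_iff])
    simp only [mem_insert, mem_singleton] at htS
    rcases htS with h1 | h1 | h1 | h1
    · exact absurd h1 hta
    · subst h1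
      exact Or.inl (pm_eq_of_mem hab hac had hbc hbd hcd hF he0F)
    · subst h1
      right; left
      rw [← e1] at hF
      exact pm_eq_of_mem hac hab had (Ne.symm hbc) hcd hbd hF he0F
    · subst h1
      right; right
      rw [← e2] at hF
      exact pm_eq_of_mem had hab hac (Ne.symm hbd) (Ne.symm hcd) hbc hF he0F
  · rintro (rfl | rfl | rfl)
    · exact pm_mem hab hac had hbc hbd hcd
    · rw [← e1]
      exact pm_mem hac hab had (Ne.symm hbc) hcd hbd
    · rw [← e2]
      exact pm_mem had hab hac (Ne.symm hbd) (Ne.symm hcd) hbc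

/-- Three matchings are distinct. -/
theorem matchings_ne {a b c d : Fin n} (hab : a ≠ b) (hac : a ≠ c) (had : a ≠ d)
    (hbc : b ≠ c) :
    ({s(a, b), s(c, d)} : Finset (Sym2 (Fin n))) ≠ {s(a, c), s(b, d)} := by
  classical
  intro h
  have : s(a, b) ∈ ({s(a, c), s(b, d)} : Finset (Sym2 (Fin n))) := h ▸ (by simp)
  simp only [mem_insert, mem_singleton, Sym2.eq_iff] at this
  tauto

/-- There are exactly three perfect matchings on four vertices. -/
theorem card_perfectMatchings {S : Finset (Fin n)} (hS : S.card = 4) :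
    (perfectMatchings S).card = 3 := by
  classical
  obtain ⟨a, b, c, d, hab, hac, had, hbc, hbd, hcd, rfl⟩ : ∃ a b c d : Fin n, a ≠ b ∧ a ≠ c ∧ a ≠ d ∧
      b ≠ c ∧ b ≠ d ∧ c ≠ d ∧ S = {a, b, c, d} := by
    obtain ⟨a, T, ha, rfl, hT⟩ := Finset.card_eq_succ.mp hS
    obtain ⟨b, c, d, hT⟩ := Finset.card_eq_three.mp hT |>.imp fun _ h => h
    obtain ⟨hbc, hbd, hcd, rfl⟩ := hT
    simp only [mem_insert, mem_singleton, not_or] at ha
    exact ⟨a, b, c, d, ha.1, ha.2.1, ha.2.2, hbc, hbd, hcd, rfl⟩
  rw [perfectMatchings_four hab hac had hbc hbd hcd]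
  have h12 := matchings_ne (c := c) (d := d) hab hac had hbc
  have h13 : ({s(a, b), s(c, d)} : Finset (Sym2 (Fin n))) ≠ {s(a, d), s(b, c)} := by
    intro h
    have : s(a, b) ∈ ({s(a, d), s(b, c)} : Finset (Sym2 (Fin n))) := h ▸ (by simp)
    simp only [mem_insert, mem_singleton, Sym2.eq_iff] at this
    tauto
  have h23 : ({s(a, c), s(b, d)} : Finset (Sym2 (Fin n))) ≠ {s(a, d), s(b, c)} := by
    intro h
    have : s(a, c) ∈ ({s(a, d), s(b, c)} : Finset (Sym2 (Fin n))) := h ▸ (by simp)
    simp only [mem_insert, mem_singleton, Sym2.eq_iff] at this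
    tauto
  rw [card_insert_of_notMem, card_insert_of_notMem, card_singleton]
  · simpa using h23
  · simp only [mem_insert, mem_singleton, not_or]
    exact ⟨h12, h13⟩

end Vale.Agent.Lib.P335
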