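import Vale.Agent.Lib.P335.Pair

/-!
The switch on the block between two disjoint vertex pairs, and its compatibility with resampling.
-/

namespace Vale.Agent.Lib.P335

open Finset

variable {n : ℕ} {d : Fin n → ℕ}

lemma mem_toggleBlock {i j k l : Fin n} {G : Gr n} {e : Sym2 (Fin n)} :
    e ∈ toggleBlock i j k l G ↔ (e ∈ G ↔ e ∉ blockSlots i j k l) := by
  unfold toggleBlock
  rw [Finset.mem_symmDiff]
  tauto

lemma toggleBlock_toggleBlock (i j k l : Fin n) (G : Gr n) :
    toggleBlock i j k l (toggleBlock i j k l G) = G := by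
  ext e
  simp only [mem_toggleBlock]
  tauto

lemma toggle_two {P Q P' Q' : Prop} [Decidable P] [Decidable Q] [Decidable P'] [Decidable Q']
    (hP : P' ↔ ¬ P) (hQ : Q' ↔ ¬ Q) (hc : P ↔ ¬ Q) :
    (if P' then 1 else 0) + (if Q' then 1 else 0) = (if P then 1 else 0) + (if Q then (1:ℕ) else 0) := by
  by_cases h1 : P <;> by_cases h2 : Q <;> simp_all

section
variable {i j k l : Fin n}

lemma mem_toggle_ik (h : D4 i j k l) {G : Gr n} : s(i, k) ∈ toggleBlock i j k l G ↔ s(i, k) ∉ G := by
  rw [mem_toggleBlock]
  have : s(i, k) ∈ blockSlots i j k l := by simp [blockSlots]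
  tauto

lemma mem_toggle_il (h : D4 i j k l) {G : Gr n} : s(i, l) ∈ toggleBlock i j k l G ↔ s(i, l) ∉ G := by
  rw [mem_toggleBlock]
  have : s(i, l) ∈ blockSlots i j k l := by simp [blockSlots]
  tauto

lemma mem_toggle_jk (h : D4 i j k l) {G : Gr n} : s(j, k) ∈ toggleBlock i j k l G ↔ s(j, k) ∉ G := by
  rw [mem_toggleBlock]
  have : s(j, k) ∈ blockSlots i j k l := by simp [blockSlots]
  tauto

lemma mem_toggle_jl (h : D4 i j k l) {G : Gr n} : s(j, l) ∈ toggleBlock i j k l G ↔ s(j, l) ∉ G := by
  rw [mem_toggleBlock]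
  have : s(j, l) ∈ blockSlots i j k l := by simp [blockSlots]
  tauto

lemma isCenter_toggle (h : D4 i j k l) {G : Gr n} (hc : IsCenter i j k l G) :
    IsCenter i j k l (toggleBlock i j k l G) := by
  unfold IsCenter at hc ⊢
  rw [mem_toggle_ik h, mem_toggle_il h, mem_toggle_jk h, mem_toggle_jl h]
  tauto

lemma mem_block_iff {a b : Fin n} :
    s(a, b) ∈ blockSlots i j k l ↔
      ((a = i ∨ a = j) ∧ (b = k ∨ b = l)) ∨ ((a = k ∨ a = l) ∧ (b = i ∨ b = j)) := by
  simp only [mem_blockSlots, Sym2.eq_iff]
  tauto

lemma toggle_of_not_block {e : Sym2 (Fin n)} {G : Gr n} (he : e ∉ blockSlots i j k l) :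
    e ∈ toggleBlock i j k l G ↔ e ∈ G := by
  rw [mem_toggleBlock]
  tauto

/-- Toggling the block of a centre graph preserves simplicity and all degrees. -/
lemma toggle_isRealization (h : D4 i j k l) {G : Gr n} (hG : IsRealization d G)
    (hc : IsCenter i j k l G) : IsRealization d (toggleBlock i j k l G) := by
  obtain ⟨hij, hik, hil, hjk, hjl, hkl⟩ := id h
  have hc1 := hc.1.1
  have hc2 := hc.1.2
  have hc3 := hc.2
  have hdeg : ∀ v, degreeIn (toggleBlock i j k l G) v = degreeIn G v := by
    intro v
    by_cases hvi : v = i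
    · rw [hvi]
      refine degreeIn_eq_of_two_slots hkl (fun u hu1 hu2 => toggle_of_not_block ?_)
        (toggle_two (mem_toggle_ik h) (mem_toggle_il h) hc3)
      rw [mem_block_iff]; tauto
    by_cases hvj : v = j
    · rw [hvj]
      refine degreeIn_eq_of_two_slots hkl (fun u hu1 hu2 => toggle_of_not_block ?_)
        (toggle_two (mem_toggle_jk h) (mem_toggle_jl h) (by tauto))
      rw [mem_block_iff]; tauto
    by_cases hvk : v = k
    · rw [hvk]
      refine degreeIn_eq_of_two_slots hij (fun u hu1 hu2 => toggle_of_not_block ?_) ?_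
      · rw [mem_block_iff]; tauto
      · simp only [Sym2.eq_swap (a := k) (b := i), Sym2.eq_swap (a := k) (b := j)]
        exact toggle_two (mem_toggle_ik h) (mem_toggle_jk h) (by tauto)
    by_cases hvl : v = l
    · rw [hvl]
      refine degreeIn_eq_of_two_slots hij (fun u hu1 hu2 => toggle_of_not_block ?_) ?_
      · rw [mem_block_iff]; tauto
      · simp only [Sym2.eq_swap (a := l) (b := i), Sym2.eq_swap (a := l) (b := j)]
        exact toggle_two (mem_toggle_il h) (mem_toggle_jl h) (by tauto)
    · unfold degreeIn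
      congr 1
      ext u
      simp only [Finset.mem_filter, Finset.mem_univ, true_and]
      refine toggle_of_not_block ?_
      rw [mem_block_iff]; tauto
  constructor
  · intro v hv
    have hnb : s(v, v) ∉ blockSlots i j k l := by
      rw [mem_block_iff]
      rintro (⟨h1 | h1, h2 | h2⟩ | ⟨h1 | h1, h2 | h2⟩) <;> subst h1 <;> subst h2 <;>
        first | exact hik rfl | exact hil rfl | exact hjk rfl | exact hjl rfl
    exact hG.1 v ((toggle_of_not_block hnb).1 hv)
  · intro v
    rw [hdeg v, hG.2 v]

/-- The switch on the block, as a map on `Rz d`: the identity off the centre. -/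
noncomputable def togG (i j k l : Fin n) (G : Rz d) : Rz d :=
  if h : IsCenter i j k l G.1 ∧ IsRealization d (toggleBlock i j k l G.1) then ⟨_, h.2⟩ else G

lemma togG_val (h : D4 i j k l) {G : Rz d} (hc : IsCenter i j k l G.1) :
    (togG i j k l G).1 = toggleBlock i j k l G.1 := by
  unfold togG
  rw [dif_pos ⟨hc, toggle_isRealization h G.2 hc⟩]

/-- The compatibility of the switch with the four keys. -/
lemma centerStructure (h : D4 i j k l) :
    CenterStructure (fun G : Rz d => IsCenter i j k l G.1) (togG i j k l)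
      (offKey (d := d) (rowSlots i j)) (offKey (d := d) (rowSlots k l))
      (offKey (d := d) (outerSlots i j k l)) (offKey (d := d) (outerSlots k l i j)) := by
  have hbk : blockSlots i j k l ⊆ rowSlots k l := by
    rw [← blockSlots_swap]
    exact block_sub_row h.swap
  have hoff : ∀ (W : Gr n), blockSlots i j k l ⊆ W → ∀ x : Rz d, IsCenter i j k l x.1 →
      offKey W (togG i j k l x) = offKey W x := by
    intro W hW x hx
    rw [offKey_eq_iff]
    intro e he
    rw [togG_val h hx, mem_toggleBlock]
    have : e ∉ blockSlots i j k l := fun h' => he (hW h')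
    tauto
  have hblockA : ∀ (W : Gr n), (∀ e ∈ blockSlots i j k l, e ∉ W) → ∀ x y : Rz d,
      IsCenter i j k l x.1 → offKey W y = offKey W x →
      IsCenter i j k l y.1 ∧ offKey W (togG i j k l y) = offKey W (togG i j k l x) := by
    intro W hW x y hx hk
    have hb : ∀ e ∈ blockSlots i j k l, (e ∈ y.1 ↔ e ∈ x.1) := fun e he =>
      (offKey_eq_iff.1 hk) e (hW e he)
    have hy : IsCenter i j k l y.1 := by
      unfold IsCenter at hx ⊢
      rw [hb _ (by simp [blockSlots] : s(i, k) ∈ _), hb _ (by simp [blockSlots] : s(i, l) ∈ _),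
        hb _ (by simp [blockSlots] : s(j, k) ∈ _), hb _ (by simp [blockSlots] : s(j, l) ∈ _)]
      exact hx
    refine ⟨hy, ?_⟩
    rw [offKey_eq_iff]
    intro e he
    rw [togG_val h hx, togG_val h hy, mem_toggleBlock, mem_toggleBlock,
      (offKey_eq_iff.1 hk) e he]
  refine ⟨?_, ?_, ?_, ?_, ?_, ?_⟩
  · intro x hx
    show IsCenter i j k l (togG i j k l x).1
    rw [togG_val h hx]
    exact isCenter_toggle h hx
  · intro x hx
    apply Subtype.ext
    have hx' : IsCenter i j k l (togG i j k l x).1 := by
      rw [togG_val h hx]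
      exact isCenter_toggle h hx
    rw [togG_val h hx', togG_val h hx, toggleBlock_toggleBlock]
  · exact fun x hx => hoff _ (block_sub_row h) x hx
  · exact fun x hx => hoff _ hbk x hx
  · exact fun x y hx hk => hblockA _ (fun e he => block_not_outer h he) x y hx hk
  · refine fun x y hx hk => hblockA _ (fun e he => ?_) x y hx hk
    rw [← blockSlots_swap] at he
    exact block_not_outer h.swap he

end

end Vale.Agent.Lib.P335
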