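import Vale.Agent.Lib.P335.PairRect

/-!
The inequality for two disjoint vertex pairs on `Rz d`.
-/

namespace Vale.Agent.Lib.P335

open Finset

variable {n : ℕ} {d : Fin n → ℕ} {i j k l : Fin n}

lemma isCenter_iff_bk (E : Gr n) : IsCenter i j k l E ↔
    ((bk E i k = bk E j l) ∧ (bk E i l = bk E j k)) ∧ bk E i k = !bk E i l := by
  unfold IsCenter
  by_cases h1 : s(i, k) ∈ E <;> by_cases h2 : s(i, l) ∈ E <;> by_cases h3 : s(j, k) ∈ E <;>
    by_cases h4 : s(j, l) ∈ E <;> simp [bk, h1, h2, h3, h4]

lemma center_blockSum {E : Gr n} (hc : IsCenter i j k l E) : blockSum i j k l E = 2 := by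
  rw [isCenter_iff_bk] at hc
  obtain ⟨⟨h1, h2⟩, h3⟩ := hc
  unfold blockSum sumB
  rw [← h1, ← h2, h3]
  cases bk E i l <;> rfl

/-- Off the centre at block sum two, one of the two keys fixes the block. -/
lemma off_center_rigid (h : D4 i j k l) (x : Rz d) (hc : ¬ IsCenter i j k l x.1)
    (ht : blockSum i j k l x.1 = 2) :
    (∀ y : Rz d, offKey (rowSlots k l) y = offKey (rowSlots k l) x →
        offKey (outerSlots k l i j) y = offKey (outerSlots k l i j) x) ∨
      (∀ y : Rz d, offKey (rowSlots i j) y = offKey (rowSlots i j) x →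
        offKey (outerSlots i j k l) y = offKey (outerSlots i j k l) x) := by
  rw [isCenter_iff_bk] at hc
  rcases block_cases _ _ _ _ ht hc with ⟨h1, h2⟩ | ⟨h1, h2⟩
  · left
    intro y hy
    obtain ⟨r1, r2⟩ := row_sums_q h hy
    obtain ⟨e1, e2, e3, e4⟩ := block_rigid_row _ _ _ _ _ _ _ _ ht h1 h2 r1.symm r2.symm
    rw [offKey_eq_iff]
    intro e he
    by_cases hr : e ∈ rowSlots k l
    · rcases row_eq_outer_or_block (k := i) (l := j) hr with h5 | h5
      · exact absurd h5 he
      · rw [blockSlots_swap, mem_blockSlots] at h5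
        rcases h5 with rfl | rfl | rfl | rfl
        · simpa [bk] using e1.symm
        · simpa [bk] using e2.symm
        · simpa [bk] using e3.symm
        · simpa [bk] using e4.symm
    · exact (offKey_eq_iff.1 hy) e hr
  · right
    intro y hy
    obtain ⟨c1, c2⟩ := col_sums_p h hy
    obtain ⟨e1, e2, e3, e4⟩ := block_rigid_col _ _ _ _ _ _ _ _ ht h1 h2 c1.symm c2.symm
    rw [offKey_eq_iff]
    intro e he
    by_cases hr : e ∈ rowSlots i j
    · rcases row_eq_outer_or_block (k := k) (l := l) hr with h5 | h5
      · exact absurd h5 he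
      · rw [mem_blockSlots] at h5
        rcases h5 with rfl | rfl | rfl | rfl
        · simpa [bk] using e1.symm
        · simpa [bk] using e2.symm
        · simpa [bk] using e3.symm
        · simpa [bk] using e4.symm
    · exact (offKey_eq_iff.1 hy) e hr

/-- **The pair inequality**: for two disjoint vertex pairs. -/
theorem pair_ineq (h : D4 i j k l) (f : Rz d → ℝ) :
    2 * ip (tauOp (fun G : Rz d => IsCenter i j k l G.1) (togG i j k l) f)
        (tauOp (fun G : Rz d => IsCenter i j k l G.1) (togG i j k l) f) ≤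
      2 * ip (rowProj i j f) (rowProj k l f) +
        crossTerm (fun G : Rz d => IsCenter i j k l G.1) (togG i j k l)
          (offKey (outerSlots i j k l)) (offKey (rowSlots i j)) f +
        crossTerm (fun G : Rz d => IsCenter i j k l G.1) (togG i j k l)
          (offKey (outerSlots k l i j)) (offKey (rowSlots k l)) f := by
  refine pair_general (pairStructure h) (centerStructure h)
    (fun G : Rz d => blockSum i j k l G.1 = 2) ?_ ?_ ?_ ?_ ?_ f
  · intro x y hxy
    show blockSum i j k l x.1 = 2 ↔ blockSum i j k l y.1 = 2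
    rw [blockSum_p h hxy]
  · intro x y hxy
    show blockSum i j k l x.1 = 2 ↔ blockSum i j k l y.1 = 2
    rw [blockSum_q h hxy]
  · intro x hx
    exact center_blockSum hx
  · intro x hx ht
    exact off_center_rigid h x hx ht
  · intro u x hx
    exact rowAvg_comm_off h u hx

end Vale.Agent.Lib.P335
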