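import Vale.Agent.Lib.P335.PairCenter
import Vale.Agent.Lib.P335.BlockLogic

/-!
Away from block sum two the row-pair averages of two disjoint pairs commute: a rectangle structure.
-/

namespace Vale.Agent.Lib.P335

open Finset

section AbstractRect

variable {Ω K K' : Type*} [Fintype Ω] [DecidableEq K] [DecidableEq K']

/-- Averages over two keys commute at points of a region where the pair of keys is injective and
every pair of points through a common point is joined by a rectangle. -/
lemma avg_comm_of_rect {κ : Ω → K} {κ' : Ω → K'} {P : Ω → Prop}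
    (hP : ∀ a b, κ a = κ b → (P a ↔ P b)) (hP' : ∀ a b, κ' a = κ' b → (P a ↔ P b))
    (hex : ∀ b y z, P b → κ y = κ b → κ' z = κ' b → ∃ w, κ' w = κ' y ∧ κ w = κ z)
    (hun : ∀ a a', P a → κ a = κ a' → κ' a = κ' a' → a = a')
    (f : Ω → ℝ) {x : Ω} (hx : P x) : avg κ (avg κ' f) x = avg κ' (avg κ f) x := by
  classical
  let Φ : Ω → Ω → Ω := fun y z =>
    if h : κ y = κ x ∧ κ' z = κ' x then (hex x y z hx h.1 h.2).choose else x
  have hΦ : ∀ y z, κ y = κ x → κ' z = κ' x → κ' (Φ y z) = κ' y ∧ κ (Φ y z) = κ z := by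
    intro y z hy hz
    have : Φ y z = (hex x y z hx hy hz).choose := by simp [Φ, hy, hz]
    rw [this]
    exact (hex x y z hx hy hz).choose_spec
  refine avg_comm_at f x Φ ?_ ?_
  · intro y hy
    have hy' : κ y = κ x := mem_fib.1 hy
    refine ⟨?_, ?_, ?_⟩
    · intro z hz
      have hz' : κ' z = κ' x := mem_fib.1 (by exact_mod_cast hz)
      have : κ' (Φ y z) = κ' y := (hΦ y z hy' hz').1
      exact_mod_cast mem_fib.2 this
    · intro z hz z' hz' heq
      have h1 : κ' z = κ' x := mem_fib.1 (by exact_mod_cast hz)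
      have h2 : κ' z' = κ' x := mem_fib.1 (by exact_mod_cast hz')
      have h3 := (hΦ y z hy' h1).2
      have h4 := (hΦ y z' hy' h2).2
      have h5 : Φ y z = Φ y z' := heq
      rw [h5] at h3
      have hPz : P z := (hP' z x h1).2 hx
      exact hun z z' hPz (h3.symm.trans h4) (h1.trans h2.symm)
    · intro w hw
      have hw' : κ' w = κ' y := mem_fib.1 (by exact_mod_cast hw)
      have hPy : P y := (hP y x hy').2 hx
      obtain ⟨z, hz1, hz2⟩ := hex y x w hPy hy'.symm hw'
      refine ⟨z, ?_, ?_⟩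
      · exact_mod_cast mem_fib.2 hz1
      · have h1 := hΦ y z hy' hz1
        have hPΦ : P (Φ y z) := (hP' _ _ h1.1).2 hPy
        exact hun _ _ hPΦ (h1.2.trans hz2) (h1.1.trans hw'.symm)
  · intro z hz
    have hz' : κ' z = κ' x := mem_fib.1 hz
    refine ⟨?_, ?_, ?_⟩
    · intro y hy
      have hy' : κ y = κ x := mem_fib.1 (by exact_mod_cast hy)
      have : κ (Φ y z) = κ z := (hΦ y z hy' hz').2
      exact_mod_cast mem_fib.2 this
    · intro y hy y' hy' heq
      have h1 : κ y = κ x := mem_fib.1 (by exact_mod_cast hy)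
      have h2 : κ y' = κ x := mem_fib.1 (by exact_mod_cast hy')
      have h3 := (hΦ y z h1 hz').1
      have h4 := (hΦ y' z h2 hz').1
      have h5 : Φ y z = Φ y' z := heq
      rw [h5] at h3
      have hPy : P y := (hP y x h1).2 hx
      exact hun y y' hPy (h1.trans h2.symm) (h3.symm.trans h4)
    · intro w hw
      have hw' : κ w = κ z := mem_fib.1 (by exact_mod_cast hw)
      have hPz : P z := (hP' z x hz').2 hx
      obtain ⟨y, hy1, hy2⟩ := hex z w x hPz hw' hz'.symm
      refine ⟨y, ?_, ?_⟩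
      · exact_mod_cast mem_fib.2 hy2
      · have h1 := hΦ y z hy2 hz'
        have hPΦ : P (Φ y z) := (hP _ _ h1.2).2 hPz
        exact hun _ _ hPΦ (h1.2.trans hw'.symm) (h1.1.trans hy1)

end AbstractRect

variable {n : ℕ} {d : Fin n → ℕ} {i j k l : Fin n}

/-- The Boolean value of a slot. -/
def bk (E : Gr n) (a b : Fin n) : Bool := decide (s(a, b) ∈ E)

lemma bk_eq_true {E : Gr n} {a b : Fin n} : bk E a b = true ↔ s(a, b) ∈ E := by
  simp [bk]

lemma ite_eq_bk (E : Gr n) (a b : Fin n) : (if s(a, b) ∈ E then 1 else 0) = (bk E a b).toNat := by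
  by_cases h : s(a, b) ∈ E <;> simp [bk, h]

/-- The sum of the block. -/
def blockSum (i j k l : Fin n) (E : Gr n) : ℕ := sumB (bk E i k) (bk E i l) (bk E j k) (bk E j l)

/-- Column sums are preserved by resampling the rows `i`, `j`. -/
lemma col_sums_p (h : D4 i j k l) {G G' : Rz d}
    (hk : offKey (rowSlots i j) G = offKey (rowSlots i j) G') :
    (bk G.1 i k).toNat + (bk G.1 j k).toNat = (bk G'.1 i k).toNat + (bk G'.1 j k).toNat ∧
    (bk G.1 i l).toNat + (bk G.1 j l).toNat = (bk G'.1 i l).toNat + (bk G'.1 j l).toNat := by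
  have h1 := column_sum h.ij h.ik.symm h.jk.symm hk
  have h2 := column_sum h.ij h.il.symm h.jl.symm hk
  simp only [ite_eq_bk] at h1 h2
  exact ⟨h1, h2⟩

lemma bk_swap (E : Gr n) (a b : Fin n) : bk E a b = bk E b a := by
  simp [bk, Sym2.eq_swap (a := a) (b := b)]

/-- Row sums are preserved by resampling the rows `k`, `l`. -/
lemma row_sums_q (h : D4 i j k l) {G G' : Rz d}
    (hk : offKey (rowSlots k l) G = offKey (rowSlots k l) G') :
    (bk G.1 i k).toNat + (bk G.1 i l).toNat = (bk G'.1 i k).toNat + (bk G'.1 i l).toNat ∧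
    (bk G.1 j k).toNat + (bk G.1 j l).toNat = (bk G'.1 j k).toNat + (bk G'.1 j l).toNat := by
  have h1 := column_sum h.kl h.ik h.il hk
  have h2 := column_sum h.kl h.jk h.jl hk
  simp only [ite_eq_bk] at h1 h2
  simp only [bk_swap _ k i, bk_swap _ l i, bk_swap _ k j, bk_swap _ l j] at h1 h2
  exact ⟨h1, h2⟩

lemma blockSum_p (h : D4 i j k l) {G G' : Rz d}
    (hk : offKey (rowSlots i j) G = offKey (rowSlots i j) G') :
    blockSum i j k l G.1 = blockSum i j k l G'.1 := by
  obtain ⟨h1, h2⟩ := col_sums_p h hk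
  simp only [blockSum, sumB]
  omega

lemma blockSum_q (h : D4 i j k l) {G G' : Rz d}
    (hk : offKey (rowSlots k l) G = offKey (rowSlots k l) G') :
    blockSum i j k l G.1 = blockSum i j k l G'.1 := by
  obtain ⟨h1, h2⟩ := row_sums_q h hk
  simp only [blockSum, sumB]
  omega

/-- Two graphs agreeing off both row pairs differ at most on the block. -/
lemma agree_off_block (h : D4 i j k l) {G G' : Rz d}
    (h1 : offKey (rowSlots i j) G = offKey (rowSlots i j) G')
    (h2 : offKey (rowSlots k l) G = offKey (rowSlots k l) G') {e : Sym2 (Fin n)}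
    (he : e ∉ blockSlots i j k l) : e ∈ G.1 ↔ e ∈ G'.1 := by
  by_cases h3 : e ∈ rowSlots i j
  · rcases row_eq_outer_or_block (k := k) (l := l) h3 with h4 | h4
    · exact (offKey_eq_iff.1 h2) e (fun h5 => (Finset.disjoint_left.1 (outer_disjoint_row h)) h4 h5)
    · exact absurd h4 he
  · exact (offKey_eq_iff.1 h1) e h3

lemma graph_ext_of_block (h : D4 i j k l) {G G' : Rz d}
    (h1 : offKey (rowSlots i j) G = offKey (rowSlots i j) G')
    (h2 : offKey (rowSlots k l) G = offKey (rowSlots k l) G')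
    (h3 : bk G.1 i k = bk G'.1 i k) (h4 : bk G.1 i l = bk G'.1 i l)
    (h5 : bk G.1 j k = bk G'.1 j k) (h6 : bk G.1 j l = bk G'.1 j l) : G = G' := by
  apply Subtype.ext
  ext e
  by_cases he : e ∈ blockSlots i j k l
  · rw [mem_blockSlots] at he
    rcases he with rfl | rfl | rfl | rfl
    · simpa [bk] using h3
    · simpa [bk] using h4
    · simpa [bk] using h5
    · simpa [bk] using h6
  · exact agree_off_block h h1 h2 he

/-- The keys of the two row pairs are jointly injective away from block sum two. -/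
lemma rect_unique (h : D4 i j k l) {G G' : Rz d} (ht : blockSum i j k l G.1 ≠ 2)
    (h1 : offKey (rowSlots i j) G = offKey (rowSlots i j) G')
    (h2 : offKey (rowSlots k l) G = offKey (rowSlots k l) G') : G = G' := by
  obtain ⟨c1, c2⟩ := col_sums_p h h1
  obtain ⟨r1, r2⟩ := row_sums_q h h2
  obtain ⟨e1, e2, e3, e4⟩ := block_unique _ _ _ _ _ _ _ _ ht r1 r2 c1 c2
  exact graph_ext_of_block h h1 h2 e1 e2 e3 e4

/-- The cells of the combined block. -/
def rectCells (i j k l : Fin n) (y z : Gr n) : Gr n :=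
  univ.filter fun e =>
    (e = s(i, k) ∧ cellB (decide (blockSum i j k l y ≤ 1)) (bk y i k) (bk y i l) (bk z i k) (bk z j k) = true) ∨
    (e = s(i, l) ∧ cellB (decide (blockSum i j k l y ≤ 1)) (bk y i k) (bk y i l) (bk z i l) (bk z j l) = true) ∨
    (e = s(j, k) ∧ cellB (decide (blockSum i j k l y ≤ 1)) (bk y j k) (bk y j l) (bk z i k) (bk z j k) = true) ∨
    (e = s(j, l) ∧ cellB (decide (blockSum i j k l y ≤ 1)) (bk y j k) (bk y j l) (bk z i l) (bk z j l) = true)

/-- The combined graph: the outer slots of `k`, `l` from `z`, the block from the formula, the rest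
from `y`. -/
def rectG (i j k l : Fin n) (y z : Gr n) : Gr n :=
  graft (blockSlots i j k l) (rectCells i j k l y z) (graft (outerSlots k l i j) z y)

lemma rect_not_block {y z : Gr n} {e : Sym2 (Fin n)} (he : e ∉ blockSlots i j k l) :
    e ∈ rectG i j k l y z ↔ (e ∈ outerSlots k l i j ∧ e ∈ z) ∨ (e ∉ outerSlots k l i j ∧ e ∈ y) := by
  simp only [rectG, mem_graft, he, false_and, false_or, not_false_eq_true, true_and]

lemma slots_ne (h : D4 i j k l) :
    s(i, k) ≠ s(i, l) ∧ s(i, k) ≠ s(j, k) ∧ s(i, k) ≠ s(j, l) ∧ s(i, l) ≠ s(j, k) ∧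
      s(i, l) ≠ s(j, l) ∧ s(j, k) ≠ s(j, l) := by
  obtain ⟨hij, hik, hil, hjk, hjl, hkl⟩ := h
  simp only [ne_eq, Sym2.eq_iff, not_or, not_and]
  refine ⟨⟨?_, ?_⟩, ⟨?_, ?_⟩, ⟨?_, ?_⟩, ⟨?_, ?_⟩, ⟨?_, ?_⟩, ⟨?_, ?_⟩⟩ <;> intro h1 <;> intro h2
  all_goals first
    | exact absurd h1 hij | exact absurd h1 hik | exact absurd h1 hil | exact absurd h1 hjk
    | exact absurd h1 hjl | exact absurd h1 hkl | exact absurd h2 hij | exact absurd h2 hik
    | exact absurd h2 hil | exact absurd h2 hjk | exact absurd h2 hjl | exact absurd h2 hkl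

lemma bk_rect (h : D4 i j k l) (y z : Gr n) :
    bk (rectG i j k l y z) i k =
      cellB (decide (blockSum i j k l y ≤ 1)) (bk y i k) (bk y i l) (bk z i k) (bk z j k) ∧
    bk (rectG i j k l y z) i l =
      cellB (decide (blockSum i j k l y ≤ 1)) (bk y i k) (bk y i l) (bk z i l) (bk z j l) ∧
    bk (rectG i j k l y z) j k =
      cellB (decide (blockSum i j k l y ≤ 1)) (bk y j k) (bk y j l) (bk z i k) (bk z j k) ∧
    bk (rectG i j k l y z) j l =
      cellB (decide (blockSum i j k l y ≤ 1)) (bk y j k) (bk y j l) (bk z i l) (bk z j l) := by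
  obtain ⟨n1, n2, n3, n4, n5, n6⟩ := slots_ne h
  have hb1 : s(i, k) ∈ blockSlots i j k l := by simp [blockSlots]
  have hb2 : s(i, l) ∈ blockSlots i j k l := by simp [blockSlots]
  have hb3 : s(j, k) ∈ blockSlots i j k l := by simp [blockSlots]
  have hb4 : s(j, l) ∈ blockSlots i j k l := by simp [blockSlots]
  refine ⟨?_, ?_, ?_, ?_⟩
  · rw [Bool.eq_iff_iff, bk_eq_true]
    simp [rectG, mem_graft, hb1, rectCells, n1, n2, n3]
  · rw [Bool.eq_iff_iff, bk_eq_true]
    simp [rectG, mem_graft, hb2, rectCells, n1.symm, n4, n5]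
  · rw [Bool.eq_iff_iff, bk_eq_true]
    simp [rectG, mem_graft, hb3, rectCells, n2.symm, n4.symm, n6]
  · rw [Bool.eq_iff_iff, bk_eq_true]
    simp [rectG, mem_graft, hb4, rectCells, n3.symm, n5.symm, n6.symm]

lemma block_sub_row' (h : D4 i j k l) : blockSlots i j k l ⊆ rowSlots k l := by
  rw [← blockSlots_swap]
  exact block_sub_row h.swap

/-- The combined graph is a realization. -/
lemma rect_isRealization (h : D4 i j k l) {b y z : Rz d}
    (hy : offKey (rowSlots i j) y = offKey (rowSlots i j) b)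
    (hz : offKey (rowSlots k l) z = offKey (rowSlots k l) b)
    (ht : blockSum i j k l b.1 ≠ 2) : IsRealization d (rectG i j k l y.1 z.1) := by
  obtain ⟨hij, hik, hil, hjk, hjl, hkl⟩ := id h
  have hsy := blockSum_p h hy
  have hsz := blockSum_q h hz
  have hlog := rect_logic (bk y.1 i k) (bk y.1 i l) (bk y.1 j k) (bk y.1 j l)
    (bk z.1 i k) (bk z.1 i l) (bk z.1 j k) (bk z.1 j l)
    (by
      show blockSum i j k l y.1 = blockSum i j k l z.1
      rw [hsy, hsz])
    (by
      show blockSum i j k l y.1 ≠ 2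
      rw [hsy]; exact ht)
  obtain ⟨c1, c2, c3, c4⟩ := bk_rect h y.1 z.1
  have hsum : sumB (bk y.1 i k) (bk y.1 i l) (bk y.1 j k) (bk y.1 j l) = blockSum i j k l y.1 := rfl
  rw [hsum, ← c1, ← c2, ← c3, ← c4] at hlog
  obtain ⟨l1, l2, l3, l4⟩ := hlog
  -- agreement with `y` and `z`
  have hEy : ∀ e, e ∉ rowSlots k l → (e ∈ rectG i j k l y.1 z.1 ↔ e ∈ y.1) := by
    intro e he
    have h1 : e ∉ blockSlots i j k l := fun h' => he (block_sub_row' h h')
    have h2 : e ∉ outerSlots k l i j := fun h' => he (outer_sub_row h')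
    rw [rect_not_block h1]
    tauto
  have hEz : ∀ e, e ∉ rowSlots i j → (e ∈ rectG i j k l y.1 z.1 ↔ e ∈ z.1) := by
    intro e he
    have h1 : e ∉ blockSlots i j k l := fun h' => he (block_sub_row h h')
    rw [rect_not_block h1]
    by_cases h2 : e ∈ outerSlots k l i j
    · simp [h2]
    · have h3 : e ∉ rowSlots k l := by
        intro h4
        rcases row_eq_outer_or_block (k := i) (l := j) h4 with h5 | h5
        · exact h2 h5
        · rw [blockSlots_swap] at h5
          exact h1 h5
      have h5 := (offKey_eq_iff.1 hy) e he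
      have h6 := (offKey_eq_iff.1 hz) e h3
      simp only [h2, false_and, false_or, not_false_eq_true, true_and]
      rw [h5, h6]
  have hnrow : ∀ {a u : Fin n}, a ≠ k → a ≠ l → u ≠ k → u ≠ l → s(a, u) ∉ rowSlots k l := by
    intro a u h1 h2 h3 h4
    rw [mem_rowSlots]
    rintro ⟨c, _, _, h7 | h7⟩ <;> simp only [Sym2.eq_iff] at h7 <;>
      rcases h7 with ⟨h8, _⟩ | ⟨_, h8⟩ <;> first | exact h1 h8 | exact h2 h8 | exact h3 h8 | exact h4 h8
  have hnrow' : ∀ {a u : Fin n}, a ≠ i → a ≠ j → u ≠ i → u ≠ j → s(a, u) ∉ rowSlots i j := by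
    intro a u h1 h2 h3 h4
    rw [mem_rowSlots]
    rintro ⟨c, _, _, h7 | h7⟩ <;> simp only [Sym2.eq_iff] at h7 <;>
      rcases h7 with ⟨h8, _⟩ | ⟨_, h8⟩ <;> first | exact h1 h8 | exact h2 h8 | exact h3 h8 | exact h4 h8
  constructor
  · intro v hv
    have hnb : s(v, v) ∉ blockSlots i j k l := by
      rw [mem_block_iff]
      rintro (⟨h1 | h1, h2 | h2⟩ | ⟨h1 | h1, h2 | h2⟩) <;> subst h1 <;> subst h2 <;>
        first | exact hik rfl | exact hil rfl | exact hjk rfl | exact hjl rfl
    rw [rect_not_block hnb] at hv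
    rcases hv with ⟨_, h2⟩ | ⟨_, h2⟩
    · exact z.2.1 v h2
    · exact y.2.1 v h2
  · intro v
    by_cases hvi : v = i
    · rw [hvi, ← y.2.2 i]
      refine degreeIn_eq_of_two_slots hkl (fun u hu1 hu2 => hEy _ (hnrow hik hil hu1 hu2)) ?_
      simp only [ite_eq_bk]
      exact l1
    by_cases hvj : v = j
    · rw [hvj, ← y.2.2 j]
      refine degreeIn_eq_of_two_slots hkl (fun u hu1 hu2 => hEy _ (hnrow hjk hjl hu1 hu2)) ?_
      simp only [ite_eq_bk]
      exact l2
    by_cases hvk : v = k
    · rw [hvk, ← z.2.2 k]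
      refine degreeIn_eq_of_two_slots hij (fun u hu1 hu2 => hEz _ (hnrow' hik.symm hjk.symm hu1 hu2)) ?_
      simp only [ite_eq_bk, bk_swap _ k i, bk_swap _ k j]
      exact l3
    by_cases hvl : v = l
    · rw [hvl, ← z.2.2 l]
      refine degreeIn_eq_of_two_slots hij (fun u hu1 hu2 => hEz _ (hnrow' hil.symm hjl.symm hu1 hu2)) ?_
      simp only [ite_eq_bk, bk_swap _ l i, bk_swap _ l j]
      exact l4
    · have key : ∀ u, (if s(v, u) ∈ rectG i j k l y.1 z.1 then 1 else 0) + (if s(v, u) ∈ b.1 then 1 else 0)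
          = (if s(v, u) ∈ y.1 then 1 else 0) + (if s(v, u) ∈ z.1 then (1:ℕ) else 0) := by
        intro u
        have hnb : s(v, u) ∉ blockSlots i j k l := by
          rw [mem_block_iff]; tauto
        by_cases h2 : s(v, u) ∈ outerSlots k l i j
        · have h3 : s(v, u) ∉ rowSlots i j := fun h' =>
            (Finset.disjoint_left.1 (outer_disjoint_row h.swap)) h2 h'
          have e1 := hEz _ h3
          have e2 := (offKey_eq_iff.1 hy) _ h3
          simp only [e1, e2]
          ring
        · have h3 : s(v, u) ∉ rowSlots k l := by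
            intro h4
            rcases row_eq_outer_or_block (k := i) (l := j) h4 with h5 | h5
            · exact h2 h5
            · rw [blockSlots_swap] at h5
              exact hnb h5
          have e1 := hEy _ h3
          have e2 := (offKey_eq_iff.1 hz) _ h3
          simp only [e1, e2]
      have hs := Finset.sum_congr rfl (fun u (_ : u ∈ (univ : Finset (Fin n))) => key u)
      rw [Finset.sum_add_distrib, Finset.sum_add_distrib, ← degreeIn_eq_sum, ← degreeIn_eq_sum,
        ← degreeIn_eq_sum, ← degreeIn_eq_sum, b.2.2 v, y.2.2 v, z.2.2 v] at hs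
      omega

/-- Existence of the rectangle point. -/
lemma rect_exists (h : D4 i j k l) {b y z : Rz d}
    (hy : offKey (rowSlots i j) y = offKey (rowSlots i j) b)
    (hz : offKey (rowSlots k l) z = offKey (rowSlots k l) b)
    (ht : blockSum i j k l b.1 ≠ 2) :
    ∃ w : Rz d, offKey (rowSlots k l) w = offKey (rowSlots k l) y ∧
      offKey (rowSlots i j) w = offKey (rowSlots i j) z := by
  refine ⟨⟨_, rect_isRealization h hy hz ht⟩, ?_, ?_⟩
  · rw [offKey_eq_iff]
    intro e he
    have h1 : e ∉ blockSlots i j k l := fun h' => he (block_sub_row' h h')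
    have h2 : e ∉ outerSlots k l i j := fun h' => he (outer_sub_row h')
    show e ∈ rectG i j k l y.1 z.1 ↔ _
    rw [rect_not_block h1]
    tauto
  · rw [offKey_eq_iff]
    intro e he
    show e ∈ rectG i j k l y.1 z.1 ↔ _
    have h1 : e ∉ blockSlots i j k l := fun h' => he (block_sub_row h h')
    rw [rect_not_block h1]
    by_cases h2 : e ∈ outerSlots k l i j
    · simp [h2]
    · have h3 : e ∉ rowSlots k l := by
        intro h4
        rcases row_eq_outer_or_block (k := i) (l := j) h4 with h5 | h5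
        · exact h2 h5
        · rw [blockSlots_swap] at h5
          exact h1 h5
      have h5 := (offKey_eq_iff.1 hy) e he
      have h6 := (offKey_eq_iff.1 hz) e h3
      simp only [h2, false_and, false_or, not_false_eq_true, true_and]
      rw [h5, h6]

/-- The averages of two disjoint row pairs commute away from block sum two. -/
lemma rowAvg_comm_off (h : D4 i j k l) (f : Rz d → ℝ) {x : Rz d} (hx : blockSum i j k l x.1 ≠ 2) :
    avg (offKey (rowSlots i j)) (avg (offKey (rowSlots k l)) f) x =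
      avg (offKey (rowSlots k l)) (avg (offKey (rowSlots i j)) f) x := by
  refine avg_comm_of_rect (P := fun G : Rz d => blockSum i j k l G.1 ≠ 2) ?_ ?_ ?_ ?_ f hx
  · intro a b hab
    rw [blockSum_p h hab]
  · intro a b hab
    rw [blockSum_q h hab]
  · intro b y z hb hy hz
    exact rect_exists h hy hz hb
  · intro a a' ha h1 h2
    exact rect_unique h ha h1 h2

end Vale.Agent.Lib.P335
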