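import Vale.Agent.Lib.P335.Bipartite

namespace Vale.Agent.Lib.P335

open Finset Equiv

set_option linter.unusedSectionVars false

section Pairs

variable {α : Type*} [Fintype α] [DecidableEq α]

/-- Each two-set arises from two ordered pairs. -/
lemma two_mul_sum_pairs (G : Finset α → ℝ) :
    2 * ∑ e ∈ pairsOf (univ : Finset α), G e
      = ∑ z : α, ∑ z' : α, if z ≠ z' then G {z, z'} else 0 := by
  have h1 : ∑ z : α, ∑ z' : α, (if z ≠ z' then G {z, z'} else 0)
      = ∑ p ∈ (univ : Finset α).offDiag, G {p.1, p.2} := by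
    rw [← Finset.sum_product' (f := fun z z' => if z ≠ z' then G {z, z'} else 0)]
    have hoff : (univ : Finset α).offDiag
        = ((univ : Finset α) ×ˢ (univ : Finset α)).filter (fun p => p.1 ≠ p.2) := by
      ext p
      simp [mem_offDiag]
    rw [hoff, Finset.sum_filter]
  rw [h1]
  have hmaps : ∀ p ∈ (univ : Finset α).offDiag, ({p.1, p.2} : Finset α) ∈ pairsOf (univ : Finset α) := by
    intro p hp
    exact mem_powersetCard.2 ⟨subset_univ _, card_pair (mem_offDiag.1 hp).2.2⟩
  rw [← Finset.sum_fiberwise_of_maps_to hmaps, Finset.mul_sum]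
  apply Finset.sum_congr rfl
  intro e he
  have hG : ∀ p ∈ (univ : Finset α).offDiag.filter (fun p => ({p.1, p.2} : Finset α) = e),
      G {p.1, p.2} = G e := by
    intro p hp
    rw [(mem_filter.1 hp).2]
  rw [Finset.sum_congr rfl hG, Finset.sum_const, nsmul_eq_mul]
  obtain ⟨a, b, hab, rfl⟩ := Finset.card_eq_two.1 (mem_powersetCard.1 he).2
  have hfilter : (univ : Finset α).offDiag.filter (fun p => ({p.1, p.2} : Finset α) = {a, b})
      = {(a, b), (b, a)} := by
    ext ⟨x, y⟩
    simp only [mem_filter, mem_offDiag, mem_univ, true_and, mem_insert, mem_singleton,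
      Prod.mk.injEq]
    constructor
    · rintro ⟨hxy, hset⟩
      have hx : x ∈ ({a, b} : Finset α) := by rw [← hset]; simp
      have hy : y ∈ ({a, b} : Finset α) := by rw [← hset]; simp
      simp only [mem_insert, mem_singleton] at hx hy
      rcases hx with rfl | rfl <;> rcases hy with rfl | rfl
      · exact absurd rfl hxy
      · exact Or.inl ⟨rfl, rfl⟩
      · exact Or.inr ⟨rfl, rfl⟩
      · exact absurd rfl hxy
    · rintro (⟨rfl, rfl⟩ | ⟨rfl, rfl⟩)
      · exact ⟨hab, rfl⟩
      · exact ⟨hab.symm, Finset.pair_comm _ _⟩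
  have hcard : ((univ : Finset α).offDiag.filter
      (fun p => ({p.1, p.2} : Finset α) = {a, b})).card = 2 := by
    rw [hfilter, card_pair]
    simp [hab]
  rw [hcard]
  norm_num

end Pairs

section Glob

variable {T K : Type*} [DecidableEq K]

/-- An inequality on every key class gives the global inequality. -/
lemma sum_le_of_fib_le {S : Finset T} {κ : T → K} {ψ₁ ψ₂ : T → ℝ}
    (h : ∀ x₀ ∈ S, ∑ y ∈ sfib S κ x₀, ψ₁ y ≤ ∑ y ∈ sfib S κ x₀, ψ₂ y) :
    ∑ x ∈ S, ψ₁ x ≤ ∑ x ∈ S, ψ₂ x := by
  rw [← sum_cexp (S := S) (κ := κ) ψ₁, ← sum_cexp (S := S) (κ := κ) ψ₂]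
  apply Finset.sum_le_sum
  intro x₀ hx₀
  have hpos := fib_card_pos (S := S) (κ := κ) hx₀
  unfold cexp
  exact div_le_div_of_nonneg_right (h x₀ hx₀) hpos.le

end Glob

section TwoCols

variable {C : Type*} [Fintype C] [DecidableEq C]

/-- Exchange two rows of a matrix with two columns. -/
def rowsw (z z' : C) (N : C → Bool → Bool) : C → Bool → Bool := fun w => N (swap z z' w)

/-- The rows `z`, `z'` are complementary of weight one. -/
def validN (N : C → Bool → Bool) (z z' : C) : Prop :=
  N z true ≠ N z' true ∧ N z false ≠ N z' false ∧ N z true ≠ N z false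

instance (N : C → Bool → Bool) (z z' : C) : Decidable (validN N z z') := by
  unfold validN; infer_instance

lemma rowsw_rowsw (z z' : C) (N : C → Bool → Bool) : rowsw z z' (rowsw z z' N) = N := by
  funext w b
  simp [rowsw]

variable {r : C → ℕ} {c : Bool → ℕ}

lemma rowsw_mem {N : C → Bool → Bool} (hN : N ∈ Tables r c) {z z' : C} (hv : validN N z z') :
    rowsw z z' N ∈ Tables r c := by
  obtain ⟨h1, h2, h3⟩ := hv
  rw [mem_Tables] at hN ⊢
  have hz : r z = r z' := by
    rw [← hN.1 z, ← hN.1 z']
    unfold rowSum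
    rw [Fintype.sum_bool, Fintype.sum_bool]
    cases h4 : N z true <;> cases h5 : N z false <;> cases h6 : N z' true <;>
      cases h7 : N z' false <;> simp_all
  refine ⟨fun w => ?_, fun b => ?_⟩
  · have : rowSum (rowsw z z' N) w = rowSum N (swap z z' w) := rfl
    rw [this, hN.1]
    by_cases hwz : w = z
    · subst hwz; simp [hz]
    · by_cases hwz' : w = z'
      · subst hwz'; simp [hz]
      · rw [swap_apply_of_ne_of_ne hwz hwz']
  · rw [← hN.2 b]
    exact Equiv.sum_comp (swap z z') (fun w => (N w b).toNat)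

lemma two_col_local : ∀ a b c d a' b' c' d' : Bool,
    a.toNat + c.toNat = a'.toNat + c'.toNat → b.toNat + d.toNat = b'.toNat + d'.toNat →
    a.toNat + b.toNat = a'.toNat + b'.toNat → c.toNat + d.toNat = c'.toNat + d'.toNat →
    (a = a' ∧ b = b' ∧ c = c' ∧ d = d') ∨
      (a' = c ∧ b' = d ∧ c' = a ∧ d' = b ∧ a ≠ c ∧ b ≠ d ∧ a ≠ b) := by
  intro a b c d a' b' c' d'
  cases a <;> cases b <;> cases c <;> cases d <;> cases a' <;> cases b' <;> cases c' <;>
    cases d' <;> decide

/-- The fiber over the other rows has at most two elements. -/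
lemma fib_two {N Nh : C → Bool → Bool} (hN : N ∈ Tables r c) (hNh : Nh ∈ Tables r c) {z z' : C}
    (hzz : z ≠ z') (hk : ∀ w, w ∉ ({z, z'} : Finset C) → Nh w = N w) :
    Nh = N ∨ (Nh = rowsw z z' N ∧ validN N z z') := by
  rw [mem_Tables] at hN hNh
  have hcol : ∀ b, (Nh z b).toNat + (Nh z' b).toNat = (N z b).toNat + (N z' b).toNat := by
    intro b
    have h1 := hN.2 b
    have h2 := hNh.2 b
    unfold colSum at h1 h2
    rw [sum_two_erase hzz] at h1 h2
    have h3 : ∑ w ∈ (univ.erase z).erase z', (Nh w b).toNat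
        = ∑ w ∈ (univ.erase z).erase z', (N w b).toNat := by
      apply Finset.sum_congr rfl
      intro w hw
      have hw1 : w ≠ z' := (mem_erase.1 hw).1
      have hw2 : w ≠ z := (mem_erase.1 (mem_erase.1 hw).2).1
      rw [hk w (by simp [hw1, hw2])]
    omega
  have hrow : ∀ w, (Nh w true).toNat + (Nh w false).toNat
      = (N w true).toNat + (N w false).toNat := by
    intro w
    have h1 := hN.1 w
    have h2 := hNh.1 w
    unfold rowSum at h1 h2
    rw [Fintype.sum_bool] at h1 h2
    omega
  have hloc := two_col_local _ _ _ _ _ _ _ _ (hcol true).symm (hcol false).symm (hrow z).symm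
    (hrow z').symm
  rcases hloc with ⟨h1, h2, h3, h4⟩ | ⟨h1, h2, h3, h4, h5, h6, h7⟩
  · left
    funext w b
    by_cases hwz : w = z
    · subst hwz
      cases b
      · exact h2.symm
      · exact h1.symm
    · by_cases hwz' : w = z'
      · subst hwz'
        cases b
        · exact h4.symm
        · exact h3.symm
      · rw [hk w (by simp [hwz, hwz'])]
  · right
    refine ⟨?_, h5, h6, h7⟩
    funext w b
    by_cases hwz : w = z
    · subst hwz
      simp only [rowsw, swap_apply_left]
      cases b
      · exact h2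
      · exact h1
    · by_cases hwz' : w = z'
      · subst hwz'
        simp only [rowsw, swap_apply_right]
        cases b
        · exact h4
        · exact h3
      · simp only [rowsw, swap_apply_of_ne_of_ne hwz hwz']
        rw [hk w (by simp [hwz, hwz'])]

/-- The defect of conditioning on the rows outside a pair, for two columns. -/
lemma dd_two {z z' : C} (hzz : z ≠ z') (h : (C → Bool → Bool) → ℝ) {N : C → Bool → Bool}
    (hN : N ∈ Tables r c) :
    dd (Tables r c) keyOut ({z, z'} : Finset C) h N
      = if validN N z z' then (h N - h (rowsw z z' N)) / 2 else 0 := by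
  unfold dd cexp
  by_cases hv : validN N z z'
  · rw [if_pos hv]
    have hne : N ≠ rowsw z z' N := by
      intro he
      have := congrFun (congrFun he z) true
      simp only [rowsw, swap_apply_left] at this
      exact hv.1 this
    have hfib : sfib (Tables r c) (keyOut ({z, z'} : Finset C)) N = {N, rowsw z z' N} := by
      ext Nh
      rw [mem_sfib, keyOut_eq, mem_insert, mem_singleton]
      constructor
      · rintro ⟨h1, h2⟩
        rcases fib_two hN h1 hzz h2 with h3 | ⟨h3, _⟩
        · exact Or.inl h3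
        · exact Or.inr h3
      · rintro (rfl | rfl)
        · exact ⟨hN, fun _ _ => rfl⟩
        · refine ⟨rowsw_mem hN hv, fun w hw => ?_⟩
          simp only [mem_insert, mem_singleton, not_or] at hw
          simp only [rowsw, swap_apply_of_ne_of_ne hw.1 hw.2]
    rw [hfib, sum_pair hne, card_pair hne]
    push_cast
    ring
  · rw [if_neg hv]
    have hfib : sfib (Tables r c) (keyOut ({z, z'} : Finset C)) N = {N} := by
      ext Nh
      rw [mem_sfib, keyOut_eq, mem_singleton]
      constructor
      · rintro ⟨h1, h2⟩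
        rcases fib_two hN h1 hzz h2 with h3 | ⟨_, h3⟩
        · exact h3
        · exact absurd h3 hv
      · rintro rfl
        exact ⟨hN, fun _ _ => rfl⟩
    rw [hfib, sum_singleton, card_singleton]
    simp

end TwoCols

section Transpose

variable {R C : Type*} [Fintype R] [DecidableEq R] [Fintype C] [DecidableEq C]

/-- The two rows `i`, `j` as a matrix with rows `C` and two columns. -/
def toPair (i j : R) (M : R → C → Bool) : C → Bool → Bool :=
  fun z b => if b then M i z else M j z

/-- Back from two columns, with the other rows from `M₀`. -/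
def fromPair (i j : R) (M₀ : R → C → Bool) (N : C → Bool → Bool) : R → C → Bool :=
  fun l z => if l = i then N z true else if l = j then N z false else M₀ l z

/-- The two rows in question are complementary on the pair of columns. -/
def validM (M : R → C → Bool) (i j : R) (z z' : C) : Prop :=
  M i z ≠ M i z' ∧ M j z ≠ M j z' ∧ M i z ≠ M j z

instance (M : R → C → Bool) (i j : R) (z z' : C) : Decidable (validM M i j z z') := by
  unfold validM; infer_instance

lemma toPair_rowSum (i j : R) (M : R → C → Bool) (z : C) :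
    rowSum (toPair i j M) z = (M i z).toNat + (M j z).toNat := by
  unfold rowSum toPair
  rw [Fintype.sum_bool]
  simp

lemma toPair_colSum_true (i j : R) (M : R → C → Bool) :
    colSum (toPair i j M) true = rowSum M i := by
  unfold colSum toPair rowSum
  simp

lemma toPair_colSum_false (i j : R) (M : R → C → Bool) :
    colSum (toPair i j M) false = rowSum M j := by
  unfold colSum toPair rowSum
  simp

variable {r : R → ℕ} {c : C → ℕ} {i j : R}

lemma colSum_split (hij : i ≠ j) (M : R → C → Bool) (z : C) :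
    colSum M z = (M i z).toNat + (M j z).toNat
      + ∑ l ∈ (univ.erase i).erase j, (M l z).toNat := by
  unfold colSum
  exact sum_two_erase hij _

lemma toPair_mem (hij : i ≠ j) {M₀ M : R → C → Bool} (hM₀ : M₀ ∈ Tables r c) (hM : M ∈ Tables r c)
    (hk : ∀ l, l ∉ ({i, j} : Finset R) → M l = M₀ l) :
    toPair i j M ∈ Tables (rowSum (toPair i j M₀)) (colSum (toPair i j M₀)) := by
  rw [mem_Tables]
  rw [mem_Tables] at hM hM₀
  refine ⟨fun z => ?_, fun b => ?_⟩
  · rw [toPair_rowSum, toPair_rowSum]
    have h1 := colSum_split hij M z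
    have h2 := colSum_split hij M₀ z
    have h3 : ∑ l ∈ (univ.erase i).erase j, (M l z).toNat
        = ∑ l ∈ (univ.erase i).erase j, (M₀ l z).toNat := by
      apply Finset.sum_congr rfl
      intro l hl
      have hl1 : l ≠ j := (mem_erase.1 hl).1
      have hl2 : l ≠ i := (mem_erase.1 (mem_erase.1 hl).2).1
      rw [hk l (by simp [hl1, hl2])]
    rw [hM.2 z] at h1
    rw [hM₀.2 z] at h2
    omega
  · cases b
    · rw [toPair_colSum_false, toPair_colSum_false, hM.1, hM₀.1]
    · rw [toPair_colSum_true, toPair_colSum_true, hM.1, hM₀.1]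

lemma fromPair_mem (hij : i ≠ j) {M₀ : R → C → Bool} (hM₀ : M₀ ∈ Tables r c) {N : C → Bool → Bool}
    (hN : N ∈ Tables (rowSum (toPair i j M₀)) (colSum (toPair i j M₀))) :
    fromPair i j M₀ N ∈ Tables r c := by
  rw [mem_Tables] at hN hM₀ ⊢
  refine ⟨fun l => ?_, fun z => ?_⟩
  · by_cases hli : l = i
    · subst hli
      have h1 := hN.2 true
      rw [toPair_colSum_true, hM₀.1] at h1
      rw [← h1]
      unfold rowSum colSum fromPair
      simp
    · by_cases hlj : l = j
      · subst hlj
        have h1 := hN.2 false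
        rw [toPair_colSum_false, hM₀.1] at h1
        rw [← h1]
        unfold rowSum colSum fromPair
        simp [hli]
      · rw [← hM₀.1 l]
        unfold rowSum fromPair
        simp [hli, hlj]
  · have h1 := colSum_split hij (fromPair i j M₀ N) z
    have h2 := colSum_split hij M₀ z
    have h3 : ∑ l ∈ (univ.erase i).erase j, (fromPair i j M₀ N l z).toNat
        = ∑ l ∈ (univ.erase i).erase j, (M₀ l z).toNat := by
      apply Finset.sum_congr rfl
      intro l hl
      have hl1 : l ≠ j := (mem_erase.1 hl).1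
      have hl2 : l ≠ i := (mem_erase.1 (mem_erase.1 hl).2).1
      simp [fromPair, hl1, hl2]
    have h4 := hN.1 z
    rw [toPair_rowSum] at h4
    unfold rowSum at h4
    rw [Fintype.sum_bool] at h4
    have h5 : fromPair i j M₀ N i z = N z true := by simp [fromPair]
    have h6 : fromPair i j M₀ N j z = N z false := by simp [fromPair, hij.symm]
    rw [h5, h6] at h1
    rw [hM₀.2 z] at h2
    omega

lemma toPair_fromPair (hij : i ≠ j) (M₀ : R → C → Bool) (N : C → Bool → Bool) :
    toPair i j (fromPair i j M₀ N) = N := by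
  funext z b
  cases b <;> simp [toPair, fromPair, hij.symm]

lemma fromPair_toPair {M₀ M : R → C → Bool} (hk : ∀ l, l ∉ ({i, j} : Finset R) → M l = M₀ l) :
    fromPair i j M₀ (toPair i j M) = M := by
  funext l z
  by_cases hli : l = i
  · subst hli
    simp [fromPair, toPair]
  · by_cases hlj : l = j
    · subst hlj
      simp [fromPair, toPair, hli]
    · have := hk l (by simp [hli, hlj])
      simp [fromPair, hli, hlj, this]

lemma fromPair_rowsw {M₀ M : R → C → Bool} (hk : ∀ l, l ∉ ({i, j} : Finset R) → M l = M₀ l)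
    (z z' : C) :
    fromPair i j M₀ (rowsw z z' (toPair i j M)) = sw i j z z' M := by
  funext l w
  by_cases hli : l = i
  · subst hli
    simp [fromPair, toPair, rowsw, sw]
  · by_cases hlj : l = j
    · subst hlj
      simp [fromPair, toPair, rowsw, sw, hli]
    · have := hk l (by simp [hli, hlj])
      simp [fromPair, sw, hli, hlj, this]

lemma validN_toPair (M : R → C → Bool) (z z' : C) :
    validN (toPair i j M) z z' ↔ validM M i j z z' := by
  simp [validN, validM, toPair]

/-- Poincare inequality on the fiber of a pair of rows. -/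
theorem fiber_poincare (hij : i ≠ j) {M₀ : R → C → Bool} (hM₀ : M₀ ∈ Tables r c)
    (f : (R → C → Bool) → ℝ) :
    ∑ M ∈ sfib (Tables r c) (keyOut ({i, j} : Finset R)) M₀,
        (dd (Tables r c) keyOut ({i, j} : Finset R) f M) ^ 2
      ≤ (1 / 8) * ∑ M ∈ sfib (Tables r c) (keyOut ({i, j} : Finset R)) M₀,
          ∑ z, ∑ z', (if z ≠ z' ∧ validM M i j z z' then (f M - f (sw i j z z' M)) ^ 2 else 0) := by
  set S := Tables r c with hS
  set V := sfib S (keyOut ({i, j} : Finset R)) M₀ with hV
  set S' := Tables (rowSum (toPair i j M₀)) (colSum (toPair i j M₀)) with hS'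
  have hVmem : ∀ y, y ∈ V ↔ y ∈ S ∧ ∀ l, l ∉ ({i, j} : Finset R) → y l = M₀ l := by
    intro y
    rw [hV, mem_sfib, keyOut_eq]
  have hsumV : ∀ F : (C → Bool → Bool) → ℝ, ∑ N ∈ S', F N = ∑ M ∈ V, F (toPair i j M) := by
    intro F
    symm
    apply Finset.sum_nbij' (toPair i j) (fromPair i j M₀)
    · intro y hy
      obtain ⟨h1, h2⟩ := (hVmem y).1 hy
      exact toPair_mem hij hM₀ h1 h2
    · intro N hN
      refine (hVmem _).2 ⟨fromPair_mem hij hM₀ hN, fun l hl => ?_⟩
      simp only [mem_insert, mem_singleton, not_or] at hl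
      funext z
      simp [fromPair, hl.1, hl.2]
    · intro y hy
      exact fromPair_toPair ((hVmem y).1 hy).2
    · intro N _
      exact toPair_fromPair hij M₀ N
    · intro y _
      rfl
  set m : ℝ := cexp S (keyOut ({i, j} : Finset R)) f M₀ with hm
  have hddV : ∀ M ∈ V, dd S keyOut ({i, j} : Finset R) f M = f M - m := by
    intro M hM
    unfold dd
    rw [hm, cexp_congr f (mem_sfib.1 hM).2]
  -- the function on two columns
  set h : (C → Bool → Bool) → ℝ := fun N => f (fromPair i j M₀ N) - m with hh
  have hhV : ∀ M ∈ V, h (toPair i j M) = f M - m := by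
    intro M hM
    simp only [hh]
    rw [fromPair_toPair ((hVmem M).1 hM).2]
  have hmean : ∑ N ∈ S', h N = 0 := by
    rw [hsumV, Finset.sum_congr rfl hhV, Finset.sum_sub_distrib, Finset.sum_const, nsmul_eq_mul]
    have hpos := fib_card_pos (S := S) (κ := keyOut ({i, j} : Finset R)) hM₀
    rw [hm]
    unfold cexp
    rw [← hV] at hpos ⊢
    field_simp
    ring
  have hgap := bipartite_gap (rowSum (toPair i j M₀)) (colSum (toPair i j M₀)) h hmean
  rw [← hS'] at hgap
  have hLHS : ∑ M ∈ V, (dd S keyOut ({i, j} : Finset R) f M) ^ 2 = ∑ N ∈ S', (h N) ^ 2 := by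
    rw [hsumV]
    apply Finset.sum_congr rfl
    intro M hM
    rw [hddV M hM, hhV M hM]
  rw [hLHS]
  have htwo := two_mul_sum_pairs (fun e => ∑ x ∈ S', (dd S' keyOut e h x) ^ 2)
  have hterm : ∀ z z', z ≠ z' → ∑ x ∈ S', (dd S' keyOut ({z, z'} : Finset C) h x) ^ 2
      = (1 / 4) * ∑ M ∈ V, (if validM M i j z z' then (f M - f (sw i j z z' M)) ^ 2 else 0) := by
    intro z z' hzz
    rw [hsumV, Finset.mul_sum]
    apply Finset.sum_congr rfl
    intro M hM
    have hMt := toPair_mem hij hM₀ ((hVmem M).1 hM).1 ((hVmem M).1 hM).2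
    rw [dd_two hzz h hMt]
    by_cases hv : validM M i j z z'
    · rw [if_pos ((validN_toPair M z z').2 hv), if_pos hv]
      simp only [hh]
      rw [fromPair_toPair ((hVmem M).1 hM).2, fromPair_rowsw ((hVmem M).1 hM).2]
      ring
    · rw [if_neg (fun h => hv ((validN_toPair M z z').1 h)), if_neg hv]
      ring
  have hRHS : ∑ z, ∑ z', (if z ≠ z' then ∑ x ∈ S', (dd S' keyOut ({z, z'} : Finset C) h x) ^ 2
        else 0)
      = (1 / 4) * ∑ M ∈ V, ∑ z, ∑ z',
          (if z ≠ z' ∧ validM M i j z z' then (f M - f (sw i j z z' M)) ^ 2 else 0) := by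
    rw [Finset.sum_comm (s := V), Finset.mul_sum]
    apply Finset.sum_congr rfl
    intro z _
    rw [Finset.sum_comm (s := V), Finset.mul_sum]
    apply Finset.sum_congr rfl
    intro z' _
    by_cases hzz : z = z'
    · simp [hzz]
    · rw [if_pos hzz, hterm z z' hzz]
      simp [hzz]
  rw [hRHS] at htwo
  linarith

/-- **Poincare inequality** for all margins: variance is controlled by the switches. -/
theorem poincare_valid (r : R → ℕ) (c : C → ℕ) (f : (R → C → Bool) → ℝ)
    (hf : ∑ x ∈ Tables r c, f x = 0) :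
    ∑ x ∈ Tables r c, (f x) ^ 2
      ≤ (1 / 16) * ∑ i, ∑ j, ∑ z, ∑ z', ∑ M ∈ Tables r c,
          (if i ≠ j ∧ z ≠ z' ∧ validM M i j z z' then (f M - f (sw i j z z' M)) ^ 2 else 0) := by
  have h1 := bipartite_gap r c f hf
  have htwo := two_mul_sum_pairs
    (fun e => ∑ x ∈ Tables r c, (dd (Tables r c) keyOut e f x) ^ 2)
  have hbound : ∀ i j, i ≠ j → ∑ x ∈ Tables r c, (dd (Tables r c) keyOut ({i, j} : Finset R) f x) ^ 2
      ≤ (1 / 8) * ∑ z, ∑ z', ∑ M ∈ Tables r c,
          (if i ≠ j ∧ z ≠ z' ∧ validM M i j z z' then (f M - f (sw i j z z' M)) ^ 2 else 0) := by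
    intro i j hij
    have hglob := sum_le_of_fib_le (S := Tables r c) (κ := keyOut ({i, j} : Finset R))
      (ψ₁ := fun x => (dd (Tables r c) keyOut ({i, j} : Finset R) f x) ^ 2)
      (ψ₂ := fun M => (1 / 8) * ∑ z, ∑ z',
          (if z ≠ z' ∧ validM M i j z z' then (f M - f (sw i j z z' M)) ^ 2 else 0))
      (by
        intro x₀ hx₀
        rw [← Finset.mul_sum]
        exact fiber_poincare hij hx₀ f)
    refine hglob.trans (le_of_eq ?_)
    rw [← Finset.mul_sum]
    congr 1
    rw [Finset.sum_comm]
    apply Finset.sum_congr rfl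
    intro z _
    rw [Finset.sum_comm]
    apply Finset.sum_congr rfl
    intro z' _
    apply Finset.sum_congr rfl
    intro M _
    simp [hij]
  have h2 : ∑ i, ∑ j, (if i ≠ j then
        ∑ x ∈ Tables r c, (dd (Tables r c) keyOut ({i, j} : Finset R) f x) ^ 2 else 0)
      ≤ ∑ i, ∑ j, (1 / 8) * ∑ z, ∑ z', ∑ M ∈ Tables r c,
          (if i ≠ j ∧ z ≠ z' ∧ validM M i j z z' then (f M - f (sw i j z z' M)) ^ 2 else 0) := by
    apply Finset.sum_le_sum
    intro i _
    apply Finset.sum_le_sum
    intro j _
    by_cases hij : i = j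
    · subst hij
      simp
    · rw [if_pos hij]
      exact hbound i j hij
  rw [← htwo] at h2
  simp only [← Finset.mul_sum] at h2
  linarith

end Transpose

end Vale.Agent.Lib.P335
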