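import Vale.Agent.Lib.P335.Slots

/-!
Definitions for the disjoint-pair analysis on `Rz d`: the four slots between two disjoint vertex
pairs, the switch on them, the switch energy and the cross term.
-/

namespace Vale.Agent.Lib.P335

open Finset

variable {n : ℕ} {d : Fin n → ℕ}

/-- The four slots between the pairs `{i,j}` and `{k,l}`. -/
def blockSlots (i j k l : Fin n) : Gr n := {s(i, k), s(i, l), s(j, k), s(j, l)}

/-- The block of `G` between `{i,j}` and `{k,l}` is one of the two perfect matchings
`{ik, jl}` or `{il, jk}`: exactly the switch with diagonals `{i,j}`, `{k,l}` applies to `G`. -/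
def IsCenter (i j k l : Fin n) (G : Gr n) : Prop :=
  ((s(i, k) ∈ G ↔ s(j, l) ∈ G) ∧ (s(i, l) ∈ G ↔ s(j, k) ∈ G)) ∧ (s(i, k) ∈ G ↔ s(i, l) ∉ G)

instance (i j k l : Fin n) : DecidablePred (IsCenter i j k l) := fun G => by
  unfold IsCenter; infer_instance

/-- Toggle the four block slots. -/
def toggleBlock (i j k l : Fin n) (G : Gr n) : Gr n := symmDiff G (blockSlots i j k l)

end Vale.Agent.Lib.P335
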