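import Vale.Agent.Lib.P335.Avg

/-!
Internal model of `Ω_d`: a labelled simple graph on `Fin n` is its edge finset (`Rz d`).
Resampling operators: for a set `W` of slots (unordered pairs), `resample W f` averages
`f` over all graphs in `Rz d` agreeing with the given one off `W`.
-/

namespace Vale.Agent.Lib.P335

open Finset

/-- Edge sets of (possibly looped) graphs on `Fin n`. -/
abbrev Gr (n : ℕ) := Finset (Sym2 (Fin n))

/-- Degree of `v` in the edge set `E`: the number of `u` with `{v,u}` in `E`. -/
def degreeIn {n : ℕ} (E : Gr n) (v : Fin n) : ℕ :=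
  (univ.filter fun u => s(v, u) ∈ E).card

/-- `E` is a simple graph on `Fin n` with degree `d v` at every vertex `v`. -/
def IsRealization {n : ℕ} (d : Fin n → ℕ) (E : Gr n) : Prop :=
  (∀ v, s(v, v) ∉ E) ∧ ∀ v, degreeIn E v = d v

instance {n : ℕ} (d : Fin n → ℕ) : DecidablePred (IsRealization d) := fun E => by
  unfold IsRealization; infer_instance

/-- The labelled simple graphs with degree vector `d`, as edge finsets. -/
abbrev Rz {n : ℕ} (d : Fin n → ℕ) := {E : Gr n // IsRealization d E}

variable {n : ℕ} {d : Fin n → ℕ}

/-- The part of the graph off the slot set `W`. -/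
def offKey (W : Gr n) (G : Rz d) : Gr n := G.1 \ W

lemma offKey_eq_iff {W : Gr n} {G G' : Rz d} :
    offKey W G = offKey W G' ↔ ∀ e, e ∉ W → (e ∈ G.1 ↔ e ∈ G'.1) := by
  unfold offKey
  constructor
  · intro h e he
    have := Finset.ext_iff.1 h e
    simpa [he] using this
  · intro h
    ext e
    by_cases he : e ∈ W
    · simp [he]
    · simpa [he] using h e he

lemma offKey_mono {W W' : Gr n} (h : W ⊆ W') {G G' : Rz d}
    (hk : offKey W G = offKey W G') : offKey W' G = offKey W' G' := by
  rw [offKey_eq_iff] at hk ⊢
  exact fun e he => hk e (fun h' => he (h h'))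

/-- Averaging over all graphs agreeing off `W`. -/
noncomputable def resample (W : Gr n) (f : Rz d → ℝ) : Rz d → ℝ := avg (offKey W) f

lemma resample_tower {W W' : Gr n} (h : W ⊆ W') (f : Rz d → ℝ) :
    resample W' (resample W f) = resample W' f :=
  avg_avg_of_refines (fun _ _ hk => offKey_mono h hk) f

lemma resample_tower' {W W' : Gr n} (h : W ⊆ W') (f : Rz d → ℝ) :
    resample W (resample W' f) = resample W' f :=
  avg_avg_of_refines' (fun _ _ hk => offKey_mono h hk) f

/-- The degree of `v`, as a sum of indicators. -/
lemma degreeIn_eq_sum (E : Gr n) (v : Fin n) :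
    degreeIn E v = ∑ u, if s(v, u) ∈ E then 1 else 0 := by
  unfold degreeIn
  rw [Finset.card_filter]

/-- Replace by `y` on `W` and by `z` off `W`. -/
def graft (W y z : Gr n) : Gr n := (y ∩ W) ∪ (z \ W)

lemma mem_graft {W y z : Gr n} {e : Sym2 (Fin n)} :
    e ∈ graft W y z ↔ (e ∈ W ∧ e ∈ y) ∨ (e ∉ W ∧ e ∈ z) := by
  simp only [graft, mem_union, mem_inter, mem_sdiff]
  tauto

/-- Grafting two modifications of `b` supported on disjoint slot sets gives a valid graph. -/
lemma graft_isRealization {W W' : Gr n} (hd : Disjoint W W') {b y z : Rz d}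
    (hy : offKey W y = offKey W b) (hz : offKey W' z = offKey W' b) :
    IsRealization d (graft W y.1 z.1) := by
  rw [offKey_eq_iff] at hy hz
  have hWW' : ∀ e, e ∈ W → e ∉ W' := fun e he he' => (Finset.disjoint_left.1 hd) he he'
  constructor
  · intro v hv
    rcases mem_graft.1 hv with ⟨_, h⟩ | ⟨_, h⟩
    · exact y.2.1 v h
    · exact z.2.1 v h
  · intro v
    have key : ∀ u, (if s(v, u) ∈ graft W y.1 z.1 then 1 else 0) + (if s(v, u) ∈ b.1 then 1 else 0)
        = (if s(v, u) ∈ y.1 then 1 else 0) + (if s(v, u) ∈ z.1 then (1:ℕ) else 0) := by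
      intro u
      by_cases he : s(v, u) ∈ W
      · have h2 := hz _ (hWW' _ he)
        simp only [mem_graft, he, true_and, not_true_eq_false, false_and, or_false]
        by_cases h3 : s(v, u) ∈ z.1
        · have h4 := h2.1 h3
          simp [h3, h4]
        · have h4 : s(v, u) ∉ b.1 := fun h => h3 (h2.2 h)
          simp [h3, h4]
      · have h2 := hy _ he
        simp only [mem_graft, he, false_and, false_or, not_false_eq_true, true_and]
        by_cases h3 : s(v, u) ∈ y.1
        · have h4 := h2.1 h3
          simp [h3, h4, add_comm]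
        · have h4 : s(v, u) ∉ b.1 := fun h => h3 (h2.2 h)
          simp [h3, h4]
    have hs := Finset.sum_congr rfl (fun u (_ : u ∈ (univ : Finset (Fin n))) => key u)
    rw [Finset.sum_add_distrib, Finset.sum_add_distrib, ← degreeIn_eq_sum, ← degreeIn_eq_sum,
      ← degreeIn_eq_sum, ← degreeIn_eq_sum, b.2.2 v, y.2.2 v, z.2.2 v] at hs
    omega

/-- Resampling on disjoint slot sets commutes. -/
lemma resample_comm {W W' : Gr n} (hd : Disjoint W W') (f : Rz d → ℝ) :
    resample W (resample W' f) = resample W' (resample W f) := by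
  classical
  funext x
  have hWW' : ∀ e, e ∈ W → e ∉ W' := fun e he he' => (Finset.disjoint_left.1 hd) he he'
  let Φ : Rz d → Rz d → Rz d := fun y z =>
    if h : IsRealization d (graft W y.1 z.1) then ⟨_, h⟩ else x
  have hΦ : ∀ y z, offKey W y = offKey W x → offKey W' z = offKey W' x →
      (Φ y z).1 = graft W y.1 z.1 := by
    intro y z hy hz
    have := graft_isRealization hd hy hz
    simp [Φ, this]
  refine avg_comm_at f x Φ ?_ ?_
  · intro y hy
    have hy' : offKey W y = offKey W x := mem_fib.1 hy
    refine ⟨?_, ?_, ?_⟩
    · intro z hz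
      have hz' : offKey W' z = offKey W' x := mem_fib.1 (by exact_mod_cast hz)
      show (Φ y z) ∈ (fib (offKey W') y : Set (Rz d))
      have : offKey W' (Φ y z) = offKey W' y := by
        rw [offKey_eq_iff]
        intro e he
        rw [hΦ y z hy' hz', mem_graft]
        have h1 := (offKey_eq_iff.1 hz') e he
        by_cases h : e ∈ W
        · simp [h]
        · have h2 := (offKey_eq_iff.1 hy') e h
          simp only [h, false_and, false_or, not_false_eq_true, true_and]
          rw [h1, h2]
      exact_mod_cast mem_fib.2 this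
    · intro z hz z' hz' heq
      have hz1 : offKey W' z = offKey W' x := mem_fib.1 (by exact_mod_cast hz)
      have hz2 : offKey W' z' = offKey W' x := mem_fib.1 (by exact_mod_cast hz')
      have heq' := congrArg Subtype.val heq
      simp only [hΦ y z hy' hz1, hΦ y z' hy' hz2] at heq'
      apply Subtype.ext
      ext e
      by_cases h : e ∈ W
      · have h1 := (offKey_eq_iff.1 hz1) e (hWW' e h)
        have h2 := (offKey_eq_iff.1 hz2) e (hWW' e h)
        rw [h1, h2]
      · have := Finset.ext_iff.1 heq' e
        simpa [mem_graft, h] using this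
    · intro w hw
      have hw' : offKey W' w = offKey W' y := mem_fib.1 (by exact_mod_cast hw)
      have hz0 : IsRealization d (graft W x.1 w.1) :=
        graft_isRealization hd (b := y) hy'.symm hw'
      refine ⟨⟨_, hz0⟩, ?_, ?_⟩
      · have : offKey W' (⟨_, hz0⟩ : Rz d) = offKey W' x := by
          rw [offKey_eq_iff]
          intro e he
          show e ∈ graft W x.1 w.1 ↔ _
          rw [mem_graft]
          by_cases h : e ∈ W
          · simp [h]
          · simp only [h, false_and, false_or, not_false_eq_true, true_and]
            rw [(offKey_eq_iff.1 hw') e he, (offKey_eq_iff.1 hy') e h]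
        exact_mod_cast mem_fib.2 this
      · have hz1 : offKey W' (⟨_, hz0⟩ : Rz d) = offKey W' x := by
          rw [offKey_eq_iff]
          intro e he
          show e ∈ graft W x.1 w.1 ↔ _
          rw [mem_graft]
          by_cases h : e ∈ W
          · simp [h]
          · simp only [h, false_and, false_or, not_false_eq_true, true_and]
            rw [(offKey_eq_iff.1 hw') e he, (offKey_eq_iff.1 hy') e h]
        apply Subtype.ext
        show (Φ y ⟨_, hz0⟩).1 = w.1
        rw [hΦ y _ hy' hz1]
        ext e
        show e ∈ graft W y.1 (graft W x.1 w.1) ↔ _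
        simp only [mem_graft]
        by_cases h : e ∈ W
        · have h1 := (offKey_eq_iff.1 hw') e (hWW' e h)
          simp [h, h1]
        · simp [h]
  · intro z hz
    have hz' : offKey W' z = offKey W' x := mem_fib.1 hz
    refine ⟨?_, ?_, ?_⟩
    · intro y hy
      have hy' : offKey W y = offKey W x := mem_fib.1 (by exact_mod_cast hy)
      show (Φ y z) ∈ (fib (offKey W) z : Set (Rz d))
      have : offKey W (Φ y z) = offKey W z := by
        rw [offKey_eq_iff]
        intro e he
        rw [hΦ y z hy' hz', mem_graft]
        simp [he]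
      exact_mod_cast mem_fib.2 this
    · intro y hy y' hy' heq
      have hy1 : offKey W y = offKey W x := mem_fib.1 (by exact_mod_cast hy)
      have hy2 : offKey W y' = offKey W x := mem_fib.1 (by exact_mod_cast hy')
      have heq' := congrArg Subtype.val heq
      simp only [hΦ y z hy1 hz', hΦ y' z hy2 hz'] at heq'
      apply Subtype.ext
      ext e
      by_cases h : e ∈ W
      · have := Finset.ext_iff.1 heq' e
        simpa [mem_graft, h] using this
      · rw [(offKey_eq_iff.1 hy1) e h, (offKey_eq_iff.1 hy2) e h]
    · intro w hw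
      have hw' : offKey W w = offKey W z := mem_fib.1 (by exact_mod_cast hw)
      have hz0 : IsRealization d (graft W w.1 x.1) :=
        graft_isRealization hd (b := z) hw' hz'.symm
      refine ⟨⟨_, hz0⟩, ?_, ?_⟩
      · have : offKey W (⟨_, hz0⟩ : Rz d) = offKey W x := by
          rw [offKey_eq_iff]
          intro e he
          show e ∈ graft W w.1 x.1 ↔ _
          rw [mem_graft]
          simp [he]
        exact_mod_cast mem_fib.2 this
      · have hy1 : offKey W (⟨_, hz0⟩ : Rz d) = offKey W x := by
          rw [offKey_eq_iff]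
          intro e he
          show e ∈ graft W w.1 x.1 ↔ _
          rw [mem_graft]
          simp [he]
        apply Subtype.ext
        show (Φ ⟨_, hz0⟩ z).1 = w.1
        rw [hΦ _ z hy1 hz']
        ext e
        show e ∈ graft W (graft W w.1 x.1) z.1 ↔ _
        simp only [mem_graft]
        by_cases h : e ∈ W
        · simp [h]
        · have h1 := (offKey_eq_iff.1 hw') e h
          simp [h, h1]

/-- The slots of the rows `i`, `j`, except the slot `{i,j}` itself. -/
def rowSlots (i j : Fin n) : Gr n :=
  univ.filter fun e => ∃ c, c ≠ i ∧ c ≠ j ∧ (e = s(i, c) ∨ e = s(j, c))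

lemma mem_rowSlots {i j : Fin n} {e : Sym2 (Fin n)} :
    e ∈ rowSlots i j ↔ ∃ c, c ≠ i ∧ c ≠ j ∧ (e = s(i, c) ∨ e = s(j, c)) := by
  simp [rowSlots]

/-- Row-pair resampling: average over all graphs agreeing off the rows `i`, `j`,
with the same value at the slot `{i,j}`. -/
noncomputable def rowAvg (i j : Fin n) (f : Rz d → ℝ) : Rz d → ℝ :=
  resample (rowSlots i j) f

/-- The complementary projection `P_ij = I - R_ij`. -/
noncomputable def rowProj (i j : Fin n) (f : Rz d → ℝ) : Rz d → ℝ :=
  f - rowAvg i j f

end Vale.Agent.Lib.P335
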