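import Mathlib

namespace Vale.Agent.Lib.P335

open Finset

section Chain

variable {X T : Type*} [Fintype X] [DecidableEq X] [DecidableEq T]

/-- The lazy kernel: with probability one half stay, otherwise apply a uniformly chosen move from
the finite set `τ`; the move `t` sends `x` to `step x t`. -/
noncomputable def lazyKernel (τ : Finset T) (step : X → T → X) (x y : X) : ℝ :=
  (1 / 2) * (if x = y then 1 else 0)
    + (1 / 2) * (((τ.filter (fun t => step x t = y)).card : ℝ) / (τ.card : ℝ))

/-- The `k`-step transition probabilities of the lazy kernel. -/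
noncomputable def kernelPow (τ : Finset T) (step : X → T → X) : ℕ → X → X → ℝ
  | 0, x, y => if x = y then 1 else 0
  | k + 1, x, y => ∑ z, kernelPow τ step k x z * lazyKernel τ step z y

/-- Total variation distance from the uniform distribution on `Ω` of the `k`-step law from `x`,
as one half of the sum over `Ω` of the absolute differences. -/
noncomputable def tvUnif (τ : Finset T) (step : X → T → X) (Ω : Finset X) (k : ℕ) (x : X) : ℝ :=
  (1 / 2) * ∑ y ∈ Ω, |kernelPow τ step k x y - 1 / (Ω.card : ℝ)|

end Chain

section Graph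

variable {n : ℕ}

open Classical in
/-- The degree of `v` in the simple graph `G` on `Fin n`. -/
noncomputable def gdeg (G : SimpleGraph (Fin n)) (v : Fin n) : ℕ :=
  (univ.filter (fun w => G.Adj v w)).card

open Classical in
/-- All simple graphs on `Fin n` with degree sequence `d`. -/
noncomputable def realizations (d : Fin n → ℕ) : Finset (SimpleGraph (Fin n)) :=
  univ.filter (fun G => ∀ v, gdeg G v = d v)

/-- Ordered quadruples of distinct vertices `(a, b, c, e)`. A uniform such quadruple gives a uniform
four-set `{a, b, c, e}` and a uniform ordered pair of distinct perfect matchings of it, namely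
`F = {ab, ce}` and `F' = {ac, be}`; each choice of set and ordered pair arises from exactly four
quadruples. -/
def fourTuples (n : ℕ) : Finset (Fin n × Fin n × Fin n × Fin n) :=
  univ.filter (fun t => t.1 ≠ t.2.1 ∧ t.1 ≠ t.2.2.1 ∧ t.1 ≠ t.2.2.2 ∧ t.2.1 ≠ t.2.2.1 ∧
    t.2.1 ≠ t.2.2.2 ∧ t.2.2.1 ≠ t.2.2.2)

open Classical in
/-- The move of the switch chain attached to `(a, b, c, e)`: if `ab` and `ce` are edges and `ac`
and `be` are not, replace the first two edges by the second two; otherwise stay. -/
noncomputable def graphStep (G : SimpleGraph (Fin n)) (t : Fin n × Fin n × Fin n × Fin n) :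
    SimpleGraph (Fin n) :=
  if G.Adj t.1 t.2.1 ∧ G.Adj t.2.2.1 t.2.2.2 ∧ ¬ G.Adj t.1 t.2.2.1 ∧ ¬ G.Adj t.2.1 t.2.2.2 then
    SimpleGraph.fromEdgeSet
      ((G.edgeSet \ {s(t.1, t.2.1), s(t.2.2.1, t.2.2.2)}) ∪ {s(t.1, t.2.2.1), s(t.2.1, t.2.2.2)})
  else G

end Graph

end Vale.Agent.Lib.P335
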