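import Vale.Agent.Lib.P335.Slots
import Vale.Agent.Lib.P335.Bipartite

/-!
# P335: the three-row inequality on a triple of vertices of a simple graph

For three distinct vertices `ρ 0, ρ 1, ρ 2` the part of a graph touching them is encoded as a
three-row zero-one table: row `r` holds the neighbours of `ρ r` outside the triple, and one extra
column holds the complement of the slot opposite to `ρ r` in the triangle.
-/

namespace Vale.Agent.Lib.P335.Triple

open Finset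

variable {n : ℕ} {d : Fin n → ℕ}

section Tab

variable (ρ : Fin 3 → Fin n)

/-- `w` is outside the triple. -/
def Out (w : Fin n) : Prop := ∀ r, w ≠ ρ r

instance : DecidablePred (Out ρ) := fun w => by unfold Out; infer_instance

/-- The slots touching the triple (loops excluded). -/
def WT : Gr n := univ.biUnion fun r : Fin 3 => rowSlots (ρ (r + 1)) (ρ (r + 2))

/-- The table of a graph. -/
def tab (G : Gr n) : Fin 3 → Option (Fin n) → Bool := fun r z =>
  match z with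
  | some w => decide (Out ρ w ∧ s(ρ r, w) ∈ G)
  | none => decide (s(ρ (r + 1), ρ (r + 2)) ∉ G)

/-- The graph of a table, equal to `x₀` off the triple. -/
def ofTab (x₀ : Gr n) (N : Fin 3 → Option (Fin n) → Bool) : Gr n :=
  univ.filter fun e => (e ∉ WT ρ ∧ e ∈ x₀) ∨ (∃ r w, Out ρ w ∧ e = s(ρ r, w) ∧ N r (some w) = true)
    ∨ (∃ r, e = s(ρ (r + 1), ρ (r + 2)) ∧ N r none = false)

variable {ρ}

lemma f3_1 : ∀ r : Fin 3, r + 1 ≠ r := by decide
lemma f3_2 : ∀ r : Fin 3, r + 2 ≠ r := by decide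
lemma f3_3 : ∀ r : Fin 3, r + 1 ≠ r + 2 := by decide
lemma f3_4 : ∀ r : Fin 3, r + 2 + 1 = r := by decide
lemma f3_5 : ∀ r : Fin 3, r + 2 + 2 = r + 1 := by decide
lemma f3_6 : ∀ r : Fin 3, r + 1 + 1 = r + 2 := by decide
lemma f3_7 : ∀ r : Fin 3, r + 1 + 2 = r := by decide
lemma f3_8 : ∀ r t : Fin 3, t = r ∨ t = r + 1 ∨ t = r + 2 := by decide
lemma f3_9 : ∀ r t : Fin 3, r + 1 = t + 2 → r + 2 = t + 1 → False := by decide

lemma mem_WT {e : Sym2 (Fin n)} :
    e ∈ WT ρ ↔ ∃ r : Fin 3, e ∈ rowSlots (ρ (r + 1)) (ρ (r + 2)) := by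
  simp [WT]

lemma not_mem_WT_out {w u : Fin n} (hw : Out ρ w) (hu : Out ρ u) : s(w, u) ∉ WT ρ := by
  rw [mem_WT]
  rintro ⟨r, h⟩
  obtain ⟨c, _, _, h | h⟩ := mem_rowSlots.1 h
  · rcases Sym2.eq_iff.1 h with ⟨h1, _⟩ | ⟨_, h1⟩
    · exact hw _ h1
    · exact hu _ h1
  · rcases Sym2.eq_iff.1 h with ⟨h1, _⟩ | ⟨_, h1⟩
    · exact hw _ h1
    · exact hu _ h1

lemma not_mem_WT_loop (r : Fin 3) : s(ρ r, ρ r) ∉ WT ρ := by
  rw [mem_WT]
  rintro ⟨t, h⟩
  obtain ⟨c, h1, h2, h | h⟩ := mem_rowSlots.1 h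
  · rcases Sym2.eq_iff.1 h with ⟨h3, h4⟩ | ⟨h3, h4⟩
    · exact h1 (h4.symm.trans h3)
    · exact h1 (h3.symm.trans h4)
  · rcases Sym2.eq_iff.1 h with ⟨h3, h4⟩ | ⟨h3, h4⟩
    · exact h2 (h4.symm.trans h3)
    · exact h2 (h3.symm.trans h4)

lemma row_mem_slots {r : Fin 3} {w : Fin n} (hw : Out ρ w) :
    s(ρ r, w) ∈ rowSlots (ρ (r + 2 + 1)) (ρ (r + 2 + 2)) := by
  rw [mem_rowSlots]
  refine ⟨w, hw _, hw _, Or.inl ?_⟩
  rw [f3_4]

lemma row_mem_WT {r : Fin 3} {w : Fin n} (hw : Out ρ w) : s(ρ r, w) ∈ WT ρ :=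
  mem_WT.2 ⟨r + 2, row_mem_slots hw⟩

lemma pair_mem_slots (hρ : Function.Injective ρ) (r : Fin 3) :
    s(ρ (r + 1), ρ (r + 2)) ∈ rowSlots (ρ (r + 1 + 1)) (ρ (r + 1 + 2)) := by
  rw [mem_rowSlots]
  refine ⟨ρ (r + 1), ?_, ?_, Or.inl ?_⟩
  · rw [f3_6]
    exact fun h => f3_3 r (hρ h)
  · rw [f3_7]
    exact fun h => f3_1 r (hρ h)
  · rw [f3_6, Sym2.eq_swap]

lemma pair_mem_WT (hρ : Function.Injective ρ) (r : Fin 3) : s(ρ (r + 1), ρ (r + 2)) ∈ WT ρ :=
  mem_WT.2 ⟨r + 1, pair_mem_slots hρ r⟩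

/-- Classification of the slots. -/
lemma edge_cases (hρ : Function.Injective ρ) (e : Sym2 (Fin n)) :
    e ∉ WT ρ ∨ (∃ r w, Out ρ w ∧ e = s(ρ r, w)) ∨ (∃ r, e = s(ρ (r + 1), ρ (r + 2))) := by
  induction e using Sym2.ind with
  | _ a b =>
    by_cases ha : Out ρ a
    · by_cases hb : Out ρ b
      · exact Or.inl (not_mem_WT_out ha hb)
      · unfold Out at hb
        push Not at hb
        obtain ⟨r, rfl⟩ := hb
        exact Or.inr (Or.inl ⟨r, a, ha, Sym2.eq_swap⟩)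
    · unfold Out at ha
      push Not at ha
      obtain ⟨r, rfl⟩ := ha
      by_cases hb : Out ρ b
      · exact Or.inr (Or.inl ⟨r, b, hb, rfl⟩)
      · unfold Out at hb
        push Not at hb
        obtain ⟨t, rfl⟩ := hb
        rcases f3_8 r t with rfl | rfl | rfl
        · exact Or.inl (not_mem_WT_loop _)
        · refine Or.inr (Or.inr ⟨r + 2, ?_⟩)
          rw [f3_4, f3_5]
        · refine Or.inr (Or.inr ⟨r + 1, ?_⟩)
          rw [f3_6, f3_7, Sym2.eq_swap]

lemma ofTab_mem_off {x₀ : Gr n} {N : Fin 3 → Option (Fin n) → Bool} (hρ : Function.Injective ρ)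
    {e : Sym2 (Fin n)} (he : e ∉ WT ρ) : e ∈ ofTab ρ x₀ N ↔ e ∈ x₀ := by
  simp only [ofTab, mem_filter, mem_univ, true_and]
  constructor
  · rintro (⟨_, h⟩ | ⟨r, w, hw, rfl, _⟩ | ⟨r, rfl, _⟩)
    · exact h
    · exact absurd (row_mem_WT hw) he
    · exact absurd (pair_mem_WT hρ r) he
  · exact fun h => Or.inl ⟨he, h⟩

lemma ofTab_mem_row {x₀ : Gr n} {N : Fin 3 → Option (Fin n) → Bool} (hρ : Function.Injective ρ)
    {r : Fin 3} {w : Fin n} (hw : Out ρ w) : s(ρ r, w) ∈ ofTab ρ x₀ N ↔ N r (some w) = true := by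
  simp only [ofTab, mem_filter, mem_univ, true_and]
  constructor
  · rintro (⟨h, _⟩ | ⟨r', w', hw', h, hN⟩ | ⟨t, h, _⟩)
    · exact absurd (row_mem_WT hw) h
    · rcases Sym2.eq_iff.1 h with ⟨h1, h2⟩ | ⟨h1, h2⟩
      · have := hρ h1
        subst this
        subst h2
        exact hN
      · exact absurd h2 (hw _)
    · rcases Sym2.eq_iff.1 h with ⟨_, h2⟩ | ⟨_, h2⟩
      · exact absurd h2 (hw _)
      · exact absurd h2 (hw _)
  · exact fun h => Or.inr (Or.inl ⟨r, w, hw, rfl, h⟩)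

lemma ofTab_mem_pair {x₀ : Gr n} {N : Fin 3 → Option (Fin n) → Bool} (hρ : Function.Injective ρ)
    {r : Fin 3} : s(ρ (r + 1), ρ (r + 2)) ∈ ofTab ρ x₀ N ↔ N r none = false := by
  simp only [ofTab, mem_filter, mem_univ, true_and]
  constructor
  · rintro (⟨h, _⟩ | ⟨r', w', hw', h, _⟩ | ⟨t, h, hN⟩)
    · exact absurd (pair_mem_WT hρ r) h
    · rcases Sym2.eq_iff.1 h with ⟨_, h2⟩ | ⟨h2, _⟩
      · exact absurd h2.symm (hw' _)
      · exact absurd h2.symm (hw' _)
    · rcases Sym2.eq_iff.1 h with ⟨h1, h2⟩ | ⟨h1, h2⟩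
      · have h3 : r = t := by
          have := hρ h1
          have h4 : r + 1 - 1 = t + 1 - 1 := by rw [this]
          simpa using h4
        subst h3
        exact hN
      · exact (f3_9 r t (hρ h1) (hρ h2)).elim
  · exact fun h => Or.inr (Or.inr ⟨r, rfl, h⟩)

/-- The table of the graph of a table. -/
lemma tab_ofTab {x₀ : Gr n} {N : Fin 3 → Option (Fin n) → Bool} (hρ : Function.Injective ρ)
    (hN : ∀ r u, ¬ Out ρ u → N r (some u) = false) : tab ρ (ofTab ρ x₀ N) = N := by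
  funext r z
  cases z with
  | none =>
    simp only [tab, ofTab_mem_pair hρ]
    cases N r none <;> simp
  | some w =>
    simp only [tab]
    by_cases hw : Out ρ w
    · simp only [hw, true_and, ofTab_mem_row hρ hw]
      cases N r (some w) <;> simp
    · simp [hw, hN r w hw]

lemma tab_out (G : Gr n) (r : Fin 3) {u : Fin n} (hu : ¬ Out ρ u) : tab ρ G r (some u) = false := by
  simp [tab, hu]

/-- A graph is determined by its part off the triple and its table. -/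
lemma eq_of_tab_eq (hρ : Function.Injective ρ) {G G' : Gr n} (h1 : ∀ e, e ∉ WT ρ → (e ∈ G ↔ e ∈ G'))
    (h2 : tab ρ G = tab ρ G') : G = G' := by
  ext e
  rcases edge_cases hρ e with he | ⟨r, w, hw, rfl⟩ | ⟨r, rfl⟩
  · exact h1 e he
  · have := congrFun (congrFun h2 r) (some w)
    simpa [tab, hw] using this
  · have := congrFun (congrFun h2 r) none
    simpa [tab] using this

lemma ofTab_tab (hρ : Function.Injective ρ) {x₀ y : Gr n}
    (h1 : ∀ e, e ∉ WT ρ → (e ∈ y ↔ e ∈ x₀)) : ofTab ρ x₀ (tab ρ y) = y := by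
  apply eq_of_tab_eq hρ
  · intro e he
    rw [ofTab_mem_off hρ he, h1 e he]
  · exact tab_ofTab hρ (fun r u hu => tab_out y r hu)

/-- Indicator of a slot. -/
def chi (E : Gr n) (v u : Fin n) : ℕ := if s(v, u) ∈ E then 1 else 0

lemma chi_comm (E : Gr n) (v u : Fin n) : chi E v u = chi E u v := by
  unfold chi; rw [Sym2.eq_swap]

lemma sum_split (hρ : Function.Injective ρ) (φ : Fin n → ℕ) :
    ∑ u, φ u = ∑ u, (if Out ρ u then φ u else 0) + ∑ r, φ (ρ r) := by
  have h1 : ∑ u, φ u = ∑ u, (if Out ρ u then φ u else 0) + ∑ u, (if ¬ Out ρ u then φ u else 0) := by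
    rw [← Finset.sum_add_distrib]
    refine Finset.sum_congr rfl fun u _ => ?_
    by_cases h : Out ρ u <;> simp [h]
  rw [h1]
  congr 1
  rw [← Finset.sum_filter]
  have h2 : (univ.filter fun u => ¬ Out ρ u) = univ.image ρ := by
    ext u
    rw [mem_filter, mem_image]
    constructor
    · rintro ⟨_, h⟩
      unfold Out at h
      push Not at h
      obtain ⟨r, hr⟩ := h
      exact ⟨r, mem_univ r, hr.symm⟩
    · rintro ⟨r, _, rfl⟩
      exact ⟨mem_univ _, fun h => h r rfl⟩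
  rw [h2, Finset.sum_image (fun a _ b _ h => hρ h)]

lemma sum3 (g : Fin 3 → ℕ) (r : Fin 3) : ∑ t, g t = g r + g (r + 1) + g (r + 2) := by
  rw [Fin.sum_univ_three]
  fin_cases r
  · simp
  · simp
    omega
  · simp
    omega

/-- Indicator of the slot opposite to `ρ t`. -/
def eps (ρ : Fin 3 → Fin n) (E : Gr n) (t : Fin 3) : ℕ :=
  if s(ρ (t + 1), ρ (t + 2)) ∈ E then 1 else 0

/-- Indicator of the complement of the slot opposite to `ρ t`. -/
def eta (ρ : Fin 3 → Fin n) (E : Gr n) (t : Fin 3) : ℕ :=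
  if s(ρ (t + 1), ρ (t + 2)) ∉ E then 1 else 0

lemma eps_add_eta (E : Gr n) (t : Fin 3) : eps ρ E t + eta ρ E t = 1 := by
  unfold eps eta
  by_cases h : s(ρ (t + 1), ρ (t + 2)) ∈ E <;> simp [h]

/-- Row sums of the table. -/
lemma rowSum_tab (E : Gr n) (r : Fin 3) :
    rowSum (tab ρ E) r = eta ρ E r + ∑ u, (if Out ρ u then chi E (ρ r) u else 0) := by
  unfold rowSum
  rw [Fintype.sum_option]
  congr 1
  · simp only [tab, eta]
    by_cases h : s(ρ (r + 1), ρ (r + 2)) ∈ E <;> simp [h]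
  · refine Finset.sum_congr rfl fun u _ => ?_
    simp only [tab, chi]
    by_cases h1 : Out ρ u <;> by_cases h2 : s(ρ r, u) ∈ E <;> simp [h1, h2]

lemma colSum_tab_none (E : Gr n) : colSum (tab ρ E) none = ∑ t, eta ρ E t := by
  unfold colSum
  refine Finset.sum_congr rfl fun t _ => ?_
  simp only [tab, eta]
  by_cases h : s(ρ (t + 1), ρ (t + 2)) ∈ E <;> simp [h]

lemma colSum_tab_out (E : Gr n) {v : Fin n} (hv : Out ρ v) :
    colSum (tab ρ E) (some v) = ∑ r, chi E (ρ r) v := by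
  unfold colSum
  refine Finset.sum_congr rfl fun r _ => ?_
  simp only [tab, chi]
  by_cases h2 : s(ρ r, v) ∈ E <;> simp [hv, h2]

lemma colSum_tab_in (E : Gr n) {v : Fin n} (hv : ¬ Out ρ v) :
    colSum (tab ρ E) (some v) = 0 := by
  unfold colSum
  refine Finset.sum_eq_zero fun r _ => ?_
  simp [tab, hv]

/-- The degree at a vertex of the triple. -/
lemma degree_row (hρ : Function.Injective ρ) {E : Gr n} (hE : ∀ v, s(v, v) ∉ E) (r : Fin 3) :
    degreeIn E (ρ r) = ∑ u, (if Out ρ u then chi E (ρ r) u else 0)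
      + eps ρ E (r + 1) + eps ρ E (r + 2) := by
  rw [degreeIn_eq_sum]
  have h := sum_split hρ (fun u => chi E (ρ r) u)
  simp only [chi] at h
  rw [h, sum3 _ r]
  have h1 : (if s(ρ r, ρ r) ∈ E then 1 else 0) = 0 := by simp [hE]
  have h2 : (if s(ρ r, ρ (r + 1)) ∈ E then 1 else 0) = eps ρ E (r + 2) := by
    unfold eps
    rw [f3_4, f3_5]
  have h3 : (if s(ρ r, ρ (r + 2)) ∈ E then 1 else 0) = eps ρ E (r + 1) := by
    unfold eps
    rw [f3_6, f3_7, Sym2.eq_swap]
  simp only [chi]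
  rw [h1, h2, h3]
  ring

/-- First degree relation. -/
lemma deg1 (hρ : Function.Injective ρ) {E : Gr n} (hE : ∀ v, s(v, v) ∉ E) (r : Fin 3) :
    degreeIn E (ρ r) + 1 + colSum (tab ρ E) none = rowSum (tab ρ E) r + 3 := by
  rw [degree_row hρ hE, rowSum_tab, colSum_tab_none, sum3 _ r]
  have h1 := eps_add_eta (ρ := ρ) E (r + 1)
  have h2 := eps_add_eta (ρ := ρ) E (r + 2)
  omega

/-- Second degree relation. -/
lemma deg2 (hρ : Function.Injective ρ) (E : Gr n) {v : Fin n} (hv : Out ρ v) :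
    degreeIn E v = ∑ u, (if Out ρ u then chi E v u else 0) + colSum (tab ρ E) (some v) := by
  rw [degreeIn_eq_sum, colSum_tab_out E hv]
  have h := sum_split hρ (fun u => chi E v u)
  simp only [chi] at h
  rw [h]
  congr 1
  refine Finset.sum_congr rfl fun r _ => ?_
  rw [Sym2.eq_swap]
  rfl

lemma sum_rowSum_tab (E : Gr n) :
    ∑ r, rowSum (tab ρ E) r = colSum (tab ρ E) none + ∑ w, colSum (tab ρ E) (some w) := by
  unfold rowSum colSum
  rw [Finset.sum_comm, Fintype.sum_option]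

/-- Graphs agreeing off the triple: the table margins agree. -/
lemma margins_eq (hρ : Function.Injective ρ) {y x₀ : Gr n} (hy : IsRealization d y)
    (hx : IsRealization d x₀) (h1 : ∀ e, e ∉ WT ρ → (e ∈ y ↔ e ∈ x₀)) :
    (∀ z, colSum (tab ρ y) z = colSum (tab ρ x₀) z) ∧
      ∀ r, rowSum (tab ρ y) r = rowSum (tab ρ x₀) r := by
  have hs : ∀ v, Out ρ v → colSum (tab ρ y) (some v) = colSum (tab ρ x₀) (some v) := by
    intro v hv
    have e1 := deg2 hρ y hv
    have e2 := deg2 hρ x₀ hv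
    rw [hy.2 v] at e1
    rw [hx.2 v] at e2
    have e3 : ∑ u, (if Out ρ u then chi y v u else 0) = ∑ u, (if Out ρ u then chi x₀ v u else 0) := by
      refine Finset.sum_congr rfl fun u _ => ?_
      by_cases hu : Out ρ u
      · simp only [hu, if_true, chi]
        by_cases h : s(v, u) ∈ x₀
        · simp [h, (h1 _ (not_mem_WT_out hv hu)).2 h]
        · have h' : s(v, u) ∉ y := fun h' => h ((h1 _ (not_mem_WT_out hv hu)).1 h')
          simp [h, h']
      · simp [hu]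
    omega
  have hs' : ∀ v, colSum (tab ρ y) (some v) = colSum (tab ρ x₀) (some v) := by
    intro v
    by_cases hv : Out ρ v
    · exact hs v hv
    · rw [colSum_tab_in y hv, colSum_tab_in x₀ hv]
  have hQ : ∑ w, colSum (tab ρ y) (some w) = ∑ w, colSum (tab ρ x₀) (some w) :=
    Finset.sum_congr rfl fun w _ => hs' w
  have hSy := sum_rowSum_tab (ρ := ρ) y
  have hSx := sum_rowSum_tab (ρ := ρ) x₀
  rw [Fin.sum_univ_three] at hSy hSx
  have d0y := deg1 hρ hy.1 0
  have d1y := deg1 hρ hy.1 1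
  have d2y := deg1 hρ hy.1 2
  have d0x := deg1 hρ hx.1 0
  have d1x := deg1 hρ hx.1 1
  have d2x := deg1 hρ hx.1 2
  rw [hy.2] at d0y d1y d2y
  rw [hx.2] at d0x d1x d2x
  have hc : colSum (tab ρ y) none = colSum (tab ρ x₀) none := by omega
  refine ⟨?_, ?_⟩
  · intro z
    cases z with
    | none => exact hc
    | some v => exact hs' v
  · intro r
    have e1 := deg1 hρ hy.1 r
    have e2 := deg1 hρ hx.1 r
    rw [hy.2] at e1
    rw [hx.2] at e2
    omega

/-- The graph of a table with the margins of `x₀` is a realization. -/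
lemma ofTab_isRealization (hρ : Function.Injective ρ) {x₀ : Gr n} (hx : IsRealization d x₀)
    {N : Fin 3 → Option (Fin n) → Bool}
    (hN : N ∈ Tables (rowSum (tab ρ x₀)) (colSum (tab ρ x₀))) :
    IsRealization d (ofTab ρ x₀ N) := by
  obtain ⟨hr, hc⟩ := mem_Tables.1 hN
  have hzero : ∀ r u, ¬ Out ρ u → N r (some u) = false := by
    intro r u hu
    have h1 := hc (some u)
    rw [colSum_tab_in x₀ hu] at h1
    unfold colSum at h1
    have h2 := (Finset.sum_eq_zero_iff.1 h1) r (mem_univ r)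
    cases hb : N r (some u)
    · rfl
    · rw [hb] at h2
      simp at h2
  have htab : tab ρ (ofTab ρ x₀ N) = N := tab_ofTab hρ hzero
  have hloop : ∀ v, s(v, v) ∉ ofTab ρ x₀ N := by
    intro v hv
    by_cases hout : Out ρ v
    · exact hx.1 v ((ofTab_mem_off hρ (not_mem_WT_out hout hout)).1 hv)
    · unfold Out at hout
      push Not at hout
      obtain ⟨r, rfl⟩ := hout
      exact hx.1 _ ((ofTab_mem_off hρ (not_mem_WT_loop r)).1 hv)
  refine ⟨hloop, fun v => ?_⟩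
  by_cases hout : Out ρ v
  · rw [deg2 hρ _ hout, htab, hc (some v)]
    have := deg2 hρ x₀ hout
    rw [hx.2 v] at this
    rw [this]
    congr 1
    refine Finset.sum_congr rfl fun u _ => ?_
    by_cases hu : Out ρ u
    · simp only [hu, if_true, chi]
      by_cases h : s(v, u) ∈ x₀
      · simp [h, (ofTab_mem_off hρ (not_mem_WT_out hout hu)).2 h]
      · have h' : s(v, u) ∉ ofTab ρ x₀ N :=
          fun h' => h ((ofTab_mem_off hρ (not_mem_WT_out hout hu)).1 h')
        simp [h, h']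
    · simp [hu]
  · unfold Out at hout
    push Not at hout
    obtain ⟨r, rfl⟩ := hout
    have e1 := deg1 hρ hloop r
    have e2 := deg1 hρ hx.1 r
    rw [htab, hr r, hc none] at e1
    rw [hx.2] at e2
    omega

lemma row_in_slots (hρ : Function.Injective ρ) {r t : Fin 3} (ht : t ≠ r) {w : Fin n}
    (hw : Out ρ w) : s(ρ t, w) ∈ rowSlots (ρ (r + 1)) (ρ (r + 2)) := by
  rw [mem_rowSlots]
  rcases f3_8 r t with h | h | h
  · exact absurd h ht
  · subst h
    exact ⟨w, hw _, hw _, Or.inl rfl⟩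
  · subst h
    exact ⟨w, hw _, hw _, Or.inr rfl⟩

lemma pair_in_slots (hρ : Function.Injective ρ) {r t : Fin 3} (ht : t ≠ r) :
    s(ρ (t + 1), ρ (t + 2)) ∈ rowSlots (ρ (r + 1)) (ρ (r + 2)) := by
  rw [mem_rowSlots]
  have h1 : ρ r ≠ ρ (r + 1) := fun h => f3_1 r (hρ h).symm
  have h2 : ρ r ≠ ρ (r + 2) := fun h => f3_2 r (hρ h).symm
  rcases f3_8 r t with h | h | h
  · exact absurd h ht
  · subst h
    refine ⟨ρ r, h1, h2, Or.inr ?_⟩
    rw [f3_6, f3_7]
  · subst h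
    refine ⟨ρ r, h1, h2, Or.inl ?_⟩
    rw [f3_4, f3_5, Sym2.eq_swap]

lemma row_not_in_slots (hρ : Function.Injective ρ) {r : Fin 3} {w : Fin n} (hw : Out ρ w) :
    s(ρ r, w) ∉ rowSlots (ρ (r + 1)) (ρ (r + 2)) := by
  rw [mem_rowSlots]
  rintro ⟨c, _, _, h | h⟩
  · rcases Sym2.eq_iff.1 h with ⟨h1, _⟩ | ⟨_, h1⟩
    · exact f3_1 r (hρ h1).symm
    · exact hw _ h1
  · rcases Sym2.eq_iff.1 h with ⟨h1, _⟩ | ⟨_, h1⟩
    · exact f3_2 r (hρ h1).symm
    · exact hw _ h1

lemma pair_not_in_slots (hρ : Function.Injective ρ) {r : Fin 3} :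
    s(ρ (r + 1), ρ (r + 2)) ∉ rowSlots (ρ (r + 1)) (ρ (r + 2)) := by
  rw [mem_rowSlots]
  rintro ⟨c, h1, h2, h | h⟩
  · rcases Sym2.eq_iff.1 h with ⟨_, h3⟩ | ⟨h3, _⟩
    · exact h2 h3.symm
    · exact h1 h3.symm
  · rcases Sym2.eq_iff.1 h with ⟨h3, _⟩ | ⟨h3, _⟩
    · exact f3_3 r (hρ h3)
    · exact h1 h3.symm

lemma slots_subset_WT (r : Fin 3) : rowSlots (ρ (r + 1)) (ρ (r + 2)) ⊆ WT ρ := fun _ he =>
  mem_WT.2 ⟨r, he⟩

/-- Two tables with the same row `r` give graphs with the same key of row `r`. -/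
lemma ofTab_key {x₀ : Gr n} (hρ : Function.Injective ρ) {N N' : Fin 3 → Option (Fin n) → Bool}
    {r : Fin 3} (h : N r = N' r) {e : Sym2 (Fin n)}
    (he : e ∉ rowSlots (ρ (r + 1)) (ρ (r + 2))) : e ∈ ofTab ρ x₀ N ↔ e ∈ ofTab ρ x₀ N' := by
  rcases edge_cases hρ e with h1 | ⟨t, w, hw, rfl⟩ | ⟨t, rfl⟩
  · rw [ofTab_mem_off hρ h1, ofTab_mem_off hρ h1]
  · rw [ofTab_mem_row hρ hw, ofTab_mem_row hρ hw]
    by_cases ht : t = r
    · subst ht
      rw [h]
    · exact absurd (row_in_slots hρ ht hw) he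
  · rw [ofTab_mem_pair hρ, ofTab_mem_pair hρ]
    by_cases ht : t = r
    · subst ht
      rw [h]
    · exact absurd (pair_in_slots hρ ht) he

/-- Two graphs with the same key of row `r` have the same row `r` of the table. -/
lemma tab_key (hρ : Function.Injective ρ) {G G' : Gr n} {r : Fin 3}
    (h : ∀ e, e ∉ rowSlots (ρ (r + 1)) (ρ (r + 2)) → (e ∈ G ↔ e ∈ G')) :
    tab ρ G r = tab ρ G' r := by
  funext z
  cases z with
  | none =>
    simp only [tab, h _ (pair_not_in_slots hρ)]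
  | some w =>
    simp only [tab]
    by_cases hw : Out ρ w
    · simp only [hw, true_and, h _ (row_not_in_slots hρ hw)]
    · simp [hw]

end Tab

section Block

variable {ρ : Fin 3 → Fin n}

/-- The key of the row `r`. -/
abbrev keyR (ρ : Fin 3 → Fin n) (r : Fin 3) : Rz d → Gr n :=
  offKey (rowSlots (ρ (r + 1)) (ρ (r + 2)))

/-- From a table to a graph. -/
noncomputable def toR (ρ : Fin 3 → Fin n) (x₀ : Rz d) (N : Fin 3 → Option (Fin n) → Bool) : Rz d :=
  if h : IsRealization d (ofTab ρ x₀.1 N) then ⟨_, h⟩ else x₀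

/-- The table space around `x₀`. -/
abbrev tS (ρ : Fin 3 → Fin n) (x₀ : Rz d) : Finset (Fin 3 → Option (Fin n) → Bool) :=
  Tables (rowSum (tab ρ x₀.1)) (colSum (tab ρ x₀.1))

lemma toR_val (hρ : Function.Injective ρ) {x₀ : Rz d} {N : Fin 3 → Option (Fin n) → Bool}
    (hN : N ∈ tS ρ x₀) : (toR ρ x₀ N).1 = ofTab ρ x₀.1 N := by
  unfold toR
  rw [dif_pos (ofTab_isRealization hρ x₀.2 hN)]

lemma toR_mem_fib (hρ : Function.Injective ρ) {x₀ : Rz d} {N : Fin 3 → Option (Fin n) → Bool}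
    (hN : N ∈ tS ρ x₀) : offKey (WT ρ) (toR ρ x₀ N) = offKey (WT ρ) x₀ := by
  rw [offKey_eq_iff]
  intro e he
  rw [toR_val hρ hN, ofTab_mem_off hρ he]

lemma tab_mem_tS (hρ : Function.Injective ρ) {x₀ y : Rz d}
    (hy : offKey (WT ρ) y = offKey (WT ρ) x₀) : tab ρ y.1 ∈ tS ρ x₀ := by
  have h1 := offKey_eq_iff.1 hy
  obtain ⟨h2, h3⟩ := margins_eq hρ y.2 x₀.2 h1
  exact mem_Tables.2 ⟨h3, h2⟩

lemma toR_tab (hρ : Function.Injective ρ) {x₀ y : Rz d}
    (hy : offKey (WT ρ) y = offKey (WT ρ) x₀) : toR ρ x₀ (tab ρ y.1) = y := by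
  apply Subtype.ext
  rw [toR_val hρ (tab_mem_tS hρ hy)]
  exact ofTab_tab hρ (offKey_eq_iff.1 hy)

lemma tab_toR (hρ : Function.Injective ρ) {x₀ : Rz d} {N : Fin 3 → Option (Fin n) → Bool}
    (hN : N ∈ tS ρ x₀) : tab ρ (toR ρ x₀ N).1 = N := by
  rw [toR_val hρ hN]
  apply tab_ofTab hρ
  intro r u hu
  obtain ⟨_, hc⟩ := mem_Tables.1 hN
  have h1 := hc (some u)
  rw [colSum_tab_in x₀.1 hu] at h1
  unfold colSum at h1
  have h2 := (Finset.sum_eq_zero_iff.1 h1) r (mem_univ r)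
  cases hb : N r (some u)
  · rfl
  · rw [hb] at h2
    simp at h2

lemma key_mono (r : Fin 3) {y z : Rz d} (h : keyR ρ r y = keyR ρ r z) :
    offKey (WT ρ) y = offKey (WT ρ) z :=
  offKey_mono (slots_subset_WT r) h

/-- Sums over the fibre of the triple key, as sums over tables. -/
lemma sum_fiber (hρ : Function.Injective ρ) (x₀ : Rz d) (F : Rz d → ℝ) :
    ∑ y ∈ sfib univ (offKey (WT ρ)) x₀, F y = ∑ N ∈ tS ρ x₀, F (toR ρ x₀ N) := by
  apply Finset.sum_nbij' (fun y => tab ρ y.1) (toR ρ x₀)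
  · intro y hy
    exact tab_mem_tS hρ (mem_sfib.1 hy).2
  · intro N hN
    exact mem_sfib.2 ⟨mem_univ _, toR_mem_fib hρ hN⟩
  · intro y hy
    exact toR_tab hρ (mem_sfib.1 hy).2
  · intro N hN
    exact tab_toR hρ hN
  · intro y hy
    rw [toR_tab hρ (mem_sfib.1 hy).2]

lemma sum_card_bij {α β : Type*} (A : Finset α) (B : Finset β) (i : α → β) (j : β → α)
    (hi : ∀ a ∈ A, i a ∈ B) (hj : ∀ b ∈ B, j b ∈ A) (hl : ∀ a ∈ A, j (i a) = a)
    (hr : ∀ b ∈ B, i (j b) = b) (g : α → ℝ) :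
    ∑ y ∈ A, g y = ∑ x ∈ B, g (j x) ∧ A.card = B.card := by
  constructor
  · apply Finset.sum_nbij' i j hi hj hl hr
    intro a ha
    rw [hl a ha]
  · exact Finset.card_nbij' i j hi hj hl hr

/-- The row average on the graph side is the row average on the table side. -/
lemma cexp_row (hρ : Function.Injective ρ) (x₀ : Rz d) (g : Rz d → ℝ) (r : Fin 3)
    {N : Fin 3 → Option (Fin n) → Bool} (hN : N ∈ tS ρ x₀) :
    cexp univ (keyR ρ r) g (toR ρ x₀ N)
      = cexp (tS ρ x₀) (fun Nh => Nh r) (fun Nh => g (toR ρ x₀ Nh)) N := by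
  unfold cexp
  have hmaps1 : ∀ z ∈ sfib univ (keyR ρ r) (toR ρ x₀ N),
      tab ρ z.1 ∈ sfib (tS ρ x₀) (fun Nh => Nh r) N := by
    intro z hz
    have h1 : keyR ρ r z = keyR ρ r (toR ρ x₀ N) := (mem_sfib.1 hz).2
    have h2 : offKey (WT ρ) z = offKey (WT ρ) x₀ := (key_mono r h1).trans (toR_mem_fib hρ hN)
    refine mem_sfib.2 ⟨tab_mem_tS hρ h2, ?_⟩
    have h3 := tab_key hρ (G := z.1) (G' := (toR ρ x₀ N).1) (r := r) (offKey_eq_iff.1 h1)
    rw [tab_toR hρ hN] at h3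
    exact h3
  have hmaps2 : ∀ Nh ∈ sfib (tS ρ x₀) (fun Nh => Nh r) N,
      toR ρ x₀ Nh ∈ sfib univ (keyR ρ r) (toR ρ x₀ N) := by
    intro Nh hNh
    obtain ⟨h1, h2⟩ := mem_sfib.1 hNh
    refine mem_sfib.2 ⟨mem_univ _, ?_⟩
    apply offKey_eq_iff.2
    intro e he
    rw [toR_val hρ h1, toR_val hρ hN]
    exact ofTab_key hρ h2 he
  have hl : ∀ z ∈ sfib univ (keyR ρ r) (toR ρ x₀ N), toR ρ x₀ (tab ρ z.1) = z := by
    intro z hz
    have h1 : keyR ρ r z = keyR ρ r (toR ρ x₀ N) := (mem_sfib.1 hz).2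
    exact toR_tab hρ ((key_mono r h1).trans (toR_mem_fib hρ hN))
  have hr : ∀ Nh ∈ sfib (tS ρ x₀) (fun Nh => Nh r) N, tab ρ (toR ρ x₀ Nh).1 = Nh := by
    intro Nh hNh
    exact tab_toR hρ (mem_sfib.1 hNh).1
  obtain ⟨h1, h2⟩ := sum_card_bij _ _ _ _ hmaps1 hmaps2 hl hr g
  rw [h1, h2]

/-- The three-row inequality on a fibre of the triple key. -/
theorem block_ineq (hρ : Function.Injective ρ) (x₀ : Rz d) (g : Rz d → ℝ)
    (hg : ∑ y ∈ sfib univ (offKey (WT ρ)) x₀, g y = 0) :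
    ∑ y ∈ sfib univ (offKey (WT ρ)) x₀, (g y) ^ 2
      ≤ ∑ r : Fin 3, ∑ y ∈ sfib univ (offKey (WT ρ)) x₀,
          (g y - cexp univ (keyR ρ r) g y) ^ 2 := by
  set S' := tS ρ x₀ with hS'
  set g' : (Fin 3 → Option (Fin n) → Bool) → ℝ := fun N => g (toR ρ x₀ N) with hg'
  have hmean : ∑ N ∈ S', g' N = 0 := by
    rw [← hg, sum_fiber hρ]
  have h3 : ∑ a : Fin 3, ∑ M ∈ S', (cexp S' (fun N => N a) g' M) ^ 2 ≤ 2 * ∑ M ∈ S', (g' M) ^ 2 :=
    three_rows_gap (R := Fin 3) (C := Option (Fin n)) (by simp)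
      (rowSum (tab ρ x₀.1)) (colSum (tab ρ x₀.1)) g' hmean
  simp only [sum_fiber hρ x₀]
  have hterm : ∀ r : Fin 3, ∑ N ∈ S', (g (toR ρ x₀ N) - cexp univ (keyR ρ r) g (toR ρ x₀ N)) ^ 2
      = ∑ N ∈ S', (g' N) ^ 2 - ∑ N ∈ S', (cexp S' (fun Nh => Nh r) g' N) ^ 2 := by
    intro r
    have h4 : ∀ N ∈ S', (g (toR ρ x₀ N) - cexp univ (keyR ρ r) g (toR ρ x₀ N)) ^ 2
        = (g' N - cexp S' (fun Nh => Nh r) g' N) ^ 2 := by
      intro N hN
      rw [cexp_row hρ x₀ g r hN]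
    rw [Finset.sum_congr rfl h4]
    have h5 := sum_sub_cexp_mul (S := S') (κ := fun Nh : Fin 3 → Option (Fin n) → Bool => Nh r) g'
    have h6 := sum_mul_cexp_of_measurable (S := S') (κ := fun Nh : Fin 3 → Option (Fin n) → Bool => Nh r)
      (cexp_measurable g') g'
    rw [eq_sub_iff_add_eq, ← h5]
    rw [← Finset.sum_add_distrib]
    have h7 : ∀ N, (g' N - cexp S' (fun Nh => Nh r) g' N) * g' N
        + (cexp S' (fun Nh => Nh r) g' N) ^ 2
        = (g' N) ^ 2 - (cexp S' (fun Nh => Nh r) g' N * g' N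
          - cexp S' (fun Nh => Nh r) g' N * cexp S' (fun Nh => Nh r) g' N) := by
      intro N
      ring
    simp only [h7]
    rw [Finset.sum_sub_distrib, Finset.sum_sub_distrib, h6]
    ring
  rw [Finset.sum_congr rfl (fun r _ => hterm r), Finset.sum_sub_distrib, Finset.sum_const]
  simp only [Finset.card_univ, Fintype.card_fin, nsmul_eq_mul]
  push_cast
  linarith

/-- The key indexed by a set of rows. -/
def kappaT (ρ : Fin 3 → Fin n) (e : Finset (Fin 3)) : Rz d → Gr n :=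
  offKey (e.biUnion fun r => rowSlots (ρ (r + 1)) (ρ (r + 2)))

lemma kappaT_univ : (kappaT ρ univ : Rz d → Gr n) = offKey (WT ρ) := rfl

lemma kappaT_singleton (r : Fin 3) : (kappaT ρ {r} : Rz d → Gr n) = keyR ρ r := by
  unfold kappaT
  rw [Finset.singleton_biUnion]

/-- The square inequality for the three row defects. -/
theorem square_rows (hρ : Function.Injective ρ) (f : Rz d → ℝ) :
    ∑ r : Fin 3, ∑ x : Rz d, (f x - avg (keyR ρ r) f x) ^ 2
      ≤ ∑ x : Rz d, (∑ r : Fin 3, (f x - avg (keyR ρ r) f x)) ^ 2 := by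
  set P : Finset (Finset (Fin 3)) := univ.image (fun r : Fin 3 => ({r} : Finset (Fin 3))) with hP
  have hinj : Set.InjOn (fun r : Fin 3 => ({r} : Finset (Fin 3))) (univ : Finset (Fin 3)) := by
    intro a _ b _ h
    exact Finset.singleton_injective h
  have hsum : ∀ F : Finset (Fin 3) → ℝ, ∑ e ∈ P, F e = ∑ r : Fin 3, F {r} := by
    intro F
    rw [hP, Finset.sum_image hinj]
  have hdd : ∀ (g : Rz d → ℝ) (r : Fin 3) (x : Rz d),
      dd univ (kappaT ρ) {r} g x = g x - cexp univ (keyR ρ r) g x := by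
    intro g r x
    unfold dd
    rw [kappaT_singleton]
  have hmain := square_of_block_gap (univ : Finset (Rz d)) (kappaT ρ) (univ : Finset (Fin 3)) P
    ?_ ?_ f
  · rw [hsum] at hmain
    simp only [hsum, hdd] at hmain
    exact hmain
  · intro e he x y hk
    obtain ⟨r, _, rfl⟩ := Finset.mem_image.1 he
    rw [kappaT_singleton] at hk
    exact key_mono r hk
  · intro x₀ _ g hg
    rw [hsum]
    simp only [hdd]
    exact block_ineq hρ x₀ g hg

lemma rowSlots_comm (i j : Fin n) : rowSlots i j = rowSlots j i := by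
  ext e
  simp only [mem_rowSlots]
  constructor
  · rintro ⟨c, h1, h2, h⟩
    exact ⟨c, h2, h1, h.symm⟩
  · rintro ⟨c, h1, h2, h⟩
    exact ⟨c, h2, h1, h.symm⟩

lemma ip_rowProj (i j : Fin n) (f g : Rz d → ℝ) :
    ip (rowProj i j f) (rowProj i j g) = ip (rowProj i j f) g :=
  ip_coavg_coavg _ f g

/-- **The three-row inequality on a triple of vertices**: for distinct `i, j, k`, the operator
`P_ij + P_ik + P_jk` satisfies `T^2 ≥ T` as a quadratic form. -/
theorem triple_square {i j k : Fin n} (hij : i ≠ j) (hik : i ≠ k) (hjk : j ≠ k) (f : Rz d → ℝ) :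
    ip f (rowProj i j f + rowProj i k f + rowProj j k f)
      ≤ ip (rowProj i j f + rowProj i k f + rowProj j k f)
          (rowProj i j f + rowProj i k f + rowProj j k f) := by
  set ρ : Fin 3 → Fin n := ![i, j, k] with hρdef
  have hρ : Function.Injective ρ := by
    intro a b h
    fin_cases a <;> fin_cases b <;> simp_all [hρdef, Ne.symm hij, Ne.symm hik, Ne.symm hjk]
  have h := square_rows (d := d) hρ f
  rw [Fin.sum_univ_three] at h
  have e0 : (keyR ρ 0 : Rz d → Gr n) = offKey (rowSlots j k) := rfl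
  have e1 : (keyR ρ 1 : Rz d → Gr n) = offKey (rowSlots i k) := by
    show offKey (rowSlots (ρ (1 + 1)) (ρ (1 + 2))) = _
    rw [rowSlots_comm]
    rfl
  have e2 : (keyR ρ 2 : Rz d → Gr n) = offKey (rowSlots i j) := rfl
  simp only [Fin.sum_univ_three, e0, e1, e2] at h
  have hP : ∀ (a b : Fin n) (x : Rz d), f x - avg (offKey (rowSlots a b)) f x = rowProj a b f x :=
    fun a b x => rfl
  simp only [hP] at h
  have hQ : ∀ (a b : Fin n), ∑ x : Rz d, (rowProj a b f x) ^ 2 = ip (rowProj a b f) f := by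
    intro a b
    rw [← ip_rowProj]
    unfold ip
    exact Finset.sum_congr rfl fun x _ => by ring
  rw [hQ, hQ, hQ] at h
  have hL : ip f (rowProj i j f + rowProj i k f + rowProj j k f)
      = ip (rowProj j k f) f + ip (rowProj i k f) f + ip (rowProj i j f) f := by
    rw [ip_add_right, ip_add_right, ip_comm f, ip_comm f, ip_comm f]
    ring
  rw [hL]
  refine le_trans h (le_of_eq ?_)
  unfold ip
  refine Finset.sum_congr rfl fun x _ => ?_
  simp only [Pi.add_apply]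
  ring

end Block

end Vale.Agent.Lib.P335.Triple
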